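import Vale.Agent.P347Q.Model

/-!
P347, all-order scheme: programs with Gaussian inputs (codes) and the judgement `Has`.

* `Pg I`: trees built from variables, linear operations and gradient queries.
* `W1le`: Wasserstein distance, tested on bounded 1-Lipschitz functions.
* `Inp d Θ X P`: hidden space `X` (for every potential `θ : Θ`), with a law `ρ`, the gradient oracle
  `g` and kinds of inputs `P`: an input of kind `p` has law `N(cen p θ x, (sig p)²)` when the hidden
  point is `x`; any number of independent copies of each kind may be used.  Seeds `N(0,1)` are built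
  in (kind `none`).  `sh p` is the weight of the kind `p` in a common shift.
* `Has C q τ ε L a κ S`: some program of size at most `S`, not depending on `θ`, fed with inputs of
  the context `C`, has at the hidden point `x` a law within `err x` of `N(q θ x, τ²)`, with
  `∫ err dρ ≤ ε`; total Lipschitz constant `≤ L p` in the inputs of kind `p`; and the common shift
  by `e` changes the value by `a e` up to `κ |e|`.
-/

open MeasureTheory ProbabilityTheory Function
open scoped ENNReal BigOperators

namespace P347Z

open P347Q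

/-- straight-line programs with variables in `I` -/
inductive Pg (I : Type) : Type
  | var (i : I) : Pg I
  | zero : Pg I
  | add (a b : Pg I) : Pg I
  | smul (c : ℝ) (a : Pg I) : Pg I
  | grad (a : Pg I) : Pg I

namespace Pg

/-- value of a program; `g` is the gradient oracle, `X` the inputs -/
noncomputable def ev {I : Type} {d : ℕ} (g : E d → E d) (X : I → E d) : Pg I → E d
  | var i => X i
  | zero => 0
  | add a b => ev g X a + ev g X b
  | smul c a => c • ev g X a
  | grad a => g (ev g X a)

/-- number of nodes -/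
def size {I : Type} : Pg I → ℕ
  | var _ => 1
  | zero => 1
  | add a b => size a + size b + 1
  | smul _ a => size a + 1
  | grad a => size a + 1

/-- substitution -/
noncomputable def bind {I J : Type} (u : I → Pg J) : Pg I → Pg J
  | var i => u i
  | zero => zero
  | add a b => add (bind u a) (bind u b)
  | smul c a => smul c (bind u a)
  | grad a => grad (bind u a)

end Pg

/-- Wasserstein distance at most `e` (tested on bounded 1-Lipschitz functions) -/
def W1le {d : ℕ} (μ ν : Measure (E d)) (e : ℝ≥0∞) : Prop :=
  ∀ φ : E d → ℝ, LipschitzWith 1 φ → (∃ C : ℝ, ∀ x, |φ x| ≤ C) →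
    ENNReal.ofReal |∫ x, φ x ∂μ - ∫ x, φ x ∂ν| ≤ e

/-- the Gaussian with mean `m` and covariance `τ²` -/
noncomputable def gau {d : ℕ} (m : E d) (τ : ℝ) : Measure (E d) :=
  (stdGaussian (E d)).map (fun z => m + τ • z)

/-- product of standard Gaussians -/
noncomputable def gpi (I : Type) [Fintype I] (d : ℕ) : Measure (I → E d) :=
  Measure.pi (fun _ : I => stdGaussian (E d))

/-- hidden space with kinds of noisy inputs -/
structure Inp (d : ℕ) (Θ X P : Type) [MeasurableSpace X] where
  g : Θ → E d → E d
  ρ : Θ → Measure X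
  cen : P → Θ → X → E d
  sig : P → ℝ
  sh : P → ℝ

namespace Inp

variable {d : ℕ} {Θ X P : Type} [MeasurableSpace X]

/-- centre of an input (`none` is a seed) -/
noncomputable def cn (C : Inp d Θ X P) : Option P → Θ → X → E d
  | none => fun _ _ => 0
  | some p => C.cen p

/-- noise of an input -/
noncomputable def sg (C : Inp d Θ X P) : Option P → ℝ
  | none => 1
  | some p => C.sig p

/-- shift weight of an input -/
noncomputable def so (C : Inp d Θ X P) : Option P → ℝ
  | none => 0
  | some p => C.sh p

/-- the inputs at the hidden point `x` with noises `G` -/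
noncomputable def inp (C : Inp d Θ X P) {I : Type} (kd : I → Option P) (θ : Θ) (x : X)
    (G : I → E d) : I → E d :=
  fun i => C.cn (kd i) θ x + C.sg (kd i) • G i

/-- law of a program at the hidden point `x` -/
noncomputable def law (C : Inp d Θ X P) {I : Type} [Fintype I] (kd : I → Option P) (t : Pg I)
    (θ : Θ) (x : X) : Measure (E d) :=
  (gpi I d).map (fun G => t.ev (C.g θ) (C.inp kd θ x G))

end Inp

/-- the program `t` is a code for `q` with output noise `τ` -/
structure IsCode {d : ℕ} {Θ X P : Type} [MeasurableSpace X] (C : Inp d Θ X P) {I : Type}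
    [Fintype I] (kd : I → Option P) (t : Pg I) (l : I → ℝ) (q : Θ → X → E d) (τ : ℝ)
    (err : Θ → X → ℝ≥0∞) (a κ : ℝ) : Prop where
  l_nonneg : ∀ i, 0 ≤ l i
  lip : ∀ θ (Y Y' : I → E d),
    ‖t.ev (C.g θ) Y - t.ev (C.g θ) Y'‖ ≤ ∑ i, l i * ‖Y i - Y' i‖
  shift : ∀ θ (Y : I → E d) (e : E d),
    ‖t.ev (C.g θ) (fun i => Y i + C.so (kd i) • e) - t.ev (C.g θ) Y - a • e‖ ≤ κ * ‖e‖
  meas : ∀ θ, Measurable (err θ)
  law : ∀ θ x, W1le (C.law kd t θ x) (gau (q θ x) τ) (err θ x)

open Classical in
/-- there is a code for `q` with output noise `τ` and mean error `ε` -/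
def Has {d : ℕ} {Θ X P : Type} [MeasurableSpace X] (C : Inp d Θ X P) (q : Θ → X → E d)
    (τ ε : ℝ) (L : P → ℝ) (a κ : ℝ) (S : ℕ) : Prop :=
  ∃ (I : Type) (_ : Fintype I) (kd : I → Option P) (t : Pg I) (l : I → ℝ)
    (err : Θ → X → ℝ≥0∞),
    IsCode C kd t l q τ err a κ ∧ t.size ≤ S ∧
    (∀ p, ∑ i, (if kd i = some p then l i else 0) ≤ L p) ∧
    ∀ θ, ∫⁻ x, err θ x ∂(C.ρ θ) ≤ ENNReal.ofReal ε

/-- the context extended by kinds `K` of inputs with centres `c`, noises `σ`, shift weights `s` -/
def Inp.ext {d : ℕ} {Θ X P : Type} [MeasurableSpace X] (C : Inp d Θ X P) {K : Type}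
    (c : K → Θ → X → E d) (σ s : K → ℝ) : Inp d Θ X (K ⊕ P) where
  g := C.g
  ρ := C.ρ
  cen := Sum.elim c C.cen
  sig := Sum.elim σ C.sig
  sh := Sum.elim s C.sh

/-- the context over `X × (K → E)`, with standard Gaussian labels `G`, in which the shared inputs
`c k x + σ k G k` are exactly known -/
noncomputable def Inp.lab {d : ℕ} {Θ X P : Type} [MeasurableSpace X] (C : Inp d Θ X P) {K : Type}
    [Fintype K] (c : K → Θ → X → E d) (σ s : K → ℝ) : Inp d Θ (X × (K → E d)) (K ⊕ P) where
  g := C.g
  ρ := fun θ => (C.ρ θ).prod (gpi K d)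
  cen := Sum.elim (fun k θ x => c k θ x.1 + σ k • x.2 k) (fun p θ x => C.cen p θ x.1)
  sig := Sum.elim (fun _ => 0) C.sig
  sh := Sum.elim s C.sh

end P347Z
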