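import Vale.Agent.P347Z.CodeRules

/-!
P347Z: averaging over Gaussian labels (rule `Has.marg`) and the base code (rule `Has.base`).
-/

open MeasureTheory ProbabilityTheory Function
open scoped ENNReal BigOperators

namespace P347Z

open P347Q

variable {d : ℕ} {Θ X P : Type} [MeasurableSpace X]

section marg

variable {K : Type} [Fintype K]

/-- kinds after merging -/
def mkd {I : Type} (kd : I → Option (K ⊕ P)) : K ⊕ I → Option (K ⊕ P)
  | Sum.inl k => some (Sum.inl k)
  | Sum.inr i => match kd i with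
    | some (Sum.inl _) => none
    | some (Sum.inr p) => some (Sum.inr p)
    | none => none

/-- renaming -/
def mrn {I : Type} (kd : I → Option (K ⊕ P)) (i : I) : K ⊕ I :=
  match kd i with
    | some (Sum.inl k) => Sum.inl k
    | some (Sum.inr _) => Sum.inr i
    | none => Sum.inr i

open Classical in
/-- Lipschitz constants after merging -/
noncomputable def mli {I : Type} [Fintype I] (kd : I → Option (K ⊕ P)) (l : I → ℝ) : K ⊕ I → ℝ
  | Sum.inl k => ∑ i, (if kd i = some (Sum.inl k) then l i else 0)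
  | Sum.inr i => match kd i with
    | some (Sum.inl _) => 0
    | some (Sum.inr _) => l i
    | none => l i

theorem mli_sum {I : Type} [Fintype I] (kd : I → Option (K ⊕ P)) (l : I → ℝ) (F : K ⊕ I → ℝ) :
    ∑ i, l i * F (mrn kd i) = ∑ j, mli kd l j * F j := by
  classical
  rw [Fintype.sum_sum_type]
  have h1 : ∀ i, l i * F (mrn kd i) =
      ∑ k, (if kd i = some (Sum.inl k) then l i else 0) * F (Sum.inl k) +
        mli kd l (Sum.inr i) * F (Sum.inr i) := by
    intro i
    simp only [mli, mrn]
    rcases h : kd i with _ | (k | p)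
    · simp
    · simp only [zero_mul, add_zero, Option.some.injEq, Sum.inl.injEq]
      rw [Finset.sum_eq_single k]
      · simp
      · intro k' _ hk'
        rw [if_neg (fun h => hk' h.symm), zero_mul]
      · simp
    · simp
  simp_rw [h1]
  rw [Finset.sum_add_distrib, Finset.sum_comm]
  congr 1
  refine Finset.sum_congr rfl fun k _ => ?_
  rw [← Finset.sum_mul]
  simp only [mli]

theorem mrn_so (C : Inp d Θ X P) {c : K → Θ → X → E d} {σ s : K → ℝ} {I : Type}
    (kd : I → Option (K ⊕ P)) (i : I) :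
    (C.ext c σ s).so (mkd kd (mrn kd i)) = (C.lab c σ s).so (kd i) := by
  rcases h : kd i with _ | (k | p)
  · simp [mrn, mkd, h, Inp.so]
  · simp [mrn, mkd, h, Inp.so, Inp.ext, Inp.lab]
  · simp [mrn, mkd, h, Inp.so, Inp.ext, Inp.lab]

theorem mrn_inp (C : Inp d Θ X P) {c : K → Θ → X → E d} {σ s : K → ℝ} {I : Type}
    (kd : I → Option (K ⊕ P)) (θ : Θ) (x : X) (G : K ⊕ I → E d) (i : I) :
    (C.ext c σ s).inp (mkd kd) θ x G (mrn kd i) =
      (C.lab c σ s).inp kd θ (x, fun k => G (Sum.inl k)) (fun i => G (Sum.inr i)) i := by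
  rcases h : kd i with _ | (k | p)
  · simp [mrn, mkd, h, Inp.inp, Inp.cn, Inp.sg]
  · simp [mrn, mkd, h, Inp.inp, Inp.cn, Inp.sg, Inp.ext, Inp.lab]
  · simp [mrn, mkd, h, Inp.inp, Inp.cn, Inp.sg, Inp.ext, Inp.lab]

/-- averaging over the Gaussian labels of a context: the exactly known shared inputs
`c k x + σ k G k` become noisy inputs -/
theorem Has.marg {C : Inp d Θ X P} {c : K → Θ → X → E d} {σ s : K → ℝ}
    {q : Θ → X × (K → E d) → E d} {q₀ : Θ → X → E d} {τ τ₀ ε a κ : ℝ} {L : K ⊕ P → ℝ} {S : ℕ}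
    (h : Has (C.lab c σ s) q τ ε L a κ S) (hρ : ∀ θ, SFinite (C.ρ θ))
    (hqm : ∀ θ x, Measurable (fun G => q θ (x, G)))
    (hq : ∀ θ x, (gpi K d).map (fun G => q θ (x, G)) = gau (q₀ θ x) τ₀) :
    Has (C.ext c σ s) q₀ √(τ₀ ^ 2 + τ ^ 2) ε L a κ S := by
  classical
  obtain ⟨I, hI, kd, t, l, err, hc, h1, h2, h3⟩ := h
  have hev : ∀ θ (Y : K ⊕ I → E d), (t.bind (fun i => Pg.var (mrn kd i))).ev ((C.ext c σ s).g θ) Y =
      t.ev ((C.lab c σ s).g θ) (fun i => Y (mrn kd i)) := by
    intro θ Y
    rw [Pg.ev_bind]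
    rfl
  refine ⟨K ⊕ I, inferInstance, mkd kd, t.bind (fun i => Pg.var (mrn kd i)), mli kd l,
    fun θ x => ∫⁻ G, err θ (x, G) ∂(gpi K d), ⟨?_, ?_, ?_, ?_, ?_⟩, ?_, ?_, ?_⟩
  · intro j
    rcases j with k | i
    · simp only [mli]
      refine Finset.sum_nonneg fun i _ => ?_
      split_ifs
      · exact hc.l_nonneg i
      · exact le_rfl
    · simp only [mli]
      split
      · exact le_rfl
      · exact hc.l_nonneg i
      · exact hc.l_nonneg i
  · intro θ Y Y'
    rw [hev, hev]
    refine (hc.lip θ _ _).trans (le_of_eq ?_)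
    exact mli_sum kd l (fun j => ‖Y j - Y' j‖)
  · intro θ Y e
    rw [hev, hev]
    simp only [mrn_so]
    exact hc.shift θ (fun i => Y (mrn kd i)) e
  · intro θ
    exact (hc.meas θ).lintegral_prod_right'
  · intro θ x φ hφ hb
    have hφc := hφ.continuous
    have hct : Continuous (fun Y : I → E d => t.ev ((C.lab c σ s).g θ) Y) := hc.cont θ
    -- the law of the merged program
    have mp := measurePreserving_sumPiEquivProdPi (fun _ : K ⊕ I => stdGaussian (E d))
    have hF : Measurable (fun p : (K → E d) × (I → E d) =>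
        t.ev ((C.lab c σ s).g θ) ((C.lab c σ s).inp kd θ (x, p.1) p.2)) := by
      refine hct.measurable.comp ?_
      refine measurable_pi_lambda _ fun i => ?_
      unfold Inp.inp
      rcases hk : kd i with _ | (k | p)
      · simp only [Inp.cn, Inp.sg]; fun_prop
      · simp only [Inp.cn, Inp.sg, Inp.lab, Sum.elim_inl]; fun_prop
      · simp only [Inp.cn, Inp.sg, Inp.lab, Sum.elim_inr]; fun_prop
    have e1 : (C.ext c σ s).law (mkd kd) (t.bind (fun i => Pg.var (mrn kd i))) θ x =
        ((gpi K d).prod (gpi I d)).map (fun p : (K → E d) × (I → E d) =>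
          t.ev ((C.lab c σ s).g θ) ((C.lab c σ s).inp kd θ (x, p.1) p.2)) := by
      have e0 : (gpi K d).prod (gpi I d) = (gpi (K ⊕ I) d).map
          (MeasurableEquiv.sumPiEquivProdPi fun _ => E d) := mp.map_eq.symm
      rw [e0, Measure.map_map hF (MeasurableEquiv.measurable _)]
      unfold Inp.law
      congr 1
      funext G
      rw [hev]
      simp only [mrn_inp]
      rfl
    have I1 : Integrable (fun p : (K → E d) × (I → E d) =>
        φ (t.ev ((C.lab c σ s).g θ) ((C.lab c σ s).inp kd θ (x, p.1) p.2)))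
        ((gpi K d).prod (gpi I d)) := by
      obtain ⟨B, hB⟩ := hb
      exact Integrable.of_bound (hφc.measurable.comp hF).aestronglyMeasurable B
        (Filter.Eventually.of_forall fun p => hB _)
    have i1 : ∫ y, φ y ∂((C.ext c σ s).law (mkd kd) (t.bind (fun i => Pg.var (mrn kd i))) θ x) =
        ∫ G, (∫ G', φ (t.ev ((C.lab c σ s).g θ) ((C.lab c σ s).inp kd θ (x, G) G'))
          ∂(gpi I d)) ∂(gpi K d) := by
      rw [e1, integral_map hF.aemeasurable hφc.aestronglyMeasurable, integral_prod _ I1]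
    have hΨ : Measurable (fun p : (K → E d) × E d => q θ (x, p.1) + τ • p.2) :=
      ((hqm θ x).comp measurable_fst).add (measurable_snd.const_smul τ)
    have I2 : Integrable (fun p : (K → E d) × E d => φ (q θ (x, p.1) + τ • p.2))
        ((gpi K d).prod (stdGaussian (E d))) := by
      obtain ⟨B, hB⟩ := hb
      exact Integrable.of_bound (hφc.measurable.comp hΨ).aestronglyMeasurable B
        (Filter.Eventually.of_forall fun p => hB _)
    have i2 : ∫ y, φ y ∂(gau (q₀ θ x) √(τ₀ ^ 2 + τ ^ 2)) =
        ∫ G, (∫ z, φ (q θ (x, G) + τ • z) ∂(stdGaussian (E d))) ∂(gpi K d) := by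
      have e2 := gau_add (q₀ θ x) 0 τ₀ τ
      rw [add_zero] at e2
      have e3 : gau (0 : E d) τ = (stdGaussian (E d)).map (fun z => τ • z) := by
        unfold gau
        simp
      rw [← e2, ← hq θ x, e3, Measure.map_prod_map _ _ (hqm θ x) (by fun_prop),
        Measure.map_map (by fun_prop) ((hqm θ x).prodMap (by fun_prop)),
        integral_map (by exact hΨ.aemeasurable) hφc.aestronglyMeasurable]
      exact integral_prod _ I2
    rw [i1, i2, ← integral_sub I1.integral_prod_left I2.integral_prod_left]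
    refine le_trans ?_ (lintegral_mono (μ := gpi K d) (f := fun G => ENNReal.ofReal
      |(∫ G', φ (t.ev ((C.lab c σ s).g θ) ((C.lab c σ s).inp kd θ (x, G) G')) ∂(gpi I d)) -
        ∫ z, φ (q θ (x, G) + τ • z) ∂(stdGaussian (E d))|) fun G => ?_)
    · rw [← Real.norm_eq_abs, ofReal_norm]
      refine (enorm_integral_le_lintegral_enorm _).trans (le_of_eq ?_)
      refine lintegral_congr fun G => ?_
      rw [← Real.norm_eq_abs, ofReal_norm]
    · have h4 := hc.law θ (x, G) φ hφ hb
      unfold Inp.law gau at h4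
      have m4 : AEMeasurable (fun G' : I → E d => t.ev ((C.lab c σ s).g θ)
          ((C.lab c σ s).inp kd θ (x, G) G')) (gpi I d) :=
        (hct.comp ((C.lab c σ s).inp_cont kd θ (x, G))).measurable.aemeasurable
      rw [integral_map m4 hφc.aestronglyMeasurable,
        integral_map (by fun_prop) hφc.aestronglyMeasurable] at h4
      exact h4
  · rw [Pg.size_map]
    exact h1
  · intro p
    refine le_trans (le_of_eq ?_) (h2 p)
    rw [Fintype.sum_sum_type]
    rcases p with k | p
    · refine (congrArg₂ (· + ·) ?_ (Finset.sum_eq_zero fun i _ => ?_)).trans (add_zero _)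
      · rw [Finset.sum_eq_single k]
        · simp only [mkd, mli, if_true]
          refine Finset.sum_congr rfl fun i _ => ?_
          split_ifs <;> rfl
        · intro k' _ hk'
          rw [if_neg]
          simp only [mkd, Option.some.injEq, Sum.inl.injEq]
          exact hk'
        · simp
      · rcases hk : kd i with _ | (k' | p') <;> simp [mkd, hk]
    · refine (congrArg₂ (· + ·) (Finset.sum_eq_zero fun k _ => ?_) ?_).trans (zero_add _)
      · simp [mkd]
      · refine Finset.sum_congr rfl fun i _ => ?_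
        rcases hk : kd i with _ | (k' | p') <;> simp [mkd, mli, hk]
  · intro θ
    have := hρ θ
    rw [← lintegral_prod _ (hc.meas θ).aemeasurable]
    exact h3 θ

end marg

/-- the base code: noise plus one gradient query at a noisy input -/
theorem Has.base (C : Inp d Θ X Unit) (τ : ℝ) {q : Θ → X → E d} {err : Θ → X → ℝ≥0∞} {ε : ℝ}
    (hg2 : ∀ θ x y, ‖C.g θ x - C.g θ y‖ ≤ 2 * ‖x - y‖)
    (hgs : ∀ θ x e, ‖C.g θ (x + e) - C.g θ x - (3 / 2 : ℝ) • e‖ ≤ 1 / 2 * ‖e‖)
    (hsh : C.sh () = 1) (hm : ∀ θ, Measurable (err θ))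
    (hε : ∀ θ, ∫⁻ x, err θ x ∂(C.ρ θ) ≤ ENNReal.ofReal ε)
    (h : ∀ θ x, W1le (((stdGaussian (E d)).prod (stdGaussian (E d))).map
      (fun p => τ • p.1 + C.g θ (C.cen () θ x + C.sig () • p.2))) (gau (q θ x) τ) (err θ x)) :
    Has C q τ ε (fun _ => 2) (3 / 2) (1 / 2) 5 := by
  classical
  refine ⟨Fin 2, inferInstance, ![none, some ()], Pg.add (Pg.smul τ (Pg.var 0))
    (Pg.grad (Pg.var 1)), ![|τ|, 2], err, ⟨?_, ?_, ?_, hm, ?_⟩, ?_, ?_, hε⟩
  · intro i
    fin_cases i
    · exact abs_nonneg _
    · norm_num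
  · intro θ Y Y'
    simp only [Pg.ev, Fin.sum_univ_two, Matrix.cons_val_zero, Matrix.cons_val_one]
    rw [add_sub_add_comm, ← smul_sub]
    refine (norm_add_le _ _).trans (add_le_add ?_ (hg2 θ _ _))
    rw [norm_smul, Real.norm_eq_abs]
  · intro θ Y e
    simp only [Pg.ev, Matrix.cons_val_zero, Matrix.cons_val_one, Inp.so, hsh, zero_smul, add_zero,
      one_smul]
    rw [add_sub_add_left_eq_sub]
    exact hgs θ _ _
  · intro θ x
    have h1 := (measurePreserving_finTwoArrow (stdGaussian (E d))).map_eq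
    have hgm : Continuous (C.g θ) := by
      have : LipschitzWith 2 (C.g θ) := LipschitzWith.of_dist_le_mul fun x y => by
        rw [dist_eq_norm, dist_eq_norm]
        exact hg2 θ x y
      exact this.continuous
    have h2 : C.law ![none, some ()] (Pg.add (Pg.smul τ (Pg.var 0)) (Pg.grad (Pg.var 1))) θ x =
        ((stdGaussian (E d)).prod (stdGaussian (E d))).map
      (fun p => τ • p.1 + C.g θ (C.cen () θ x + C.sig () • p.2)) := by
      rw [← h1, Measure.map_map (by fun_prop) (MeasurableEquiv.measurable _)]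
      unfold Inp.law
      congr 1
      funext G
      simp [Pg.ev, Inp.inp, Inp.cn, Inp.sg]
    rw [h2]
    exact h θ x
  · simp [Pg.size]
  · intro p
    simp [Fin.sum_univ_two]

end P347Z
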