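import Vale.Agent.P347Z.CodeW1
import Vale.Agent.P347Q.SmoothReg

/-!
P347Z: rules of the calculus of codes.
-/

open MeasureTheory ProbabilityTheory Function
open scoped ENNReal BigOperators

namespace P347Z

open P347Q

variable {d : ℕ} {Θ X P : Type} [MeasurableSpace X]

theorem IsCode.cont {C : Inp d Θ X P} {I : Type} [Fintype I] {kd : I → Option P} {t : Pg I}
    {l : I → ℝ} {q : Θ → X → E d} {τ : ℝ} {err : Θ → X → ℝ≥0∞} {a κ : ℝ}
    (h : IsCode C kd t l q τ err a κ) (θ : Θ) :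
    Continuous (fun Y : I → E d => t.ev (C.g θ) Y) := by
  rw [continuous_iff_continuousAt]
  intro Y
  have h1 : Filter.Tendsto (fun Y' : I → E d => ∑ i, l i * ‖Y' i - Y i‖) (nhds Y) (nhds 0) := by
    have : Continuous (fun Y' : I → E d => ∑ i, l i * ‖Y' i - Y i‖) := by fun_prop
    have h2 := this.tendsto Y
    simpa using h2
  rw [ContinuousAt, tendsto_iff_norm_sub_tendsto_zero]
  exact squeeze_zero (fun _ => norm_nonneg _) (fun Y' => h.lip θ Y' Y) h1

theorem Inp.inp_cont (C : Inp d Θ X P) {I : Type} (kd : I → Option P) (θ : Θ) (x : X) :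
    Continuous (C.inp kd θ x : (I → E d) → (I → E d)) := by
  unfold Inp.inp
  fun_prop

theorem IsCode.prob {C : Inp d Θ X P} {I : Type} [Fintype I] {kd : I → Option P} {t : Pg I}
    {l : I → ℝ} {q : Θ → X → E d} {τ : ℝ} {err : Θ → X → ℝ≥0∞} {a κ : ℝ}
    (h : IsCode C kd t l q τ err a κ) (θ : Θ) (x : X) :
    IsProbabilityMeasure (C.law kd t θ x) := by
  unfold Inp.law
  exact Measure.isProbabilityMeasure_map
    ((h.cont θ).comp (C.inp_cont kd θ x)).measurable.aemeasurable

/-- weakening -/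
theorem Has.mono {C : Inp d Θ X P} {q : Θ → X → E d} {τ ε ε' a κ κ' : ℝ} {L L' : P → ℝ} {S S' : ℕ}
    (h : Has C q τ ε L a κ S) (hε : ε ≤ ε') (hL : ∀ p, L p ≤ L' p) (hκ : κ ≤ κ') (hS : S ≤ S') :
    Has C q τ ε' L' a κ' S' := by
  obtain ⟨I, hI, kd, t, l, err, hc, h1, h2, h3⟩ := h
  refine ⟨I, hI, kd, t, l, err, ⟨hc.l_nonneg, hc.lip, fun θ Y e => (hc.shift θ Y e).trans ?_,
    hc.meas, hc.law⟩, h1.trans hS, fun p => (h2 p).trans (hL p), fun θ => (h3 θ).trans ?_⟩
  · gcongr
  · exact ENNReal.ofReal_le_ofReal hε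

theorem Has.congr {C : Inp d Θ X P} {q q' : Θ → X → E d} {τ τ' ε a κ : ℝ} {L : P → ℝ} {S : ℕ}
    (h : Has C q τ ε L a κ S) (hq : ∀ θ x, q θ x = q' θ x) (hτ : τ = τ') :
    Has C q' τ' ε L a κ S := by
  have : q = q' := by
    funext θ x
    exact hq θ x
  subst this
  subst hτ
  exact h

/-- an input is a code -/
theorem Has.slot [DecidableEq P] (C : Inp d Θ X P) (p : P) :
    Has C (C.cen p) (C.sig p) 0 (Pi.single p 1) (C.sh p) 0 1 := by
  refine ⟨Unit, inferInstance, fun _ => some p, Pg.var (), fun _ => 1, fun _ _ => 0, ?_, le_rfl,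
    ?_, ?_⟩
  · refine ⟨fun _ => zero_le_one, ?_, ?_, fun _ => measurable_const, ?_⟩
    · intro θ Y Y'
      simp [Pg.ev]
    · intro θ Y e
      simp [Pg.ev, Inp.so]
    · intro θ x
      have : C.law (fun _ : Unit => some p) (Pg.var ()) θ x = gau (C.cen p θ x) (C.sig p) := by
        unfold Inp.law gau gpi
        have h1 : (stdGaussian (E d)) =
            (Measure.pi (fun _ : Unit => stdGaussian (E d))).map (fun G => G ()) := by
          have := (measurePreserving_eval (fun _ : Unit => stdGaussian (E d)) ()).map_eq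
          exact this.symm
        conv_rhs => rw [h1]
        rw [Measure.map_map (by fun_prop) (by fun_prop)]
        rfl
      rw [this]
      exact W1le.refl _
  · intro p'
    by_cases h : p' = p
    · subst h; simp
    · have h' : ¬ (p = p') := fun h2 => h h2.symm
      simp [h, h']
  · intro θ
    simp

/-- a seed is a code -/
theorem Has.seed (C : Inp d Θ X P) :
    Has C (fun _ _ => 0) 1 0 0 0 0 1 := by
  refine ⟨Unit, inferInstance, fun _ => none, Pg.var (), fun _ => 1, fun _ _ => 0, ?_, le_rfl,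
    ?_, ?_⟩
  · refine ⟨fun _ => zero_le_one, ?_, ?_, fun _ => measurable_const, ?_⟩
    · intro θ Y Y'
      simp [Pg.ev]
    · intro θ Y e
      simp [Pg.ev, Inp.so]
    · intro θ x
      have : C.law (fun _ : Unit => none) (Pg.var ()) θ x = gau 0 1 := by
        unfold Inp.law gau gpi
        have h1 : (stdGaussian (E d)) =
            (Measure.pi (fun _ : Unit => stdGaussian (E d))).map (fun G => G ()) := by
          have := (measurePreserving_eval (fun _ : Unit => stdGaussian (E d)) ()).map_eq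
          exact this.symm
        conv_rhs => rw [h1]
        rw [Measure.map_map (by fun_prop) (by fun_prop)]
        rfl
      rw [this]
      exact W1le.refl _
  · intro p'
    simp
  · intro θ
    simp

/-- replacing the target -/
theorem Has.approx {C : Inp d Θ X P} {q q' : Θ → X → E d} {τ ε ε' a κ : ℝ} {L : P → ℝ} {S : ℕ}
    (h : Has C q τ ε L a κ S) (hm : ∀ θ, Measurable (fun x => q θ x - q' θ x)) (hε : 0 ≤ ε)
    (hε' : 0 ≤ ε') (hq : ∀ θ, ∫⁻ x, ‖q θ x - q' θ x‖ₑ ∂(C.ρ θ) ≤ ENNReal.ofReal ε') :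
    Has C q' τ (ε + ε') L a κ S := by
  obtain ⟨I, hI, kd, t, l, err, hc, h1, h2, h3⟩ := h
  refine ⟨I, hI, kd, t, l, fun θ x => err θ x + ‖q θ x - q' θ x‖ₑ, ⟨hc.l_nonneg, hc.lip, hc.shift,
    fun θ => (hc.meas θ).add (hm θ).enorm, fun θ x => (hc.law θ x).trans (W1le.gau _ _ _)⟩, h1, h2,
    fun θ => ?_⟩
  rw [lintegral_add_left (hc.meas θ), ENNReal.ofReal_add hε hε']
  exact add_le_add (h3 θ) (hq θ)

/-- scalar multiples -/
theorem Has.smul {C : Inp d Θ X P} {q : Θ → X → E d} {τ ε a κ : ℝ} {L : P → ℝ} {S : ℕ}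
    (h : Has C q τ ε L a κ S) (c : ℝ) :
    Has C (fun θ x => c • q θ x) (c * τ) (|c| * ε) (fun p => |c| * L p) (c * a) (|c| * κ)
      (S + 1) := by
  classical
  obtain ⟨I, hI, kd, t, l, err, hc, h1, h2, h3⟩ := h
  refine ⟨I, hI, kd, Pg.smul c t, fun i => |c| * l i, fun θ x => ENNReal.ofReal |c| * err θ x,
    ⟨fun i => mul_nonneg (abs_nonneg _) (hc.l_nonneg i), ?_, ?_, ?_, ?_⟩, ?_, ?_, ?_⟩
  · intro θ Y Y'
    simp only [Pg.ev]
    rw [← smul_sub, norm_smul, Real.norm_eq_abs]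
    simp only [mul_assoc, ← Finset.mul_sum]
    exact mul_le_mul_of_nonneg_left (hc.lip θ Y Y') (abs_nonneg _)
  · intro θ Y e
    simp only [Pg.ev]
    rw [← smul_sub, mul_smul, ← smul_sub, norm_smul, Real.norm_eq_abs, mul_assoc]
    exact mul_le_mul_of_nonneg_left (hc.shift θ Y e) (abs_nonneg _)
  · intro θ
    exact (hc.meas θ).const_mul _
  · intro θ x
    have h4 := hc.prob θ x
    intro φ hφ hb
    have hcf : Continuous (fun G : I → E d => t.ev (C.g θ) (C.inp kd θ x G)) :=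
      (hc.cont θ).comp (C.inp_cont kd θ x)
    have h5 : C.law kd (Pg.smul c t) θ x = (C.law kd t θ x).map (fun y => c • y) := by
      unfold Inp.law
      rw [Measure.map_map (by fun_prop) hcf.measurable]
      rfl
    have h6 : gau (c • q θ x) (c * τ) = (gau (q θ x) τ).map (fun y => c • y) := by
      unfold gau
      rw [Measure.map_map (by fun_prop) (by fun_prop)]
      congr 1
      funext z
      simp only [Function.comp, smul_add, mul_smul]
    have hφc := hφ.continuous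
    rw [h5, h6, integral_map (by fun_prop) hφc.aestronglyMeasurable,
      integral_map (by fun_prop) hφc.aestronglyMeasurable]
    refine (hc.law θ x).scale (abs_nonneg c) ?_ (hb.imp fun C hC x => hC _)
    intro y y'
    have := hφ.dist_le_mul (c • y) (c • y')
    rw [NNReal.coe_one, one_mul, Real.dist_eq, dist_eq_norm, ← smul_sub, norm_smul,
      Real.norm_eq_abs] at this
    exact this
  · simp only [Pg.size]; omega
  · intro p
    have h4 : ∑ i, (if kd i = some p then |c| * l i else 0) =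
        |c| * ∑ i, (if kd i = some p then l i else 0) := by
      rw [Finset.mul_sum]
      refine Finset.sum_congr rfl fun i _ => ?_
      split_ifs <;> simp
    rw [h4]
    exact mul_le_mul_of_nonneg_left (h2 p) (abs_nonneg _)
  · intro θ
    rw [lintegral_const_mul _ (hc.meas θ), ENNReal.ofReal_mul (abs_nonneg _)]
    gcongr
    exact h3 θ

/-- composition of codes, slot by slot -/
theorem IsCode.comp {X' P' : Type} [MeasurableSpace X'] {C : Inp d Θ X P} {C' : Inp d Θ X' P'}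
    (hg : ∀ θ, C'.g θ = C.g θ) {φ : Θ → X → X'}
    {I' : Type} [Fintype I'] {kd' : I' → Option P'} {t' : Pg I'} {l' : I' → ℝ}
    {q' : Θ → X' → E d} {τ' : ℝ} {err' : Θ → X' → ℝ≥0∞} {a' κ' : ℝ}
    (h' : IsCode C' kd' t' l' q' τ' err' a' κ')
    (hφ : ∀ θ, Measurable (fun x => err' θ (φ θ x)))
    {J : I' → Type} [∀ i, Fintype (J i)] {kJ : ∀ i, J i → Option P} {tJ : ∀ i, Pg (J i)}
    {lJ : ∀ i, J i → ℝ} {eJ : I' → Θ → X → ℝ≥0∞} {kaJ : I' → ℝ}
    (h : ∀ i, IsCode C (kJ i) (tJ i) (lJ i) (fun θ x => C'.cn (kd' i) θ (φ θ x))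
      (C'.sg (kd' i)) (eJ i) (C'.so (kd' i)) (kaJ i)) :
    IsCode C (fun p : Σ i, J i => kJ p.1 p.2)
      (t'.bind (fun i => (tJ i).bind (fun j => Pg.var (⟨i, j⟩ : Σ i, J i))))
      (fun p : Σ i, J i => l' p.1 * lJ p.1 p.2) (fun θ x => q' θ (φ θ x)) τ'
      (fun θ x => err' θ (φ θ x) + ∑ i, ENNReal.ofReal (l' i) * eJ i θ x) a'
      (κ' + ∑ i, l' i * kaJ i) := by
  have hev : ∀ θ (Y : (Σ i, J i) → E d),
      (t'.bind (fun i => (tJ i).bind (fun j => Pg.var (⟨i, j⟩ : Σ i, J i)))).ev (C.g θ) Y =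
        t'.ev (C'.g θ) (fun i => (tJ i).ev (C.g θ) (fun j => Y ⟨i, j⟩)) := by
    intro θ Y
    rw [Pg.ev_bind, hg]
    congr 1
    funext i
    rw [Pg.ev_bind]
    rfl
  refine ⟨fun p => mul_nonneg (h'.l_nonneg _) ((h p.1).l_nonneg _), ?_, ?_, ?_, ?_⟩
  · intro θ Y Y'
    rw [hev, hev]
    refine (h'.lip θ _ _).trans ?_
    rw [Fintype.sum_sigma]
    refine Finset.sum_le_sum fun i _ => ?_
    simp only [mul_assoc]
    rw [← Finset.mul_sum]
    exact mul_le_mul_of_nonneg_left ((h i).lip θ _ _) (h'.l_nonneg i)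
  · intro θ Y e
    rw [hev, hev]
    set U : I' → E d := fun i => (tJ i).ev (C.g θ) (fun j => Y ⟨i, j⟩) with hU
    set W : I' → E d := fun i => (tJ i).ev (C.g θ)
      (fun j => Y ⟨i, j⟩ + C.so (kJ i j) • e) with hW
    have h1 := h'.shift θ U e
    have h2 := h'.lip θ W (fun i => U i + C'.so (kd' i) • e)
    have h3 : ∀ i, ‖W i - (U i + C'.so (kd' i) • e)‖ ≤ kaJ i * ‖e‖ := by
      intro i
      have := (h i).shift θ (fun j => Y ⟨i, j⟩) e
      rw [← sub_sub]
      exact this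
    have h4 : ∑ i, l' i * ‖W i - (U i + C'.so (kd' i) • e)‖ ≤ (∑ i, l' i * kaJ i) * ‖e‖ := by
      rw [Finset.sum_mul]
      refine Finset.sum_le_sum fun i _ => ?_
      rw [mul_assoc]
      exact mul_le_mul_of_nonneg_left (h3 i) (h'.l_nonneg i)
    have h5 : t'.ev (C'.g θ) W - t'.ev (C'.g θ) U - a' • e =
        (t'.ev (C'.g θ) (fun i => U i + C'.so (kd' i) • e) - t'.ev (C'.g θ) U - a' • e) +
        (t'.ev (C'.g θ) W - t'.ev (C'.g θ) (fun i => U i + C'.so (kd' i) • e)) := by abel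
    rw [h5, add_mul]
    exact (norm_add_le _ _).trans (add_le_add h1 (h2.trans h4))
  · intro θ
    refine (hφ θ).add ?_
    exact Finset.measurable_sum _ fun i _ => ((h i).meas θ).const_mul _
  · intro θ x
    have hp : ∀ i, IsProbabilityMeasure (C.law (kJ i) (tJ i) θ x) := fun i => (h i).prob θ x
    have hcJ : ∀ i, Continuous (fun G : J i → E d => (tJ i).ev (C.g θ) (C.inp (kJ i) θ x G)) :=
      fun i => ((h i).cont θ).comp (C.inp_cont (kJ i) θ x)
    have hct : Continuous (fun U : I' → E d => t'.ev (C'.g θ) U) := h'.cont θ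
    -- law of the composite
    have e1 : C.law (fun p : Σ i, J i => kJ p.1 p.2)
        (t'.bind (fun i => (tJ i).bind (fun j => Pg.var (⟨i, j⟩ : Σ i, J i)))) θ x =
        (Measure.pi (fun i => C.law (kJ i) (tJ i) θ x)).map (fun U => t'.ev (C'.g θ) U) := by
      have h6 := gpi_sigma (I := I') (d := d) (J := J)
        (fun i G => (tJ i).ev (C.g θ) (C.inp (kJ i) θ x G)) (fun i => (hcJ i).measurable)
      have h7 : (fun i => (gpi (J i) d).map
          (fun G => (tJ i).ev (C.g θ) (C.inp (kJ i) θ x G))) =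
          fun i => C.law (kJ i) (tJ i) θ x := rfl
      rw [h7] at h6
      rw [← h6, Measure.map_map hct.measurable]
      · unfold Inp.law
        congr 1
        funext G
        rw [hev]
        rfl
      · exact measurable_pi_lambda _ fun i => (hcJ i).measurable.comp
          (measurable_pi_lambda _ fun j => measurable_pi_apply _)
    have e2 : C'.law kd' t' θ (φ θ x) = (Measure.pi (fun i =>
        gau (C'.cn (kd' i) θ (φ θ x)) (C'.sg (kd' i)))).map (fun U => t'.ev (C'.g θ) U) := by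
      have h8 : Measure.pi (fun i => gau (C'.cn (kd' i) θ (φ θ x)) (C'.sg (kd' i))) =
          (gpi I' d).map (C'.inp kd' θ (φ θ x)) := by
        have hs : ∀ i, SigmaFinite ((stdGaussian (E d)).map
            (fun z => C'.cn (kd' i) θ (φ θ x) + C'.sg (kd' i) • z)) := fun i => by
          have := gau_prob (C'.cn (kd' i) θ (φ θ x)) (C'.sg (kd' i))
          unfold gau at this
          infer_instance
        exact (Measure.pi_map_pi (μ := fun _ : I' => stdGaussian (E d))
          (f := fun i z => C'.cn (kd' i) θ (φ θ x) + C'.sg (kd' i) • z)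
          (fun i => (meas_gau _ _).aemeasurable)).symm
      rw [h8, Measure.map_map hct.measurable (C'.inp_cont kd' θ (φ θ x)).measurable]
      rfl
    have h9 : W1le (C.law (fun p : Σ i, J i => kJ p.1 p.2)
        (t'.bind (fun i => (tJ i).bind (fun j => Pg.var (⟨i, j⟩ : Σ i, J i)))) θ x)
        (C'.law kd' t' θ (φ θ x)) (∑ i, ENNReal.ofReal (l' i) * eJ i θ x) := by
      intro ψ hψ hb
      have hψc := hψ.continuous
      rw [e1, e2, integral_map hct.measurable.aemeasurable hψc.aestronglyMeasurable,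
        integral_map hct.measurable.aemeasurable hψc.aestronglyMeasurable]
      refine W1_pi _ _ (fun i => eJ i θ x) (fun i => (h i).law θ x) l' h'.l_nonneg
        (fun U => ψ (t'.ev (C'.g θ) U)) (hψc.comp hct) ?_ (hb.imp fun C hC x => hC _)
      intro U U'
      have := hψ.dist_le_mul (t'.ev (C'.g θ) U) (t'.ev (C'.g θ) U')
      rw [NNReal.coe_one, one_mul, Real.dist_eq, dist_eq_norm] at this
      exact this.trans (h'.lip θ U U')
    have := h9.trans (h'.law θ (φ θ x))
    refine this.mono (le_of_eq ?_)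
    rw [add_comm]

theorem IsCode.ofSeed (C : Inp d Θ X P) :
    IsCode C (fun _ : Unit => none) (Pg.var ()) (fun _ => 1) (fun _ _ => 0) 1 (fun _ _ => 0) 0
      0 := by
  refine ⟨fun _ => zero_le_one, ?_, ?_, fun _ => measurable_const, ?_⟩
  · intro θ Y Y'
    simp [Pg.ev]
  · intro θ Y e
    simp [Pg.ev, Inp.so]
  · intro θ x
    have : C.law (fun _ : Unit => none) (Pg.var ()) θ x = gau 0 1 := by
      unfold Inp.law gau gpi
      have h1 : (stdGaussian (E d)) =
          (Measure.pi (fun _ : Unit => stdGaussian (E d))).map (fun G => G ()) := by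
        have := (measurePreserving_eval (fun _ : Unit => stdGaussian (E d)) ()).map_eq
        exact this.symm
      conv_rhs => rw [h1]
      rw [Measure.map_map (by fun_prop) (by fun_prop)]
      rfl
    rw [this]
    exact W1le.refl _

/-- programs plugged into the slots of an oracle -/
theorem Has.app {X' P' : Type} [MeasurableSpace X'] [Fintype P'] {C : Inp d Θ X P}
    {C' : Inp d Θ X' P'} (hg : ∀ θ, C'.g θ = C.g θ) {φ : Θ → X → X'}
    (hφ : ∀ θ, MeasurePreserving (φ θ) (C.ρ θ) (C'.ρ θ)) {q' : Θ → X' → E d}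
    {τ' ε' a' κ' : ℝ} {L' : P' → ℝ} {S' S : ℕ} (h' : Has C' q' τ' ε' L' a' κ' S')
    {ε κ : P' → ℝ} {L : P' → P → ℝ}
    (h : ∀ p, Has C (fun θ x => C'.cen p θ (φ θ x)) (C'.sig p) (ε p) (L p) (C'.sh p) (κ p) S)
    (hε' : 0 ≤ ε') (hε : ∀ p, 0 ≤ ε p) (hκ : ∀ p, 0 ≤ κ p) (hL : ∀ p r, 0 ≤ L p r)
    (hS : 1 ≤ S) :
    Has C (fun θ x => q' θ (φ θ x)) τ' (ε' + ∑ p, L' p * ε p)
      (fun r => ∑ p, L' p * L p r) a' (κ' + ∑ p, L' p * κ p) (S' * S) := by
  classical
  obtain ⟨I', hI', kd', t', l', err', hc', h1', h2', h3'⟩ := h'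
  choose I hI kd t l err hc h1 h2 h3 using h
  -- grouping of sums over the slots
  have group : ∀ f : P' → ℝ, (∀ p, 0 ≤ f p) →
      ∑ i, l' i * (match kd' i with | none => 0 | some p => f p) ≤ ∑ p, L' p * f p := by
    intro f hf
    calc ∑ i, l' i * (match kd' i with | none => 0 | some p => f p)
        = ∑ i, ∑ p, (if kd' i = some p then l' i else 0) * f p := by
          refine Finset.sum_congr rfl fun i _ => ?_
          rcases hk : kd' i with _ | p
          · simp
          · simp only [Option.some.injEq]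
            rw [Finset.sum_eq_single p]
            · simp
            · intro p' _ hp'
              rw [if_neg (fun h => hp' h.symm), zero_mul]
            · simp
      _ = ∑ p, (∑ i, (if kd' i = some p then l' i else 0)) * f p := by
          rw [Finset.sum_comm]
          refine Finset.sum_congr rfl fun p _ => ?_
          rw [Finset.sum_mul]
      _ ≤ ∑ p, L' p * f p := Finset.sum_le_sum fun p _ =>
          mul_le_mul_of_nonneg_right (h2' p) (hf p)
  -- the code of each slot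
  have hex : ∀ i : I', ∃ (J : Type) (_ : Fintype J) (kJ : J → Option P) (tJ : Pg J) (lJ : J → ℝ)
      (eJ : Θ → X → ℝ≥0∞),
      IsCode C kJ tJ lJ (fun θ x => C'.cn (kd' i) θ (φ θ x)) (C'.sg (kd' i)) eJ
        (C'.so (kd' i)) (match kd' i with | none => 0 | some p => κ p) ∧ tJ.size ≤ S ∧
      (∀ r, ∑ j, (if kJ j = some r then lJ j else 0) ≤
        (match kd' i with | none => 0 | some p => L p r)) ∧
      ∀ θ, ∫⁻ x, eJ θ x ∂(C.ρ θ) ≤
        ENNReal.ofReal (match kd' i with | none => 0 | some p => ε p) := by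
    intro i
    rcases hk : kd' i with _ | p
    · exact ⟨Unit, inferInstance, fun _ => none, Pg.var (), fun _ => 1, fun _ _ => 0,
        IsCode.ofSeed C, hS, fun r => by simp, fun θ => by simp⟩
    · exact ⟨I p, hI p, kd p, t p, l p, err p, hc p, h1 p, h2 p, h3 p⟩
  choose J hJ kJ tJ lJ eJ hcJ hsJ hlJ heJ using hex
  have main := IsCode.comp hg hc' (fun θ => (hc'.meas θ).comp (hφ θ).measurable) hcJ
  refine ⟨Σ i, J i, inferInstance, _, _, _, _, ⟨main.l_nonneg, main.lip, fun θ Y e =>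
    (main.shift θ Y e).trans ?_, main.meas, main.law⟩, ?_, ?_, ?_⟩
  · refine mul_le_mul_of_nonneg_right (add_le_add le_rfl ?_) (norm_nonneg _)
    exact group κ hκ
  · refine (Pg.size_bind (S := S) (fun i => ?_) hS t').trans (Nat.mul_le_mul_right S h1')
    rw [Pg.size_map]
    exact hsJ i
  · intro r
    rw [Fintype.sum_sigma]
    refine le_trans ?_ (group (fun p => L p r) (fun p => hL p r))
    refine Finset.sum_le_sum fun i _ => ?_
    have : ∑ j, (if kJ i j = some r then l' i * lJ i j else 0) =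
        l' i * ∑ j, (if kJ i j = some r then lJ i j else 0) := by
      rw [Finset.mul_sum]
      refine Finset.sum_congr rfl fun j _ => ?_
      split_ifs <;> simp
    rw [this]
    exact mul_le_mul_of_nonneg_left (hlJ i r) (hc'.l_nonneg i)
  · intro θ
    have m1 : Measurable (fun x => err' θ (φ θ x)) := (hc'.meas θ).comp (hφ θ).measurable
    rw [lintegral_add_left m1, (hφ θ).lintegral_comp (hc'.meas θ),
      lintegral_finsetSum _ (fun i _ => ((hcJ i).meas θ).const_mul _)]
    have hsum : 0 ≤ ∑ i, l' i * (match kd' i with | none => 0 | some p => ε p) := by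
      refine Finset.sum_nonneg fun i _ => mul_nonneg (hc'.l_nonneg i) ?_
      split
      · exact le_rfl
      · exact hε _
    rw [ENNReal.ofReal_add hε' (hsum.trans (group ε hε))]
    refine add_le_add (h3' θ) (le_trans ?_ (ENNReal.ofReal_le_ofReal (group ε hε)))
    rw [ENNReal.ofReal_sum_of_nonneg]
    · refine Finset.sum_le_sum fun i _ => ?_
      rw [lintegral_const_mul _ ((hcJ i).meas θ), ENNReal.ofReal_mul (hc'.l_nonneg i)]
      gcongr
      exact heJ i θ
    · intro i _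
      refine mul_nonneg (hc'.l_nonneg i) ?_
      split
      · exact le_rfl
      · exact hε _

/-- sum of two independent Gaussians -/
theorem gau_add (m m' : E d) (τ τ' : ℝ) :
    ((gau m τ).prod (gau m' τ')).map (fun p => p.1 + p.2) = gau (m + m') √(τ ^ 2 + τ' ^ 2) := by
  have h := sr_gauss_conv (d := d) τ τ'
  have h1 : gau m τ = ((stdGaussian (E d)).map (τ • ·)).map (fun z => m + z) := by
    unfold gau
    rw [Measure.map_map (by fun_prop) (by fun_prop)]
    rfl
  have h2 : gau m' τ' = ((stdGaussian (E d)).map (τ' • ·)).map (fun z => m' + z) := by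
    unfold gau
    rw [Measure.map_map (by fun_prop) (by fun_prop)]
    rfl
  have h3 : gau (m + m') √(τ ^ 2 + τ' ^ 2) =
      ((stdGaussian (E d)).map (√(τ ^ 2 + τ' ^ 2) • ·)).map (fun z => (m + m') + z) := by
    unfold gau
    rw [Measure.map_map (by fun_prop) (by fun_prop)]
    rfl
  have p1 : IsProbabilityMeasure ((stdGaussian (E d)).map (τ • ·)) :=
    Measure.isProbabilityMeasure_map (by fun_prop)
  have p2 : IsProbabilityMeasure ((stdGaussian (E d)).map (τ' • ·)) :=
    Measure.isProbabilityMeasure_map (by fun_prop)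
  rw [h1, h2, h3, ← h, Measure.map_prod_map _ _ (by fun_prop) (by fun_prop), Measure.conv,
    Measure.map_map (by fun_prop) (by fun_prop), Measure.map_map (by fun_prop) (by fun_prop)]
  congr 1
  funext p
  simp only [Function.comp, Prod.map]
  abel

/-- context with two inputs -/
def twoC (C : Inp d Θ X P) (σ s : Fin 2 → ℝ) : Inp d Θ (E d × E d) (Fin 2) where
  g := C.g
  ρ := fun _ => 0
  cen := fun i _ x => if i = 0 then x.1 else x.2
  sig := σ
  sh := s

theorem twoC_code (C : Inp d Θ X P) (σ s : Fin 2 → ℝ) :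
    IsCode (twoC C σ s) (fun i : Fin 2 => some i) (Pg.add (Pg.var 0) (Pg.var 1)) (fun _ => 1)
      (fun _ x => x.1 + x.2) √(σ 0 ^ 2 + σ 1 ^ 2) (fun _ _ => 0) (s 0 + s 1) 0 := by
  refine ⟨fun _ => zero_le_one, ?_, ?_, fun _ => measurable_const, ?_⟩
  · intro θ Y Y'
    simp only [Pg.ev, Fin.sum_univ_two, one_mul]
    rw [add_sub_add_comm]
    exact norm_add_le _ _
  · intro θ Y e
    simp only [Pg.ev, Inp.so, twoC, zero_mul]
    rw [add_smul]
    have : Y 0 + s 0 • e + (Y 1 + s 1 • e) - (Y 0 + Y 1) - (s 0 • e + s 1 • e) = 0 := by abel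
    rw [this, norm_zero]
  · intro θ x
    have h1 : (twoC C σ s).law (fun i : Fin 2 => some i) (Pg.add (Pg.var 0) (Pg.var 1)) θ x =
        gau (x.1 + x.2) √(σ 0 ^ 2 + σ 1 ^ 2) := by
      rw [← gau_add]
      have h2 := (measurePreserving_finTwoArrow (stdGaussian (E d))).map_eq
      have h3 : (gau x.1 (σ 0)).prod (gau x.2 (σ 1)) = (gpi (Fin 2) d).map
          (fun G => (x.1 + σ 0 • G 0, x.2 + σ 1 • G 1)) := by
        unfold gau
        rw [Measure.map_prod_map _ _ (by fun_prop) (by fun_prop), ← h2,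
          Measure.map_map (by fun_prop) (MeasurableEquiv.measurable _)]
        rfl
      rw [h3, Measure.map_map (by fun_prop) (by fun_prop)]
      rfl
    rw [h1]
    exact W1le.refl _

/-- sum of two codes -/
theorem Has.add {C : Inp d Θ X P} {q₁ q₂ : Θ → X → E d} {τ₁ τ₂ ε₁ ε₂ a₁ a₂ κ₁ κ₂ : ℝ}
    {L₁ L₂ : P → ℝ} {S₁ S₂ : ℕ} (h₁ : Has C q₁ τ₁ ε₁ L₁ a₁ κ₁ S₁) (h₂ : Has C q₂ τ₂ ε₂ L₂ a₂ κ₂ S₂)
    (hε₁ : 0 ≤ ε₁) (hε₂ : 0 ≤ ε₂) :
    Has C (fun θ x => q₁ θ x + q₂ θ x) √(τ₁ ^ 2 + τ₂ ^ 2) (ε₁ + ε₂) (fun p => L₁ p + L₂ p)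
      (a₁ + a₂) (κ₁ + κ₂) (S₁ + S₂ + 1) := by
  classical
  obtain ⟨I₁, hI₁, kd₁, t₁, l₁, err₁, hc₁, hs₁, hL₁, he₁⟩ := h₁
  obtain ⟨I₂, hI₂, kd₂, t₂, l₂, err₂, hc₂, hs₂, hL₂, he₂⟩ := h₂
  set C' := twoC C ![τ₁, τ₂] ![a₁, a₂] with hC'
  let φ : Θ → X → E d × E d := fun θ x => (q₁ θ x, q₂ θ x)
  have hex : ∀ i : Fin 2, ∃ (J : Type) (_ : Fintype J) (kJ : J → Option P) (tJ : Pg J)
      (lJ : J → ℝ) (eJ : Θ → X → ℝ≥0∞),
      IsCode C kJ tJ lJ (fun θ x => C'.cn (some i) θ (φ θ x)) (C'.sg (some i)) eJ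
        (C'.so (some i)) (![κ₁, κ₂] i) ∧ tJ.size ≤ ![S₁, S₂] i ∧
      (∀ r, ∑ j, (if kJ j = some r then lJ j else 0) ≤ ![L₁ r, L₂ r] i) ∧
      ∀ θ, ∫⁻ x, eJ θ x ∂(C.ρ θ) ≤ ENNReal.ofReal (![ε₁, ε₂] i) := by
    intro i
    match i with
    | 0 => exact ⟨I₁, hI₁, kd₁, t₁, l₁, err₁, hc₁, hs₁, hL₁, he₁⟩
    | 1 => exact ⟨I₂, hI₂, kd₂, t₂, l₂, err₂, hc₂, hs₂, hL₂, he₂⟩
  choose J hJ kJ tJ lJ eJ hcJ hsJ hlJ heJ using hex
  have main := IsCode.comp (C := C) (C' := C') (φ := φ) (fun _ => rfl)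
    (twoC_code C ![τ₁, τ₂] ![a₁, a₂]) (fun _ => measurable_const) hcJ
  refine ⟨Σ i, J i, inferInstance, _, _, _, _, ⟨main.l_nonneg, main.lip, fun θ Y e => ?_,
    main.meas, main.law⟩, ?_, ?_, ?_⟩
  · have := main.shift θ Y e
    simpa using this
  · simp only [Pg.bind, Pg.size, Pg.size_map]
    have h0 := hsJ 0
    have h1 := hsJ 1
    simp only [Matrix.cons_val_zero, Matrix.cons_val_one] at h0 h1
    omega
  · intro r
    rw [Fintype.sum_sigma, Fin.sum_univ_two]
    have h0 := hlJ 0 r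
    have h1 := hlJ 1 r
    simp only [Matrix.cons_val_zero, Matrix.cons_val_one] at h0 h1
    simp only [one_mul]
    exact add_le_add h0 h1
  · intro θ
    have h0 := heJ 0 θ
    have h1 := heJ 1 θ
    simp only [Matrix.cons_val_zero, Matrix.cons_val_one] at h0 h1
    simp only [Fin.sum_univ_two, ENNReal.ofReal_one, one_mul, zero_add]
    rw [lintegral_add_left ((hcJ 0).meas θ), ENNReal.ofReal_add hε₁ hε₂]
    exact add_le_add h0 h1

/-- the zero code -/
theorem Has.zero (C : Inp d Θ X P) : Has C (fun _ _ => 0) 0 0 0 0 0 1 := by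
  classical
  refine ⟨Empty, inferInstance, fun i => i.elim, Pg.zero, fun i => i.elim, fun _ _ => 0,
    ⟨fun i => i.elim, ?_, ?_, fun _ => measurable_const, ?_⟩, le_rfl, ?_, ?_⟩
  · intro θ Y Y'
    simp [Pg.ev]
  · intro θ Y e
    simp [Pg.ev]
  · intro θ x
    have : C.law (fun i : Empty => i.elim) Pg.zero θ x = gau (0 : E d) 0 := by
      unfold Inp.law gau
      simp [Pg.ev, Measure.map_const]
    rw [this]
    exact W1le.refl _
  · intro p
    simp
  · intro θ
    simp

/-- finite sums of codes -/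
theorem Has.sum {C : Inp d Θ X P} {ι : Type} (s : Finset ι) {q : ι → Θ → X → E d}
    {τ ε a κ : ι → ℝ} {L : ι → P → ℝ} {S : ι → ℕ}
    (h : ∀ j ∈ s, Has C (q j) (τ j) (ε j) (L j) (a j) (κ j) (S j)) (hε : ∀ j ∈ s, 0 ≤ ε j) :
    Has C (fun θ x => ∑ j ∈ s, q j θ x) √(∑ j ∈ s, τ j ^ 2) (∑ j ∈ s, ε j)
      (fun p => ∑ j ∈ s, L j p) (∑ j ∈ s, a j) (∑ j ∈ s, κ j) (∑ j ∈ s, (S j + 1) + 1) := by
  classical
  induction s using Finset.induction_on with
  | empty =>
    simp only [Finset.sum_empty, Real.sqrt_zero, zero_add]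
    exact Has.zero C
  | insert i s hi ih =>
    have h1 := ih (fun j hj => h j (Finset.mem_insert_of_mem hj))
      (fun j hj => hε j (Finset.mem_insert_of_mem hj))
    have h2 := Has.add (h i (Finset.mem_insert_self i s)) h1 (hε i (Finset.mem_insert_self i s))
      (Finset.sum_nonneg fun j hj => hε j (Finset.mem_insert_of_mem hj))
    rw [Real.sq_sqrt (Finset.sum_nonneg fun j _ => sq_nonneg _)] at h2
    simp only [Finset.sum_insert hi]
    have h3 : S i + (∑ j ∈ s, (S j + 1) + 1) + 1 = S i + 1 + ∑ j ∈ s, (S j + 1) + 1 := by ring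
    rw [← h3]
    exact h2

/-- the sign of the noise does not matter -/
theorem gau_neg (m : E d) (τ : ℝ) : gau m (-τ) = gau m τ := by
  have h : (stdGaussian (E d)).map (fun z => -z) = stdGaussian (E d) := by
    have h1 := stdGaussian_map (LinearIsometryEquiv.neg ℝ (E := E d))
    simpa using h1
  unfold gau
  conv_rhs => rw [← h]
  rw [Measure.map_map (by fun_prop) (by fun_prop)]
  congr 1
  funext z
  simp [Function.comp]

theorem gau_abs (m : E d) (τ : ℝ) : gau m |τ| = gau m τ := by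
  rcases abs_choice τ with h | h
  · rw [h]
  · rw [h, gau_neg]

theorem Has.abs {C : Inp d Θ X P} {q : Θ → X → E d} {τ τ' ε a κ : ℝ} {L : P → ℝ} {S : ℕ}
    (h : Has C q τ ε L a κ S) (hτ : τ' ^ 2 = τ ^ 2) : Has C q τ' ε L a κ S := by
  obtain ⟨I, hI, kd, t, l, err, hc, h1⟩ := h
  refine ⟨I, hI, kd, t, l, err, ⟨hc.l_nonneg, hc.lip, hc.shift, hc.meas, fun θ x => ?_⟩, h1⟩
  have : gau (q θ x) τ' = gau (q θ x) τ := by
    rw [← gau_abs, ← gau_abs (q θ x) τ, (sq_eq_sq_iff_abs_eq_abs _ _).1 hτ]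
  rw [this]
  exact hc.law θ x

/-- general weakening (the main form used in applications) -/
theorem Has.cast {C : Inp d Θ X P} {q q' : Θ → X → E d} {τ τ' ε ε' a a' κ κ' : ℝ} {L L' : P → ℝ}
    {S S' : ℕ} (h : Has C q τ ε L a κ S) (hq : ∀ θ x, q θ x = q' θ x) (hτ : τ' ^ 2 = τ ^ 2)
    (hε : ε ≤ ε') (hL : ∀ p, L p ≤ L' p) (ha : a = a') (hκ : κ ≤ κ') (hS : S ≤ S') :
    Has C q' τ' ε' L' a' κ' S' := by
  subst ha
  exact ((h.mono hε hL hκ hS).congr hq rfl).abs hτ

/-- increasing the output noise with a seed -/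
theorem Has.noise {C : Inp d Θ X P} {q : Θ → X → E d} {τ τ' ε a κ : ℝ} {L : P → ℝ} {S : ℕ}
    (h : Has C q τ ε L a κ S) (hτ : τ ^ 2 ≤ τ' ^ 2) (hε : 0 ≤ ε) :
    Has C q τ' ε L a κ (S + 3) := by
  have h1 := (Has.seed C).smul √(τ' ^ 2 - τ ^ 2)
  have h2 := Has.add h h1 hε (by simp)
  refine h2.cast (fun θ x => by simp) ?_ (by simp) (fun p => by simp) (by simp) (by simp)
    (by omega)
  rw [mul_one, Real.sq_sqrt (by positivity), Real.sq_sqrt (by linarith)]
  ring

end P347Z
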