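import Vale.Agent.P347Z.CodeDefs

/-!
P347Z: elementary facts on programs and on the Wasserstein distance `W1le`.
-/

open MeasureTheory ProbabilityTheory Function
open scoped ENNReal BigOperators

namespace P347Z

open P347Q

section terms

variable {I J : Type} {d : ℕ}

theorem Pg.ev_bind (g : E d → E d) (X : J → E d) (u : I → Pg J) (t : Pg I) :
    (t.bind u).ev g X = t.ev g (fun i => (u i).ev g X) := by
  induction t with
  | var i => rfl
  | zero => rfl
  | add a b iha ihb => simp only [Pg.bind, Pg.ev, iha, ihb]
  | smul c a iha => simp only [Pg.bind, Pg.ev, iha]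
  | grad a iha => simp only [Pg.bind, Pg.ev, iha]

theorem Pg.size_pos (t : Pg I) : 1 ≤ t.size := by
  cases t <;> simp [Pg.size]

theorem Pg.size_bind {u : I → Pg J} {S : ℕ} (hu : ∀ i, (u i).size ≤ S) (hS : 1 ≤ S) (t : Pg I) :
    (t.bind u).size ≤ t.size * S := by
  induction t with
  | var i => simpa [Pg.bind, Pg.size] using hu i
  | zero => simpa [Pg.bind, Pg.size] using hS
  | add a b iha ihb =>
    simp only [Pg.bind, Pg.size]
    nlinarith
  | smul c a iha =>
    simp only [Pg.bind, Pg.size]
    nlinarith
  | grad a iha =>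
    simp only [Pg.bind, Pg.size]
    nlinarith

/-- size of a renamed term -/
theorem Pg.size_map (f : I → J) (t : Pg I) : (t.bind (fun i => Pg.var (f i))).size = t.size := by
  induction t with
  | var i => rfl
  | zero => rfl
  | add a b iha ihb => simp only [Pg.bind, Pg.size, iha, ihb]
  | smul c a iha => simp only [Pg.bind, Pg.size, iha]
  | grad a iha => simp only [Pg.bind, Pg.size, iha]

/-- continuity of programs -/
theorem Pg.cont {g : E d → E d} (hg : Continuous g) (t : Pg I) :
    Continuous (fun X : I → E d => t.ev g X) := by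
  induction t with
  | var i => exact continuous_apply i
  | zero => exact continuous_const
  | add a b iha ihb => exact iha.add ihb
  | smul c a iha => exact iha.const_smul c
  | grad a iha => exact hg.comp iha

end terms

section w1

variable {d : ℕ} {μ ν ξ : Measure (E d)} {e e' : ℝ≥0∞}

instance gpi_prob (I : Type) [Fintype I] (d : ℕ) : IsProbabilityMeasure (gpi I d) := by
  unfold gpi; infer_instance

theorem meas_gau (m : E d) (τ : ℝ) : Measurable (fun z : E d => m + τ • z) := by fun_prop

instance gau_prob (m : E d) (τ : ℝ) : IsProbabilityMeasure (gau m τ) := by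
  unfold gau
  exact Measure.isProbabilityMeasure_map (meas_gau m τ).aemeasurable

theorem W1le.refl (μ : Measure (E d)) : W1le μ μ 0 := by
  intro φ _ _
  simp

theorem W1le.mono (h : W1le μ ν e) (he : e ≤ e') : W1le μ ν e' := fun φ h1 h2 =>
  (h φ h1 h2).trans he

theorem W1le.symm (h : W1le μ ν e) : W1le ν μ e := by
  intro φ h1 h2
  rw [abs_sub_comm]
  exact h φ h1 h2

theorem ofReal_abs_sub_le (a b c : ℝ) :
    ENNReal.ofReal |a - c| ≤ ENNReal.ofReal |a - b| + ENNReal.ofReal |b - c| := by
  rw [← ENNReal.ofReal_add (abs_nonneg _) (abs_nonneg _)]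
  exact ENNReal.ofReal_le_ofReal (abs_sub_le a b c)

theorem W1le.trans (h : W1le μ ν e) (h' : W1le ν ξ e') : W1le μ ξ (e + e') := fun φ h1 h2 =>
  (ofReal_abs_sub_le _ (∫ x, φ x ∂ν) _).trans (add_le_add (h φ h1 h2) (h' φ h1 h2))

theorem bdd_int [IsFiniteMeasure μ] {φ : E d → ℝ} (h1 : Continuous φ)
    (h2 : ∃ C : ℝ, ∀ x, |φ x| ≤ C) : Integrable φ μ := by
  obtain ⟨C, hC⟩ := h2
  exact Integrable.of_bound h1.aestronglyMeasurable C (Filter.Eventually.of_forall hC)

theorem W1le.gau (m m' : E d) (τ : ℝ) : W1le (gau m τ) (gau m' τ) ‖m - m'‖ₑ := by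
  intro φ h1 h2
  have hc := h1.continuous
  unfold P347Z.gau
  have hi : ∀ a : E d, Integrable (fun z => φ (a + τ • z)) (stdGaussian (E d)) := fun a =>
    bdd_int (hc.comp (by fun_prop)) (h2.imp fun C hC x => hC _)
  rw [integral_map (meas_gau m τ).aemeasurable hc.aestronglyMeasurable,
    integral_map (meas_gau m' τ).aemeasurable hc.aestronglyMeasurable,
    ← integral_sub (hi m) (hi m')]
  rw [← ofReal_norm]
  apply ENNReal.ofReal_le_ofReal
  have h3 := norm_integral_le_of_norm_le_const (μ := stdGaussian (E d)) (C := ‖m - m'‖)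
    (f := fun z => φ (m + τ • z) - φ (m' + τ • z)) (Filter.Eventually.of_forall fun z => by
      have := h1.dist_le_mul (m + τ • z) (m' + τ • z)
      rw [NNReal.coe_one, one_mul, Real.dist_eq, dist_eq_norm, add_sub_add_right_eq_sub] at this
      exact this)
  simpa using h3

/-- scaled test functions -/
theorem W1le.scale [IsProbabilityMeasure μ] [IsProbabilityMeasure ν] (h : W1le μ ν e) {l : ℝ}
    (hl : 0 ≤ l) {φ : E d → ℝ} (hφ : ∀ x y, |φ x - φ y| ≤ l * ‖x - y‖)
    (hb : ∃ C : ℝ, ∀ x, |φ x| ≤ C) :
    ENNReal.ofReal |∫ x, φ x ∂μ - ∫ x, φ x ∂ν| ≤ ENNReal.ofReal l * e := by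
  rcases hl.eq_or_lt with h0 | h0
  · subst h0
    have h1 : ∀ x, φ x = φ 0 := by
      intro x
      have := hφ x 0
      rw [zero_mul] at this
      exact sub_eq_zero.1 (abs_nonpos_iff.1 this)
    have h2 : φ = fun _ => φ 0 := funext h1
    rw [h2]
    simp
  · have h1 : LipschitzWith 1 (fun x => l⁻¹ * φ x) := by
      apply LipschitzWith.of_dist_le_mul
      intro x y
      rw [NNReal.coe_one, one_mul, Real.dist_eq, dist_eq_norm, ← mul_sub, abs_mul,
        abs_of_pos (inv_pos.2 h0)]
      calc l⁻¹ * |φ x - φ y| ≤ l⁻¹ * (l * ‖x - y‖) := by gcongr; exact hφ x y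
        _ = ‖x - y‖ := by field_simp
    obtain ⟨C, hC⟩ := hb
    have h2 := h (fun x => l⁻¹ * φ x) h1 ⟨l⁻¹ * C, fun x => by
      rw [abs_mul, abs_of_pos (inv_pos.2 h0)]
      gcongr
      exact hC x⟩
    simp only [integral_const_mul] at h2
    rw [← mul_sub, abs_mul, abs_of_pos (inv_pos.2 h0)] at h2
    calc ENNReal.ofReal |∫ x, φ x ∂μ - ∫ x, φ x ∂ν|
        = ENNReal.ofReal l * ENNReal.ofReal (l⁻¹ * |∫ x, φ x ∂μ - ∫ x, φ x ∂ν|) := by
          rw [← ENNReal.ofReal_mul h0.le]
          congr 1
          field_simp
      _ ≤ ENNReal.ofReal l * e := by gcongr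

end w1

section pi

variable {d : ℕ} {I : Type} [Fintype I]

omit [Fintype I] in
theorem upd_meas [DecidableEq I] (j : I) :
    Measurable (fun p : (I → E d) × E d => Function.update p.1 j p.2) := by
  refine measurable_pi_lambda _ fun i => ?_
  by_cases h : i = j
  · subst h
    simp only [Function.update_self]
    exact measurable_snd
  · simp only [Function.update_of_ne h]
    exact (measurable_pi_apply i).comp measurable_fst

theorem upd_mp [DecidableEq I] (j : I) (κ κ' : I → Measure (E d))
    [∀ i, IsProbabilityMeasure (κ i)] [∀ i, IsProbabilityMeasure (κ' i)]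
    (h : ∀ i, i ≠ j → κ' i = κ i) :
    ((Measure.pi κ').prod (κ j)).map (fun p => Function.update p.1 j p.2) = Measure.pi κ := by
  symm
  apply Measure.pi_eq
  intro s hs
  rw [Measure.map_apply (upd_meas j) (MeasurableSet.univ_pi hs)]
  have h1 : (fun p : (I → E d) × E d => Function.update p.1 j p.2) ⁻¹' (Set.univ.pi s) =
      (Set.univ.pi (Function.update s j Set.univ)) ×ˢ (s j) := by
    ext p
    simp only [Set.mem_preimage, Set.mem_pi, Set.mem_univ, forall_true_left, Set.mem_prod]
    constructor
    · intro hp
      refine ⟨fun i => ?_, by simpa using hp j⟩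
      by_cases hi : i = j
      · subst hi; simp
      · simpa [Function.update_of_ne hi] using hp i
    · rintro ⟨hp, hq⟩ i
      by_cases hi : i = j
      · subst hi; simpa using hq
      · simpa [Function.update_of_ne hi] using hp i
  rw [h1, Measure.prod_prod, Measure.pi_pi]
  rw [← Finset.mul_prod_erase Finset.univ _ (Finset.mem_univ j),
    ← Finset.mul_prod_erase Finset.univ (fun i => κ i (s i)) (Finset.mem_univ j)]
  simp only [Function.update_self, measure_univ, one_mul]
  rw [mul_comm]
  congr 1
  apply Finset.prod_congr rfl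
  intro i hi
  rw [Function.update_of_ne (Finset.ne_of_mem_erase hi), h i (Finset.ne_of_mem_erase hi)]

/-- replacing independent inputs one at a time -/
theorem W1_pi (μ ν : I → Measure (E d)) [∀ i, IsProbabilityMeasure (μ i)]
    [∀ i, IsProbabilityMeasure (ν i)] (e : I → ℝ≥0∞) (h : ∀ i, W1le (μ i) (ν i) (e i))
    (l : I → ℝ) (hl : ∀ i, 0 ≤ l i) (F : (I → E d) → ℝ) (hc : Continuous F)
    (hF : ∀ X X', |F X - F X'| ≤ ∑ i, l i * ‖X i - X' i‖) (hb : ∃ C : ℝ, ∀ X, |F X| ≤ C) :
    ENNReal.ofReal |∫ X, F X ∂(Measure.pi μ) - ∫ X, F X ∂(Measure.pi ν)| ≤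
      ∑ i, ENNReal.ofReal (l i) * e i := by
  classical
  let M : Finset I → I → Measure (E d) := fun s i => if i ∈ s then ν i else μ i
  have hM : ∀ s i, IsProbabilityMeasure (M s i) := by
    intro s i
    simp only [M]
    split_ifs <;> infer_instance
  have key : ∀ s : Finset I,
      ENNReal.ofReal |∫ X, F X ∂(Measure.pi (M ∅)) - ∫ X, F X ∂(Measure.pi (M s))| ≤
        ∑ i ∈ s, ENNReal.ofReal (l i) * e i := by
    intro s
    induction s using Finset.induction_on with
    | empty => simp
    | insert j s hj ih =>
      rw [Finset.sum_insert hj]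
      refine (ofReal_abs_sub_le _ (∫ X, F X ∂(Measure.pi (M s))) _).trans ?_
      rw [add_comm]
      refine add_le_add ?_ ih
      have e1 : Measure.pi (M s) =
          ((Measure.pi (M s)).prod (μ j)).map (fun p => Function.update p.1 j p.2) := by
        have := upd_mp j (M s) (M s) (fun _ _ => rfl)
        have h2 : M s j = μ j := by simp only [M, if_neg hj]
        rw [h2] at this
        exact this.symm
      have e2 : Measure.pi (M (insert j s)) =
          ((Measure.pi (M s)).prod (ν j)).map (fun p => Function.update p.1 j p.2) := by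
        have := upd_mp j (M (insert j s)) (M s) (fun i hi => by
          simp only [M, Finset.mem_insert, hi, false_or])
        have h2 : M (insert j s) j = ν j := by simp only [M, Finset.mem_insert_self, if_true]
        rw [h2] at this
        exact this.symm
      have hcu : Continuous (fun p : (I → E d) × E d => F (Function.update p.1 j p.2)) := by
        refine hc.comp ?_
        exact continuous_fst.update j continuous_snd
      have hbi : ∀ (η : Measure ((I → E d) × E d)) [IsFiniteMeasure η],
          Integrable (fun p : (I → E d) × E d => F (Function.update p.1 j p.2)) η := by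
        intro η _
        obtain ⟨C, hC⟩ := hb
        exact Integrable.of_bound hcu.aestronglyMeasurable C
          (Filter.Eventually.of_forall fun p => hC _)
      have i1 : ∫ X, F X ∂(Measure.pi (M s)) =
          ∫ X, ∫ y, F (Function.update X j y) ∂(μ j) ∂(Measure.pi (M s)) := by
        conv_lhs => rw [e1]
        rw [integral_map (upd_meas j).aemeasurable hc.aestronglyMeasurable,
          integral_prod _ (hbi _)]
      have i2 : ∫ X, F X ∂(Measure.pi (M (insert j s))) =
          ∫ X, ∫ y, F (Function.update X j y) ∂(ν j) ∂(Measure.pi (M s)) := by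
        rw [e2, integral_map (upd_meas j).aemeasurable hc.aestronglyMeasurable,
          integral_prod _ (hbi _)]
      rw [i1, i2, ← integral_sub (hbi _).integral_prod_left (hbi _).integral_prod_left]
      have hpt : ∀ X : I → E d, ENNReal.ofReal |∫ y, F (Function.update X j y) ∂(μ j) -
          ∫ y, F (Function.update X j y) ∂(ν j)| ≤ ENNReal.ofReal (l j) * e j := by
        intro X
        refine (h j).scale (hl j) (φ := fun y => F (Function.update X j y)) ?_
          (hb.imp fun C hC x => hC _)
        intro x y
        refine (hF _ _).trans (le_of_eq ?_)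
        rw [Finset.sum_eq_single j]
        · simp
        · intro i _ hi
          simp [Function.update_of_ne hi]
        · simp
      by_cases htop : ENNReal.ofReal (l j) * e j = ⊤
      · rw [htop]; exact le_top
      · apply ENNReal.ofReal_le_of_le_toReal
        have h3 := norm_integral_le_of_norm_le_const (μ := Measure.pi (M s))
          (C := (ENNReal.ofReal (l j) * e j).toReal)
          (f := fun X => ∫ y, F (Function.update X j y) ∂(μ j) -
            ∫ y, F (Function.update X j y) ∂(ν j)) (Filter.Eventually.of_forall fun X => by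
              rw [Real.norm_eq_abs]
              exact (ENNReal.ofReal_le_iff_le_toReal htop).1 (hpt X))
        simpa using h3
  have h0 : M ∅ = μ := by
    funext i
    simp [M]
  have h1 : M Finset.univ = ν := by
    funext i
    simp [M]
  have := key Finset.univ
  rwa [h0, h1] at this

/-- product of laws of programs with disjoint inputs -/
theorem gpi_sigma {J : I → Type} [∀ i, Fintype (J i)] (f : (i : I) → (J i → E d) → E d)
    (hf : ∀ i, Measurable (f i)) :
    (gpi (Σ i, J i) d).map (fun G i => f i (fun j => G ⟨i, j⟩)) =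
      Measure.pi (fun i => (gpi (J i) d).map (f i)) := by
  have h1 : gpi (Σ i, J i) d =
      Measure.infinitePi (fun _ : (Σ i, J i) => stdGaussian (E d)) := by
    unfold gpi
    rw [Measure.infinitePi_eq_pi]
  have h2 := Measure.infinitePi_map_piCurry (X := fun (i : I) (_ : J i) => E d)
    (fun (i : I) (_ : J i) => stdGaussian (E d))
  have h3 : (Measure.infinitePi fun i : I => Measure.infinitePi fun _ : J i => stdGaussian (E d)) =
      Measure.pi (fun i => gpi (J i) d) := by
    rw [Measure.infinitePi_eq_pi]
    congr 1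
    funext i
    rw [Measure.infinitePi_eq_pi]
    rfl
  rw [h3, ← h1] at h2
  have h4 : ∀ i, IsProbabilityMeasure ((gpi (J i) d).map (f i)) := fun i =>
    Measure.isProbabilityMeasure_map (hf i).aemeasurable
  rw [← Measure.pi_map_pi (fun i => (hf i).aemeasurable), ← h2, Measure.map_map]
  · rfl
  · exact measurable_pi_lambda _ fun i => (hf i).comp (measurable_pi_apply i)
  · exact (MeasurableEquiv.piCurry _).measurable

end pi

end P347Z
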