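import Vale.Agent.P347Q.Model

/-!
P347Z / CompX: composition and measurability of computations with oracle queries (`P347Q.Comp`).
-/

open MeasureTheory ProbabilityTheory Function

namespace P347Z

open P347Q

variable {d : ℕ} {Ω Ω' : Type} [MeasurableSpace Ω] [MeasurableSpace Ω']
variable {X Y : Type*} [MeasurableSpace X] [MeasurableSpace Y]

omit [MeasurableSpace Ω] in
theorem measurable_snoc' {α : Type*} [MeasurableSpace α] {k : ℕ} {Z : Type*} [MeasurableSpace Z]
    {a : Z → Fin k → α} {b : Z → α} (ha : Measurable a) (hb : Measurable b) :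
    Measurable (fun z => (Fin.snoc (a z) (b z) : Fin (k + 1) → α)) := by
  refine measurable_pi_lambda _ fun i => ?_
  refine Fin.lastCases ?_ (fun j => ?_) i
  · simp only [Fin.snoc_last]
    exact hb
  · simp only [Fin.snoc_castSucc]
    exact (measurable_pi_apply j).comp ha

/-- the answers are computable -/
theorem comp_ans {q : ℕ} {F : (E d → ℝ) → Ω → X} (hF : Comp q F)
    {query : (k : ℕ) → Ω' → (Fin k → ℝ × E d) → E d}
    (hq : ∀ k, Measurable (fun p : Ω' × (Fin k → ℝ × E d) => query k p.1 p.2))
    {g : Ω × X → Ω'} (hg : Measurable g) :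
    ∀ k, Comp (q + k) (fun V ω => (F V ω, ans query V (g (ω, F V ω)) k)) := by
  intro k
  induction k with
  | zero =>
    have := hF.map (g := fun p : Ω × X => (p.2, (Fin.elim0 : Fin 0 → ℝ × E d)))
      (measurable_snd.prodMk measurable_const)
    refine this.congr fun V ω => ?_
    rfl
  | succ k ih =>
    have h2 := ih.query (x := fun p : Ω × (X × (Fin k → ℝ × E d)) =>
      query k (g (p.1, p.2.1)) p.2.2) (by
        have := (hq k).comp ((hg.comp (measurable_fst.prodMk (measurable_fst.comp measurable_snd))).prodMk
          (measurable_snd.comp (measurable_snd (α := Ω) (β := X × (Fin k → ℝ × E d)))))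
        exact this)
    have h3 := h2.map (g := fun p : Ω × ((X × (Fin k → ℝ × E d)) × (ℝ × E d)) =>
      (p.2.1.1, (Fin.snoc p.2.1.2 p.2.2 : Fin (k + 1) → ℝ × E d))) (by
        refine Measurable.prodMk (by fun_prop) ?_
        exact measurable_snoc' (by fun_prop) (by fun_prop))
    exact h3

/-- composition of computations -/
theorem Comp.bind {q q' : ℕ} {F : (E d → ℝ) → Ω → X} (hF : Comp q F)
    {G : (E d → ℝ) → Ω' → Y} (hG : Comp q' G) {g : Ω × X → Ω'} (hg : Measurable g) :
    Comp (q + q') (fun V ω => (F V ω, G V (g (ω, F V ω)))) := by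
  obtain ⟨query, hq, out, ho, h⟩ := hG
  have h1 := comp_ans hF hq hg q'
  have h2 := h1.map (g := fun p : Ω × (X × (Fin q' → ℝ × E d)) =>
    (p.2.1, out (g (p.1, p.2.1), p.2.2))) (by
      refine Measurable.prodMk (by fun_prop) ?_
      refine ho.comp (Measurable.prodMk ?_ (by fun_prop))
      exact hg.comp (by fun_prop))
  refine h2.congr fun V ω => ?_
  simp only [h V]

/-- restriction of a computation -/
theorem Comp.comap {q : ℕ} {G : (E d → ℝ) → Ω' → Y} (hG : Comp q G) {g : Ω → Ω'}
    (hg : Measurable g) : Comp q (fun V ω => G V (g ω)) := by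
  have h0 : Comp (d := d) 0 (fun _ (ω : Ω) => ω) := Comp.zero measurable_id
  have h1 := Comp.bind h0 hG (g := fun p => g p.1) (hg.comp measurable_fst)
  have h2 := h1.map (g := fun p : Ω × (Ω × Y) => p.2.2) (by fun_prop)
  rw [Nat.zero_add] at h2
  exact h2

theorem measurable_ans {query : (k : ℕ) → Ω → (Fin k → ℝ × E d) → E d}
    (hq : ∀ k, Measurable (fun p : Ω × (Fin k → ℝ × E d) => query k p.1 p.2))
    {V : E d → ℝ} (hV : Measurable V) (hV' : Measurable (gradient V)) (k : ℕ) :
    Measurable (fun ω => ans query V ω k) := by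
  induction k with
  | zero => exact measurable_const
  | succ k ih =>
    have h1 : Measurable (fun ω => query k ω (ans query V ω k)) :=
      (hq k).comp (measurable_id.prodMk ih)
    exact measurable_snoc' ih ((hV.comp h1).prodMk (hV'.comp h1))

/-- computable functions are measurable -/
theorem Comp.meas {q : ℕ} {F : (E d → ℝ) → Ω → X} (hF : Comp q F)
    {V : E d → ℝ} (hV : Measurable V) (hV' : Measurable (gradient V)) : Measurable (F V) := by
  obtain ⟨query, hq, out, ho, h⟩ := hF
  have e : F V = fun ω => out (ω, ans query V ω q) := by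
    funext ω
    exact h V ω
  rw [e]
  exact ho.comp (measurable_id.prodMk (measurable_ans hq hV hV' q))

theorem pot_meas {V : E d → ℝ} (hV : Pot d V) : Measurable V ∧ Measurable (gradient V) := by
  refine ⟨hV.smooth.continuous.measurable, ?_⟩
  have h1 : Continuous (fderiv ℝ V) := hV.smooth.continuous_fderiv (by norm_num)
  have h2 : Continuous (gradient V) := by
    unfold gradient
    exact ((InnerProductSpace.toDual ℝ (E d)).symm.continuous).comp h1
  exact h2.measurable

/-- from a computation to a sufficient number of queries -/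
theorem suff_of_comp {q : ℕ} {F : (E d → ℝ) → Ω → E d} (hF : Comp q F) (P : Measure Ω)
    [IsProbabilityMeasure P]
    (h : ∀ V, Pot d V → ∀ B, MeasurableSet B → |(P.map (F V)).real B - (gibbs V).real B| ≤ 1 / 10) :
    Suff d q := by
  obtain ⟨query, hq, out, ho, he⟩ := hF
  refine ⟨{ Ω := Ω
            mΩ := inferInstance
            P := P
            prob := inferInstance
            query := query
            meas_query := hq
            out := fun ω a => out (ω, a)
            meas_out := ho }, ?_⟩
  intro V hV B hB
  have e : (P.map (fun ω => out (ω, ans query V ω q))) = P.map (F V) := by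
    congr 1
    funext ω
    exact (he V ω).symm
  have := h V hV B hB
  rw [← e] at this
  rw [Sampler.law]
  simp only [Sampler.answers_eq]
  exact this

end P347Z
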