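import Mathlib

/-!
Module T1: global existence of the flow of a `C¹` field of linear growth, and joint continuity
(cut off, Picard-Lindelöf, Gronwall).
-/

open Set Metric
open scoped NNReal ContDiff Topology

set_option linter.unusedSectionVars false

namespace P347Z

namespace FlowExAux

variable {X : Type*} [NormedAddCommGroup X] [NormedSpace ℝ X]

lemma lip_ball [FiniteDimensional ℝ X] (b : ℝ → X → X)
    (hb : ContDiff ℝ 1 (fun p : ℝ × X => b p.1 p.2)) (T r : ℝ) :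
    ∃ K : ℝ≥0, ∀ t ∈ Icc (0 : ℝ) T, LipschitzOnWith K (b t) (closedBall 0 r) := by
  have : ProperSpace X := FiniteDimensional.proper ℝ X
  obtain ⟨K, hK⟩ := (hb.locallyLipschitz.locallyLipschitzOn
    (s := Icc (0 : ℝ) T ×ˢ closedBall (0 : X) r)).exists_lipschitzOnWith_of_compact
    (isCompact_Icc.prod (isCompact_closedBall 0 r))
  refine ⟨K, fun t ht x hx y hy => ?_⟩
  have h := hK (show (t, x) ∈ _ from ⟨ht, hx⟩) (show (t, y) ∈ _ from ⟨ht, hy⟩)
  simpa [Prod.edist_eq] using h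

/-- solutions have a right derivative -/
lemma right_deriv {T : ℝ} {α : ℝ → X} {f : ℝ → X → X}
    (hα : ∀ t ∈ Icc (0 : ℝ) T, HasDerivWithinAt α (f t (α t)) (Icc 0 T) t) :
    ∀ t ∈ Ico (0 : ℝ) T, HasDerivWithinAt α (f t (α t)) (Ici t) t := fun t ht =>
  (hα t (Ico_subset_Icc_self ht)).mono_of_mem_nhdsWithin (Icc_mem_nhdsGE_of_mem ht)

lemma cont {T : ℝ} {α : ℝ → X} {f : ℝ → X → X}
    (hα : ∀ t ∈ Icc (0 : ℝ) T, HasDerivWithinAt α (f t (α t)) (Icc 0 T) t) :
    ContinuousOn α (Icc 0 T) := fun t ht => (hα t ht).continuousWithinAt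

/-- a priori bound -/
lemma bound {T C : ℝ} (hC : 0 ≤ C) {f : ℝ → X → X}
    (hg : ∀ t ∈ Icc (0 : ℝ) T, ∀ x, ‖f t x‖ ≤ C * (1 + ‖x‖)) {α : ℝ → X}
    (hα : ∀ t ∈ Icc (0 : ℝ) T, HasDerivWithinAt α (f t (α t)) (Icc 0 T) t) {δ : ℝ}
    (hδ : ‖α 0‖ ≤ δ) : ∀ t ∈ Icc (0 : ℝ) T, ‖α t‖ ≤ gronwallBound δ C C T := by
  intro t ht
  have hδ0 : 0 ≤ δ := (norm_nonneg _).trans hδ
  have h := norm_le_gronwallBound_of_norm_deriv_right_le (cont hα) (right_deriv hα) hδ
    (K := C) (ε := C) (fun s hs => by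
      have := hg s (Ico_subset_Icc_self hs) (α s)
      linarith) t ht
  refine h.trans (gronwallBound_mono hδ0 hC hC ?_)
  linarith [ht.2]

/-- Lipschitz cut off -/
noncomputable def chi (R : ℝ) (x : X) : ℝ := max 0 (min 1 (R + 1 - ‖x‖))

lemma chi_nonneg (R : ℝ) (x : X) : 0 ≤ chi R x := le_max_left _ _

lemma chi_le (R : ℝ) (x : X) : chi R x ≤ 1 := max_le zero_le_one (min_le_left _ _)

lemma chi_one {R : ℝ} {x : X} (hx : ‖x‖ ≤ R) : chi R x = 1 := by
  unfold chi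
  rw [min_eq_left (by linarith), max_eq_right zero_le_one]

lemma chi_zero {R : ℝ} {x : X} (hx : R + 1 ≤ ‖x‖) : chi R x = 0 := by
  unfold chi
  rw [max_eq_left]
  exact (min_le_right _ _).trans (by linarith)

lemma chi_cont (R : ℝ) : Continuous (chi (X := X) R) := by
  unfold chi
  fun_prop

lemma chi_lip (R : ℝ) (x y : X) : |chi R x - chi R y| ≤ ‖x - y‖ := by
  unfold chi
  have h1 := abs_max_sub_max_le_abs (min 1 (R + 1 - ‖x‖)) (min 1 (R + 1 - ‖y‖)) 0
  rw [max_comm 0, max_comm 0]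
  refine h1.trans ?_
  have h2 := abs_min_sub_min_le_max 1 (R + 1 - ‖x‖) 1 (R + 1 - ‖y‖)
  refine h2.trans ?_
  rw [sub_self, abs_zero, max_eq_right (abs_nonneg _)]
  have h3 := abs_norm_sub_norm_le y x
  rw [norm_sub_rev] at h3
  calc |R + 1 - ‖x‖ - (R + 1 - ‖y‖)| = |‖y‖ - ‖x‖| := by congr 1; ring
    _ ≤ ‖x - y‖ := h3

lemma sol_exists [FiniteDimensional ℝ X] (b : ℝ → X → X)
    (hb : ContDiff ℝ 1 (fun p : ℝ × X => b p.1 p.2)) {T C : ℝ} (hT : 0 ≤ T) (hC : 0 ≤ C)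
    (hg : ∀ t ∈ Icc (0 : ℝ) T, ∀ x, ‖b t x‖ ≤ C * (1 + ‖x‖)) (x₀ : X) :
    ∃ α : ℝ → X, α 0 = x₀ ∧ ∀ t ∈ Icc (0 : ℝ) T, HasDerivWithinAt α (b t (α t)) (Icc 0 T) t := by
  have : CompleteSpace X := FiniteDimensional.complete ℝ X
  set R := gronwallBound ‖x₀‖ C C T with hR
  have hR0 : 0 ≤ R := by
    have h0 : gronwallBound ‖x₀‖ C C 0 ≤ R := gronwallBound_mono (norm_nonneg _) hC hC hT
    rw [gronwallBound_x0] at h0
    exact (norm_nonneg _).trans h0
  set f : ℝ → X → X := fun t x => chi R x • b t x with hf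
  have hfg : ∀ t ∈ Icc (0 : ℝ) T, ∀ x, ‖f t x‖ ≤ C * (1 + ‖x‖) := by
    intro t ht x
    rw [hf]
    show ‖chi R x • b t x‖ ≤ _
    rw [norm_smul, Real.norm_of_nonneg (chi_nonneg R x)]
    calc chi R x * ‖b t x‖ ≤ 1 * ‖b t x‖ :=
          mul_le_mul_of_nonneg_right (chi_le R x) (norm_nonneg _)
      _ ≤ _ := by rw [one_mul]; exact hg t ht x
  set L : ℝ≥0 := ⟨C * (2 + R), by positivity⟩ with hL
  set a : ℝ≥0 := ⟨C * (2 + R) * T, by positivity⟩ with ha
  obtain ⟨K, hK⟩ := lip_ball b hb T (‖x₀‖ + a)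
  set Mr : ℝ≥0 := ⟨C * (1 + (‖x₀‖ + a)), by positivity⟩ with hMr
  have hsub : closedBall x₀ (a : ℝ) ⊆ closedBall 0 (‖x₀‖ + a) := by
    refine closedBall_subset_closedBall' ?_
    rw [dist_zero_right]
    linarith
  have hpl : IsPicardLindelof f (⟨0, le_rfl, hT⟩ : Icc (0 : ℝ) T) x₀ a 0 L (K + Mr) := by
    refine ⟨?_, ?_, ?_, ?_⟩
    · intro t ht
      refine LipschitzOnWith.of_dist_le_mul fun x hx y hy => ?_
      have hx' := hsub hx
      have hy' := hsub hy
      have h1 : dist (b t x) (b t y) ≤ K * dist x y := (hK t ht).dist_le_mul x hx' y hy'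
      have h2 : ‖b t y‖ ≤ Mr := by
        refine (hg t ht y).trans ?_
        have hy2 : ‖y‖ ≤ ‖x₀‖ + a := by simpa using hy'
        show C * (1 + ‖y‖) ≤ C * (1 + (‖x₀‖ + a))
        exact mul_le_mul_of_nonneg_left (by linarith) hC
      rw [dist_eq_norm] at h1 ⊢
      have e : f t x - f t y = chi R x • (b t x - b t y) + (chi R x - chi R y) • b t y := by
        rw [hf]
        show chi R x • b t x - chi R y • b t y = _
        rw [smul_sub, sub_smul]
        abel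
      rw [e]
      refine (norm_add_le _ _).trans ?_
      rw [norm_smul, norm_smul, Real.norm_of_nonneg (chi_nonneg R x), Real.norm_eq_abs]
      have h3 : chi R x * ‖b t x - b t y‖ ≤ K * dist x y :=
        (mul_le_of_le_one_left (norm_nonneg _) (chi_le R x)).trans h1
      have h4 : |chi R x - chi R y| * ‖b t y‖ ≤ dist x y * Mr := by
        rw [dist_eq_norm]
        exact mul_le_mul (chi_lip R x y) h2 (norm_nonneg _) (norm_nonneg _)
      push_cast
      linarith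
    · intro x _
      have hc : Continuous (fun t : ℝ => b t x) :=
        hb.continuous.comp (by fun_prop : Continuous fun t : ℝ => (t, x))
      exact (continuous_const.smul hc).continuousOn
    · intro t ht x _
      rcases le_total (R + 1) ‖x‖ with h | h
      · show ‖chi R x • b t x‖ ≤ _
        rw [chi_zero h, zero_smul, norm_zero]
        exact L.2
      · refine (hfg t ht x).trans ?_
        show C * (1 + ‖x‖) ≤ C * (2 + R)
        exact mul_le_mul_of_nonneg_left (by linarith) hC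
    · show C * (2 + R) * max (T - 0) (0 - 0) ≤ C * (2 + R) * T - ((0 : ℝ≥0) : ℝ)
      rw [sub_zero, sub_zero, max_eq_left hT, NNReal.coe_zero, sub_zero]
  obtain ⟨α, hα0, hα⟩ := hpl.exists_eq_forall_mem_Icc_hasDerivWithinAt₀
  have hα0' : α 0 = x₀ := hα0
  refine ⟨α, hα0', fun t ht => ?_⟩
  have hbd := bound hC hfg hα (δ := ‖x₀‖) (by rw [hα0']) t ht
  have h := hα t ht
  have e : f t (α t) = b t (α t) := by
    show chi R (α t) • b t (α t) = _
    rw [chi_one hbd, one_smul]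
  rwa [e] at h

end FlowExAux

open FlowExAux

variable {X : Type*} [NormedAddCommGroup X] [NormedSpace ℝ X] [FiniteDimensional ℝ X]

theorem flow_exists_tr' (b : ℝ → X → X) (hb : ContDiff ℝ 1 (fun p : ℝ × X => b p.1 p.2))
    (hg : ∀ T : ℝ, ∃ C : ℝ, ∀ t ∈ Set.Icc (0 : ℝ) T, ∀ x, ‖b t x‖ ≤ C * (1 + ‖x‖)) :
    ∃ Φ : ℝ → X → X, (∀ x, Φ 0 x = x) ∧
      (∀ x, ∀ t, 0 ≤ t → HasDerivWithinAt (fun τ => Φ τ x) (b t (Φ t x)) (Set.Ici 0) t) ∧
      ContinuousOn (fun p : ℝ × X => Φ p.1 p.2) (Set.Ici (0 : ℝ) ×ˢ Set.univ) := by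
  have hg' : ∀ T : ℝ, ∃ C : ℝ, 0 ≤ C ∧ ∀ t ∈ Icc (0 : ℝ) T, ∀ x, ‖b t x‖ ≤ C * (1 + ‖x‖) := by
    intro T
    obtain ⟨C, hC⟩ := hg T
    refine ⟨|C|, abs_nonneg C, fun t ht x => (hC t ht x).trans ?_⟩
    exact mul_le_mul_of_nonneg_right (le_abs_self C) (by positivity)
  choose C hC0 hC using hg'
  have hex : ∀ (n : ℕ) (x : X), ∃ α : ℝ → X, α 0 = x ∧
      ∀ t ∈ Icc (0 : ℝ) (n + 1), HasDerivWithinAt α (b t (α t)) (Icc 0 (n + 1)) t := fun n x =>
    sol_exists b hb (by positivity) (hC0 _) (hC _) x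
  choose A hA0 hA using hex
  -- uniqueness
  have huniq : ∀ (m n : ℕ) (x : X), m ≤ n → EqOn (A m x) (A n x) (Icc 0 (m + 1)) := by
    intro m n x hmn
    have hmn' : (m : ℝ) + 1 ≤ n + 1 := by
      have : (m : ℝ) ≤ n := by exact_mod_cast hmn
      linarith
    have hAn : ∀ t ∈ Icc (0 : ℝ) (m + 1),
        HasDerivWithinAt (A n x) (b t (A n x t)) (Icc 0 (m + 1)) t := fun t ht =>
      (hA n x t ⟨ht.1, ht.2.trans hmn'⟩).mono (Icc_subset_Icc_right hmn')
    obtain ⟨K, hK⟩ := lip_ball b hb (m + 1) (gronwallBound ‖x‖ (C (m + 1)) (C (m + 1)) (m + 1))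
    refine ODE_solution_unique_of_mem_Icc_right (v := b) (K := K)
      (s := fun _ => closedBall 0 (gronwallBound ‖x‖ (C (m + 1)) (C (m + 1)) (m + 1)))
      (fun t ht => hK t (Ico_subset_Icc_self ht)) (cont (hA m x)) (right_deriv (hA m x)) ?_
      (cont hAn) (right_deriv hAn) ?_ ?_
    · intro t ht
      rw [mem_closedBall_zero_iff]
      exact bound (hC0 _) (hC _) (hA m x) (by rw [hA0]) t (Ico_subset_Icc_self ht)
    · intro t ht
      rw [mem_closedBall_zero_iff]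
      exact bound (hC0 _) (hC _) hAn (by rw [hA0]) t (Ico_subset_Icc_self ht)
    · rw [hA0, hA0]
  set Φ : ℝ → X → X := fun t x => A ⌈t⌉₊ x t with hΦ
  have hΦn : ∀ (n : ℕ) (x : X), ∀ t ∈ Icc (0 : ℝ) (n + 1), Φ t x = A n x t := by
    intro n x t ht
    show A ⌈t⌉₊ x t = A n x t
    rcases le_total ⌈t⌉₊ n with h | h
    · refine huniq _ _ x h ⟨ht.1, ?_⟩
      have := Nat.le_ceil t
      linarith
    · exact (huniq _ _ x h ht).symm
  have hder : ∀ (n : ℕ) (x : X), ∀ t ∈ Icc (0 : ℝ) (n + 1),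
      HasDerivWithinAt (fun τ => Φ τ x) (b t (Φ t x)) (Icc 0 (n + 1)) t := by
    intro n x t ht
    rw [hΦn n x t ht]
    exact (hA n x t ht).congr (fun s hs => hΦn n x s hs) (hΦn n x t ht)
  refine ⟨Φ, fun x => ?_, fun x t ht => ?_, ?_⟩
  · show A ⌈(0 : ℝ)⌉₊ x 0 = x
    exact hA0 _ x
  · have h1 : t < (⌈t⌉₊ : ℝ) + 1 := by
      have := Nat.le_ceil t
      linarith
    refine (hder ⌈t⌉₊ x t ⟨ht, h1.le⟩).mono_of_mem_nhdsWithin ?_
    have h2 : Icc (0 : ℝ) (⌈t⌉₊ + 1) = Ici 0 ∩ Iic ((⌈t⌉₊ : ℝ) + 1) := by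
      ext s; simp
    rw [h2]
    exact Filter.inter_mem self_mem_nhdsWithin (mem_nhdsWithin_of_mem_nhds (Iic_mem_nhds h1))
  · refine continuousOn_of_locally_continuousOn fun p hp => ?_
    obtain ⟨t, x⟩ := p
    have ht0 : 0 ≤ t := hp.1
    set n := ⌈t⌉₊ with hn
    have h1 : t < (n : ℝ) + 1 := by
      have := Nat.le_ceil t
      linarith
    set ρ := ‖x‖ + 1 with hρ
    refine ⟨Iio ((n : ℝ) + 1) ×ˢ ball 0 ρ, isOpen_Iio.prod isOpen_ball, ⟨h1, ?_⟩, ?_⟩
    · show x ∈ ball 0 ρ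
      rw [mem_ball_zero_iff]
      linarith
    · set G := gronwallBound ρ (C (n + 1)) (C (n + 1)) (n + 1) with hG
      obtain ⟨K, hK⟩ := lip_ball b hb (n + 1) G
      have hcont : ContinuousOn (fun p : ℝ × X => Φ p.1 p.2)
          (Icc (0 : ℝ) (n + 1) ×ˢ closedBall 0 ρ) := by
        refine continuousOn_prod_of_continuousOn_lipschitzOnWith' (fun p : ℝ × X => Φ p.1 p.2)
          (⟨Real.exp (K * (n + 1)), (Real.exp_pos _).le⟩ : ℝ≥0) ?_ ?_
        · intro s hs
          refine LipschitzOnWith.of_dist_le_mul fun y hy z hz => ?_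
          have h2 := dist_le_of_trajectories_ODE_of_mem (v := b) (K := K)
            (s := fun _ => closedBall 0 G) (δ := dist y z)
            (fun t ht => hK t (Ico_subset_Icc_self ht))
            (cont (hder n y)) (right_deriv (α := fun τ => Φ τ y) (hder n y)) (fun t ht => by
              rw [mem_closedBall_zero_iff]
              refine bound (α := fun τ => Φ τ y) (hC0 _) (hC _) (hder n y) ?_ t
                (Ico_subset_Icc_self ht)
              show ‖A ⌈(0 : ℝ)⌉₊ y 0‖ ≤ ρ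
              rw [hA0]
              simpa using hy)
            (cont (hder n z)) (right_deriv (α := fun τ => Φ τ z) (hder n z)) (fun t ht => by
              rw [mem_closedBall_zero_iff]
              refine bound (α := fun τ => Φ τ z) (hC0 _) (hC _) (hder n z) ?_ t
                (Ico_subset_Icc_self ht)
              show ‖A ⌈(0 : ℝ)⌉₊ z 0‖ ≤ ρ
              rw [hA0]
              simpa using hz)
            (by
              show dist (A ⌈(0 : ℝ)⌉₊ y 0) (A ⌈(0 : ℝ)⌉₊ z 0) ≤ dist y z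
              rw [hA0, hA0]) s hs
          refine h2.trans ?_
          rw [mul_comm]
          refine mul_le_mul_of_nonneg_right ?_ dist_nonneg
          show Real.exp (K * (s - 0)) ≤ Real.exp (K * (n + 1))
          rw [sub_zero]
          exact Real.exp_le_exp.2 (mul_le_mul_of_nonneg_left hs.2 K.2)
        · intro y _
          exact cont (hder n y)
      refine hcont.mono ?_
      rintro ⟨s, y⟩ ⟨⟨hs, _⟩, ⟨hs2, hy⟩⟩
      exact ⟨⟨hs, le_of_lt hs2⟩, ball_subset_closedBall hy⟩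

end P347Z
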