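import Vale.Agent.P347Q.Gibbs

/-!
P347Z / LowerQ: the Gibbs laws of `‖x‖² / 2` and of `‖x‖²` are at total variation distance more than
`1/5` when `8 ≤ d`; in particular a sampler without queries is not accurate.
-/

open MeasureTheory ProbabilityTheory
open scoped ENNReal

namespace P347Z

open P347Q

namespace LowerQ

variable {d : ℕ}

/-- the quadratic potential -/
noncomputable def qd (d : ℕ) (c : ℝ) (x : E d) : ℝ := c * ‖x‖ ^ 2

theorem qd_cont (c : ℝ) : Continuous (qd d c) := by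
  unfold qd
  fun_prop

theorem qd_lower {c : ℝ} (hc : 1 / 4 ≤ c) (x : E d) : 0 + ‖x‖ ^ 2 / 4 ≤ qd d c x := by
  unfold qd
  nlinarith [sq_nonneg ‖x‖]

theorem qd_int {c : ℝ} (hc : 0 < c) :
    ∫ x, Real.exp (-qd d c x) = (Real.pi / c) ^ ((d : ℝ) / 2) := by
  have h := GaussianFourier.integral_rexp_neg_mul_sq_norm (V := E d) hc
  simp only [finrank_euclideanSpace, Fintype.card_fin] at h
  rw [← h]
  refine integral_congr_ae (Filter.Eventually.of_forall fun x => ?_)
  simp only [qd, neg_mul]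

theorem qd_integrable {c : ℝ} (hc : 1 / 4 ≤ c) : Integrable (fun x => Real.exp (-qd d c x)) :=
  exp_neg_integrable' (qd_cont c) (c := 0) (qd_lower hc)

/-- density -/
noncomputable def pd (d : ℕ) (c : ℝ) (x : E d) : ℝ :=
  (∫ x, Real.exp (-qd d c x))⁻¹ * Real.exp (-qd d c x)

theorem Zpos {c : ℝ} (hc : 0 < c) : 0 < ∫ x, Real.exp (-qd d c x) := by
  rw [qd_int hc]
  exact Real.rpow_pos_of_pos (div_pos Real.pi_pos hc) _

theorem pd_pos {c : ℝ} (hc : 0 < c) (x : E d) : 0 < pd d c x :=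
  mul_pos (inv_pos.2 (Zpos hc)) (Real.exp_pos _)

theorem pd_integrable {c : ℝ} (hc : 1 / 4 ≤ c) : Integrable (pd d c) :=
  (qd_integrable hc).const_mul _

theorem pd_cont (c : ℝ) : Continuous (pd d c) := by
  unfold pd
  have := qd_cont (d := d) c
  fun_prop

theorem pd_int {c : ℝ} (hc : 1 / 4 ≤ c) : ∫ x, pd d c x = 1 := by
  unfold pd
  rw [integral_const_mul]
  exact inv_mul_cancel₀ (Zpos (by linarith)).ne'

theorem gibbs_real {c : ℝ} (hc : 1 / 4 ≤ c) {B : Set (E d)} (hB : MeasurableSet B) :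
    (gibbs (qd d c)).real B = ∫ x, pd d c x * B.indicator (fun _ => (1 : ℝ)) x := by
  have h1 : (gibbs (qd d c)).real B = ∫ x, B.indicator (fun _ => (1 : ℝ)) x ∂(gibbs (qd d c)) := by
    rw [integral_indicator hB]
    simp
  rw [h1, integral_gibbs (qd_cont c) (c := 0) (qd_lower hc), ← integral_const_mul]
  refine integral_congr_ae (Filter.Eventually.of_forall fun x => ?_)
  simp only [pd]
  ring

theorem hell {d : ℕ} (hd : 8 ≤ d) :
    ∫ x, min (pd d (1 / 2) x) (pd d 1 x) < 4 / 5 := by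
  have d8 : (8 : ℝ) ≤ d := by exact_mod_cast hd
  have h1 : ∀ x, min (pd d (1 / 2) x) (pd d 1 x) ≤
      √((∫ x, Real.exp (-qd d (1 / 2) x))⁻¹ * (∫ x, Real.exp (-qd d 1 x))⁻¹) *
        Real.exp (-qd d (3 / 4) x) := by
    intro x
    have hm0 : 0 < min (pd d (1 / 2) x) (pd d 1 x) :=
      lt_min (pd_pos (by norm_num) x) (pd_pos (by norm_num) x)
    have e1 : Real.exp (-qd d (3 / 4) x) = √(Real.exp (-qd d (1 / 2) x) * Real.exp (-qd d 1 x)) := by
      rw [← Real.exp_add, ← Real.sqrt_sq (Real.exp_pos (-qd d (3 / 4) x)).le, ← Real.exp_nat_mul]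
      congr 2
      unfold qd
      push_cast
      ring
    rw [e1, ← Real.sqrt_mul (mul_nonneg (inv_nonneg.2 (Zpos (by norm_num)).le)
      (inv_nonneg.2 (Zpos (by norm_num)).le))]
    apply Real.le_sqrt_of_sq_le
    calc min (pd d (1 / 2) x) (pd d 1 x) ^ 2 =
          min (pd d (1 / 2) x) (pd d 1 x) * min (pd d (1 / 2) x) (pd d 1 x) := sq _
      _ ≤ pd d (1 / 2) x * pd d 1 x :=
          mul_le_mul (min_le_left _ _) (min_le_right _ _) hm0.le (pd_pos (by norm_num) x).le
      _ = _ := by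
        unfold pd
        ring
  have h2 : ∫ x, min (pd d (1 / 2) x) (pd d 1 x) ≤
      √((∫ x, Real.exp (-qd d (1 / 2) x))⁻¹ * (∫ x, Real.exp (-qd d 1 x))⁻¹) *
        ∫ x, Real.exp (-qd d (3 / 4) x) := by
    rw [← integral_const_mul]
    refine integral_mono ?_ ((qd_integrable (by norm_num)).const_mul _) h1
    exact (pd_integrable (by norm_num)).inf (pd_integrable (by norm_num))
  refine h2.trans_lt ?_
  rw [qd_int (by norm_num), qd_int (by norm_num), qd_int (by norm_num)]
  have p0 := Real.pi_pos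
  have e2 : √(((Real.pi / (1 / 2)) ^ ((d : ℝ) / 2))⁻¹ * ((Real.pi / 1) ^ ((d : ℝ) / 2))⁻¹) *
      (Real.pi / (3 / 4)) ^ ((d : ℝ) / 2) = (8 / 9 : ℝ) ^ ((d : ℝ) / 4) := by
    rw [← mul_inv, ← Real.mul_rpow (by positivity) (by positivity), Real.sqrt_inv,
      Real.sqrt_eq_rpow, ← Real.rpow_mul (by positivity)]
    have e3 : (Real.pi / (3 / 4)) ^ ((d : ℝ) / 2) =
        ((Real.pi / (3 / 4)) ^ (2 : ℝ)) ^ ((d : ℝ) / 4) := by
      rw [← Real.rpow_mul (by positivity)]
      congr 1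
      ring
    rw [e3, show (d : ℝ) / 2 * (1 / 2) = (d : ℝ) / 4 by ring, ← Real.inv_rpow (by positivity),
      ← Real.mul_rpow (by positivity) (by positivity)]
    congr 1
    rw [Real.rpow_two]
    field_simp
    norm_num
  rw [e2]
  calc (8 / 9 : ℝ) ^ ((d : ℝ) / 4) ≤ (8 / 9 : ℝ) ^ (2 : ℝ) :=
        Real.rpow_le_rpow_of_exponent_ge (by norm_num) (by norm_num) (by linarith)
    _ < 4 / 5 := by
      rw [Real.rpow_two]
      norm_num

theorem two_gauss {d : ℕ} (hd : 8 ≤ d) : ∃ B : Set (E d), MeasurableSet B ∧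
    1 / 5 < (gibbs (qd d 1)).real B - (gibbs (qd d (1 / 2))).real B := by
  refine ⟨{x | pd d (1 / 2) x ≤ pd d 1 x},
    (isClosed_le (pd_cont _) (pd_cont _)).measurableSet, ?_⟩
  have hB : MeasurableSet {x | pd d (1 / 2) x ≤ pd d 1 x} :=
    (isClosed_le (pd_cont _) (pd_cont _)).measurableSet
  have i1 : Integrable (pd d 1) := pd_integrable (by norm_num)
  have i2 : Integrable (pd d (1 / 2)) := pd_integrable (by norm_num)
  have j : ∀ f : E d → ℝ, Integrable f →
      Integrable (fun x => f x * {x | pd d (1 / 2) x ≤ pd d 1 x}.indicator (fun _ => (1 : ℝ)) x) := by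
    intro f hf
    have := hf.indicator hB
    refine this.congr (Filter.Eventually.of_forall fun x => ?_)
    by_cases hx : x ∈ {x | pd d (1 / 2) x ≤ pd d 1 x}
    · simp only [Set.indicator_of_mem hx, mul_one]
    · simp only [Set.indicator_of_notMem hx, mul_zero]
  rw [gibbs_real (by norm_num) hB, gibbs_real (by norm_num) hB, ← integral_sub (j _ i1) (j _ i2)]
  have e1 : ∀ x, pd d 1 x * {x | pd d (1 / 2) x ≤ pd d 1 x}.indicator (fun _ => (1 : ℝ)) x -
      pd d (1 / 2) x * {x | pd d (1 / 2) x ≤ pd d 1 x}.indicator (fun _ => (1 : ℝ)) x =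
        pd d 1 x - min (pd d (1 / 2) x) (pd d 1 x) := by
    intro x
    by_cases hx : x ∈ {x | pd d (1 / 2) x ≤ pd d 1 x}
    · rw [Set.indicator_of_mem hx, min_eq_left hx]
      ring
    · rw [Set.indicator_of_notMem hx, min_eq_right (le_of_not_ge hx)]
      ring
  simp_rw [e1]
  have i3 : Integrable (fun x => min (pd d (1 / 2) x) (pd d 1 x)) := i2.inf i1
  rw [integral_sub i1 i3, pd_int (by norm_num)]
  have := hell hd
  linarith

theorem grad_qd (c : ℝ) (x : E d) : gradient (qd d c) x = (2 * c) • x := by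
  have h : HasGradientAt (qd d c) ((2 * c) • x) x := by
    rw [hasGradientAt_iff_hasFDerivAt]
    have h1 := (hasStrictFDerivAt_norm_sq x).hasFDerivAt.const_mul c
    have e : (InnerProductSpace.toDual ℝ (E d)) ((2 * c) • x) = c • (2 • (innerSL ℝ) x) := by
      ext y
      simp
      ring
    rw [e]
    exact h1
  exact h.gradient

end LowerQ

end P347Z
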