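import Mathlib

/-!
P347Z / PRec: the abstract recursion in the exponents.
-/

namespace P347Z

/-- strong recursion in the accuracy exponent `A` with the threshold `a ≥ as/2 + as A / (2 Am)` -/
theorem exp_rec {Q : ℕ → ℝ → ℝ → Prop} {k as Am kR : ℝ} (has : 0 < as) (hask : as ≤ k)
    (hAm : 0 < Am) (hkR : 0 < kR) (hkR1 : 10 * Am * kR ≤ as ^ 2) (hkR2 : kR ≤ as / 4)
    (base : ∀ j a A, as / 2 ≤ a → A ≤ as / 4 → Q j a A)
    (step : ∀ j a A, as / 2 + 5 * kR / 4 ≤ a → a ≤ as + Am → as / 4 < A → A ≤ Am →
      Q j (a + 3 * kR / 4) (A - 3 * kR / 4) → Q j (a - 5 * kR / 4) (A - min a k + kR / 4) →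
      Q (j + 1) a A) :
    ∀ (n : ℕ) (A a : ℝ), A ≤ Am → A ≤ as / 4 + n * (3 * kR / 4) → as / 2 ≤ a →
      as / 2 + as * A / (2 * Am) ≤ a → a + A ≤ as + Am → Q n a A := by
  intro n
  induction n with
  | zero =>
    intro A a _ h2 h3 _ _
    exact base 0 a A h3 (by simpa using h2)
  | succ n ih =>
    intro A a h1 h2 h3 h4 h5
    by_cases hA : A ≤ as / 4
    · exact base _ a A h3 hA
    push Not at hA
    have hA0 : 0 < A := by linarith
    -- key inequality
    have e1 : as * (as / 4) / (2 * Am) ≤ as * A / (2 * Am) := by gcongr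
    have e2 : 5 * kR / 4 ≤ as * (as / 4) / (2 * Am) := by
      rw [le_div_iff₀ (by positivity)]
      nlinarith
    have h6 : as / 2 + 5 * kR / 4 ≤ a := by linarith
    have hdiv : ∀ x : ℝ, as * (A - x) / (2 * Am) = as * A / (2 * Am) - as * x / (2 * Am) := by
      intro x
      ring
    push_cast at h2
    refine step n a A h6 (by linarith) hA h1 ?_ ?_
    · refine ih _ _ (by linarith) (by linarith) (by linarith) ?_ (by linarith)
      rw [hdiv]
      have : 0 ≤ as * (3 * kR / 4) / (2 * Am) := by positivity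
      linarith
    · have hm : as / 2 ≤ min a k := le_min h3 (by linarith)
      have hm' : as / 4 ≤ min a k - kR / 4 := by linarith
      refine ih _ _ (by linarith) (by linarith) (by linarith) ?_ ?_
      · have e3 : A - min a k + kR / 4 = A - (min a k - kR / 4) := by ring
        rw [e3, hdiv]
        have e4 : as * (as / 4) / (2 * Am) ≤ as * (min a k - kR / 4) / (2 * Am) := by gcongr
        linarith
      · linarith

end P347Z
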