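import Mathlib

/-!
P347Z, module PST: the arithmetic of one step of the recursion.
-/

namespace P347Z

/-- widths -/
theorem pst_width {c₀ c₃ C h : ℝ} (hc0 : 0 < c₀) (hc3 : 0 < c₃) (hc31 : c₃ ≤ 1) (hC : 0 ≤ C)
    (hh : 0 ≤ h) (h1 : c₀ ^ 2 + 3 * C * h ≤ c₃ ^ 2) :
    ∃ c₁ c₂ : ℝ, c₀ ≤ c₁ ∧ c₁ ≤ c₂ ∧ c₂ ≤ c₃ ∧ c₀ ^ 2 + C * h ≤ c₁ ^ 2 ∧ c₁ ^ 2 + C * h ≤ c₂ ^ 2 ∧
      c₂ ^ 2 + C * h ≤ c₃ ^ 2 := by
  have h2 : 0 ≤ C * h := mul_nonneg hC hh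
  refine ⟨√(c₀ ^ 2 + (c₃ ^ 2 - c₀ ^ 2) / 3), √(c₀ ^ 2 + 2 * (c₃ ^ 2 - c₀ ^ 2) / 3), ?_, ?_, ?_,
    ?_, ?_, ?_⟩
  · refine Real.le_sqrt_of_sq_le ?_
    linarith
  · refine Real.sqrt_le_sqrt ?_
    linarith
  · refine Real.sqrt_le_iff.2 ⟨hc3.le, ?_⟩
    linarith
  · rw [Real.sq_sqrt (by nlinarith)]
    linarith
  · rw [Real.sq_sqrt (by nlinarith), Real.sq_sqrt (by nlinarith)]
    linarith
  · rw [Real.sq_sqrt (by nlinarith)]
    linarith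

/-- sizes -/
theorem pst_size {Ma Mk Mn Mf M J S K : ℕ} (hMa : 1 ≤ Ma) (hMk : 1 ≤ Mk) (hMn : 1 ≤ Mn)
    (hMf : 1 ≤ Mf) (hJ : 1 ≤ J) (hS : 1 ≤ S) (hM : 16 * Mf * Mk * Mn * (4 * Ma) ≤ M) :
    16 * (Mf * J * ((Mk * (4 * Ma * S) ^ (K + 2)) ^ (K + 2) *
      (Mn * J * (4 * Ma * S) ^ (K + 2)) ^ (K + 1))) ≤ (M * J * S) ^ ((K + 2) ^ 3) := by
  set X := M * J * S with hX
  have hM1 : 1 ≤ M := le_trans (Nat.one_le_iff_ne_zero.2 (by positivity)) hM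
  have hX1 : 1 ≤ X := Nat.one_le_iff_ne_zero.2 (by positivity)
  have hJS : 1 ≤ J * S := Nat.one_le_iff_ne_zero.2 (by positivity)
  have a1 : 16 * (Mf * J) ≤ X := by
    calc 16 * (Mf * J) = (16 * Mf * 1 * 1 * 1) * J * 1 := by ring
      _ ≤ (16 * Mf * Mk * Mn * (4 * Ma)) * J * S := by gcongr; omega
      _ ≤ M * J * S := by gcongr
  have a2 : Mk * (4 * Ma * S) ^ (K + 2) ≤ X ^ (K + 2) := by
    calc Mk * (4 * Ma * S) ^ (K + 2) ≤ Mk ^ (K + 2) * (4 * Ma * S) ^ (K + 2) := by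
          gcongr
          exact Nat.le_self_pow (by omega) Mk
      _ = (Mk * (4 * Ma * S)) ^ (K + 2) := (mul_pow _ _ _).symm
      _ ≤ X ^ (K + 2) := by
          refine Nat.pow_le_pow_left ?_ _
          calc Mk * (4 * Ma * S) = (1 * 1 * Mk * 1 * (4 * Ma)) * 1 * S := by ring
            _ ≤ (16 * Mf * Mk * Mn * (4 * Ma)) * J * S := by gcongr; omega
            _ ≤ M * J * S := by gcongr
  have a3 : Mn * J * (4 * Ma * S) ^ (K + 2) ≤ X ^ (K + 2) := by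
    calc Mn * J * (4 * Ma * S) ^ (K + 2) ≤ (Mn * J) ^ (K + 2) * (4 * Ma * S) ^ (K + 2) := by
          gcongr
          exact Nat.le_self_pow (by omega) (Mn * J)
      _ = (Mn * J * (4 * Ma * S)) ^ (K + 2) := (mul_pow _ _ _).symm
      _ ≤ X ^ (K + 2) := by
          refine Nat.pow_le_pow_left ?_ _
          calc Mn * J * (4 * Ma * S) = (1 * 1 * 1 * Mn * (4 * Ma)) * J * S := by ring
            _ ≤ (16 * Mf * Mk * Mn * (4 * Ma)) * J * S := by gcongr; omega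
            _ ≤ M * J * S := by gcongr
  calc 16 * (Mf * J * ((Mk * (4 * Ma * S) ^ (K + 2)) ^ (K + 2) *
      (Mn * J * (4 * Ma * S) ^ (K + 2)) ^ (K + 1)))
      = (16 * (Mf * J)) * ((Mk * (4 * Ma * S) ^ (K + 2)) ^ (K + 2) *
      (Mn * J * (4 * Ma * S) ^ (K + 2)) ^ (K + 1)) := by ring
    _ ≤ X * ((X ^ (K + 2)) ^ (K + 2) * (X ^ (K + 2)) ^ (K + 1)) := by gcongr
    _ = X ^ (1 + (K + 2) * (K + 2) + (K + 2) * (K + 1)) := by
        rw [← pow_mul, ← pow_mul, pow_add, pow_add, pow_one]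
        ring
    _ ≤ X ^ ((K + 2) ^ 3) := by
        refine Nat.pow_le_pow_right hX1 ?_
        have : (K + 2) ^ 3 = 1 + (K + 2) * (K + 2) + (K + 2) * (K + 1) +
            ((K + 2) * (K + 1) ^ 2 - 1) := by
          have h1 : 1 ≤ (K + 2) * (K + 1) ^ 2 := Nat.one_le_iff_ne_zero.2 (by positivity)
          zify [h1]
          ring
        omega

private theorem pst_inv {x y : ℝ} (hx0 : 0 < x) (hx1 : x ≤ 1) (h : y * x = 1) : 0 < y ∧ 1 ≤ y := by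
  have h1 : y = 1 / x := by
    field_simp
    linarith
  rw [h1]
  exact ⟨by positivity, (one_le_div hx0).2 hx1⟩

private theorem pst_err1 {Ca g R ir s lam del1 delf b Q : ℝ}
    (hCa : 1 ≤ Ca) (hg : 1 ≤ g) (hlR : lam * R ≤ 1)
    (hir0 : 0 < ir) (hs0 : 0 ≤ s) (hlam1 : lam ≤ 1) (hdf : 0 ≤ delf)
    (hb : 0 ≤ b) (hQ : lam * del1 + s * delf ≤ Q) {ε' : ℝ}
    (hε : ε' = Ca * g * (del1 + s * delf + 2 * b * R * ir)) :
    lam * ε' ≤ Ca * g * (Q + 2 * b * ir) := by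
  have e1 : lam * ε' = Ca * g * (lam * del1 + lam * (s * delf) + 2 * b * (lam * R) * ir) := by
    rw [hε]
    ring
  rw [e1]
  have hsd : 0 ≤ s * delf := by positivity
  have h1 : lam * (s * delf) ≤ s * delf := mul_le_of_le_one_left hsd hlam1
  have h2 : 2 * b * (lam * R) * ir ≤ 2 * b * 1 * ir := by gcongr
  have h3 : lam * del1 + lam * (s * delf) + 2 * b * (lam * R) * ir ≤ Q + 2 * b * ir := by
    linarith
  gcongr

private theorem pst_err2 {Ca Cn g u ir s lam delf b P th Q ε' e' : ℝ}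
    (hCa : 1 ≤ Ca) (hCn : 1 ≤ Cn) (hg : 1 ≤ g) (hu0 : 0 ≤ u) (hu : u ≤ g)
    (hir0 : 0 < ir) (hir1 : 1 ≤ ir) (hb : 0 ≤ b) (hP : P ≤ b) (hth : th ≤ b)
    (hQ0 : 0 ≤ Q) (hsdQ : s * delf ≤ Q)
    (b1 : lam * ε' ≤ Ca * g * (Q + 2 * b * ir))
    (he : e' = Cn * (P + u * (s * delf + lam * ε') + th * (u * ir))) :
    e' ≤ Cn * (Ca * g ^ 2 * (2 * Q + 4 * (b * ir))) := by
  have hg2 : g ≤ g ^ 2 := by nlinarith
  have hg21 : 1 ≤ g ^ 2 := by linarith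
  have hbir : b ≤ b * ir := le_mul_of_one_le_right hb hir1
  rw [he]
  have h0 : 0 ≤ Ca * g * (Q + 2 * b * ir) := by positivity
  have h1 : u * (s * delf + lam * ε') ≤ g * (Q + Ca * g * (Q + 2 * b * ir)) := by
    calc u * (s * delf + lam * ε') ≤ u * (Q + Ca * g * (Q + 2 * b * ir)) := by gcongr
      _ ≤ g * (Q + Ca * g * (Q + 2 * b * ir)) := by gcongr
  have h2 : th * (u * ir) ≤ b * (g * ir) := by
    calc th * (u * ir) ≤ b * (u * ir) := by gcongr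
      _ ≤ b * (g * ir) := by gcongr
  have h3 : g * Q ≤ Ca * g ^ 2 * Q := by
    calc g * Q = 1 * g * Q := by ring
      _ ≤ Ca * g ^ 2 * Q := by gcongr
  have h4 : b ≤ Ca * g ^ 2 * (b * ir) := by
    calc b = 1 * 1 * b := by ring
      _ ≤ Ca * g ^ 2 * (b * ir) := by gcongr
  have h5 : b * (g * ir) ≤ Ca * g ^ 2 * (b * ir) := by
    calc b * (g * ir) = 1 * g * (b * ir) := by ring
      _ ≤ Ca * g ^ 2 * (b * ir) := by gcongr
  have h6 : P + u * (s * delf + lam * ε') + th * (u * ir) ≤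
      Ca * g ^ 2 * (2 * Q + 4 * (b * ir)) := by
    have e6 : g * (Q + Ca * g * (Q + 2 * b * ir)) = g * Q + Ca * g ^ 2 * Q +
        2 * (Ca * g ^ 2 * (b * ir)) := by ring
    have e7 : Ca * g ^ 2 * (2 * Q + 4 * (b * ir)) = 2 * (Ca * g ^ 2 * Q) +
        4 * (Ca * g ^ 2 * (b * ir)) := by ring
    linarith
  gcongr

private theorem pst_err4 {Ca Ck g u ρ ir rs lam yl del2 b Q ε' εK' : ℝ}
    (hCa : 1 ≤ Ca) (hCk : 1 ≤ Ck) (hg : 1 ≤ g) (hu0 : 0 ≤ u) (hu : u ≤ g)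
    (hρ1 : ρ ≤ 1) (hrs0 : 0 < rs) (hir : ir * rs = 1) (hir0 : 0 < ir)
    (hlam1 : lam ≤ 1) (hyl : lam * yl ≤ ρ) (hd2 : 0 ≤ del2) (hb : 0 ≤ b) (hQ0 : 0 ≤ Q)
    (hdQ : del2 * ρ ≤ Q) (b1 : lam * ε' ≤ Ca * g * (Q + 2 * b * ir))
    (hK : εK' = Ck * (b + rs * yl * del2 + b * yl + rs * ε')) :
    lam * u * εK' ≤ Ck * Ca * g ^ 2 * (2 * (Q * rs) + 4 * b) := by
  have e1 : lam * u * εK' = Ck * u * (lam * b + (lam * yl) * (rs * del2) + b * (lam * yl) +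
      rs * (lam * ε')) := by
    rw [hK]
    ring
  rw [e1]
  have h1 : lam * b ≤ b := mul_le_of_le_one_left hb hlam1
  have h2 : (lam * yl) * (rs * del2) ≤ Q * rs := by
    calc (lam * yl) * (rs * del2) ≤ ρ * (rs * del2) := by gcongr
      _ = (del2 * ρ) * rs := by ring
      _ ≤ Q * rs := by gcongr
  have h3 : b * (lam * yl) ≤ b * 1 := by
    have := hyl.trans hρ1
    gcongr
  have h4 : rs * (lam * ε') ≤ rs * (Ca * g * (Q + 2 * b * ir)) := by gcongr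
  have h5 : rs * (Ca * g * (Q + 2 * b * ir)) = Ca * g * (Q * rs + 2 * b) := by
    calc rs * (Ca * g * (Q + 2 * b * ir)) = Ca * g * (Q * rs + 2 * b * (ir * rs)) := by ring
      _ = _ := by rw [hir, mul_one]
  have h6 : 2 * b + Q * rs ≤ Ca * g * (2 * b + Q * rs) :=
    le_mul_of_one_le_left (by positivity) (one_le_mul_of_one_le_of_one_le hCa hg)
  have h7 : lam * b + (lam * yl) * (rs * del2) + b * (lam * yl) + rs * (lam * ε') ≤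
      Ca * g * (2 * (Q * rs) + 4 * b) := by
    have e7 : Ca * g * (2 * (Q * rs) + 4 * b) = Ca * g * (2 * b + Q * rs) +
        Ca * g * (Q * rs + 2 * b) := by ring
    linarith
  have h8 : 0 ≤ Ca * g * (2 * (Q * rs) + 4 * b) := by positivity
  calc Ck * u * (lam * b + (lam * yl) * (rs * del2) + b * (lam * yl) + rs * (lam * ε'))
      ≤ Ck * u * (Ca * g * (2 * (Q * rs) + 4 * b)) := by gcongr
    _ ≤ Ck * g * (Ca * g * (2 * (Q * rs) + 4 * b)) := by gcongr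
    _ = _ := by ring

private theorem pst_err5 {Ca Ck g u lam yl X E : ℝ}
    (hCa : 1 ≤ Ca) (hCk : 1 ≤ Ck) (hg : 1 ≤ g) (hu0 : 0 ≤ u) (hu : u ≤ g)
    (hlam0 : 0 < lam) (hlam1 : lam ≤ 1) (hyl0 : 0 ≤ lam * yl) (hyl : lam * yl ≤ 1) (hX0 : 0 ≤ X)
    (hX : X ≤ E) :
    lam * u * ((Ck * yl + Ck * Ca * g) * X) ≤ 2 * Ck * Ca * g ^ 2 * E := by
  have e1 : lam * u * ((Ck * yl + Ck * Ca * g) * X) =
      u * (Ck * (lam * yl) + Ck * Ca * g * lam) * X := by ring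
  rw [e1]
  have h1 : u * (Ck * (lam * yl) + Ck * Ca * g * lam) ≤ 2 * Ck * Ca * g ^ 2 := by
    calc u * (Ck * (lam * yl) + Ck * Ca * g * lam) ≤ g * (Ck * 1 + Ck * Ca * g * 1) := by
          gcongr
      _ = g * (Ck * (1 * 1)) + Ck * Ca * g ^ 2 := by ring
      _ ≤ g * (Ck * (Ca * g)) + Ck * Ca * g ^ 2 := by gcongr
      _ = 2 * Ck * Ca * g ^ 2 := by ring
  gcongr

private theorem pst_err6 {Ca Ck Cn g W Z b x1 x2 x3 x4 x5 : ℝ}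
    (hCa : 1 ≤ Ca) (hCk : 1 ≤ Ck) (hCn : 1 ≤ Cn) (hg : 1 ≤ g) (hW0 : 0 ≤ W) (hb : 0 ≤ b)
    (hbZ : b ≤ Z) (h1 : x1 ≤ Z) (h2 : x2 ≤ W)
    (h3 : x3 ≤ Cn * Ca * g ^ 2 * (2 * W + 4 * b))
    (h4 : x4 ≤ Ck * Ca * g ^ 2 * (2 * W + 4 * b))
    (h5 : x5 ≤ 2 * Ck * Ca * g ^ 2 * (Cn * Ca * g ^ 2 * (2 * W + 4 * b))) :
    x1 + x2 + x3 + (x4 + x5) ≤ 17 * (Ck * Cn * Ca ^ 2 * g ^ 4) * (W + Z) := by
  set G := Ck * Cn * Ca ^ 2 * g ^ 4 with hG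
  have hZ0 : 0 ≤ Z := hb.trans hbZ
  have hX0 : 0 ≤ 2 * W + 4 * b := by positivity
  have hCa2 : Ca ≤ Ca ^ 2 := by nlinarith
  have hg21 : 1 ≤ g ^ 2 := one_le_pow₀ hg
  have hg4 : g ^ 2 ≤ g ^ 4 := by
    calc g ^ 2 = g ^ 2 * 1 := by ring
      _ ≤ g ^ 2 * g ^ 2 := by gcongr
      _ = g ^ 4 := by ring
  have hG1 : 1 ≤ G := by
    have h1 : 1 ≤ Ck * Cn := one_le_mul_of_one_le_of_one_le hCk hCn
    have h2 : 1 ≤ Ck * Cn * Ca ^ 2 := one_le_mul_of_one_le_of_one_le h1 (one_le_pow₀ hCa)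
    exact one_le_mul_of_one_le_of_one_le h2 (one_le_pow₀ hg)
  have c1 : Cn * Ca * g ^ 2 ≤ G := by
    calc Cn * Ca * g ^ 2 = 1 * Cn * Ca * g ^ 2 := by ring
      _ ≤ Ck * Cn * Ca ^ 2 * g ^ 4 := by gcongr
  have c2 : Ck * Ca * g ^ 2 ≤ G := by
    calc Ck * Ca * g ^ 2 = Ck * 1 * Ca * g ^ 2 := by ring
      _ ≤ Ck * Cn * Ca ^ 2 * g ^ 4 := by gcongr
  have c3 : 2 * Ck * Ca * g ^ 2 * (Cn * Ca * g ^ 2 * (2 * W + 4 * b)) =
      2 * (G * (2 * W + 4 * b)) := by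
    rw [hG]
    ring
  have d1 : x3 ≤ G * (2 * W + 4 * b) := h3.trans (mul_le_mul_of_nonneg_right c1 hX0)
  have d2 : x4 ≤ G * (2 * W + 4 * b) := h4.trans (mul_le_mul_of_nonneg_right c2 hX0)
  have d3 : x5 ≤ 2 * (G * (2 * W + 4 * b)) := h5.trans (le_of_eq c3)
  have d4 : x1 ≤ G * Z := h1.trans (le_mul_of_one_le_left hZ0 hG1)
  have d5 : x2 ≤ G * W := h2.trans (le_mul_of_one_le_left hW0 hG1)
  have d6 : G * (2 * W + 4 * b) ≤ 2 * (G * W) + 4 * (G * Z) := by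
    calc G * (2 * W + 4 * b) ≤ G * (2 * W + 4 * Z) := by gcongr
      _ = _ := by ring
  have d7 : 0 ≤ G * W := by positivity
  have e1 : 17 * G * (W + Z) = 17 * (G * W) + 17 * (G * Z) := by ring
  rw [e1]
  linarith

/-- the error of one step of the recursion -/
theorem pst_err {Ca Ck Cn Cf C g u ρ R ir rs s lam il yl del1 del2 delf b P th : ℝ}
    (hCa : 1 ≤ Ca) (hCk : 1 ≤ Ck) (hCn : 1 ≤ Cn) (hCf : 1 ≤ Cf)
    (hC : 17 * (Cf * Ck * Cn * Ca ^ 2) ≤ C) (hg : 1 ≤ g) (hu0 : 0 ≤ u) (hu : u ≤ g) (hρ0 : 0 ≤ ρ)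
    (hρ1 : ρ ≤ 1) (hR : 0 ≤ R) (hlR : lam * R ≤ 1) (hrs0 : 0 < rs) (hrs1 : rs ≤ 1)
    (hir : ir * rs = 1) (hs0 : 0 ≤ s) (hlam0 : 0 < lam) (hlam1 : lam ≤ 1) (hil : il * lam = 1)
    (hyl0 : 0 ≤ yl) (hyl : lam * yl ≤ ρ) (hd1 : 0 ≤ del1) (hd2 : 0 ≤ del2) (hdf : 0 ≤ delf)
    (hb : 0 ≤ b) (hP0 : 0 ≤ P) (hP : P ≤ b) (hth0 : 0 ≤ th) (hth : th ≤ b) {ε' e' εK' : ℝ}
    (hε : ε' = Ca * g * (del1 + s * delf + 2 * b * R * ir))
    (he : e' = Cn * (P + u * (s * delf + lam * ε') + th * (u * ir)))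
    (hK : εK' = Ck * (b + rs * yl * del2 + b * yl + rs * ε')) :
    Cf * (P * il + rs * ρ * del2 + rs * e' +
      lam * u * (εK' + (Ck * yl + Ck * Ca * g) * (rs * e'))) ≤
      C * g ^ 4 * ((del2 * ρ + lam * del1 + s * delf) * rs + b * ir * il) := by
  obtain ⟨hir0, hir1⟩ := pst_inv hrs0 hrs1 hir
  obtain ⟨hil0, hil1⟩ := pst_inv hlam0 hlam1 hil
  set Q := del2 * ρ + lam * del1 + s * delf with hQ
  have hsd : 0 ≤ s * delf := mul_nonneg hs0 hdf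
  have hld : 0 ≤ lam * del1 := mul_nonneg hlam0.le hd1
  have hdr : 0 ≤ del2 * ρ := mul_nonneg hd2 hρ0
  have hQ0 : 0 ≤ Q := by positivity
  have hε0 : 0 ≤ ε' := by
    rw [hε]
    positivity
  have b1 := pst_err1 (Q := Q) hCa hg hlR hir0 hs0 hlam1 hdf hb (by linarith) hε
  have b2 := pst_err2 hCa hCn hg hu0 hu hir0 hir1 hb hP hth hQ0 (by linarith) b1 he
  have he0 : 0 ≤ e' := by
    rw [he]
    positivity
  have hrse0 : 0 ≤ rs * e' := mul_nonneg hrs0.le he0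
  have b3 : rs * e' ≤ Cn * Ca * g ^ 2 * (2 * (Q * rs) + 4 * b) := by
    calc rs * e' ≤ rs * (Cn * (Ca * g ^ 2 * (2 * Q + 4 * (b * ir)))) := by gcongr
      _ = Cn * Ca * g ^ 2 * (2 * (Q * rs) + 4 * (b * (ir * rs))) := by ring
      _ = _ := by rw [hir, mul_one]
  have b4 := pst_err4 (Q := Q) hCa hCk hg hu0 hu hρ1 hrs0 hir hir0 hlam1 hyl hd2 hb hQ0
    (by linarith) b1 hK
  have b5 := pst_err5 hCa hCk hg hu0 hu hlam0 hlam1 (mul_nonneg hlam0.le hyl0)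
    (hyl.trans hρ1) hrse0 b3
  have hbir : b ≤ b * ir := le_mul_of_one_le_right hb hir1
  have hbZ : b ≤ b * ir * il := hbir.trans (le_mul_of_one_le_right (by positivity) hil1)
  have hPZ : P * il ≤ b * ir * il := mul_le_mul_of_nonneg_right (hP.trans hbir) hil0.le
  have hdd : rs * ρ * del2 ≤ Q * rs := by
    calc rs * ρ * del2 = (del2 * ρ) * rs := by ring
      _ ≤ Q * rs := mul_le_mul_of_nonneg_right (by linarith) hrs0.le
  have b6 := pst_err6 hCa hCk hCn hg (mul_nonneg hQ0 hrs0.le) hb hbZ hPZ hdd b3 b4 b5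
  have e6 : P * il + rs * ρ * del2 + rs * e' +
      lam * u * (εK' + (Ck * yl + Ck * Ca * g) * (rs * e')) = P * il + rs * ρ * del2 + rs * e' +
      (lam * u * εK' + lam * u * ((Ck * yl + Ck * Ca * g) * (rs * e'))) := by ring
  rw [e6]
  have hW0 : 0 ≤ Q * rs + b * ir * il := by positivity
  calc Cf * (P * il + rs * ρ * del2 + rs * e' +
      (lam * u * εK' + lam * u * ((Ck * yl + Ck * Ca * g) * (rs * e'))))
      ≤ Cf * (17 * (Ck * Cn * Ca ^ 2 * g ^ 4) * (Q * rs + b * ir * il)) := by gcongr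
    _ = (17 * (Cf * Ck * Cn * Ca ^ 2)) * g ^ 4 * (Q * rs + b * ir * il) := by ring
    _ ≤ C * g ^ 4 * (Q * rs + b * ir * il) := by gcongr

end P347Z
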