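import Vale.Agent.P347Q.QuadErr
import Vale.Agent.P347Q.QuadEx

/-!
Module RU1, RU2 (auxiliary file): weights by Vandermonde, Taylor remainder on `[0,h]`.
-/

open MeasureTheory ProbabilityTheory Function
open scoped ENNReal BigOperators

namespace P347Z

open P347Q

namespace RulesAux

/-- weights with prescribed moments -/
theorem wts (m : ℕ) (e : Fin m → ℝ) (he : Function.Injective e) (y : ℕ → ℝ) :
    ∃ c : Fin m → ℝ, ∀ i < m, ∑ j, c j * e j ^ i = y i := by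
  set V := Matrix.vandermonde e with hV
  have hdet : IsUnit V.det := isUnit_iff_ne_zero.2 (Matrix.det_vandermonde_ne_zero_iff.2 he)
  refine ⟨Matrix.vecMul (fun i : Fin m => y i) V⁻¹, fun i hi => ?_⟩
  have h1 : Matrix.vecMul (Matrix.vecMul (fun i : Fin m => y i) V⁻¹) V = fun i : Fin m => y i := by
    rw [Matrix.vecMul_vecMul, Matrix.nonsing_inv_mul V hdet, Matrix.vecMul_one]
  have h2 := congrFun h1 ⟨i, hi⟩
  simp only [Matrix.vecMul, dotProduct] at h2 ⊢
  rw [← h2]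
  refine Finset.sum_congr rfl fun j _ => ?_
  rw [hV, Matrix.vandermonde_apply]

section
variable {F : Type*} [NormedAddCommGroup F] [NormedSpace ℝ F]

theorem chain_cont (h : ℝ) (g : ℕ → ℝ → F)
    (hg : ∀ k, ∀ s ∈ Set.Icc (0 : ℝ) h,
      HasDerivWithinAt (g k) (g (k + 1) s) (Set.Icc (0 : ℝ) h) s) (k : ℕ) :
    ContinuousOn (g k) (Set.Icc (0 : ℝ) h) :=
  fun s hs => (hg k s hs).continuousWithinAt

theorem norm_le_int [CompleteSpace F] {h : ℝ} {f f' : ℝ → F} (h0 : f 0 = 0)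
    (hf : ∀ s ∈ Set.Icc (0 : ℝ) h, HasDerivWithinAt f (f' s) (Set.Icc (0 : ℝ) h) s)
    (hf' : ContinuousOn f' (Set.Icc (0 : ℝ) h)) {r : ℝ} (hr : r ∈ Set.Icc (0 : ℝ) h) :
    ‖f r‖ ≤ ∫ s in (0 : ℝ)..r, ‖f' s‖ := by
  have hsub : Set.Icc 0 r ⊆ Set.Icc (0 : ℝ) h := Set.Icc_subset_Icc_right hr.2
  have hc : ContinuousOn f (Set.Icc 0 r) := fun s hs =>
    ((hf s (hsub hs)).continuousWithinAt).mono hsub
  have hint : IntervalIntegrable f' volume 0 r := by
    apply ContinuousOn.intervalIntegrable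
    rw [Set.uIcc_of_le hr.1]
    exact hf'.mono hsub
  have h1 : ∫ s in (0 : ℝ)..r, f' s = f r - f 0 := by
    refine intervalIntegral.integral_eq_sub_of_hasDerivAt_of_le hr.1 hc (fun x hx => ?_) hint
    have hx' : x ∈ Set.Icc (0 : ℝ) h := hsub ⟨hx.1.le, hx.2.le⟩
    exact (hf x hx').hasDerivAt (Icc_mem_nhds hx.1 (lt_of_lt_of_le hx.2 hr.2))
  rw [h0, sub_zero] at h1
  rw [← h1]
  exact intervalIntegral.norm_integral_le_integral_norm hr.1

/-- Taylor's formula with the integral of the norm of the last derivative -/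
theorem taylor_err [CompleteSpace F] (h : ℝ) (g : ℕ → ℝ → F)
    (hg : ∀ k, ∀ s ∈ Set.Icc (0 : ℝ) h,
      HasDerivWithinAt (g k) (g (k + 1) s) (Set.Icc (0 : ℝ) h) s) (n : ℕ) :
    ∀ k, ∀ r ∈ Set.Icc (0 : ℝ) h,
      ‖g k r - tay g k (n + 1) r‖ ≤ r ^ n * ∫ s in (0 : ℝ)..r, ‖g (k + (n + 1)) s‖ := by
  have hd : ∀ n k, ∀ s ∈ Set.Icc (0 : ℝ) h,
      HasDerivWithinAt (fun r => g k r - tay g k (n + 1) r) (g (k + 1) s - tay g (k + 1) n s)
        (Set.Icc (0 : ℝ) h) s := by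
    intro n k s hs
    exact (hg k s hs).sub (tay_deriv g k n s).hasDerivWithinAt
  have hc : ∀ n k, ContinuousOn (fun s => g k s - tay g k n s)
      (Set.Icc (0 : ℝ) h) := by
    intro n k
    exact (chain_cont h g hg k).sub (tay_cont g k n).continuousOn
  have hz : ∀ n k, (fun r => g k r - tay g k (n + 1) r) 0 = 0 := by
    intro n k
    simp only [tay_zero, sub_self]
  have hint : ∀ k, ∀ r ∈ Set.Icc (0 : ℝ) h,
      IntervalIntegrable (fun s => ‖g k s‖) volume 0 r := by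
    intro k r hr
    apply ContinuousOn.intervalIntegrable
    rw [Set.uIcc_of_le hr.1]
    exact (chain_cont h g hg k).norm.mono (Set.Icc_subset_Icc_right hr.2)
  induction n with
  | zero =>
    intro k r hr
    have h1 := norm_le_int (hz 0 k) (hd 0 k) (hc 0 (k + 1)) hr
    simpa [tay] using h1
  | succ n ih =>
    intro k r hr
    have h1 := norm_le_int (hz (n + 1) k) (hd (n + 1) k) (hc (n + 1) (k + 1)) hr
    refine h1.trans ?_
    have h2 : ∀ s ∈ Set.Icc 0 r, ‖g (k + 1) s - tay g (k + 1) (n + 1) s‖ ≤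
        r ^ n * ∫ s in (0 : ℝ)..r, ‖g (k + (n + 1 + 1)) s‖ := by
      intro s hs
      have hs' : s ∈ Set.Icc (0 : ℝ) h := ⟨hs.1, hs.2.trans hr.2⟩
      refine (ih (k + 1) s hs').trans ?_
      have e : k + 1 + (n + 1) = k + (n + 1 + 1) := by ring
      rw [e]
      refine mul_le_mul (pow_le_pow_left₀ hs.1 hs.2 n) ?_
        (intervalIntegral.integral_nonneg hs.1 fun s _ => norm_nonneg _) (pow_nonneg hr.1 n)
      exact intervalIntegral.integral_mono_interval le_rfl hs.1 hs.2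
        (Filter.Eventually.of_forall fun s => norm_nonneg _) (hint _ r hr)
    calc ∫ s in (0 : ℝ)..r, ‖g (k + 1) s - tay g (k + 1) (n + 1) s‖
        ≤ ∫ s in (0 : ℝ)..r, r ^ n * ∫ s in (0 : ℝ)..r, ‖g (k + (n + 1 + 1)) s‖ := by
          refine intervalIntegral.integral_mono_on hr.1 ?_ (by simp) h2
          apply ContinuousOn.intervalIntegrable
          rw [Set.uIcc_of_le hr.1]
          exact (hc (n + 1) (k + 1)).norm.mono (Set.Icc_subset_Icc_right hr.2)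
      _ = r ^ (n + 1) * ∫ s in (0 : ℝ)..r, ‖g (k + (n + 1 + 1)) s‖ := by
          rw [intervalIntegral.integral_const, smul_eq_mul, sub_zero, pow_succ]
          ring

/-- uniform bound of the Taylor remainder -/
theorem taylor_err' [CompleteSpace F] {h : ℝ} (h0 : 0 ≤ h) (g : ℕ → ℝ → F)
    (hg : ∀ k, ∀ s ∈ Set.Icc (0 : ℝ) h,
      HasDerivWithinAt (g k) (g (k + 1) s) (Set.Icc (0 : ℝ) h) s) (n : ℕ)
    {r : ℝ} (hr : r ∈ Set.Icc 0 h) :
    ‖g 0 r - tay g 0 (n + 1) r‖ ≤ h ^ n * ∫ s in (0 : ℝ)..h, ‖g (n + 1) s‖ := by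
  have h1 := taylor_err h g hg n 0 r hr
  rw [zero_add] at h1
  refine h1.trans ?_
  have hint : IntervalIntegrable (fun s => ‖g (n + 1) s‖) volume 0 h := by
    apply ContinuousOn.intervalIntegrable
    rw [Set.uIcc_of_le h0]
    exact (chain_cont h g hg (n + 1)).norm
  refine mul_le_mul (pow_le_pow_left₀ hr.1 hr.2 n) ?_
    (intervalIntegral.integral_nonneg hr.1 fun s _ => norm_nonneg _) (pow_nonneg h0 n)
  exact intervalIntegral.integral_mono_interval le_rfl hr.1 hr.2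
    (Filter.Eventually.of_forall fun s => norm_nonneg _) hint

theorem wsum_abs {ι : Type*} [Fintype ι] (w : ι → ℝ) (v : ι → F) {B : ℝ}
    (hv : ∀ i, ‖v i‖ ≤ B) : ‖∑ i, w i • v i‖ ≤ (∑ i, |w i|) * B := by
  calc ‖∑ i, w i • v i‖ ≤ ∑ i, ‖w i • v i‖ := norm_sum_le _ _
    _ ≤ ∑ i, |w i| * B := by
        refine Finset.sum_le_sum fun i _ => ?_
        rw [norm_smul, Real.norm_eq_abs]
        exact mul_le_mul_of_nonneg_left (hv i) (abs_nonneg _)
    _ = (∑ i, |w i|) * B := by rw [Finset.sum_mul]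

/-- integral of the Taylor polynomial by a rule exact up to the end point `h c` -/
theorem int_tay [CompleteSpace F] {ι : Type*} [Fintype ι] (g : ℕ → ℝ → F) (n : ℕ) (h c : ℝ) (w t : ι → ℝ)
    (hw : ∀ i ≤ n, ∑ j, w j * t j ^ i = c ^ (i + 1) / ((i : ℝ) + 1)) :
    (∫ s in (0 : ℝ)..(h * c), tay g 0 (n + 1) s) = h • ∑ j, w j • tay g 0 (n + 1) (h * t j) := by
  unfold tay
  rw [intervalIntegral.integral_finsetSum (fun i _ => by
    apply Continuous.intervalIntegrable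
    fun_prop)]
  simp only [intervalIntegral.integral_smul_const, Finset.smul_sum]
  rw [Finset.sum_comm]
  refine Finset.sum_congr rfl fun i hi => ?_
  have h1 := hw i (by have := Finset.mem_range.1 hi; omega)
  simp only [smul_smul]
  rw [← Finset.sum_smul]
  congr 1
  rw [intervalIntegral.integral_div, integral_pow]
  have h2 : ∑ j, h * (w j * ((h * t j) ^ i / (i.factorial : ℝ))) =
      h ^ (i + 1) / (i.factorial : ℝ) * ∑ j, w j * t j ^ i := by
    rw [Finset.mul_sum]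
    refine Finset.sum_congr rfl fun j _ => ?_
    rw [mul_pow, pow_succ]
    ring
  rw [h2, h1, mul_pow]
  simp
  ring

/-- quadrature error -/
theorem quad_err [CompleteSpace F] {ι : Type*} [Fintype ι] {h : ℝ} (h0 : 0 ≤ h) (g : ℕ → ℝ → F)
    (hg : ∀ k, ∀ s ∈ Set.Icc (0 : ℝ) h,
      HasDerivWithinAt (g k) (g (k + 1) s) (Set.Icc (0 : ℝ) h) s) (n : ℕ) (c : ℝ)
    (hc : c ∈ Set.Icc (0 : ℝ) 1) (w t : ι → ℝ) (ht : ∀ j, t j ∈ Set.Icc (0 : ℝ) 1)
    (hw : ∀ i ≤ n, ∑ j, w j * t j ^ i = c ^ (i + 1) / ((i : ℝ) + 1)) :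
    ‖(∫ s in (0 : ℝ)..(h * c), g 0 s) - h • ∑ j, w j • g 0 (h * t j)‖ ≤
      (1 + ∑ j, |w j|) * h ^ (n + 1) * ∫ s in (0 : ℝ)..h, ‖g (n + 1) s‖ := by
  set J := ∫ s in (0 : ℝ)..h, ‖g (n + 1) s‖ with hJ
  have hJ0 : 0 ≤ J := intervalIntegral.integral_nonneg h0 fun s _ => norm_nonneg _
  have hhc : 0 ≤ h * c := mul_nonneg h0 hc.1
  have hhc1 : h * c ≤ h := mul_le_of_le_one_right h0 hc.2
  set ρ : ℝ → F := fun r => g 0 r - tay g 0 (n + 1) r with hρ
  have hb : ∀ r ∈ Set.Icc 0 h, ‖ρ r‖ ≤ h ^ n * J := fun r hr => taylor_err' h0 g hg n hr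
  have hB : 0 ≤ h ^ n * J := mul_nonneg (pow_nonneg h0 n) hJ0
  have hg0 : IntervalIntegrable (g 0) volume 0 (h * c) := by
    apply ContinuousOn.intervalIntegrable
    rw [Set.uIcc_of_le hhc]
    exact (chain_cont h g hg 0).mono (Set.Icc_subset_Icc_right hhc1)
  have htay : IntervalIntegrable (tay g 0 (n + 1)) volume 0 (h * c) :=
    (tay_cont g 0 (n + 1)).intervalIntegrable _ _
  have hdec : (∫ s in (0 : ℝ)..(h * c), g 0 s) - h • ∑ j, w j • g 0 (h * t j) =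
      (∫ s in (0 : ℝ)..(h * c), ρ s) - h • ∑ j, w j • ρ (h * t j) := by
    rw [hρ]
    rw [intervalIntegral.integral_sub hg0 htay, int_tay g n h c w t hw]
    simp only [smul_sub, Finset.sum_sub_distrib]
    abel
  rw [hdec]
  refine (norm_sub_le _ _).trans ?_
  have i1 : ‖∫ s in (0 : ℝ)..(h * c), ρ s‖ ≤ (h ^ n * J) * |h * c - 0| := by
    refine intervalIntegral.norm_integral_le_of_norm_le_const fun s hs => ?_
    rw [Set.uIoc_of_le hhc] at hs
    exact hb s ⟨hs.1.le, hs.2.trans hhc1⟩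
  have i2 : ‖h • ∑ j, w j • ρ (h * t j)‖ ≤ h * ((∑ j, |w j|) * (h ^ n * J)) := by
    rw [norm_smul, Real.norm_of_nonneg h0]
    refine mul_le_mul_of_nonneg_left ?_ h0
    refine wsum_abs w _ fun j => hb _ ?_
    exact ⟨mul_nonneg h0 (ht j).1, mul_le_of_le_one_right h0 (ht j).2⟩
  rw [sub_zero, abs_of_nonneg hhc] at i1
  have i3 : (h ^ n * J) * (h * c) ≤ (h ^ n * J) * h := mul_le_mul_of_nonneg_left hhc1 hB
  calc _ ≤ (h ^ n * J) * h + h * ((∑ j, |w j|) * (h ^ n * J)) := add_le_add (i1.trans i3) i2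
    _ = (1 + ∑ j, |w j|) * h ^ (n + 1) * J := by rw [pow_succ]; ring

/-- differentiation error -/
theorem diff_err [CompleteSpace F] {ι : Type*} [Fintype ι] {h : ℝ} (h0 : 0 < h) (g : ℕ → ℝ → F)
    (hg : ∀ k, ∀ s ∈ Set.Icc (0 : ℝ) h,
      HasDerivWithinAt (g k) (g (k + 1) s) (Set.Icc (0 : ℝ) h) s) (n : ℕ)
    (D t : ι → ℝ) (ht : ∀ j, t j ∈ Set.Icc (0 : ℝ) 1)
    (hD : ∀ i ≤ n + 1, ∑ j, D j * t j ^ i = if i = 1 then 1 else 0) :
    ‖g 1 0 - h⁻¹ • ∑ j, D j • g 0 (h * t j)‖ ≤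
      (∑ j, |D j|) * h ^ n * ∫ s in (0 : ℝ)..h, ‖g (n + 2) s‖ := by
  set J := ∫ s in (0 : ℝ)..h, ‖g (n + 2) s‖ with hJ
  have hJ0 : 0 ≤ J := intervalIntegral.integral_nonneg h0.le fun s _ => norm_nonneg _
  set ρ : ℝ → F := fun r => g 0 r - tay g 0 (n + 2) r with hρ
  have hb : ∀ r ∈ Set.Icc 0 h, ‖ρ r‖ ≤ h ^ (n + 1) * J := fun r hr =>
    taylor_err' h0.le g hg (n + 1) hr
  have hpoly : ∑ j, D j • tay g 0 (n + 2) (h * t j) = h • g 1 0 := by
    unfold tay
    simp only [Finset.smul_sum]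
    rw [Finset.sum_comm]
    have h1 : ∀ i ∈ Finset.range (n + 2),
        ∑ j, D j • ((h * t j) ^ i / (i.factorial : ℝ)) • g (0 + i) 0 =
          if i = 1 then h • g 1 0 else 0 := by
      intro i hi
      have h2 := hD i (by have := Finset.mem_range.1 hi; omega)
      simp only [smul_smul]
      rw [← Finset.sum_smul]
      have h3 : ∑ j, D j * ((h * t j) ^ i / (i.factorial : ℝ)) =
          h ^ i / (i.factorial : ℝ) * ∑ j, D j * t j ^ i := by
        rw [Finset.mul_sum]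
        refine Finset.sum_congr rfl fun j _ => ?_
        rw [mul_pow]
        ring
      rw [h3, h2]
      split_ifs with h4
      · subst h4
        simp
      · simp
    rw [Finset.sum_congr rfl h1, Finset.sum_ite_eq' (Finset.range (n + 2)) 1]
    rw [if_pos (Finset.mem_range.2 (by omega))]
  have hdec : g 1 0 - h⁻¹ • ∑ j, D j • g 0 (h * t j) = -(h⁻¹ • ∑ j, D j • ρ (h * t j)) := by
    have e : ∑ j, D j • ρ (h * t j) = ∑ j, D j • g 0 (h * t j) - h • g 1 0 := by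
      rw [← hpoly, ← Finset.sum_sub_distrib]
      refine Finset.sum_congr rfl fun j _ => ?_
      rw [hρ, smul_sub]
    rw [e, smul_sub, smul_smul, inv_mul_cancel₀ h0.ne', one_smul]
    abel
  rw [hdec, norm_neg, norm_smul, Real.norm_of_nonneg (inv_nonneg.2 h0.le)]
  have i2 : ‖∑ j, D j • ρ (h * t j)‖ ≤ (∑ j, |D j|) * (h ^ (n + 1) * J) := by
    refine wsum_abs D _ fun j => hb _ ?_
    exact ⟨mul_nonneg h0.le (ht j).1, mul_le_of_le_one_right h0.le (ht j).2⟩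
  calc h⁻¹ * ‖∑ j, D j • ρ (h * t j)‖ ≤ h⁻¹ * ((∑ j, |D j|) * (h ^ (n + 1) * J)) :=
        mul_le_mul_of_nonneg_left i2 (inv_nonneg.2 h0.le)
    _ = (∑ j, |D j|) * h ^ n * J := by
        rw [pow_succ]
        field_simp

end

end RulesAux

end P347Z
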