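import Mathlib

/-! P347Z, module T2 (helper62), part A: two-sided solutions of `γ' = b t γ`: existence,
a priori bound, Lipschitz dependence, uniqueness. -/

open MeasureTheory Set Metric
open scoped ENNReal NNReal BigOperators ContDiff Topology

namespace P347Z

variable {X : Type*} [NormedAddCommGroup X] [NormedSpace ℝ X]

/-- global solution -/
def Sol62 (b : ℝ → X → X) (γ : ℝ → X) : Prop := ∀ t, HasDerivAt γ (b t (γ t)) t

theorem Sol62.continuous {b : ℝ → X → X} {γ : ℝ → X} (h : Sol62 b γ) : Continuous γ :=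
  continuous_iff_continuousAt.2 fun t => (h t).continuousAt

/-- time reversal -/
theorem Sol62.rev {b : ℝ → X → X} {γ : ℝ → X} (h : Sol62 b γ) :
    Sol62 (fun t x => -b (-t) x) (fun t => γ (-t)) := by
  intro t
  have h1 := (h (-t)).scomp t (hasDerivAt_neg t)
  simpa [Function.comp_def] using h1

theorem gron_le62 {R C d D : ℝ} (hC : 1 ≤ C) (hR : 0 ≤ R) (hd : 0 ≤ d) (hdD : d ≤ D) :
    gronwallBound R C C d ≤ (R + 1) * Real.exp (C * D) := by
  have hC0 : C ≠ 0 := by linarith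
  rw [gronwallBound_of_K_ne_0 hC0]
  have h1 : C / C = 1 := div_self hC0
  have h2 : Real.exp (C * d) ≤ Real.exp (C * D) := by
    apply Real.exp_le_exp.2
    nlinarith
  rw [h1]
  have h3 := Real.exp_pos (C * D)
  have h4 := Real.exp_pos (C * d)
  nlinarith

/-- forward a priori bound -/
theorem Sol62.bound_fwd {b : ℝ → X → X} {γ : ℝ → X} (h : Sol62 b γ) {T C : ℝ} (hC : 1 ≤ C)
    (hg : ∀ t ∈ Icc (-T) T, ∀ x, ‖b t x‖ ≤ C * (1 + ‖x‖)) {R : ℝ} {s : ℝ}
    (hs : s ∈ Icc (-T) T) (hR : ‖γ s‖ ≤ R) {t : ℝ} (ht : t ∈ Icc (-T) T) (hst : s ≤ t) :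
    ‖γ t‖ ≤ (R + 1) * Real.exp (C * (2 * T)) := by
  have hR0 : 0 ≤ R := (norm_nonneg _).trans hR
  have h1 := norm_le_gronwallBound_of_norm_deriv_right_le (f := γ) (f' := fun t => b t (γ t))
    (δ := R) (K := C) (ε := C) (a := s) (b := T) h.continuous.continuousOn
    (fun x _ => (h x).hasDerivWithinAt) hR
    (fun x hx => by
      have := hg x ⟨hs.1.trans hx.1, hx.2.le⟩ (γ x)
      linarith) t ⟨hst, ht.2⟩
  refine h1.trans (gron_le62 hC hR0 (by linarith) ?_)
  linarith [hs.1, ht.2]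

/-- two-sided a priori bound -/
theorem Sol62.bound {b : ℝ → X → X} {γ : ℝ → X} (h : Sol62 b γ) {T C : ℝ} (hC : 1 ≤ C)
    (hg : ∀ t ∈ Icc (-T) T, ∀ x, ‖b t x‖ ≤ C * (1 + ‖x‖)) {R : ℝ} {s : ℝ}
    (hs : s ∈ Icc (-T) T) (hR : ‖γ s‖ ≤ R) {t : ℝ} (ht : t ∈ Icc (-T) T) :
    ‖γ t‖ ≤ (R + 1) * Real.exp (C * (2 * T)) := by
  rcases le_total s t with hst | hst
  · exact h.bound_fwd hC hg hs hR ht hst
  · have h2 := h.rev.bound_fwd (T := T) hC (fun u hu x => by
      rw [norm_neg]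
      exact hg (-u) ⟨by linarith [hu.2], by linarith [hu.1]⟩ x) (R := R) (s := -s)
      ⟨by linarith [hs.2], by linarith [hs.1]⟩ (by simpa using hR) (t := -t)
      ⟨by linarith [ht.2], by linarith [ht.1]⟩ (by linarith)
    simpa using h2

/-- forward Lipschitz dependence -/
theorem Sol62.lip_fwd {b : ℝ → X → X} {γ γ' : ℝ → X} (h : Sol62 b γ) (h' : Sol62 b γ') {T : ℝ}
    {K : ℝ≥0} {R : ℝ}
    (hL : ∀ t ∈ Icc (-T) T, LipschitzOnWith K (b t) (closedBall 0 R))
    (hR : ∀ t ∈ Icc (-T) T, ‖γ t‖ ≤ R) (hR' : ∀ t ∈ Icc (-T) T, ‖γ' t‖ ≤ R)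
    {s t : ℝ} (hs : s ∈ Icc (-T) T) (ht : t ∈ Icc (-T) T) (hst : s ≤ t) :
    dist (γ t) (γ' t) ≤ Real.exp (K * (2 * T)) * dist (γ s) (γ' s) := by
  have h1 := dist_le_of_trajectories_ODE_of_mem (v := b) (s := fun _ => closedBall (0:X) R)
    (K := K) (f := γ) (g := γ') (a := s) (b := T) (δ := dist (γ s) (γ' s))
    (fun u hu => hL u ⟨hs.1.trans hu.1, hu.2.le⟩) h.continuous.continuousOn
    (fun x _ => (h x).hasDerivWithinAt)
    (fun u hu => by
      rw [mem_closedBall_zero_iff]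
      exact hR u ⟨hs.1.trans hu.1, hu.2.le⟩)
    h'.continuous.continuousOn
    (fun x _ => (h' x).hasDerivWithinAt)
    (fun u hu => by
      rw [mem_closedBall_zero_iff]
      exact hR' u ⟨hs.1.trans hu.1, hu.2.le⟩) le_rfl t ⟨hst, ht.2⟩
  rw [mul_comm]
  refine h1.trans ?_
  apply mul_le_mul_of_nonneg_left _ dist_nonneg
  apply Real.exp_le_exp.2
  apply mul_le_mul_of_nonneg_left _ K.2
  linarith [hs.1, ht.2]

theorem Sol62.lip {b : ℝ → X → X} {γ γ' : ℝ → X} (h : Sol62 b γ) (h' : Sol62 b γ') {T : ℝ}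
    {K : ℝ≥0} {R : ℝ}
    (hL : ∀ t ∈ Icc (-T) T, LipschitzOnWith K (b t) (closedBall 0 R))
    (hR : ∀ t ∈ Icc (-T) T, ‖γ t‖ ≤ R) (hR' : ∀ t ∈ Icc (-T) T, ‖γ' t‖ ≤ R)
    {s t : ℝ} (hs : s ∈ Icc (-T) T) (ht : t ∈ Icc (-T) T) :
    dist (γ t) (γ' t) ≤ Real.exp (K * (2 * T)) * dist (γ s) (γ' s) := by
  rcases le_total s t with hst | hst
  · exact h.lip_fwd h' hL hR hR' hs ht hst
  · have h2 := h.rev.lip_fwd h'.rev (T := T) (K := K) (R := R) (fun u hu => by
      have := hL (-u) ⟨by linarith [hu.2], by linarith [hu.1]⟩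
      exact this.neg)
      (fun u hu => hR (-u) ⟨by linarith [hu.2], by linarith [hu.1]⟩)
      (fun u hu => hR' (-u) ⟨by linarith [hu.2], by linarith [hu.1]⟩)
      (s := -s) ⟨by linarith [hs.2], by linarith [hs.1]⟩ (t := -t)
      ⟨by linarith [ht.2], by linarith [ht.1]⟩ (by linarith)
    simpa using h2

/-- a `C¹` field is Lipschitz on balls, uniformly on compact time intervals -/
theorem lip_ball62 [FiniteDimensional ℝ X] (b : ℝ → X → X)
    (hb : ContDiff ℝ 1 (fun p : ℝ × X => b p.1 p.2)) (T R : ℝ) :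
    ∃ K : ℝ≥0, ∀ t ∈ Icc (-T) T, LipschitzOnWith K (b t) (closedBall 0 R) := by
  have hcomp : IsCompact (Icc (-T) T ×ˢ closedBall (0:X) R) :=
    isCompact_Icc.prod (isCompact_closedBall _ _)
  have hcont : Continuous (fun p : ℝ × X => ‖fderiv ℝ (fun q : ℝ × X => b q.1 q.2) p‖₊) :=
    (hb.continuous_fderiv (by norm_num)).nnnorm
  obtain ⟨K, hK⟩ := (hcomp.image hcont).bddAbove
  refine ⟨K, fun t ht => ?_⟩
  have hd : ∀ x, HasFDerivAt (b t) ((fderiv ℝ (fun q : ℝ × X => b q.1 q.2) (t, x)).comp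
      (ContinuousLinearMap.inr ℝ ℝ X)) x := by
    intro x
    have h1 : HasFDerivAt (fun q : ℝ × X => b q.1 q.2)
        (fderiv ℝ (fun q : ℝ × X => b q.1 q.2) (t, x)) (t, x) :=
      ((hb.differentiable (by norm_num)) (t, x)).hasFDerivAt
    have h2 : HasFDerivAt (fun y : X => (t, y)) (ContinuousLinearMap.inr ℝ ℝ X) x :=
      hasFDerivAt_prodMk_right t x
    exact h1.comp x h2
  apply Convex.lipschitzOnWith_of_nnnorm_hasFDerivWithin_le
    (f' := fun x => (fderiv ℝ (fun q : ℝ × X => b q.1 q.2) (t, x)).comp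
      (ContinuousLinearMap.inr ℝ ℝ X))
  · intro x _
    exact (hd x).hasFDerivWithinAt
  · intro x hx
    have h3 := hK (mem_image_of_mem _ (⟨ht, hx⟩ : (t, x) ∈ Icc (-T) T ×ˢ closedBall (0:X) R))
    refine le_trans ?_ h3
    refine (ContinuousLinearMap.opNNNorm_comp_le _ _).trans ?_
    calc ‖fderiv ℝ (fun q : ℝ × X => b q.1 q.2) (t, x)‖₊ * ‖ContinuousLinearMap.inr ℝ ℝ X‖₊
        ≤ ‖fderiv ℝ (fun q : ℝ × X => b q.1 q.2) (t, x)‖₊ * 1 := by
          gcongr
          exact ContinuousLinearMap.norm_inr_le_one ℝ ℝ X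
      _ = _ := mul_one _
  · exact convex_closedBall 0 R

/-- uniqueness -/
theorem Sol62.unique [FiniteDimensional ℝ X] {b : ℝ → X → X}
    (hb : ContDiff ℝ 1 (fun p : ℝ × X => b p.1 p.2)) {γ γ' : ℝ → X} (h : Sol62 b γ)
    (h' : Sol62 b γ') {s : ℝ} (hs : γ s = γ' s) : γ = γ' := by
  funext t
  set T := max |s| |t| with hT
  have hs' : s ∈ Icc (-T) T := abs_le.1 (le_max_left _ _)
  have ht' : t ∈ Icc (-T) T := abs_le.1 (le_max_right _ _)
  obtain ⟨R1, hR1⟩ := (isCompact_Icc (a := -T) (b := T)).exists_bound_of_continuousOn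
    h.continuous.continuousOn
  obtain ⟨R2, hR2⟩ := (isCompact_Icc (a := -T) (b := T)).exists_bound_of_continuousOn
    h'.continuous.continuousOn
  obtain ⟨K, hK⟩ := lip_ball62 b hb T (max R1 R2)
  have h1 := h.lip h' hK (fun u hu => (hR1 u hu).trans (le_max_left _ _))
    (fun u hu => (hR2 u hu).trans (le_max_right _ _)) hs' ht'
  rw [hs, dist_self, mul_zero] at h1
  exact dist_le_zero.1 h1

/-- one-sided solutions agree with global ones -/
theorem Sol62.eq_of_right [FiniteDimensional ℝ X] {b : ℝ → X → X}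
    (hb : ContDiff ℝ 1 (fun p : ℝ × X => b p.1 p.2)) {γ γ' : ℝ → X} (h : Sol62 b γ)
    (h' : ∀ t, 0 ≤ t → HasDerivWithinAt γ' (b t (γ' t)) (Ici 0) t) (h0 : γ' 0 = γ 0)
    (t : ℝ) (ht : 0 ≤ t) : γ' t = γ t := by
  have hc' : ContinuousOn γ' (Icc 0 t) := fun u hu =>
    ((h' u hu.1).continuousWithinAt).mono Icc_subset_Ici_self
  obtain ⟨R1, hR1⟩ := (isCompact_Icc (a := (0:ℝ)) (b := t)).exists_bound_of_continuousOn
    h.continuous.continuousOn
  obtain ⟨R2, hR2⟩ := (isCompact_Icc (a := (0:ℝ)) (b := t)).exists_bound_of_continuousOn hc'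
  obtain ⟨K, hK⟩ := lip_ball62 b hb t (max R1 R2)
  have h1 := dist_le_of_trajectories_ODE_of_mem (v := b) (s := fun _ => closedBall (0:X) (max R1 R2))
    (K := K) (f := γ') (g := γ) (a := 0) (b := t) (δ := 0)
    (fun u hu => hK u ⟨by linarith [hu.1, ht], hu.2.le⟩) hc'
    (fun u hu => (h' u hu.1).mono (Ici_subset_Ici.2 hu.1))
    (fun u hu => by
      rw [mem_closedBall_zero_iff]
      exact (hR2 u ⟨hu.1, hu.2.le⟩).trans (le_max_right _ _))
    h.continuous.continuousOn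
    (fun x _ => (h x).hasDerivWithinAt)
    (fun u hu => by
      rw [mem_closedBall_zero_iff]
      exact (hR1 u ⟨hu.1, hu.2.le⟩).trans (le_max_left _ _)) (by rw [h0, dist_self]) t ⟨ht, le_rfl⟩
  rw [zero_mul] at h1
  exact dist_le_zero.1 h1

/-- existence of two-sided solutions from the forward existence theorem -/
theorem exists_sol62 [FiniteDimensional ℝ X]
    (hex : ∀ b : ℝ → X → X, ContDiff ℝ 1 (fun p : ℝ × X => b p.1 p.2) →
      (∀ T : ℝ, ∃ C : ℝ, ∀ t ∈ Icc (0 : ℝ) T, ∀ x, ‖b t x‖ ≤ C * (1 + ‖x‖)) →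
      ∃ Φ : ℝ → X → X, (∀ x, Φ 0 x = x) ∧
      (∀ x, ∀ t, 0 ≤ t → HasDerivWithinAt (fun τ => Φ τ x) (b t (Φ t x)) (Ici 0) t))
    (b : ℝ → X → X) (hb : ContDiff ℝ 1 (fun p : ℝ × X => b p.1 p.2))
    (hg : ∀ T : ℝ, ∃ C : ℝ, ∀ t ∈ Icc (-T : ℝ) T, ∀ x, ‖b t x‖ ≤ C * (1 + ‖x‖)) (s : ℝ) (x : X) :
    ∃ γ : ℝ → X, γ s = x ∧ Sol62 b γ := by
  obtain ⟨Φ, hΦ0, hΦ⟩ := hex (fun u x => b (s + u) x)
    (by
      have : ContDiff ℝ 1 (fun p : ℝ × X => ((s + p.1, p.2) : ℝ × X)) :=
        (contDiff_const.add contDiff_fst).prodMk contDiff_snd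
      exact hb.comp this)
    (fun T => by
      obtain ⟨C, hC⟩ := hg (|s| + |T|)
      refine ⟨C, fun t ht x => hC (s + t) ?_ x⟩
      have h1 := neg_abs_le s
      have h2 := le_abs_self s
      have h3 := le_abs_self T
      have h4 := abs_nonneg T
      exact ⟨by linarith [ht.1], by linarith [ht.2]⟩)
  obtain ⟨Ψ, hΨ0, hΨ⟩ := hex (fun u x => -b (s - u) x)
    (by
      have : ContDiff ℝ 1 (fun p : ℝ × X => ((s - p.1, p.2) : ℝ × X)) :=
        (contDiff_const.sub contDiff_fst).prodMk contDiff_snd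
      exact (hb.comp this).neg)
    (fun T => by
      obtain ⟨C, hC⟩ := hg (|s| + |T|)
      refine ⟨C, fun t ht x => ?_⟩
      rw [norm_neg]
      refine hC (s - t) ?_ x
      have h1 := neg_abs_le s
      have h2 := le_abs_self s
      have h3 := le_abs_self T
      have h4 := abs_nonneg T
      exact ⟨by linarith [ht.2], by linarith [ht.1]⟩)
  -- the two half trajectories
  have hp : ∀ t, s ≤ t → HasDerivWithinAt (fun τ => Φ (τ - s) x) (b t (Φ (t - s) x)) (Ici s) t := by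
    intro t ht
    have h1 := hΦ x (t - s) (by linarith)
    have h2 : HasDerivWithinAt (fun τ : ℝ => τ - s) 1 (Ici s) t :=
      ((hasDerivAt_id t).sub_const s).hasDerivWithinAt
    have h3 := h1.scomp t h2 (fun u hu => by
      have : s ≤ u := hu
      exact sub_nonneg.2 this)
    have e : s + (t - s) = t := by ring
    simpa [e, Function.comp_def] using h3
  have hm : ∀ t, t ≤ s → HasDerivWithinAt (fun τ => Ψ (s - τ) x) (b t (Ψ (s - t) x)) (Iic s) t := by
    intro t ht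
    have h1 := hΨ x (s - t) (by linarith)
    have h2 : HasDerivWithinAt (fun τ : ℝ => s - τ) (-1) (Iic s) t :=
      ((hasDerivAt_id t).const_sub s).hasDerivWithinAt
    have h3 := h1.scomp t h2 (fun u hu => by
      have : u ≤ s := hu
      exact sub_nonneg.2 this)
    have e : s - (s - t) = t := by ring
    simpa [e, Function.comp_def] using h3
  classical
  refine ⟨fun t => if s ≤ t then Φ (t - s) x else Ψ (s - t) x, ?_, ?_⟩
  · simp [hΦ0]
  · intro t
    rcases lt_trichotomy t s with h | h | h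
    · have e : (fun t => if s ≤ t then Φ (t - s) x else Ψ (s - t) x) =ᶠ[𝓝 t]
          fun τ => Ψ (s - τ) x := by
        filter_upwards [Iio_mem_nhds h] with u hu
        rw [if_neg (not_le.2 hu)]
      have e' : (if s ≤ t then Φ (t - s) x else Ψ (s - t) x) = Ψ (s - t) x :=
        if_neg (not_le.2 h)
      simp only [e']
      exact ((hm t h.le).hasDerivAt (Iic_mem_nhds h)).congr_of_eventuallyEq e
    · subst h
      have e' : (if t ≤ t then Φ (t - t) x else Ψ (t - t) x) = x := by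
        rw [if_pos le_rfl, sub_self, hΦ0]
      simp only [e']
      have hr : HasDerivWithinAt (fun u => if t ≤ u then Φ (u - t) x else Ψ (t - u) x)
          (b t x) (Ici t) t := by
        have h1 := hp t le_rfl
        rw [sub_self, hΦ0] at h1
        refine h1.congr (fun u hu => ?_) ?_
        · exact if_pos hu
        · rw [if_pos le_rfl]
      have hl : HasDerivWithinAt (fun u => if t ≤ u then Φ (u - t) x else Ψ (t - u) x)
          (b t x) (Iic t) t := by
        have h1 := hm t le_rfl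
        rw [sub_self, hΨ0] at h1
        refine h1.congr (fun u hu => ?_) ?_
        · have hu' : u ≤ t := hu
          rcases lt_or_eq_of_le hu' with h | h
          · exact if_neg (not_le.2 h)
          · rw [h, if_pos le_rfl, sub_self, hΦ0, hΨ0]
        · rw [if_pos le_rfl, sub_self, hΦ0, hΨ0]
      have := hl.union hr
      rwa [Iic_union_Ici, hasDerivWithinAt_univ] at this
    · have e : (fun t => if s ≤ t then Φ (t - s) x else Ψ (s - t) x) =ᶠ[𝓝 t]
          fun τ => Φ (τ - s) x := by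
        filter_upwards [Ioi_mem_nhds h] with u hu
        rw [if_pos (le_of_lt hu)]
      have e' : (if s ≤ t then Φ (t - s) x else Ψ (s - t) x) = Φ (t - s) x :=
        if_pos h.le
      simp only [e']
      exact ((hp t h.le).hasDerivAt (Ici_mem_nhds h)).congr_of_eventuallyEq e

end P347Z
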