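import Mathlib

/-! P347Z, module T2 (helper62), part B: the Euler step estimate
`|∫ ψ(x+h a x) r - ∫ ψ r + h ∫ ψ div(r a)| ≤ M Λ h²` for `Λ`-Lipschitz `ψ` with support in a ball. -/

open MeasureTheory Set Metric
open scoped ENNReal NNReal BigOperators ContDiff Topology Convolution

namespace P347Z

variable {X : Type*} [NormedAddCommGroup X] [NormedSpace ℝ X] [FiniteDimensional ℝ X]
variable {κ : Type*} [Fintype κ]

/-- divergence of `r a` in a basis -/
noncomputable def dv62 (B : Module.Basis κ ℝ X) (a : X → X) (r : X → ℝ) (x : X) : ℝ :=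
  fderiv ℝ r x (a x) + r x * ∑ k, B.repr (fderiv ℝ a x (B k)) k

theorem dv62_continuous (B : Module.Basis κ ℝ X) {a : X → X} {r : X → ℝ} (ha : ContDiff ℝ 1 a)
    (hr : ContDiff ℝ 1 r) : Continuous (dv62 B a r) := by
  unfold dv62
  have h1 : Continuous (fun x => fderiv ℝ r x (a x)) :=
    (hr.continuous_fderiv (by norm_num)).clm_apply ha.continuous
  have h2 : Continuous (fun x => ∑ k, B.repr (fderiv ℝ a x (B k)) k) := by
    apply continuous_finsetSum
    intro k _
    have h3 : Continuous (fun x => fderiv ℝ a x (B k)) :=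
      (ha.continuous_fderiv (by norm_num)).clm_apply continuous_const
    exact (LinearMap.toContinuousLinearMap (B.coord k)).continuous.comp h3
  exact h1.add (hr.continuous.mul h2)

variable [MeasureSpace X] [BorelSpace X] [(volume : Measure X).IsAddHaarMeasure]

/-- integration by parts -/
theorem ibp62 (B : Module.Basis κ ℝ X) {a : X → X} {r F : X → ℝ} (ha : ContDiff ℝ 1 a)
    (hr : ContDiff ℝ 1 r) (hF : ContDiff ℝ 1 F) (hFc : HasCompactSupport F) :
    ∫ x, fderiv ℝ F x (a x) * r x = - ∫ x, F x * dv62 B a r x := by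
  set L : κ → X →L[ℝ] ℝ := fun k => LinearMap.toContinuousLinearMap (B.coord k) with hL
  have hLap : ∀ k y, L k y = B.repr y k := fun k y => rfl
  have hc : ∀ k, ContDiff ℝ 1 (fun x => L k (a x) * r x) := fun k =>
    ((L k).contDiff.comp ha).mul hr
  have hdF : Continuous (fun x => fderiv ℝ F x) := hF.continuous_fderiv (by norm_num)
  have i1 : ∀ k, Integrable (fun x => fderiv ℝ F x (B k) * (L k (a x) * r x)) := by
    intro k
    apply Continuous.integrable_of_hasCompactSupport
    · exact (hdF.clm_apply continuous_const).mul (hc k).continuous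
    · apply HasCompactSupport.mul_right
      exact (hFc.fderiv ℝ).comp_left (g := fun A : X →L[ℝ] ℝ => A (B k)) (by simp)
  have i2 : ∀ k, Integrable (fun x => F x * fderiv ℝ (fun x => L k (a x) * r x) x (B k)) := by
    intro k
    apply Continuous.integrable_of_hasCompactSupport
    · exact hF.continuous.mul (((hc k).continuous_fderiv (by norm_num)).clm_apply continuous_const)
    · exact hFc.mul_right
  have i3 : ∀ k, Integrable (fun x => F x * (L k (a x) * r x)) := by
    intro k
    apply Continuous.integrable_of_hasCompactSupport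
    · exact hF.continuous.mul (hc k).continuous
    · exact hFc.mul_right
  have hk : ∀ k, ∫ x, F x * fderiv ℝ (fun x => L k (a x) * r x) x (B k) =
      - ∫ x, fderiv ℝ F x (B k) * (L k (a x) * r x) := fun k =>
    integral_mul_fderiv_eq_neg_fderiv_mul_of_integrable (i1 k) (i2 k) (i3 k)
      (fun x _ => (hF.differentiable (by norm_num)) x)
      (fun x _ => ((hc k).differentiable (by norm_num)) x)
  have e1 : ∀ x, fderiv ℝ F x (a x) * r x = ∑ k, fderiv ℝ F x (B k) * (L k (a x) * r x) := by
    intro x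
    have h1 : fderiv ℝ F x (a x) = ∑ k, L k (a x) * fderiv ℝ F x (B k) := by
      conv_lhs => rw [← B.sum_repr (a x)]
      rw [map_sum]
      apply Finset.sum_congr rfl
      intro k _
      rw [map_smul, smul_eq_mul, hLap]
    rw [h1, Finset.sum_mul]
    apply Finset.sum_congr rfl
    intro k _
    ring
  have e2 : ∀ x, F x * dv62 B a r x =
      ∑ k, F x * fderiv ℝ (fun x => L k (a x) * r x) x (B k) := by
    intro x
    have h1 : fderiv ℝ r x (a x) = ∑ k, L k (a x) * fderiv ℝ r x (B k) := by
      conv_lhs => rw [← B.sum_repr (a x)]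
      rw [map_sum]
      apply Finset.sum_congr rfl
      intro k _
      rw [map_smul, smul_eq_mul, hLap]
    have h2 : ∀ k, fderiv ℝ (fun x => L k (a x) * r x) x (B k) =
        L k (a x) * fderiv ℝ r x (B k) + r x * L k (fderiv ℝ a x (B k)) := by
      intro k
      have ha' : HasFDerivAt a (fderiv ℝ a x) x := ((ha.differentiable (by norm_num)) x).hasFDerivAt
      have hr' : HasFDerivAt r (fderiv ℝ r x) x := ((hr.differentiable (by norm_num)) x).hasFDerivAt
      have h3 : HasFDerivAt (fun x => L k (a x)) ((L k).comp (fderiv ℝ a x)) x :=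
        (L k).hasFDerivAt.comp x ha'
      have h4 : fderiv ℝ (fun x => L k (a x) * r x) x =
          L k (a x) • fderiv ℝ r x + r x • (L k).comp (fderiv ℝ a x) := (h3.mul hr').fderiv
      rw [h4]
      simp
    rw [← Finset.mul_sum]
    congr 1
    unfold dv62
    rw [h1, Finset.mul_sum, ← Finset.sum_add_distrib]
    apply Finset.sum_congr rfl
    intro k _
    rw [h2, hLap k (fderiv ℝ a x (B k))]
  calc ∫ x, fderiv ℝ F x (a x) * r x
      = ∫ x, ∑ k, fderiv ℝ F x (B k) * (L k (a x) * r x) := by
        congr 1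
        funext x
        exact e1 x
    _ = ∑ k, ∫ x, fderiv ℝ F x (B k) * (L k (a x) * r x) :=
        integral_finsetSum _ (fun k _ => i1 k)
    _ = ∑ k, - ∫ x, F x * fderiv ℝ (fun x => L k (a x) * r x) x (B k) := by
        apply Finset.sum_congr rfl
        intro k _
        rw [hk k, neg_neg]
    _ = - ∫ x, ∑ k, F x * fderiv ℝ (fun x => L k (a x) * r x) x (B k) := by
        rw [integral_finsetSum _ (fun k _ => i2 k), Finset.sum_neg_distrib]
    _ = - ∫ x, F x * dv62 B a r x := by
        congr 2
        funext x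
        exact (e2 x).symm

omit [FiniteDimensional ℝ X] [MeasureSpace X] [BorelSpace X]
  [(volume : Measure X).IsAddHaarMeasure] in
/-- if `ψ` vanishes outside the ball of radius `R` then `ψ (x + s a x)` vanishes outside the ball of
radius `4R+3`, for `|s| C ≤ 3/4` -/
theorem supp62 {a : X → X} {C : ℝ} (hg : ∀ x, ‖a x‖ ≤ C * (1 + ‖x‖)) {ψ : X → ℝ}
    {R : ℝ} (hψ : ∀ x, R < ‖x‖ → ψ x = 0) {s : ℝ} (hs : |s| * C ≤ 3 / 4) {x : X}
    (hx : 4 * R + 3 < ‖x‖) : ψ (x + s • a x) = 0 := by
  apply hψ
  have h1 : ‖x‖ ≤ ‖x + s • a x‖ + ‖s • a x‖ := by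
    have := norm_sub_le (x + s • a x) (s • a x)
    simpa using this
  have h2 : ‖s • a x‖ ≤ 3 / 4 * (1 + ‖x‖) := by
    rw [norm_smul, Real.norm_eq_abs]
    calc |s| * ‖a x‖ ≤ |s| * (C * (1 + ‖x‖)) := mul_le_mul_of_nonneg_left (hg x) (abs_nonneg _)
      _ = |s| * C * (1 + ‖x‖) := by ring
      _ ≤ 3 / 4 * (1 + ‖x‖) := mul_le_mul_of_nonneg_right hs (by positivity)
  linarith

/-- the constant -/
noncomputable def M62 (B : Module.Basis κ ℝ X) (a : X → X) (r : X → ℝ) (R : ℝ) : ℝ :=
  ∫ x in closedBall (0:X) (4 * R + 3), (‖a x‖ * |dv62 B a r x| + ‖fderiv ℝ a x (a x)‖ * |r x|)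

omit [FiniteDimensional ℝ X] [BorelSpace X] [(volume : Measure X).IsAddHaarMeasure] in
theorem M62_nonneg (B : Module.Basis κ ℝ X) (a : X → X) (r : X → ℝ) (R : ℝ) :
    0 ≤ M62 B a r R := by
  unfold M62
  apply integral_nonneg
  intro x
  positivity

/-- Euler step estimate, `C¹` case -/
theorem step62 (B : Module.Basis κ ℝ X) {a : X → X} {r ψ : X → ℝ} (ha : ContDiff ℝ 1 a)
    (hr : ContDiff ℝ 1 r) (hψ : ContDiff ℝ 1 ψ) {C : ℝ} (hC : 0 < C)
    (hg : ∀ x, ‖a x‖ ≤ C * (1 + ‖x‖)) {Λ : ℝ≥0} (hΛ : ∀ x, ‖fderiv ℝ ψ x‖ ≤ Λ) {R : ℝ}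
    (hR : ∀ x, R < ‖x‖ → ψ x = 0) {h : ℝ} (hh : |h| * C ≤ 1 / 2) :
    |(∫ x, ψ (x + h • a x) * r x) - (∫ x, ψ x * r x) + h * ∫ x, ψ x * dv62 B a r x| ≤
      M62 B a r R * Λ * h ^ 2 := by
  have hdv := dv62_continuous B ha hr
  have hψd : Differentiable ℝ ψ := hψ.differentiable (by norm_num)
  have had : Differentiable ℝ a := ha.differentiable (by norm_num)
  have hdψc : Continuous (fun x => fderiv ℝ ψ x) := hψ.continuous_fderiv (by norm_num)
  have hdac : Continuous (fun x => fderiv ℝ a x) := ha.continuous_fderiv (by norm_num)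
  have hac := ha.continuous
  have hrc := hr.continuous
  have hEc : ∀ s : ℝ, Continuous (fun x => x + s • a x) := fun s =>
    continuous_id.add (hac.const_smul s)
  have hψlip : LipschitzWith Λ ψ := by
    apply lipschitzWith_of_nnnorm_fderiv_le hψd
    intro x
    exact hΛ x
  have hψR' : ∀ x, 4 * R + 3 < ‖x‖ → ψ x = 0 := by
    intro x hx
    have := supp62 hg hR (s := 0) (by norm_num) hx
    simpa using this
  -- derivative of the Euler step composed with ψ vanishes outside the big ball
  have hdψ0 : ∀ s : ℝ, |s| * C < 3 / 4 → ∀ x, 4 * R + 3 < ‖x‖ → fderiv ℝ ψ (x + s • a x) = 0 := by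
    intro s hs x hx
    have h1 : R < ‖x + s • a x‖ := by
      have h1 : ‖x‖ ≤ ‖x + s • a x‖ + ‖s • a x‖ := by
        have := norm_sub_le (x + s • a x) (s • a x)
        simpa using this
      have h2 : ‖s • a x‖ ≤ 3 / 4 * (1 + ‖x‖) := by
        rw [norm_smul, Real.norm_eq_abs]
        calc |s| * ‖a x‖ ≤ |s| * (C * (1 + ‖x‖)) := mul_le_mul_of_nonneg_left (hg x) (abs_nonneg _)
          _ = |s| * C * (1 + ‖x‖) := by ring
          _ ≤ 3 / 4 * (1 + ‖x‖) := mul_le_mul_of_nonneg_right hs.le (by positivity)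
      linarith
    have h2 : ψ =ᶠ[𝓝 (x + s • a x)] fun _ => 0 := by
      filter_upwards [(isOpen_lt continuous_const continuous_norm).mem_nhds h1] with y hy
      exact hR y hy
    rw [h2.fderiv_eq]
    simp
  have hcompF : ∀ s : ℝ, |s| * C < 3 / 4 → HasCompactSupport (fun x => ψ (x + s • a x)) := by
    intro s hs
    apply HasCompactSupport.intro (isCompact_closedBall (0:X) (4 * R + 3))
    intro x hx
    rw [mem_closedBall_zero_iff, not_le] at hx
    exact supp62 hg hR hs.le hx
  have hFsm : ∀ s : ℝ, ContDiff ℝ 1 (fun x => ψ (x + s • a x)) := fun s =>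
    hψ.comp (contDiff_id.add (ha.const_smul s))
  have hFd : ∀ (s : ℝ) (x : X), fderiv ℝ (fun x => ψ (x + s • a x)) x (a x) =
      fderiv ℝ ψ (x + s • a x) (a x) + s * fderiv ℝ ψ (x + s • a x) (fderiv ℝ a x (a x)) := by
    intro s x
    have h1 : HasFDerivAt (fun x => x + s • a x)
        (ContinuousLinearMap.id ℝ X + s • fderiv ℝ a x) x :=
      (hasFDerivAt_id x).add ((had x).hasFDerivAt.const_smul s)
    have h2 : HasFDerivAt ψ (fderiv ℝ ψ (x + s • a x)) (x + s • a x) := (hψd _).hasFDerivAt
    have h3 := (h2.comp x h1).fderiv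
    have h4 : fderiv ℝ (fun x => ψ (x + s • a x)) x = (fderiv ℝ ψ (x + s • a x)).comp
        (ContinuousLinearMap.id ℝ X + s • fderiv ℝ a x) := h3
    rw [h4]
    simp
  -- the derivative of K
  have hK : ∀ s : ℝ, |s| * C < 3 / 4 → HasDerivAt (fun s => ∫ x, ψ (x + s • a x) * r x)
      (∫ x, fderiv ℝ ψ (x + s • a x) (a x) * r x) s := by
    intro s hs
    have hnb : {s : ℝ | |s| * C < 3 / 4} ∈ 𝓝 s :=
      (isOpen_lt (continuous_abs.mul continuous_const) continuous_const).mem_nhds hs
    refine (hasDerivAt_integral_of_dominated_loc_of_deriv_le (μ := volume)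
      (F := fun s x => ψ (x + s • a x) * r x)
      (F' := fun s x => fderiv ℝ ψ (x + s • a x) (a x) * r x)
      (bound := (closedBall (0:X) (4 * R + 3)).indicator (fun x => Λ * ‖a x‖ * |r x|))
      hnb ?_ ?_ ?_ ?_ ?_ ?_).2
    · filter_upwards with t
      exact ((hψ.continuous.comp (hEc t)).mul hrc).aestronglyMeasurable
    · exact ((hψ.continuous.comp (hEc s)).mul hrc).integrable_of_hasCompactSupport
        (hcompF s hs).mul_right
    · exact (((hdψc.comp (hEc s)).clm_apply hac).mul hrc).aestronglyMeasurable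
    · filter_upwards with x
      intro t ht
      by_cases hx : x ∈ closedBall (0:X) (4 * R + 3)
      · rw [indicator_of_mem hx, norm_mul, Real.norm_eq_abs (r x)]
        apply mul_le_mul_of_nonneg_right _ (abs_nonneg _)
        exact (ContinuousLinearMap.le_opNorm _ _).trans
          (mul_le_mul_of_nonneg_right (hΛ _) (norm_nonneg _))
      · rw [indicator_of_notMem hx]
        rw [mem_closedBall_zero_iff, not_le] at hx
        rw [hdψ0 t ht x hx]
        simp
    · rw [integrable_indicator_iff measurableSet_closedBall]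
      apply ContinuousOn.integrableOn_compact (isCompact_closedBall _ _)
      exact ((continuous_const.mul hac.norm).mul hrc.abs).continuousOn
    · filter_upwards with x
      intro t _
      have h1 : HasDerivAt (fun t : ℝ => x + t • a x) (a x) t := by
        have := ((hasDerivAt_id t).smul_const (a x)).const_add x
        simpa using this
      have h2 : HasFDerivAt ψ (fderiv ℝ ψ (x + t • a x)) (x + t • a x) := (hψd _).hasFDerivAt
      have h3 := h2.comp_hasDerivAt t h1
      exact h3.mul_const (r x)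
  -- the bound of K' + c
  have hbd : ∀ s : ℝ, |s| * C < 3 / 4 → ‖(∫ x, fderiv ℝ ψ (x + s • a x) (a x) * r x) +
      ∫ x, ψ x * dv62 B a r x‖ ≤ |s| * (Λ * M62 B a r R) := by
    intro s hs
    have j1 : Integrable (fun x => fderiv ℝ (fun x => ψ (x + s • a x)) x (a x) * r x) := by
      apply Continuous.integrable_of_hasCompactSupport
      · exact (((hFsm s).continuous_fderiv (by norm_num)).clm_apply hac).mul hrc
      · apply HasCompactSupport.mul_right
        apply ((hcompF s hs).fderiv ℝ).mono'
        intro x hx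
        rw [Function.mem_support] at hx
        apply subset_tsupport
        rw [Function.mem_support]
        intro h0
        apply hx
        rw [h0]
        rfl
    have j2 : Integrable (fun x => fderiv ℝ ψ (x + s • a x) (fderiv ℝ a x (a x)) * r x) := by
      apply Continuous.integrable_of_hasCompactSupport
      · exact ((hdψc.comp (hEc s)).clm_apply (hdac.clm_apply hac)).mul hrc
      · apply HasCompactSupport.intro (isCompact_closedBall (0:X) (4 * R + 3))
        intro x hx
        rw [mem_closedBall_zero_iff, not_le] at hx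
        rw [hdψ0 s hs x hx]
        simp
    have j3 : Integrable (fun x => ψ x * dv62 B a r x) := by
      apply Continuous.integrable_of_hasCompactSupport (hψ.continuous.mul hdv)
      apply HasCompactSupport.intro (isCompact_closedBall (0:X) (4 * R + 3))
      intro x hx
      rw [mem_closedBall_zero_iff, not_le] at hx
      show ψ x * dv62 B a r x = 0
      rw [hψR' x hx, zero_mul]
    have j4 : Integrable (fun x => ψ (x + s • a x) * dv62 B a r x) :=
      ((hψ.continuous.comp (hEc s)).mul hdv).integrable_of_hasCompactSupport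
        (hcompF s hs).mul_right
    have e1 : ∫ x, fderiv ℝ ψ (x + s • a x) (a x) * r x =
        (∫ x, fderiv ℝ (fun x => ψ (x + s • a x)) x (a x) * r x) -
        s * ∫ x, fderiv ℝ ψ (x + s • a x) (fderiv ℝ a x (a x)) * r x := by
      rw [← integral_const_mul, ← integral_sub j1 (j2.const_mul s)]
      congr 1
      funext x
      rw [hFd s x]
      ring
    rw [e1, ibp62 B ha hr (hFsm s) (hcompF s hs)]
    have e2 : (-(∫ x, ψ (x + s • a x) * dv62 B a r x) -
        s * ∫ x, fderiv ℝ ψ (x + s • a x) (fderiv ℝ a x (a x)) * r x) +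
        ∫ x, ψ x * dv62 B a r x =
        ∫ x, ((ψ x * dv62 B a r x - ψ (x + s • a x) * dv62 B a r x) -
          s * (fderiv ℝ ψ (x + s • a x) (fderiv ℝ a x (a x)) * r x)) := by
      have q1 := integral_sub (μ := volume)
        (f := fun x => ψ x * dv62 B a r x - ψ (x + s • a x) * dv62 B a r x)
        (g := fun x => s * (fderiv ℝ ψ (x + s • a x) (fderiv ℝ a x (a x)) * r x))
        (j3.sub j4) (j2.const_mul s)
      rw [q1, integral_sub j3 j4, integral_const_mul]
      ring
    rw [e2]
    have e3 : |s| * (Λ * M62 B a r R) = ∫ x, (closedBall (0:X) (4 * R + 3)).indicator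
        (fun x => |s| * Λ * (‖a x‖ * |dv62 B a r x| + ‖fderiv ℝ a x (a x)‖ * |r x|)) x := by
      rw [integral_indicator measurableSet_closedBall, integral_const_mul]
      unfold M62
      ring
    rw [e3]
    apply norm_integral_le_of_norm_le
    · rw [integrable_indicator_iff measurableSet_closedBall]
      apply ContinuousOn.integrableOn_compact (isCompact_closedBall _ _)
      exact (continuous_const.mul ((hac.norm.mul hdv.abs).add
        ((hdac.clm_apply hac).norm.mul hrc.abs))).continuousOn
    · filter_upwards with x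
      by_cases hx : x ∈ closedBall (0:X) (4 * R + 3)
      · rw [indicator_of_mem hx]
        have k1 : |ψ x - ψ (x + s • a x)| ≤ Λ * (|s| * ‖a x‖) := by
          have := hψlip.dist_le_mul x (x + s • a x)
          rw [Real.dist_eq, dist_self_add_right, norm_smul, Real.norm_eq_abs] at this
          exact this
        have k2 : |fderiv ℝ ψ (x + s • a x) (fderiv ℝ a x (a x))| ≤ Λ * ‖fderiv ℝ a x (a x)‖ :=
          (ContinuousLinearMap.le_opNorm _ _).trans
            (mul_le_mul_of_nonneg_right (hΛ _) (norm_nonneg _))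
        calc ‖(ψ x * dv62 B a r x - ψ (x + s • a x) * dv62 B a r x) -
            s * (fderiv ℝ ψ (x + s • a x) (fderiv ℝ a x (a x)) * r x)‖
            ≤ ‖ψ x * dv62 B a r x - ψ (x + s • a x) * dv62 B a r x‖ +
              ‖s * (fderiv ℝ ψ (x + s • a x) (fderiv ℝ a x (a x)) * r x)‖ := norm_sub_le _ _
          _ = |ψ x - ψ (x + s • a x)| * |dv62 B a r x| +
              |s| * (|fderiv ℝ ψ (x + s • a x) (fderiv ℝ a x (a x))| * |r x|) := by
              rw [← sub_mul, Real.norm_eq_abs, Real.norm_eq_abs, abs_mul, abs_mul, abs_mul]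
          _ ≤ Λ * (|s| * ‖a x‖) * |dv62 B a r x| +
              |s| * (Λ * ‖fderiv ℝ a x (a x)‖ * |r x|) := by
              gcongr
          _ = |s| * Λ * (‖a x‖ * |dv62 B a r x| + ‖fderiv ℝ a x (a x)‖ * |r x|) := by ring
      · rw [indicator_of_notMem hx]
        rw [mem_closedBall_zero_iff, not_le] at hx
        rw [hψR' x hx, supp62 hg hR hs.le hx, hdψ0 s hs x hx]
        simp
  -- mean value inequality
  have hseg : ∀ s ∈ Icc (-|h|) |h|, |s| * C < 3 / 4 := by
    intro s hs
    have : |s| ≤ |h| := abs_le.2 hs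
    nlinarith
  have hmv := Convex.norm_image_sub_le_of_norm_hasDerivWithin_le
    (f := fun s : ℝ => (∫ x, ψ (x + s • a x) * r x) + s * ∫ x, ψ x * dv62 B a r x)
    (f' := fun s : ℝ => (∫ x, fderiv ℝ ψ (x + s • a x) (a x) * r x) + ∫ x, ψ x * dv62 B a r x)
    (C := |h| * (Λ * M62 B a r R)) (s := Icc (-|h|) |h|) (x := 0) (y := h)
    (fun s hs => by
      have h1 := (hK s (hseg s hs)).add ((hasDerivAt_id s).mul_const
        (∫ x, ψ x * dv62 B a r x))
      simp only [one_mul, id] at h1
      exact h1.hasDerivWithinAt)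
    (fun s hs => (hbd s (hseg s hs)).trans (mul_le_mul_of_nonneg_right (abs_le.2 hs)
      (mul_nonneg Λ.2 (M62_nonneg B a r R))))
    (convex_Icc _ _) ⟨by simp, by simp⟩ ⟨neg_abs_le h, le_abs_self h⟩
  simp only [zero_smul, add_zero, zero_mul, sub_zero] at hmv
  rw [Real.norm_eq_abs, Real.norm_eq_abs] at hmv
  calc |(∫ x, ψ (x + h • a x) * r x) - (∫ x, ψ x * r x) + h * ∫ x, ψ x * dv62 B a r x|
      = |(∫ x, ψ (x + h • a x) * r x) + h * (∫ x, ψ x * dv62 B a r x) - ∫ x, ψ x * r x| := by
        congr 1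
        ring
    _ ≤ |h| * (Λ * M62 B a r R) * |h| := hmv
    _ = M62 B a r R * Λ * |h| ^ 2 := by ring
    _ = M62 B a r R * Λ * h ^ 2 := by rw [sq_abs]

end P347Z
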