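import Vale.Agent.P347Z.TransA
import Vale.Agent.P347Z.TransB

/-! P347Z, module T2 (helper62), part C: mollification, Euler step estimate for Lipschitz functions. -/

open MeasureTheory Set Metric
open scoped ENNReal NNReal BigOperators ContDiff Topology Convolution

namespace P347Z

variable {X : Type*} [NormedAddCommGroup X] [NormedSpace ℝ X] [FiniteDimensional ℝ X]
variable {κ : Type*} [Fintype κ]
variable [MeasureSpace X] [BorelSpace X] [(volume : Measure X).IsAddHaarMeasure]

omit [MeasureSpace X] [BorelSpace X] [(volume : Measure X).IsAddHaarMeasure] in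
theorem compsupp62 {f : X → ℝ} {R : ℝ} (hR : ∀ x, R < ‖x‖ → f x = 0) : HasCompactSupport f := by
  apply HasCompactSupport.intro (isCompact_closedBall (0:X) R)
  intro x hx
  rw [mem_closedBall_zero_iff, not_le] at hx
  exact hR x hx

/-- mollification of a continuous function -/
theorem approx62 {f : X → ℝ} (hf : Continuous f) {R : ℝ} (hR : ∀ x, R < ‖x‖ → f x = 0)
    {η δ : ℝ} (hδ : 0 < δ) (hδ1 : δ ≤ 1)
    (hmod : ∀ x y, dist x y < δ → dist (f x) (f y) ≤ η) :
    ∃ g : X → ℝ, ContDiff ℝ 1 g ∧ (∀ x, R + 1 < ‖x‖ → g x = 0) ∧ (∀ x, |g x - f x| ≤ η) ∧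
      ∀ Λ : ℝ≥0, LipschitzWith Λ f → LipschitzWith Λ g := by
  set φ : ContDiffBump (0:X) := ⟨δ / 2, δ, by linarith, by linarith⟩ with hφ
  have hφout : φ.rOut = δ := rfl
  set g : X → ℝ := (φ.normed volume ⋆[ContinuousLinearMap.lsmul ℝ ℝ, volume] f) with hg
  have hgdef : ∀ x, g x = ∫ t, φ.normed volume t * f (x - t) := fun x => rfl
  have hφc : Continuous (φ.normed volume) := φ.continuous_normed
  have hint : ∀ x, Integrable (fun t => φ.normed volume t * f (x - t)) := by
    intro x
    apply Continuous.integrable_of_hasCompactSupport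
    · exact hφc.mul (hf.comp (continuous_const.sub continuous_id))
    · exact φ.hasCompactSupport_normed.mul_right
  refine ⟨g, ?_, ?_, ?_, ?_⟩
  · exact φ.hasCompactSupport_normed.contDiff_convolution_left _ (φ.contDiff_normed (n := 1))
      hf.locallyIntegrable
  · intro x hx
    rw [hgdef]
    apply integral_eq_zero_of_ae
    filter_upwards with t
    by_cases ht : t ∈ ball (0:X) δ
    · have h1 : R < ‖x - t‖ := by
        rw [mem_ball_zero_iff] at ht
        have := norm_sub_norm_le x t
        linarith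
      simp [hR _ h1]
    · have h0 : φ.normed volume t = 0 := by
        have := φ.support_normed_eq (μ := volume)
        rw [hφout] at this
        by_contra hne
        apply ht
        rw [← this]
        exact hne
      simp [h0]
  · intro x
    have := φ.dist_normed_convolution_le (μ := volume) (x₀ := x) (g := f) (ε := η)
      hf.aestronglyMeasurable (fun y hy => hmod y x hy)
    rw [Real.dist_eq] at this
    exact this
  · intro Λ hΛ
    apply LipschitzWith.of_dist_le_mul
    intro x y
    rw [Real.dist_eq, hgdef, hgdef, ← integral_sub (hint x) (hint y)]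
    calc |∫ t, (φ.normed volume t * f (x - t) - φ.normed volume t * f (y - t))|
        ≤ ∫ t, φ.normed volume t * (Λ * dist x y) := by
          rw [← Real.norm_eq_abs]
          apply norm_integral_le_of_norm_le
          · exact φ.integrable_normed.mul_const _
          · filter_upwards with t
            rw [← mul_sub, norm_mul, Real.norm_of_nonneg (φ.nonneg_normed _)]
            apply mul_le_mul_of_nonneg_left _ (φ.nonneg_normed _)
            have := hΛ.dist_le_mul (x - t) (y - t)
            rwa [dist_sub_right, Real.dist_eq] at this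
      _ = Λ * dist x y := by
          rw [integral_mul_const, φ.integral_normed, one_mul]

/-- comparison of integrals -/
theorem int_diff62 {u v w : X → ℝ} (hu : Continuous u) (hv : Continuous v) (hw : Continuous w)
    {ρ δ : ℝ} (hu0 : ∀ x, ρ < ‖x‖ → u x = 0) (hv0 : ∀ x, ρ < ‖x‖ → v x = 0)
    (huv : ∀ x, |u x - v x| ≤ δ) :
    |(∫ x, u x * w x) - ∫ x, v x * w x| ≤ δ * ∫ x in closedBall (0:X) ρ, |w x| := by
  have i1 : Integrable (fun x => u x * w x) :=
    (hu.mul hw).integrable_of_hasCompactSupport (compsupp62 hu0).mul_right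
  have i2 : Integrable (fun x => v x * w x) :=
    (hv.mul hw).integrable_of_hasCompactSupport (compsupp62 hv0).mul_right
  rw [← integral_sub i1 i2, ← integral_const_mul, ← integral_indicator measurableSet_closedBall,
    ← Real.norm_eq_abs]
  apply norm_integral_le_of_norm_le
  · rw [integrable_indicator_iff measurableSet_closedBall]
    apply ContinuousOn.integrableOn_compact (isCompact_closedBall _ _)
    exact (continuous_const.mul hw.abs).continuousOn
  · filter_upwards with x
    by_cases hx : x ∈ closedBall (0:X) ρ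
    · rw [indicator_of_mem hx, ← sub_mul, norm_mul, Real.norm_eq_abs, Real.norm_eq_abs]
      exact mul_le_mul_of_nonneg_right (huv x) (abs_nonneg _)
    · rw [indicator_of_notMem hx]
      rw [mem_closedBall_zero_iff, not_le] at hx
      simp [hu0 x hx, hv0 x hx]

/-- Euler step estimate, Lipschitz case -/
theorem stepL62 (B : Module.Basis κ ℝ X) {a : X → X} {r ψ : X → ℝ} (ha : ContDiff ℝ 1 a)
    (hr : ContDiff ℝ 1 r) {C : ℝ} (hC : 0 < C)
    (hg : ∀ x, ‖a x‖ ≤ C * (1 + ‖x‖)) {Λ : ℝ≥0} (hΛ : LipschitzWith Λ ψ) {R : ℝ}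
    (hR : ∀ x, R < ‖x‖ → ψ x = 0) {h : ℝ} (hh : |h| * C ≤ 1 / 2) :
    |(∫ x, ψ (x + h • a x) * r x) - (∫ x, ψ x * r x) + h * ∫ x, ψ x * dv62 B a r x| ≤
      M62 B a r (R + 1) * Λ * h ^ 2 := by
  have hdv := dv62_continuous B ha hr
  have hE : Continuous (fun x => x + h • a x) := continuous_id.add (ha.continuous.const_smul h)
  set D : ℝ := (∫ x in closedBall (0:X) (4 * (R + 1) + 3), |r x|) +
    (∫ x in closedBall (0:X) (R + 1), |r x|) +
    |h| * ∫ x in closedBall (0:X) (R + 1), |dv62 B a r x| with hD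
  have hD0 : 0 ≤ D := by
    have k1 : 0 ≤ ∫ x in closedBall (0:X) (4 * (R + 1) + 3), |r x| :=
      integral_nonneg fun x => abs_nonneg _
    have k2 : 0 ≤ ∫ x in closedBall (0:X) (R + 1), |r x| := integral_nonneg fun x => abs_nonneg _
    have k3 : 0 ≤ ∫ x in closedBall (0:X) (R + 1), |dv62 B a r x| :=
      integral_nonneg fun x => abs_nonneg _
    have k4 := mul_nonneg (abs_nonneg h) k3
    linarith
  have key : ∀ ε : ℝ, 0 < ε → ε ≤ 1 →
      |(∫ x, ψ (x + h • a x) * r x) - (∫ x, ψ x * r x) + h * ∫ x, ψ x * dv62 B a r x| ≤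
      M62 B a r (R + 1) * Λ * h ^ 2 + ε * (Λ * D) := by
    intro ε hε hε1
    obtain ⟨g, hg1, hg0, hgf, hgL⟩ := approx62 (f := ψ) hΛ.continuous hR (η := Λ * ε) hε hε1
      (fun x y hxy => (hΛ.dist_le_mul x y).trans (mul_le_mul_of_nonneg_left hxy.le Λ.2))
    have hgL' := hgL Λ hΛ
    have hst := step62 B ha hr hg1 hC hg (Λ := Λ)
      (fun x => norm_fderiv_le_of_lipschitz ℝ hgL') hg0 hh
    have hψ0' : ∀ x, R + 1 < ‖x‖ → ψ x = 0 := fun x hx => hR x (by linarith)
    have d1 := int_diff62 (u := fun x => ψ (x + h • a x)) (v := fun x => g (x + h • a x)) (w := r)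
      (hΛ.continuous.comp hE) (hg1.continuous.comp hE) hr.continuous
      (ρ := 4 * (R + 1) + 3) (δ := Λ * ε)
      (fun x hx => supp62 hg hψ0' (by linarith) hx)
      (fun x hx => supp62 hg hg0 (by linarith) hx)
      (fun x => by rw [abs_sub_comm]; exact hgf _)
    have d2 := int_diff62 (u := ψ) (v := g) (w := r)
      hΛ.continuous hg1.continuous hr.continuous
      (ρ := R + 1) (δ := Λ * ε) hψ0' hg0
      (fun x => by rw [abs_sub_comm]; exact hgf _)
    have d3 := int_diff62 (u := ψ) (v := g) (w := dv62 B a r)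
      hΛ.continuous hg1.continuous hdv
      (ρ := R + 1) (δ := Λ * ε) hψ0' hg0
      (fun x => by rw [abs_sub_comm]; exact hgf _)
    set P1 := ∫ x, ψ (x + h • a x) * r x
    set P2 := ∫ x, ψ x * r x
    set P3 := ∫ x, ψ x * dv62 B a r x
    set Q1 := ∫ x, g (x + h • a x) * r x
    set Q2 := ∫ x, g x * r x
    set Q3 := ∫ x, g x * dv62 B a r x
    have e : P1 - P2 + h * P3 = (Q1 - Q2 + h * Q3) + (P1 - Q1) - (P2 - Q2) + h * (P3 - Q3) := by
      ring
    rw [e]
    have t1 := abs_add_le ((Q1 - Q2 + h * Q3) + (P1 - Q1) - (P2 - Q2)) (h * (P3 - Q3))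
    have t2 := abs_sub ((Q1 - Q2 + h * Q3) + (P1 - Q1)) (P2 - Q2)
    have t3 := abs_add_le (Q1 - Q2 + h * Q3) (P1 - Q1)
    have t4 : |h * (P3 - Q3)| ≤ |h| * (Λ * ε * ∫ x in closedBall (0:X) (R + 1), |dv62 B a r x|) := by
      rw [abs_mul]
      exact mul_le_mul_of_nonneg_left d3 (abs_nonneg _)
    have e2 : ε * (Λ * D) = Λ * ε * (∫ x in closedBall (0:X) (4 * (R + 1) + 3), |r x|) +
      Λ * ε * (∫ x in closedBall (0:X) (R + 1), |r x|) +
      |h| * (Λ * ε * ∫ x in closedBall (0:X) (R + 1), |dv62 B a r x|) := by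
      rw [hD]
      ring
    rw [e2]
    linarith
  by_contra hcon
  push Not at hcon
  set L0 := |(∫ x, ψ (x + h • a x) * r x) - (∫ x, ψ x * r x) + h * ∫ x, ψ x * dv62 B a r x|
  set gap := L0 - M62 B a r (R + 1) * Λ * h ^ 2 with hgap
  have hgap0 : 0 < gap := by linarith
  have hΛD : 0 ≤ Λ * D := mul_nonneg Λ.2 hD0
  have hk := key (min 1 (gap / (2 * (Λ * D + 1)))) (lt_min one_pos (by positivity)) (min_le_left _ _)
  have h2 : min 1 (gap / (2 * (Λ * D + 1))) * (Λ * D) ≤ gap / 2 := by
    calc min 1 (gap / (2 * (Λ * D + 1))) * (Λ * D) ≤ gap / (2 * (Λ * D + 1)) * (Λ * D) :=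
          mul_le_mul_of_nonneg_right (min_le_right _ _) hΛD
      _ ≤ gap / (2 * (Λ * D + 1)) * (Λ * D + 1) :=
          mul_le_mul_of_nonneg_left (by linarith) (by positivity)
      _ = gap / 2 := by
          field_simp
  linarith

end P347Z
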