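import Vale.Agent.P347Z.TransC

/-! P347Z, module T2 (helper62), part D: `d/dτ ∫ φ(U τ x T) ρ_τ(x) dx = 0`. -/

open MeasureTheory Set Metric
open scoped ENNReal NNReal BigOperators ContDiff Topology Convolution

namespace P347Z

variable {X : Type*} [NormedAddCommGroup X] [NormedSpace ℝ X] [FiniteDimensional ℝ X]

/-- uniform first order expansion in time -/
theorem unif_time62 {E : Type*} [NormedAddCommGroup E] [NormedSpace ℝ E]
    (D : ℝ × X → E) (hD : Continuous D) (t R : ℝ) {ε : ℝ} (hε : 0 < ε) :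
    ∃ δ : ℝ, 0 < δ ∧ δ ≤ 1 ∧ ∀ s : ℝ, |s| < δ → ∀ x : X, ‖x‖ ≤ R → ∀ y : X, ‖y‖ ≤ R →
      ‖x - y‖ < δ → ‖D (t + s, x) - D (t, y)‖ ≤ ε := by
  have hcomp : IsCompact (Icc (t - 1) (t + 1) ×ˢ closedBall (0:X) R) :=
    isCompact_Icc.prod (isCompact_closedBall _ _)
  have huc := hcomp.uniformContinuousOn_of_continuous hD.continuousOn
  rw [Metric.uniformContinuousOn_iff] at huc
  obtain ⟨δ, hδ, h⟩ := huc ε hε
  refine ⟨min δ 1, lt_min hδ one_pos, min_le_right _ _, fun s hs x hx y hy hxy => ?_⟩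
  have hs1 : |s| < 1 := lt_of_lt_of_le hs (min_le_right _ _)
  have hs2 := abs_lt.1 hs1
  have h1 := h (t + s, x) ⟨⟨by linarith, by linarith⟩, by simpa using hx⟩ (t, y)
    ⟨⟨by linarith, by linarith⟩, by simpa using hy⟩ (by
      rw [Prod.dist_eq, max_lt_iff]
      constructor
      · simp only [dist_self_add_left, Real.norm_eq_abs]
        exact lt_of_lt_of_le hs (min_le_left _ _)
      · rw [dist_eq_norm]
        exact lt_of_lt_of_le hxy (min_le_left _ _))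
  rw [dist_eq_norm] at h1
  exact h1.le

omit [FiniteDimensional ℝ X] in
/-- time derivative of a `C¹` function of `(t,x)` -/
theorem dtime62 {E : Type*} [NormedAddCommGroup E] [NormedSpace ℝ E] (f : ℝ → X → E)
    (hf : ContDiff ℝ 1 (fun p : ℝ × X => f p.1 p.2)) (t : ℝ) (x : X) :
    HasDerivAt (fun τ => f τ x) (fderiv ℝ (fun p : ℝ × X => f p.1 p.2) (t, x) (1, 0)) t := by
  have h1 : HasFDerivAt (fun q : ℝ × X => f q.1 q.2)
      (fderiv ℝ (fun q : ℝ × X => f q.1 q.2) (t, x)) (t, x) :=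
    ((hf.differentiable (by norm_num)) (t, x)).hasFDerivAt
  have h2 : HasDerivAt (fun τ : ℝ => (τ, x)) ((1:ℝ), (0:X)) t :=
    (hasDerivAt_id t).prodMk (hasDerivAt_const t x)
  exact h1.comp_hasDerivAt t h2

/-- uniform Taylor expansion of the density -/
theorem rho_exp62 (ρ : ℝ → X → ℝ) (hρ : ContDiff ℝ 1 (fun p : ℝ × X => ρ p.1 p.2)) (t R : ℝ)
    {ε : ℝ} (hε : 0 < ε) :
    ∃ δ : ℝ, 0 < δ ∧ δ ≤ 1 ∧ ∀ h : ℝ, |h| < δ → ∀ x : X, ‖x‖ ≤ R →
      |ρ (t + h) x - ρ t x - h * deriv (fun τ => ρ τ x) t| ≤ ε * |h| := by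
  set D : ℝ × X → ℝ := fun p => fderiv ℝ (fun p : ℝ × X => ρ p.1 p.2) p (1, 0) with hDdef
  have hD : Continuous D := (hρ.continuous_fderiv (by norm_num)).clm_apply continuous_const
  obtain ⟨δ, hδ, hδ1, hu⟩ := unif_time62 D hD t R hε
  refine ⟨δ, hδ, hδ1, fun h hh x hx => ?_⟩
  have hder : ∀ s, HasDerivAt (fun τ => ρ τ x) (D (s, x)) s := fun s => dtime62 ρ hρ s x
  have hd : ∀ s : ℝ, HasDerivAt (fun s => ρ (t + s) x - s * D (t, x)) (D (t + s, x) - D (t, x)) s := by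
    intro s
    have h1 : HasDerivAt (fun s : ℝ => t + s) 1 s := (hasDerivAt_id s).const_add t
    have h2 : HasDerivAt (fun s => ρ (t + s) x) (D (t + s, x)) s := by
      simpa [Function.comp_def] using (hder (t + s)).comp s h1
    have h3 : HasDerivAt (fun s : ℝ => s * D (t, x)) (D (t, x)) s := by
      simpa using (hasDerivAt_id s).mul_const (D (t, x))
    exact h2.sub h3
  have hmv := Convex.norm_image_sub_le_of_norm_hasDerivWithin_le
    (f := fun s => ρ (t + s) x - s * D (t, x)) (f' := fun s => D (t + s, x) - D (t, x))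
    (C := ε) (s := Icc (-|h|) |h|) (x := 0) (y := h)
    (fun s _ => (hd s).hasDerivWithinAt)
    (fun s hs => hu s (lt_of_le_of_lt (abs_le.2 hs) hh) x hx x hx (by simpa using hδ))
    (convex_Icc _ _) ⟨by simp, by simp⟩ ⟨neg_abs_le h, le_abs_self h⟩
  have e : deriv (fun τ => ρ τ x) t = D (t, x) := (hder t).deriv
  rw [e]
  simp only [add_zero, zero_mul, sub_zero, Real.norm_eq_abs] at hmv
  calc |ρ (t + h) x - ρ t x - h * D (t, x)| = |ρ (t + h) x - h * D (t, x) - ρ t x| := by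
        congr 1
        ring
    _ ≤ ε * |h| := hmv

/-- uniform Taylor expansion of the trajectories -/
theorem traj_exp62 (b : ℝ → X → X) (hb : ContDiff ℝ 1 (fun p : ℝ × X => b p.1 p.2))
    {T C : ℝ} (hC : 1 ≤ C) (hg : ∀ t ∈ Icc (-T) T, ∀ x, ‖b t x‖ ≤ C * (1 + ‖x‖)) {t : ℝ}
    (ht : |t| + 1 ≤ T) (R : ℝ) {ε : ℝ} (hε : 0 < ε) :
    ∃ δ : ℝ, 0 < δ ∧ δ ≤ 1 ∧ ∀ h : ℝ, |h| < δ → ∀ (x : X) (γ : ℝ → X), Sol62 b γ → γ t = x →
      ‖x‖ ≤ R → ‖γ (t + h) - (x + h • b t x)‖ ≤ ε * |h| := by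
  set R' : ℝ := (R + 1) * Real.exp (C * (2 * T)) + |R| with hR'
  obtain ⟨δ, hδ, hδ1, hu⟩ := unif_time62 (fun p : ℝ × X => b p.1 p.2) hb.continuous t R' hε
  set C' : ℝ := C * (1 + R') with hC'
  have hTt : ∀ s : ℝ, |s| ≤ 1 → t + s ∈ Icc (-T) T := by
    intro s hs
    have h1 := abs_le.1 hs
    have h2 := neg_abs_le t
    have h3 := le_abs_self t
    exact ⟨by linarith, by linarith⟩
  refine ⟨min δ (δ / (|C'| + 1)), lt_min hδ (by positivity), (min_le_left _ _).trans hδ1,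
    fun h hh x γ hγ hγt hx => ?_⟩
  have hR0 : 0 ≤ R := (norm_nonneg _).trans hx
  have hh1 : |h| ≤ 1 := (hh.le.trans (min_le_left _ _)).trans hδ1
  have hbd : ∀ s : ℝ, |s| ≤ 1 → ‖γ (t + s)‖ ≤ (R + 1) * Real.exp (C * (2 * T)) := by
    intro s hs
    have h0 := hTt 0 (by simp)
    rw [add_zero] at h0
    exact hγ.bound hC hg h0 (hγt ▸ hx) (hTt s hs)
  have hbd' : ∀ s : ℝ, |s| ≤ 1 → ‖γ (t + s)‖ ≤ R' := fun s hs => (hbd s hs).trans (by
    rw [hR']
    linarith [abs_nonneg R])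
  have hR'0 : 0 ≤ R' := (norm_nonneg _).trans (hbd' 0 (by simp))
  have hC'0 : 0 ≤ C' := by
    rw [hC']
    positivity
  have hxR' : ‖x‖ ≤ R' := by
    rw [hR']
    have := Real.exp_pos (C * (2 * T))
    have h2 := le_abs_self R
    nlinarith
  have hder : ∀ s : ℝ, HasDerivAt (fun s => γ (t + s)) (b (t + s) (γ (t + s))) s := by
    intro s
    have h1 : HasDerivAt (fun s : ℝ => t + s) 1 s := (hasDerivAt_id s).const_add t
    have h2 := (hγ (t + s)).scomp s h1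
    simpa [Function.comp_def] using h2
  -- displacement
  have hdisp : ∀ s ∈ Icc (-|h|) |h|, ‖γ (t + s) - x‖ ≤ C' * |s| := by
    intro s hs
    have hs' : |s| ≤ |h| := abs_le.2 hs
    have hmv := Convex.norm_image_sub_le_of_norm_hasDerivWithin_le
      (f := fun s => γ (t + s)) (f' := fun s => b (t + s) (γ (t + s)))
      (C := C') (s := Icc (-|s|) |s|) (x := 0) (y := s)
      (fun u _ => (hder u).hasDerivWithinAt)
      (fun u hu' => by
        have hu1 : |u| ≤ 1 := (abs_le.2 hu').trans (hs'.trans hh1)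
        refine (hg (t + u) (hTt u hu1) _).trans ?_
        rw [hC']
        have := hbd' u hu1
        nlinarith)
      (convex_Icc _ _) ⟨by simp, by simp⟩ ⟨neg_abs_le s, le_abs_self s⟩
    simpa [hγt] using hmv
  have hd : ∀ s : ℝ, HasDerivAt (fun s => γ (t + s) - s • b t x)
      (b (t + s) (γ (t + s)) - b t x) s := by
    intro s
    have h3 : HasDerivAt (fun s : ℝ => s • b t x) (b t x) s := by
      simpa using (hasDerivAt_id s).smul_const (b t x)
    exact (hder s).sub h3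
  have hmv := Convex.norm_image_sub_le_of_norm_hasDerivWithin_le
    (f := fun s => γ (t + s) - s • b t x) (f' := fun s => b (t + s) (γ (t + s)) - b t x)
    (C := ε) (s := Icc (-|h|) |h|) (x := 0) (y := h)
    (fun s _ => (hd s).hasDerivWithinAt)
    (fun s hs => by
      have hs' : |s| ≤ |h| := abs_le.2 hs
      refine hu s (lt_of_le_of_lt hs' (lt_of_lt_of_le hh (min_le_left _ _))) _
        (hbd' s (hs'.trans hh1)) x hxR' ?_
      refine lt_of_le_of_lt (hdisp s hs) ?_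
      have h1 : |s| < δ / (|C'| + 1) :=
        lt_of_le_of_lt hs' (lt_of_lt_of_le hh (min_le_right _ _))
      rw [lt_div_iff₀ (by positivity)] at h1
      rw [abs_of_nonneg hC'0] at h1
      nlinarith [abs_nonneg s])
    (convex_Icc _ _) ⟨by simp, by simp⟩ ⟨neg_abs_le h, le_abs_self h⟩
  simp only [add_zero, zero_smul, sub_zero, Real.norm_eq_abs, hγt] at hmv
  calc ‖γ (t + h) - (x + h • b t x)‖ = ‖γ (t + h) - h • b t x - x‖ := by
        congr 1
        abel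
    _ ≤ ε * |h| := hmv

variable {κ : Type*} [Fintype κ]
variable [MeasureSpace X] [BorelSpace X] [(volume : Measure X).IsAddHaarMeasure]

omit [MeasureSpace X] [BorelSpace X] [(volume : Measure X).IsAddHaarMeasure] in
/-- the pulled back test function -/
theorem pull62 (b : ℝ → X → X) (hb : ContDiff ℝ 1 (fun p : ℝ × X => b p.1 p.2))
    {T₁ C : ℝ} (hC : 1 ≤ C) (hg : ∀ t ∈ Icc (-T₁) T₁, ∀ x, ‖b t x‖ ≤ C * (1 + ‖x‖))
    (U : ℝ → X → ℝ → X) (hU0 : ∀ s x, U s x s = x) (hU : ∀ s x, Sol62 b (U s x))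
    {φ : X → ℝ} {Λ₀ : ℝ≥0} (hφ : LipschitzWith Λ₀ φ) {R₀ : ℝ} (hφ0 : ∀ x, R₀ < ‖x‖ → φ x = 0)
    {T : ℝ} (hT : T ∈ Icc (-T₁) T₁) :
    ∃ (R₁ S : ℝ) (Λ : ℝ≥0), 0 ≤ S ∧ (∀ τ ∈ Icc (-T₁) T₁, ∀ x, R₁ < ‖x‖ → φ (U τ x T) = 0) ∧
      (∀ τ x, |φ (U τ x T)| ≤ S) ∧
      ∀ τ ∈ Icc (-T₁) T₁, LipschitzWith Λ (fun x => φ (U τ x T)) := by
  -- sup bound
  obtain ⟨S, hS⟩ := (isCompact_closedBall (0:X) R₀).exists_bound_of_continuousOn
    hφ.continuous.continuousOn
  have hS' : ∀ x, |φ x| ≤ max S 0 := by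
    intro x
    by_cases hx : ‖x‖ ≤ R₀
    · exact (hS x (by simpa using hx)).trans (le_max_left _ _)
    · rw [hφ0 x (not_le.1 hx), abs_zero]
      exact le_max_right _ _
  set R₁ : ℝ := (max R₀ 0 + 1) * Real.exp (C * (2 * T₁)) with hR₁
  have hsupp : ∀ τ ∈ Icc (-T₁) T₁, ∀ x, R₁ < ‖x‖ → φ (U τ x T) = 0 := by
    intro τ hτ x hx
    apply hφ0
    by_contra hcon
    push Not at hcon
    have h1 := (hU τ x).bound hC hg hT (hcon.trans (le_max_left R₀ 0)) hτ
    rw [hU0] at h1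
    linarith
  set R₂ : ℝ := (R₁ + 1 + 1) * Real.exp (C * (2 * T₁)) with hR₂
  obtain ⟨K, hK⟩ := lip_ball62 b hb T₁ R₂
  set Λ : ℝ≥0 := max (Λ₀ * Real.toNNReal (Real.exp (K * (2 * T₁)))) (Real.toNNReal (max S 0)) with hΛ
  have hΛ1 : (Λ₀ : ℝ) * Real.exp (K * (2 * T₁)) ≤ Λ := by
    have h1 : Λ₀ * Real.toNNReal (Real.exp (K * (2 * T₁))) ≤ Λ := le_max_left _ _
    have h2 : ((Λ₀ * Real.toNNReal (Real.exp (K * (2 * T₁))) : ℝ≥0) : ℝ) ≤ Λ := by
      exact_mod_cast h1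
    rw [NNReal.coe_mul, Real.coe_toNNReal _ (Real.exp_pos _).le] at h2
    exact h2
  have hΛ2 : max S 0 ≤ (Λ : ℝ) := by
    have h1 : Real.toNNReal (max S 0) ≤ Λ := le_max_right _ _
    have h2 : ((Real.toNNReal (max S 0) : ℝ≥0) : ℝ) ≤ Λ := by exact_mod_cast h1
    rw [Real.coe_toNNReal _ (le_max_right _ _)] at h2
    exact h2
  refine ⟨R₁, max S 0, Λ, le_max_right _ _, hsupp, fun τ x => hS' _, fun τ hτ => ?_⟩
  have hloc : ∀ x y : X, ‖x‖ ≤ R₁ + 1 → ‖y‖ ≤ R₁ + 1 →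
      dist (φ (U τ x T)) (φ (U τ y T)) ≤ Λ * dist x y := by
    intro x y hx hy
    have h1 : ∀ z : X, ‖z‖ ≤ R₁ + 1 → ∀ u ∈ Icc (-T₁) T₁, ‖U τ z u‖ ≤ R₂ := by
      intro z hz u hu
      exact (hU τ z).bound hC hg hτ (by rw [hU0]; exact hz) hu
    have h2 := (hU τ x).lip (hU τ y) hK (h1 x hx) (h1 y hy) hτ hT
    rw [hU0, hU0] at h2
    calc dist (φ (U τ x T)) (φ (U τ y T)) ≤ Λ₀ * dist (U τ x T) (U τ y T) := hφ.dist_le_mul _ _
      _ ≤ Λ₀ * (Real.exp (K * (2 * T₁)) * dist x y) := mul_le_mul_of_nonneg_left h2 Λ₀.2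
      _ = Λ₀ * Real.exp (K * (2 * T₁)) * dist x y := by ring
      _ ≤ Λ * dist x y := mul_le_mul_of_nonneg_right hΛ1 dist_nonneg
  have hfar : ∀ x y : X, ‖x‖ ≤ R₁ → R₁ + 1 < ‖y‖ →
      dist (φ (U τ x T)) (φ (U τ y T)) ≤ Λ * dist x y := by
    intro x y hx hy
    rw [hsupp τ hτ y (by linarith), Real.dist_eq, sub_zero]
    have h1 : 1 ≤ dist x y := by
      rw [dist_comm, dist_eq_norm]
      have := norm_sub_norm_le y x
      linarith
    calc |φ (U τ x T)| ≤ max S 0 := hS' _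
      _ ≤ Λ := hΛ2
      _ = Λ * 1 := (mul_one _).symm
      _ ≤ Λ * dist x y := mul_le_mul_of_nonneg_left h1 Λ.2
  apply LipschitzWith.of_dist_le_mul
  intro x y
  by_cases hx : ‖x‖ ≤ R₁ + 1
  · by_cases hy : ‖y‖ ≤ R₁ + 1
    · exact hloc x y hx hy
    · by_cases hx' : ‖x‖ ≤ R₁
      · exact hfar x y hx' (not_le.1 hy)
      · rw [hsupp τ hτ x (not_le.1 hx'), hsupp τ hτ y (by linarith [not_le.1 hy]), dist_self]
        positivity
  · by_cases hy' : ‖y‖ ≤ R₁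
    · rw [dist_comm, dist_comm x y]
      exact hfar y x hy' (not_le.1 hx)
    · rw [hsupp τ hτ y (not_le.1 hy'), hsupp τ hτ x (by linarith [not_le.1 hx]), dist_self]
      positivity

/-- the derivative of the dual pairing vanishes -/
theorem deriv_zero62 (B : Module.Basis κ ℝ X) (b : ℝ → X → X) (ρ : ℝ → X → ℝ)
    (hb : ContDiff ℝ 1 (fun p : ℝ × X => b p.1 p.2))
    (hρ : ContDiff ℝ 1 (fun p : ℝ × X => ρ p.1 p.2))
    (hg : ∀ T : ℝ, ∃ C : ℝ, ∀ t ∈ Icc (-T : ℝ) T, ∀ x, ‖b t x‖ ≤ C * (1 + ‖x‖))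
    (hce : ∀ t x, deriv (fun τ => ρ τ x) t + fderiv ℝ (ρ t) x (b t x) +
      ρ t x * ∑ k, B.repr (fderiv ℝ (b t) x (B k)) k = 0)
    (U : ℝ → X → ℝ → X) (hU0 : ∀ s x, U s x s = x) (hU : ∀ s x, Sol62 b (U s x))
    {φ : X → ℝ} {Λ₀ : ℝ≥0} (hφ : LipschitzWith Λ₀ φ) {R₀ : ℝ} (hφ0 : ∀ x, R₀ < ‖x‖ → φ x = 0)
    (T t : ℝ) : HasDerivAt (fun τ => ∫ x, φ (U τ x T) * ρ τ x) 0 t := by
  set T₁ : ℝ := |t| + 1 + |T| with hT₁
  obtain ⟨C₀, hC₀⟩ := hg T₁
  set C : ℝ := max C₀ 1 with hCdef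
  have hC : 1 ≤ C := le_max_right _ _
  have hgC : ∀ t ∈ Icc (-T₁) T₁, ∀ x, ‖b t x‖ ≤ C * (1 + ‖x‖) := fun t ht x =>
    (hC₀ t ht x).trans (mul_le_mul_of_nonneg_right (le_max_left _ _) (by positivity))
  have htT₁ : |t| + 1 ≤ T₁ := by
    rw [hT₁]
    linarith [abs_nonneg T]
  have hTm : T ∈ Icc (-T₁) T₁ := by
    have h1 := neg_abs_le T
    have h2 := le_abs_self T
    have h3 := abs_nonneg t
    exact ⟨by linarith, by linarith⟩
  have hTt : ∀ s : ℝ, |s| ≤ 1 → t + s ∈ Icc (-T₁) T₁ := by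
    intro s hs
    have h1 := abs_le.1 hs
    have h2 := neg_abs_le t
    have h3 := le_abs_self t
    exact ⟨by linarith, by linarith⟩
  obtain ⟨R₁, S, Λ, hS0, hsupp, hS, hLip⟩ := pull62 b hb hC hgC U hU0 hU hφ hφ0 hTm
  have hbt : ContDiff ℝ 1 (b t) := hb.comp (contDiff_const.prodMk contDiff_id)
  have hρt : ∀ s, ContDiff ℝ 1 (ρ s) := fun s => hρ.comp (contDiff_const.prodMk contDiff_id)
  have htmem : t ∈ Icc (-T₁) T₁ := by
    have := hTt 0 (by simp)
    rwa [add_zero] at this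
  have hgt : ∀ x, ‖b t x‖ ≤ C * (1 + ‖x‖) := hgC t htmem
  have hCpos : 0 < C := by linarith
  set V : ℝ := (volume : Measure X).real (closedBall (0:X) R₁) with hV
  have hV0 : 0 ≤ V := measureReal_nonneg
  set P : ℝ := ∫ x in closedBall (0:X) (4 * R₁ + 3), |ρ t x| with hP
  have hP0 : 0 ≤ P := integral_nonneg fun x => abs_nonneg _
  set M : ℝ := M62 B (b t) (ρ t) (R₁ + 1) with hM
  have hM0 : 0 ≤ M := M62_nonneg _ _ _ _
  set W : ℝ := S * V + Λ * P + M * Λ + 1 with hW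
  have hWpos : 0 < W := by
    have h1 := mul_nonneg hS0 hV0
    have h2 := mul_nonneg Λ.2 hP0
    have h3 := mul_nonneg hM0 Λ.2
    have h4 : (Λ : ℝ) * P = Λ.1 * P := rfl
    have h5 : M * (Λ : ℝ) = M * Λ.1 := rfl
    rw [hW]
    linarith
  rw [hasDerivAt_iff_isLittleO_nhds_zero, Asymptotics.isLittleO_iff]
  intro c hc
  have hε : 0 < c / W := by positivity
  obtain ⟨δ₁, hδ₁, hδ₁1, h1⟩ := rho_exp62 ρ hρ t R₁ hε
  obtain ⟨δ₂, hδ₂, hδ₂1, h2⟩ := traj_exp62 b hb hC hgC htT₁ (4 * R₁ + 3) hε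
  have hδ : 0 < min (min δ₁ δ₂) (min (c / W) (1 / (2 * C))) := by positivity
  rw [Metric.eventually_nhds_iff]
  refine ⟨min (min δ₁ δ₂) (min (c / W) (1 / (2 * C))), hδ, fun h hh => ?_⟩
  rw [Real.dist_eq, sub_zero, lt_min_iff, lt_min_iff, lt_min_iff] at hh
  obtain ⟨⟨hh1, hh2⟩, hh3, hh4⟩ := hh
  have hhle : |h| ≤ 1 := hh1.le.trans hδ₁1
  have hhC : |h| * C ≤ 1 / 2 := by
    rw [lt_div_iff₀ (by positivity)] at hh4
    linarith
  have hth := hTt h hhle
  -- the function ψ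
  set ψ : X → ℝ := fun x => φ (U (t + h) x T) with hψ
  have hψL : LipschitzWith Λ ψ := hLip (t + h) hth
  have hψ0 : ∀ x, R₁ < ‖x‖ → ψ x = 0 := hsupp (t + h) hth
  have hψS : ∀ x, |ψ x| ≤ S := hS (t + h)
  -- G t x = ψ (U t x (t+h))
  have hGt : ∀ x, φ (U t x T) = ψ (U t x (t + h)) := by
    intro x
    show φ (U t x T) = φ (U (t + h) (U t x (t + h)) T)
    have : U (t + h) (U t x (t + h)) = U t x :=
      (hU _ _).unique hb (hU t x) (s := t + h) (hU0 _ _)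
    rw [this]
  have hGt0 : ∀ x, R₁ < ‖x‖ → φ (U t x T) = 0 := hsupp t htmem
  have hR₁0 : R₁ ≤ 4 * R₁ + 3 ∨ R₁ < -1 := by
    rcases le_or_gt (-1) R₁ with h | h
    · left
      linarith
    · right
      exact h
  -- estimates
  have s1 : |(∫ x, ψ x * ρ (t + h) x) - (∫ x, ψ x * ρ t x) -
      h * ∫ x, ψ x * deriv (fun τ => ρ τ x) t| ≤ S * V * (c / W) * |h| := by
    have hcs := compsupp62 hψ0
    have i1 : Integrable (fun x => ψ x * ρ (t + h) x) :=
      (hψL.continuous.mul (hρt _).continuous).integrable_of_hasCompactSupport hcs.mul_right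
    have i2 : Integrable (fun x => ψ x * ρ t x) :=
      (hψL.continuous.mul (hρt _).continuous).integrable_of_hasCompactSupport hcs.mul_right
    have hdc : Continuous (fun x => deriv (fun τ => ρ τ x) t) := by
      have e : (fun x => deriv (fun τ => ρ τ x) t) =
          fun x => fderiv ℝ (fun p : ℝ × X => ρ p.1 p.2) (t, x) (1, 0) := by
        funext x
        exact (dtime62 ρ hρ t x).deriv
      rw [e]
      exact ((hρ.continuous_fderiv (by norm_num)).comp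
        (continuous_const.prodMk continuous_id)).clm_apply continuous_const
    have i3 : Integrable (fun x => ψ x * deriv (fun τ => ρ τ x) t) :=
      (hψL.continuous.mul hdc).integrable_of_hasCompactSupport hcs.mul_right
    have e : (∫ x, ψ x * ρ (t + h) x) - (∫ x, ψ x * ρ t x) -
        h * ∫ x, ψ x * deriv (fun τ => ρ τ x) t =
        ∫ x, ψ x * (ρ (t + h) x - ρ t x - h * deriv (fun τ => ρ τ x) t) := by
      rw [← integral_const_mul, ← integral_sub i1 i2]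
      have q1 := integral_sub (μ := volume)
        (f := fun x => ψ x * ρ (t + h) x - ψ x * ρ t x)
        (g := fun x => h * (ψ x * deriv (fun τ => ρ τ x) t))
        (i1.sub i2) (i3.const_mul h)
      rw [← q1]
      congr 1
      funext x
      ring
    rw [e, ← Real.norm_eq_abs]
    have hb1 : ∀ x, ‖ψ x * (ρ (t + h) x - ρ t x - h * deriv (fun τ => ρ τ x) t)‖ ≤
        (closedBall (0:X) R₁).indicator (fun _ => S * (c / W * |h|)) x := by
      intro x
      by_cases hx : x ∈ closedBall (0:X) R₁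
      · rw [indicator_of_mem hx, norm_mul, Real.norm_eq_abs, Real.norm_eq_abs]
        rw [mem_closedBall_zero_iff] at hx
        exact mul_le_mul (hψS x) (h1 h hh1 x hx) (abs_nonneg _) hS0
      · rw [indicator_of_notMem hx]
        rw [mem_closedBall_zero_iff, not_le] at hx
        simp [hψ0 x hx]
    refine (norm_integral_le_of_norm_le ?_ (Filter.Eventually.of_forall hb1)).trans ?_
    · rw [integrable_indicator_iff measurableSet_closedBall]
      exact continuous_const.continuousOn.integrableOn_compact (isCompact_closedBall _ _)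
    · rw [integral_indicator measurableSet_closedBall, setIntegral_const, smul_eq_mul]
      apply le_of_eq
      rw [hV]
      ring
  have s2 : |(∫ x, φ (U t x T) * ρ t x) - ∫ x, ψ (x + h • b t x) * ρ t x| ≤
      Λ * P * (c / W) * |h| := by
    have hz1 : ∀ x, 4 * R₁ + 3 < ‖x‖ → φ (U t x T) = 0 := by
      intro x hx
      rcases hR₁0 with h | h
      · exact hGt0 x (by linarith)
      · exact hGt0 x (by linarith [norm_nonneg x])
    have hz2 : ∀ x, 4 * R₁ + 3 < ‖x‖ → ψ (x + h • b t x) = 0 := fun x hx =>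
      supp62 hgt hψ0 (by linarith) hx
    have hbnd : ∀ x, |φ (U t x T) - ψ (x + h • b t x)| ≤ Λ * (c / W * |h|) := by
      intro x
      by_cases hx : ‖x‖ ≤ 4 * R₁ + 3
      · rw [hGt x]
        have q1 := hψL.dist_le_mul (U t x (t + h)) (x + h • b t x)
        rw [Real.dist_eq, dist_eq_norm] at q1
        refine q1.trans (mul_le_mul_of_nonneg_left ?_ Λ.2)
        exact h2 h hh2 x (U t x) (hU t x) (hU0 t x) hx
      · rw [hz1 x (not_le.1 hx), hz2 x (not_le.1 hx), sub_zero, abs_zero]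
        positivity
    have := int_diff62 (u := fun x => φ (U t x T)) (v := fun x => ψ (x + h • b t x)) (w := ρ t)
      (hLip t htmem).continuous
      (hψL.continuous.comp (continuous_id.add (hbt.continuous.const_smul h)))
      (hρt t).continuous hz1 hz2 hbnd
    refine this.trans (le_of_eq ?_)
    rw [hP]
    ring
  have s3 := stepL62 B hbt (hρt t) hCpos hgt hψL hψ0 hhC
  have s4 : (∫ x, ψ x * deriv (fun τ => ρ τ x) t) = - ∫ x, ψ x * dv62 B (b t) (ρ t) x := by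
    rw [← integral_neg]
    congr 1
    funext x
    have := hce t x
    unfold dv62
    have e : deriv (fun τ => ρ τ x) t = -(fderiv ℝ (ρ t) x (b t x) +
      ρ t x * ∑ k, B.repr (fderiv ℝ (b t) x (B k)) k) := by linarith
    rw [e]
    ring
  show ‖(∫ x, ψ x * ρ (t + h) x) - (∫ x, φ (U t x T) * ρ t x) - h • (0:ℝ)‖ ≤ c * ‖h‖
  rw [smul_zero, sub_zero, Real.norm_eq_abs, Real.norm_eq_abs]
  rw [s4] at s1
  set I1 := ∫ x, ψ x * ρ (t + h) x
  set I2 := ∫ x, ψ x * ρ t x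
  set I3 := ∫ x, ψ x * dv62 B (b t) (ρ t) x
  set I4 := ∫ x, φ (U t x T) * ρ t x
  set I5 := ∫ x, ψ (x + h • b t x) * ρ t x
  have e : I1 - I4 = (I1 - I2 - h * -I3) - (I4 - I5) - (I5 - I2 + h * I3) := by ring
  rw [e]
  have a1 := abs_sub ((I1 - I2 - h * -I3) - (I4 - I5)) (I5 - I2 + h * I3)
  have a2 := abs_sub (I1 - I2 - h * -I3) (I4 - I5)
  have a3 : M * Λ * h ^ 2 ≤ M * Λ * (c / W) * |h| := by
    rw [← sq_abs, sq]
    have : |h| * |h| ≤ c / W * |h| := mul_le_mul_of_nonneg_right hh3.le (abs_nonneg _)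
    have h3 : 0 ≤ M * Λ := mul_nonneg hM0 Λ.2
    calc M * Λ * (|h| * |h|) ≤ M * Λ * (c / W * |h|) := mul_le_mul_of_nonneg_left this h3
      _ = M * Λ * (c / W) * |h| := by ring
  have a4 : (S * V + Λ * P + M * Λ) * (c / W) ≤ c := by
    rw [mul_div_assoc', div_le_iff₀ hWpos, mul_comm]
    apply mul_le_mul_of_nonneg_left _ hc.le
    rw [hW]
    linarith
  calc |(I1 - I2 - h * -I3) - (I4 - I5) - (I5 - I2 + h * I3)|
      ≤ S * V * (c / W) * |h| + Λ * P * (c / W) * |h| + M * Λ * (c / W) * |h| := by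
        linarith
    _ = (S * V + Λ * P + M * Λ) * (c / W) * |h| := by ring
    _ ≤ c * |h| := mul_le_mul_of_nonneg_right a4 (abs_nonneg _)

end P347Z
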