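import Vale.Agent.P347Z.TransD

/-! P347Z, module T2 (helper62), part E: transport of the density by the flow. -/

open MeasureTheory Set Metric
open scoped ENNReal NNReal BigOperators ContDiff Topology

namespace P347Z

variable {X : Type*} [NormedAddCommGroup X] [NormedSpace ℝ X] [FiniteDimensional ℝ X]
variable {κ : Type*} [Fintype κ]
variable [MeasureSpace X] [BorelSpace X] [(volume : Measure X).IsAddHaarMeasure]

/-- integral against a density -/
theorem int_dens62 {ρ : X → ℝ} (hρ : Continuous ρ) (hpos : ∀ x, 0 < ρ x) (f : X → ℝ) :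
    ∫ x, f x ∂((volume : Measure X).withDensity (fun x => ENNReal.ofReal (ρ x))) =
      ∫ x, f x * ρ x := by
  rw [integral_withDensity_eq_integral_toReal_smul hρ.measurable.ennreal_ofReal
    (Filter.Eventually.of_forall fun x => ENNReal.ofReal_lt_top)]
  congr 1
  funext x
  rw [ENNReal.toReal_ofReal (hpos x).le, smul_eq_mul, mul_comm]

theorem dens_fin62 {ρ : X → ℝ} (hρ : Continuous ρ) :
    IsFiniteMeasureOnCompacts ((volume : Measure X).withDensity (fun x => ENNReal.ofReal (ρ x))) := by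
  refine ⟨fun K hK => ?_⟩
  have h1 : IntegrableOn ρ K := hρ.continuousOn.integrableOn_compact hK
  rw [withDensity_apply' _ K]
  exact (h1.lintegral_lt_top)

/-- the transport theorem, given existence of flows -/
theorem flow_transport62
    (hex : ∀ b : ℝ → X → X, ContDiff ℝ 1 (fun p : ℝ × X => b p.1 p.2) →
      (∀ T : ℝ, ∃ C : ℝ, ∀ t ∈ Icc (0 : ℝ) T, ∀ x, ‖b t x‖ ≤ C * (1 + ‖x‖)) →
      ∃ Φ : ℝ → X → X, (∀ x, Φ 0 x = x) ∧
      (∀ x, ∀ t, 0 ≤ t → HasDerivWithinAt (fun τ => Φ τ x) (b t (Φ t x)) (Ici 0) t))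
    (B : Module.Basis κ ℝ X) (b : ℝ → X → X) (ρ : ℝ → X → ℝ)
    (hb : ContDiff ℝ 1 (fun p : ℝ × X => b p.1 p.2))
    (hρ : ContDiff ℝ 1 (fun p : ℝ × X => ρ p.1 p.2)) (hpos : ∀ t x, 0 < ρ t x)
    (hg : ∀ T : ℝ, ∃ C : ℝ, ∀ t ∈ Set.Icc (-T : ℝ) T, ∀ x, ‖b t x‖ ≤ C * (1 + ‖x‖))
    (hce : ∀ t x, deriv (fun τ => ρ τ x) t + fderiv ℝ (ρ t) x (b t x) +
      ρ t x * ∑ k, B.repr (fderiv ℝ (b t) x (B k)) k = 0)
    (Φ : ℝ → X → X) (h0 : ∀ x, Φ 0 x = x)
    (h1 : ∀ x, ∀ t, 0 ≤ t → HasDerivWithinAt (fun τ => Φ τ x) (b t (Φ t x)) (Set.Ici 0) t)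
    (t : ℝ) (ht : 0 ≤ t) :
    Measurable (Φ t) ∧
    ((volume : Measure X).withDensity (fun x => ENNReal.ofReal (ρ 0 x))).map (Φ t) =
      (volume : Measure X).withDensity (fun x => ENNReal.ofReal (ρ t x)) := by
  choose U hU0 hU using fun s x => exists_sol62 hex b hb hg s x
  have hΦU : ∀ x, Φ t x = U 0 x t := fun x =>
    (hU 0 x).eq_of_right hb (h1 x) (by rw [h0, hU0]) t ht
  obtain ⟨C₀, hC₀⟩ := hg t
  set C : ℝ := max C₀ 1 with hCdef
  have hC : 1 ≤ C := le_max_right _ _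
  have hgC : ∀ s ∈ Icc (-t) t, ∀ x, ‖b s x‖ ≤ C * (1 + ‖x‖) := fun s hs x =>
    (hC₀ s hs x).trans (mul_le_mul_of_nonneg_right (le_max_left _ _) (by positivity))
  have h0m : (0:ℝ) ∈ Icc (-t) t := ⟨by linarith, ht⟩
  have htm : t ∈ Icc (-t) t := ⟨by linarith, le_rfl⟩
  have hρt : ∀ s, Continuous (ρ s) := fun s =>
    hρ.continuous.comp (continuous_const.prodMk continuous_id)
  -- continuity of the flow map
  have hΦc : Continuous (Φ t) := by
    rw [continuous_iff_continuousAt]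
    intro x
    set R : ℝ := (‖x‖ + 1 + 1) * Real.exp (C * (2 * t)) with hR
    obtain ⟨K, hK⟩ := lip_ball62 b hb t R
    have hb1 : ∀ z : X, ‖z‖ ≤ ‖x‖ + 1 → ∀ u ∈ Icc (-t) t, ‖U 0 z u‖ ≤ R := fun z hz u hu =>
      (hU 0 z).bound hC hgC h0m (by rw [hU0]; exact hz) hu
    have hlip : ∀ y : X, ‖y‖ ≤ ‖x‖ + 1 →
        dist (Φ t y) (Φ t x) ≤ Real.exp (K * (2 * t)) * dist y x := by
      intro y hy
      have := (hU 0 y).lip (hU 0 x) hK (hb1 y hy) (hb1 x (by linarith)) h0m htm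
      rw [hU0, hU0] at this
      rw [hΦU, hΦU]
      exact this
    rw [Metric.continuousAt_iff]
    intro ε hε
    refine ⟨min 1 (ε / Real.exp (K * (2 * t))), by positivity, fun y hy => ?_⟩
    rw [lt_min_iff] at hy
    have hy1 : ‖y‖ ≤ ‖x‖ + 1 := by
      have := norm_sub_norm_le y x
      rw [dist_eq_norm] at hy
      linarith [hy.1]
    refine lt_of_le_of_lt (hlip y hy1) ?_
    have h3 := hy.2
    rw [lt_div_iff₀ (Real.exp_pos _)] at h3
    linarith
  refine ⟨hΦc.measurable, ?_⟩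
  -- preimages of balls are bounded
  have hpre : ∀ R : ℝ, 0 ≤ R → ∀ x : X, ‖Φ t x‖ ≤ R → ‖x‖ ≤ (R + 1) * Real.exp (C * (2 * t)) := by
    intro R _ x hx
    rw [hΦU] at hx
    have := (hU 0 x).bound hC hgC htm hx h0m
    rwa [hU0] at this
  -- equality for Lipschitz test functions
  have hLip : ∀ (φ : X → ℝ) (Λ : ℝ≥0), LipschitzWith Λ φ → ∀ R : ℝ, (∀ x, R < ‖x‖ → φ x = 0) →
      ∫ x, φ (Φ t x) * ρ 0 x = ∫ x, φ x * ρ t x := by
    intro φ Λ hφ R hR
    have hd := fun τ => deriv_zero62 B b ρ hb hρ hg hce U hU0 hU hφ hR t τ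
    have hconst := is_const_of_deriv_eq_zero (fun τ => (hd τ).differentiableAt)
      (fun τ => (hd τ).deriv) 0 t
    simp only [hU0] at hconst
    rw [← hconst]
    congr 1
    funext x
    rw [hΦU]
  -- regular measures
  have i0 := dens_fin62 (hρt 0)
  have i1 := dens_fin62 (hρt t)
  have i2 : IsFiniteMeasureOnCompacts
      (((volume : Measure X).withDensity (fun x => ENNReal.ofReal (ρ 0 x))).map (Φ t)) := by
    refine ⟨fun K hK => ?_⟩
    rw [Measure.map_apply hΦc.measurable hK.measurableSet]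
    obtain ⟨R, hR⟩ := hK.isBounded.subset_closedBall (0:X)
    have hsub : Φ t ⁻¹' K ⊆ closedBall (0:X) ((max R 0 + 1) * Real.exp (C * (2 * t))) := by
      intro x hx
      rw [mem_closedBall_zero_iff]
      apply hpre (max R 0) (le_max_right _ _)
      have := hR hx
      rw [mem_closedBall_zero_iff] at this
      exact this.trans (le_max_left _ _)
    exact lt_of_le_of_lt (measure_mono hsub) (isCompact_closedBall _ _).measure_lt_top
  apply Measure.ext_of_integral_eq_on_compactlySupported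
  intro f
  have hfc : Continuous (fun x => f x) := f.continuous
  have hm := integral_map (μ := (volume : Measure X).withDensity (fun x => ENNReal.ofReal (ρ 0 x)))
    (φ := Φ t) (f := fun x => f x) hΦc.aemeasurable hfc.aestronglyMeasurable
  rw [hm, int_dens62 (hρt 0) (hpos 0) (fun x => f (Φ t x)), int_dens62 (hρt t) (hpos t)]
  -- support radius
  obtain ⟨R', hR'⟩ := (f.hasCompactSupport.isCompact.isBounded).subset_closedBall (0:X)
  set R : ℝ := max R' 0 with hR
  have hf0 : ∀ x, R < ‖x‖ → f x = 0 := by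
    intro x hx
    by_contra hne
    have h3 := hR' (subset_tsupport _ hne)
    rw [mem_closedBall_zero_iff] at h3
    have := le_max_left R' 0
    linarith
  have hR0 : 0 ≤ R := le_max_right _ _
  -- uniform continuity
  have huc : UniformContinuous f := f.hasCompactSupport.uniformContinuous_of_continuous f.continuous
  set R₂ : ℝ := (R + 1 + 1) * Real.exp (C * (2 * t)) with hR₂
  set D : ℝ := (∫ x in closedBall (0:X) R₂, |ρ 0 x|) + ∫ x in closedBall (0:X) (R + 1), |ρ t x| with hD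
  have hD0 : 0 ≤ D := add_nonneg (integral_nonneg fun x => abs_nonneg _)
    (integral_nonneg fun x => abs_nonneg _)
  have key : ∀ ε : ℝ, 0 < ε → |(∫ x, f (Φ t x) * ρ 0 x) - ∫ x, f x * ρ t x| ≤ ε * D := by
    intro ε hε
    obtain ⟨δ, hδ, hmod⟩ := Metric.uniformContinuous_iff.1 huc ε hε
    obtain ⟨g, hg1, hg0, hgf, -⟩ := approx62 (f := f) f.continuous hf0 (η := ε)
      (δ := min δ 1) (lt_min hδ one_pos) (min_le_right _ _)
      (fun x y hxy => (hmod (lt_of_lt_of_le hxy (min_le_left _ _))).le)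
    obtain ⟨Λ, hΛ⟩ := hg1.lipschitzWith_of_hasCompactSupport (compsupp62 hg0) one_ne_zero
    have hgeq := hLip g Λ hΛ (R + 1) hg0
    have hf0' : ∀ x, R + 1 < ‖x‖ → f x = 0 := fun x hx => hf0 x (by linarith)
    have hpull : ∀ u : X → ℝ, (∀ x, R + 1 < ‖x‖ → u x = 0) → ∀ x, R₂ < ‖x‖ → u (Φ t x) = 0 := by
      intro u hu x hx
      apply hu
      by_contra hcon
      push Not at hcon
      have := hpre (R + 1) (by linarith) x hcon
      linarith
    have d1 := int_diff62 (u := fun x => f (Φ t x)) (v := fun x => g (Φ t x)) (w := ρ 0)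
      (f.continuous.comp hΦc) (hg1.continuous.comp hΦc) (hρt 0) (ρ := R₂) (δ := ε)
      (hpull f hf0') (hpull g hg0) (fun x => by rw [abs_sub_comm]; exact hgf _)
    have d2 := int_diff62 (u := f) (v := g) (w := ρ t)
      f.continuous hg1.continuous (hρt t) (ρ := R + 1) (δ := ε) hf0' hg0
      (fun x => by rw [abs_sub_comm]; exact hgf _)
    rw [hgeq] at d1
    have e : (∫ x, f (Φ t x) * ρ 0 x) - ∫ x, f x * ρ t x =
        ((∫ x, f (Φ t x) * ρ 0 x) - ∫ x, g x * ρ t x) -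
        ((∫ x, f x * ρ t x) - ∫ x, g x * ρ t x) := by ring
    rw [e]
    have t1 := abs_sub ((∫ x, f (Φ t x) * ρ 0 x) - ∫ x, g x * ρ t x)
      ((∫ x, f x * ρ t x) - ∫ x, g x * ρ t x)
    have e2 : ε * D = ε * (∫ x in closedBall (0:X) R₂, |ρ 0 x|) +
      ε * ∫ x in closedBall (0:X) (R + 1), |ρ t x| := by
      rw [hD]
      ring
    rw [e2]
    linarith
  have hfin : |(∫ x, f (Φ t x) * ρ 0 x) - ∫ x, f x * ρ t x| ≤ 0 := by
    by_contra hcon
    push Not at hcon
    set G := |(∫ x, f (Φ t x) * ρ 0 x) - ∫ x, f x * ρ t x|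
    have hk := key (G / (2 * (D + 1))) (by positivity)
    have h2 : G / (2 * (D + 1)) * D ≤ G / 2 := by
      calc G / (2 * (D + 1)) * D ≤ G / (2 * (D + 1)) * (D + 1) :=
            mul_le_mul_of_nonneg_left (by linarith) (by positivity)
        _ = G / 2 := by
            field_simp
    linarith
  exact sub_eq_zero.1 (abs_eq_zero.1 (le_antisymm hfin (abs_nonneg _)))

end P347Z
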