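import Vale.Agent.P347Z.TransE
import Vale.Agent.P347Z.FlowEx
import Mathlib

/-!
Module TRANSPORT (abstract; may be split: T1 flow and C¹ dependence, T2 transport).

A time-dependent `C¹` vector field `b` of linear growth and a positive `C¹` density `ρ` with the continuity
equation `∂_t ρ + div (ρ b) = 0`: the flow of `b` maps `ρ_0 dx` to `ρ_t dx`.

Proof suggestion.
1. Cut off: for `R > 0` the field `χ_R(x) b(t,x)` (on a bounded time interval) is bounded and globally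
   Lipschitz, `C¹`; Picard-Lindelöf gives its flow on `[0,T]`; by linear growth (Gronwall) trajectories from
   `|x| ≤ R₀` up to time `T` stay in a ball of radius `C(1+R₀)`, where the cut off field equals `b`.
2. `C¹` dependence on the initial point: `M' = D b(t,Φ) M`, `M_0 = id`, and Gronwall for
   `Φ_t(x+h) - Φ_t(x) - M_t h`.
3. For `φ ∈ C_c^1` put `ψ(t,x) = φ(value at time T of the trajectory that starts at time t from x)`; then
   `∂_t ψ + Dψ·b = 0`, `ψ(t,·) ∈ C_c^1`, and `d/dt ∫ ψ ρ = ∫ (-Dψ·b ρ + ψ ∂_t ρ) = -∫ div (ψ ρ b) = 0`.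
   (It may be more convenient to make the field autonomous, adding the time coordinate, `b̃ = (1,b)`:
   then `DΦ̃_u(x̃)[b̃(x̃)] = b̃(Φ̃_u(x̃))` by the group property, `d/du ∫ φ(Φ̃_u) ρ = ∫ D(φ∘Φ̃_u)[b̃] ρ = 0`.)
Feel free to choose any other proof (for example Euler polygons and the change of variables formula).
The divergence is written with a basis `B`.
-/

open MeasureTheory
open scoped ENNReal BigOperators ContDiff

namespace P347Z

variable {X : Type*} [NormedAddCommGroup X] [NormedSpace ℝ X] [FiniteDimensional ℝ X]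

/-- T1: existence of the flow (for times `t ≥ 0`) and joint continuity -/
theorem flow_exists_tr (b : ℝ → X → X) (hb : ContDiff ℝ 1 (fun p : ℝ × X => b p.1 p.2))
    (hg : ∀ T : ℝ, ∃ C : ℝ, ∀ t ∈ Set.Icc (0 : ℝ) T, ∀ x, ‖b t x‖ ≤ C * (1 + ‖x‖)) :
    ∃ Φ : ℝ → X → X, (∀ x, Φ 0 x = x) ∧
      (∀ x, ∀ t, 0 ≤ t → HasDerivWithinAt (fun τ => Φ τ x) (b t (Φ t x)) (Set.Ici 0) t) ∧
      ContinuousOn (fun p : ℝ × X => Φ p.1 p.2) (Set.Ici (0 : ℝ) ×ˢ Set.univ) :=
  flow_exists_tr' b hb hg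

/-- T2: transport of the density -/
theorem flow_transport [MeasureSpace X] [BorelSpace X] [(volume : Measure X).IsAddHaarMeasure]
    {κ : Type*} [Fintype κ] (B : Module.Basis κ ℝ X) (b : ℝ → X → X) (ρ : ℝ → X → ℝ)
    (hb : ContDiff ℝ 1 (fun p : ℝ × X => b p.1 p.2))
    (hρ : ContDiff ℝ 1 (fun p : ℝ × X => ρ p.1 p.2)) (hpos : ∀ t x, 0 < ρ t x)
    (hg : ∀ T : ℝ, ∃ C : ℝ, ∀ t ∈ Set.Icc (-T : ℝ) T, ∀ x, ‖b t x‖ ≤ C * (1 + ‖x‖))
    (hce : ∀ t x, deriv (fun τ => ρ τ x) t + fderiv ℝ (ρ t) x (b t x) +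
      ρ t x * ∑ k, B.repr (fderiv ℝ (b t) x (B k)) k = 0)
    (Φ : ℝ → X → X) (h0 : ∀ x, Φ 0 x = x)
    (h1 : ∀ x, ∀ t, 0 ≤ t → HasDerivWithinAt (fun τ => Φ τ x) (b t (Φ t x)) (Set.Ici 0) t)
    (t : ℝ) (ht : 0 ≤ t) :
    Measurable (Φ t) ∧
    ((volume : Measure X).withDensity (fun x => ENNReal.ofReal (ρ 0 x))).map (Φ t) =
      (volume : Measure X).withDensity (fun x => ENNReal.ofReal (ρ t x)) :=
  flow_transport62 (fun b hb hg => by
    obtain ⟨Φ, h0, h1, -⟩ := flow_exists_tr b hb hg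
    exact ⟨Φ, h0, h1⟩) B b ρ hb hρ hpos hg hce Φ h0 h1 t ht

end P347Z
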