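import Vale.Agent.P347Z.WdStar0

/-!
Module WBASE: the base words `f` and `z`.  `∫ |f|² = ∑ ∫ T_ii ≤ 2 d`; `A^j f` by the slot bounds
(`∑_e hs (bas d) j (D_e u) ≤ B j q^{-(j-1)} d`); `W f = Z f = 0`; `∫ |z|² = d`, `Z z = δ`, all other derivatives vanish.
-/

open MeasureTheory ProbabilityTheory Function
open scoped BigOperators ContDiff

namespace P347Z

open P347Q

variable {d : ℕ}

/-! ### tensors with constant entries -/

/-- constant tensor -/
def wbC (c : List (Fin d) → ℝ) : TF d := fun L _ => c L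

theorem wb_rtfC (c : List (Fin d) → ℝ) : RTF (wbC c) := fun L => Reg.const (c L)

theorem wb_sob_zero (P : Prm d) (t : ℝ) (k m : ℕ) {F : TF d}
    (h : ∀ L : List (Fin d), L.length = m → F L = fun _ => 0) : Sob P t k m F = 0 := by
  have h1 : Sob P t k m F = Sob P t k m (opS (fun _ => 0) (wbC fun _ => 0)) := by
    refine sob_congr P t k m fun L hL => ?_
    rw [h L hL]
    funext x
    simp [opS]
  rw [h1, sob_S P t k m contDiff_const (wb_rtfC _)]
  simp

theorem wb_sob_const (P : Prm d) (t : ℝ) (m : ℕ) {F : TF d}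
    (h : ∀ L : List (Fin d), L.length = m → ∃ a : ℝ, F L = fun _ => a) (k : ℕ) :
    Sob P t k m F = nsq P t m F := by
  induction k with
  | zero => rfl
  | succ k ih =>
    have hs : Sob P t (k + 1) m F = Sob P t k m F + Sob P t k (m + 1) (opA P F) +
      Sob P t k (m + 1) (opW F) + Sob P t k (m + 1) (opZ F) := rfl
    have hA : Sob P t k (m + 1) (opA P F) = 0 := by
      refine wb_sob_zero P t k (m + 1) fun L hL => ?_
      cases L with
      | nil => simp at hL
      | cons i L =>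
        obtain ⟨a, ha⟩ := h L (by simpa using hL)
        have : opA P F (i :: L) = fun x => P.ρ x.1 * dd (eY i) (F L) x := rfl
        rw [this, ha, dd_const]
        funext x
        simp
    have hW : Sob P t k (m + 1) (opW F) = 0 := by
      refine wb_sob_zero P t k (m + 1) fun L hL => ?_
      cases L with
      | nil => simp at hL
      | cons i L =>
        obtain ⟨a, ha⟩ := h L (by simpa using hL)
        have : opW F (i :: L) = dd (eW i) (F L) := rfl
        rw [this, ha, dd_const]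
    have hZ : Sob P t k (m + 1) (opZ F) = 0 := by
      refine wb_sob_zero P t k (m + 1) fun L hL => ?_
      cases L with
      | nil => simp at hL
      | cons i L =>
        obtain ⟨a, ha⟩ := h L (by simpa using hL)
        have : opZ F (i :: L) = dd (eZ i) (F L) := rfl
        rw [this, ha, dd_const]
    rw [hs, ih, hA, hW, hZ]
    ring

/-! ### the word `z` -/

theorem wb_z_list (P : Prm d) (L : List (Fin d)) (h : L.length = 1) :
    ∃ i, L = [i] ∧ sem P Wd.z L = cz i := by
  obtain ⟨i, rfl⟩ := List.length_eq_one_iff.1 h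
  exact ⟨i, rfl, rfl⟩

theorem wb_f_list (P : Prm d) (L : List (Fin d)) (h : L.length = 1) :
    ∃ i, L = [i] ∧ sem P Wd.f L = P.f i := by
  obtain ⟨i, rfl⟩ := List.length_eq_one_iff.1 h
  exact ⟨i, rfl, rfl⟩

theorem wb_nsq_one (P : Prm d) (t : ℝ) (F : TF d) :
    nsq P t 1 F = ∑ i, ∫ y, (F [i] (t, y)) ^ 2 ∂(P.mu t) := by
  rw [st_nsq_succ P t 0 F]
  simp

theorem wb_z_sq {B : ℕ → ℝ} {P : Prm d} (hP : Fam B P) (t : ℝ) (i : Fin d) :
    ∫ y, (cz i (t, y)) ^ 2 ∂(P.mu t) = 1 := by
  have h := ibp_Z hP (Reg.const 1) (Reg.cz i) i t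
  rw [dd_const] at h
  have hpr := mu_prob hP t
  have h1 : dd (eZ i) (cz i) = fun _ : TS d => (1 : ℝ) := by
    rw [dd_cz]
    funext x
    have : (eZ i : TS d).2.2.2 i = bas d i i := rfl
    rw [this, bas, PiLp.single_apply, if_pos rfl]
  rw [h1] at h
  simp only [zero_mul, integral_zero, one_mul] at h
  have hi : Integrable (fun y : PS d => cz i (t, y) * cz i (t, y)) (P.mu t) :=
    reg_int hP ((Reg.cz i).mul (Reg.cz i)) t
  rw [integral_sub hi (integrable_const 1)] at h
  simp only [integral_const, probReal_univ, smul_eq_mul, mul_one] at h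
  have h2 : ∫ y, (cz i (t, y)) ^ 2 ∂(P.mu t) = ∫ y, cz i (t, y) * cz i (t, y) ∂(P.mu t) := by
    simp_rw [sq]
  rw [h2]
  linarith

theorem wb_nsq_Zz {B : ℕ → ℝ} {P : Prm d} (hP : Fam B P) (t : ℝ) :
    nsq P t 2 (opZ (sem P Wd.z)) = d := by
  have hpr := mu_prob hP t
  rw [st_nsq_succ2 P t 0]
  have h1 : ∀ i j : Fin d, ∫ y, (opZ (sem P Wd.z) (i :: j :: []) (t, y)) ^ 2 ∂(P.mu t) =
      if j = i then 1 else 0 := by
    intro i j
    have h2 : opZ (sem P Wd.z) (i :: j :: []) = dd (eZ i) (cz j) := rfl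
    rw [h2, dd_cz]
    have h3 : (eZ i : TS d).2.2.2 j = bas d i j := rfl
    rw [h3, bas, PiLp.single_apply]
    simp only [integral_const, probReal_univ, smul_eq_mul, one_mul]
    split_ifs <;> norm_num
  simp only [List.ofFn_zero, Finset.univ_unique, Finset.sum_singleton]
  simp_rw [h1]
  simp

theorem sob_z (B : ℕ → ℝ) (k : ℕ) : ∃ C : ℝ, 0 ≤ C ∧ ∀ (d : ℕ) (P : Prm d) (t : ℝ),
    Fam B P → Sob P t k 1 (sem P Wd.z) ≤ C * d := by
  induction k with
  | zero =>
    refine ⟨1, zero_le_one, fun d P t hP => ?_⟩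
    change nsq P t 1 (sem P Wd.z) ≤ _
    rw [wb_nsq_one]
    have : ∀ i, ∫ y, (sem P Wd.z [i] (t, y)) ^ 2 ∂(P.mu t) = 1 := fun i => wb_z_sq hP t i
    simp_rw [this]
    simp
  | succ k ih =>
    obtain ⟨C, hC, h⟩ := ih
    refine ⟨C + 1, by positivity, fun d P t hP => ?_⟩
    have hs : Sob P t (k + 1) 1 (sem P Wd.z) = Sob P t k 1 (sem P Wd.z) +
      Sob P t k 2 (opA P (sem P Wd.z)) + Sob P t k 2 (opW (sem P Wd.z)) +
      Sob P t k 2 (opZ (sem P Wd.z)) := rfl
    have hA : Sob P t k 2 (opA P (sem P Wd.z)) = 0 := by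
      refine wb_sob_zero P t k 2 fun L hL => ?_
      cases L with
      | nil => simp at hL
      | cons i L =>
        obtain ⟨j, -, ha⟩ := wb_z_list P L (by simpa using hL)
        have : opA P (sem P Wd.z) (i :: L) = fun x => P.ρ x.1 * dd (eY i) (sem P Wd.z L) x := rfl
        rw [this, ha, dd_cz]
        funext x
        have e : (eY i : TS d).2.2.2 j = 0 := rfl
        rw [e, mul_zero]
    have hW : Sob P t k 2 (opW (sem P Wd.z)) = 0 := by
      refine wb_sob_zero P t k 2 fun L hL => ?_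
      cases L with
      | nil => simp at hL
      | cons i L =>
        obtain ⟨j, -, ha⟩ := wb_z_list P L (by simpa using hL)
        have : opW (sem P Wd.z) (i :: L) = dd (eW i) (sem P Wd.z L) := rfl
        rw [this, ha, dd_cz]
        rfl
    have hZ : Sob P t k 2 (opZ (sem P Wd.z)) = d := by
      rw [wb_sob_const P t 2 _ k, wb_nsq_Zz hP]
      intro L hL
      cases L with
      | nil => simp at hL
      | cons i L =>
        obtain ⟨j, -, ha⟩ := wb_z_list P L (by simpa using hL)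
        have : opZ (sem P Wd.z) (i :: L) = dd (eZ i) (sem P Wd.z L) := rfl
        exact ⟨_, by rw [this, ha, dd_cz]⟩
    rw [hs, hA, hW, hZ]
    have := h d P t hP
    linarith

/-! ### the word `f` -/

/-- iterated derivatives in space directions -/
noncomputable def wbD : List (Fin d) → (TS d → ℝ) → TS d → ℝ
  | [], G => G
  | l :: L, G => dd (eY l) (wbD L G)

theorem wb_Df (P : Prm d) (L : List (Fin d)) (k : Fin d) :
    P.Df L k = wbD L (dd (eY k) P.H) := by
  induction L with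
  | nil => rfl
  | cons l L ih =>
    have : P.Df (l :: L) k = dd (eY l) (P.Df L k) := rfl
    rw [this, ih]; rfl

theorem wb_append (L : List (Fin d)) (a : Fin d) (G : TS d → ℝ) :
    wbD (L ++ [a]) G = wbD L (dd (eY a) G) := by
  induction L with
  | nil => rfl
  | cons l L ih =>
    have : wbD ((l :: L) ++ [a]) G = dd (eY l) (wbD (L ++ [a]) G) := rfl
    rw [this, ih]; rfl

theorem wb_sum_snoc {n : ℕ} (g : List (Fin d) → ℝ) :
    ∑ l : Fin (n + 1) → Fin d, g (List.ofFn l) =
      ∑ a : Fin d, ∑ l : Fin n → Fin d, g (List.ofFn l ++ [a]) := by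
  rw [← (Fin.snocEquiv (fun _ : Fin (n + 1) => Fin d)).sum_comp, Fintype.sum_prod_type]
  refine Finset.sum_congr rfl fun a _ => Finset.sum_congr rfl fun l _ => ?_
  congr 1
  rw [List.ofFn_succ']
  simp [Fin.snocEquiv, List.concat_eq_append]

theorem wb_hs (n : ℕ) : ∀ (G : TS d → ℝ), ContDiff ℝ ∞ G → ∀ (t : ℝ) (Y : E d) (p : E d × E d),
    hs (bas d) n (fun y => G (t, (y, p))) Y =
      ∑ l : Fin n → Fin d, (wbD (List.ofFn l) G (t, (Y, p))) ^ 2 := by
  induction n with
  | zero =>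
    intro G _ t Y p
    simp [hs, wbD]
  | succ n ih =>
    intro G hG t Y p
    rw [wb_sum_snoc (fun L => (wbD L G (t, (Y, p))) ^ 2)]
    have h1 : hs (bas d) (n + 1) (fun y => G (t, (y, p))) Y =
      ∑ a, hs (bas d) n (fun z' => fderiv ℝ (fun y => G (t, (y, p))) z' (bas d a)) Y := rfl
    rw [h1]
    refine Finset.sum_congr rfl fun a _ => ?_
    have h2 : (fun z' => fderiv ℝ (fun y => G (t, (y, p))) z' (bas d a)) =
        fun z' => dd (eY a) G (t, (z', p)) := by
      funext z'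
      rw [st_ddY G hG]
    rw [h2, ih _ (dd_smooth hG _)]
    refine Finset.sum_congr rfl fun l _ => ?_
    rw [wb_append]

theorem wb_slot {B : ℕ → ℝ} {P : Prm d} (hP : Fam B P) {n : ℕ} (hn : 1 ≤ n) (x : TS d)
    (k : Fin d) :
    P.q x.1 ^ n * ∑ l : Fin n → Fin d, (P.Df (List.ofFn l) k x) ^ 2 ≤ |B n| := by
  obtain ⟨t, Y, p⟩ := x
  have hq : 0 < P.q t := by
    have := cc_pos t
    have := hP.s_pos
    unfold Prm.q
    positivity
  have h1 : ∑ l : Fin n → Fin d, (P.Df (List.ofFn l) k (t, (Y, p))) ^ 2 =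
      hs (bas d) n (fun y => fderiv ℝ (fun y' => P.u (t, y')) y (bas d k)) Y := by
    have h2 : (fun y => fderiv ℝ (fun y' => P.u (t, y')) y (bas d k)) =
        fun y => dd (eY k) P.H (t, (y, p)) := by
      funext y
      rw [st_ddY _ (Reg.H hP).1]
      rfl
    rw [h2, wb_hs n _ (dd_smooth (Reg.H hP).1 _)]
    simp_rw [wb_Df]
  have h3 := hP.slot n hn t (bas d k) Y
  have h4 : ‖bas d k‖ = 1 := by simp [bas]
  rw [h4] at h3
  simp only
  rw [h1]
  have h5 : P.q t ^ n * (B n * (P.q t ^ (n - 1))⁻¹ * 1 ^ 2) = P.q t * B n := by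
    obtain ⟨m, rfl⟩ : ∃ m, n = m + 1 := ⟨n - 1, by omega⟩
    have : P.q t ^ m ≠ 0 := by positivity
    simp only [Nat.add_sub_cancel, pow_succ]
    field_simp
  have h6 : P.q t ^ n * hs (bas d) n (fun y => fderiv ℝ (fun y' => P.u (t, y')) y (bas d k)) Y ≤
      P.q t * B n := by
    rw [← h5]
    exact mul_le_mul_of_nonneg_left h3 (by positivity)
  refine h6.trans ?_
  have h7 := st_q_le hP t
  calc P.q t * B n ≤ P.q t * |B n| := mul_le_mul_of_nonneg_left (le_abs_self _) hq.le
    _ ≤ 1 * |B n| := mul_le_mul_of_nonneg_right h7 (abs_nonneg _)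
    _ = |B n| := one_mul _

/-- `A^j f` -/
noncomputable def wbF (P : Prm d) (j : ℕ) : TF d := fun L x =>
  match L.drop j with
  | [k] => P.ρ x.1 ^ j * P.Df (L.take j) k x
  | _ => 0

theorem wb_F_append (P : Prm d) {j : ℕ} {L : List (Fin d)} (h : L.length = j) (k : Fin d) :
    wbF P j (L ++ [k]) = fun x => P.ρ x.1 ^ j * P.Df L k x := by
  funext x
  unfold wbF
  subst h
  simp

theorem wb_F_exists {j : ℕ} {L : List (Fin d)} (h : L.length = j + 1) :
    ∃ L' k, L = L' ++ [k] ∧ L'.length = j := by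
  have hne : L ≠ [] := by
    rintro rfl
    simp at h
  refine ⟨L.dropLast, L.getLast hne, (List.dropLast_append_getLast hne).symm, ?_⟩
  simp [h]

theorem wb_opA_F {B : ℕ → ℝ} {P : Prm d} (hP : Fam B P) {j : ℕ} {L : List (Fin d)}
    (h : L.length = j + 2) : opA P (wbF P j) L = wbF P (j + 1) L := by
  cases L with
  | nil => simp at h
  | cons i L =>
    obtain ⟨L', k, rfl, hL'⟩ := wb_F_exists (j := j) (L := L) (by simpa using h)
    have h1 : opA P (wbF P j) (i :: (L' ++ [k])) = fun x => P.ρ x.1 *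
      dd (eY i) (wbF P j (L' ++ [k])) x := rfl
    have h2 : wbF P (j + 1) (i :: (L' ++ [k])) = fun x => P.ρ x.1 ^ (j + 1) *
        P.Df (i :: L') k x := wb_F_append P (L := i :: L') (by simp [hL']) k
    rw [h1, h2, wb_F_append P hL' k]
    have h3 : ContDiff ℝ ∞ (fun s => P.ρ s ^ j) := (smooth_rho P).pow j
    rw [st_time h3 (Reg.Df hP L' k).1 (by rfl)]
    funext x
    have h4 : P.Df (i :: L') k x = dd (eY i) (P.Df L' k) x := rfl
    rw [h4]
    ring

theorem wb_dd_Df {B : ℕ → ℝ} {P : Prm d} (hP : Fam B P) (v : E d × E d) (L : List (Fin d))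
    (k : Fin d) : dd ((0, (0, v)) : TS d) (P.Df L k) = fun _ => 0 := by
  induction L with
  | nil => exact st_ddW_f hP v k
  | cons l L ih =>
    have h1 : P.Df (l :: L) k = dd (eY l) (P.Df L k) := rfl
    rw [h1, dd_comm (Reg.Df hP L k).1, ih, dd_const]

theorem wb_opW_F {B : ℕ → ℝ} {P : Prm d} (hP : Fam B P) {j : ℕ} {L : List (Fin d)}
    (h : L.length = j + 2) : opW (wbF P j) L = fun _ => 0 := by
  cases L with
  | nil => simp at h
  | cons i L =>
    obtain ⟨L', k, rfl, hL'⟩ := wb_F_exists (j := j) (L := L) (by simpa using h)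
    have h1 : opW (wbF P j) (i :: (L' ++ [k])) = dd (eW i) (wbF P j (L' ++ [k])) := rfl
    rw [h1, wb_F_append P hL' k]
    have h3 : ContDiff ℝ ∞ (fun s => P.ρ s ^ j) := (smooth_rho P).pow j
    rw [st_time h3 (Reg.Df hP L' k).1 (by rfl)]
    have h4 : dd (eW i) (P.Df L' k) = fun _ => 0 := wb_dd_Df hP (bas d i, 0) L' k
    rw [h4]
    simp

theorem wb_opZ_F {B : ℕ → ℝ} {P : Prm d} (hP : Fam B P) {j : ℕ} {L : List (Fin d)}
    (h : L.length = j + 2) : opZ (wbF P j) L = fun _ => 0 := by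
  cases L with
  | nil => simp at h
  | cons i L =>
    obtain ⟨L', k, rfl, hL'⟩ := wb_F_exists (j := j) (L := L) (by simpa using h)
    have h1 : opZ (wbF P j) (i :: (L' ++ [k])) = dd (eZ i) (wbF P j (L' ++ [k])) := rfl
    rw [h1, wb_F_append P hL' k]
    have h3 : ContDiff ℝ ∞ (fun s => P.ρ s ^ j) := (smooth_rho P).pow j
    rw [st_time h3 (Reg.Df hP L' k).1 (by rfl)]
    have h4 : dd (eZ i) (P.Df L' k) = fun _ => 0 := wb_dd_Df hP (0, bas d i) L' k
    rw [h4]
    simp

/-- level zero -/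
theorem wb_nsq_F {B : ℕ → ℝ} {P : Prm d} (hP : Fam B P) (t : ℝ) (j : ℕ) :
    nsq P t (j + 1) (wbF P j) ≤ (2 + |B j|) * d := by
  have hpr := mu_prob hP t
  unfold nsq
  rw [wb_sum_snoc (fun L => ∫ y, (wbF P j L (t, y)) ^ 2 ∂(P.mu t))]
  have h1 : ∀ (k : Fin d), ∑ l : Fin j → Fin d,
      ∫ y, (wbF P j (List.ofFn l ++ [k]) (t, y)) ^ 2 ∂(P.mu t) ≤ 2 + |B j| := by
    intro k
    rcases Nat.eq_zero_or_pos j with rfl | hj
    · have h2 : wbF P 0 ([] ++ [k]) = P.f k := by
        rw [wb_F_append P (j := 0) (L := []) rfl k]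
        funext x
        simp [Prm.f]
      have h3 := ibp_Y hP (Reg.const 1) (Reg.Df hP [] k) k t
      rw [dd_const] at h3
      simp only [zero_mul, integral_zero, one_mul] at h3
      have hi : Integrable (fun y : PS d => P.f k (t, y) * P.f k (t, y)) (P.mu t) :=
        reg_int hP ((Reg.Df hP [] k).mul (Reg.Df hP [] k)) t
      have hi2 : Integrable (fun y : PS d => dd (eY k) (P.Df [] k) (t, y)) (P.mu t) :=
        reg_int hP ((Reg.Df hP [] k).dd rfl) t
      have h4 : ∫ y, (P.f k (t, y) * P.Df [] k (t, y) - dd (eY k) (P.Df [] k) (t, y)) ∂(P.mu t) =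
        ∫ y, P.f k (t, y) * P.f k (t, y) ∂(P.mu t) - ∫ y, dd (eY k) (P.Df [] k) (t, y) ∂(P.mu t) :=
        integral_sub hi hi2
      rw [h4] at h3
      have h5 : ∫ y, dd (eY k) (P.Df [] k) (t, y) ∂(P.mu t) ≤ ∫ _y, (2 : ℝ) ∂(P.mu t) := by
        refine integral_mono hi2 (integrable_const 2) fun y => ?_
        have h6 : dd (eY k) (P.Df [] k) (t, y) = P.T k k (t, y) := rfl
        have h7 := hP.upper t y.1 (bas d k)
        have h8 : ‖bas d k‖ = 1 := by simp [bas]
        simp only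
        rw [h6, st_T hP]
        rw [h8] at h7
        linarith
      have h9 : ∫ _y, (2 : ℝ) ∂(P.mu t) = 2 := by simp
      have h10 : ∑ l : Fin 0 → Fin d, ∫ y, (wbF P 0 (List.ofFn l ++ [k]) (t, y)) ^ 2 ∂(P.mu t) =
          ∫ y, P.f k (t, y) * P.f k (t, y) ∂(P.mu t) := by
        simp only [List.ofFn_zero, Finset.univ_unique, Finset.sum_singleton]
        rw [h2]
        simp_rw [sq]
      rw [h10]
      have := abs_nonneg (B 0)
      linarith
    · have h2 : ∀ l : Fin j → Fin d, wbF P j (List.ofFn l ++ [k]) =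
          fun x => P.ρ x.1 ^ j * P.Df (List.ofFn l) k x := fun l =>
        wb_F_append P (by simp) k
      have hi : ∀ l : Fin j → Fin d, Integrable
          (fun y => (wbF P j (List.ofFn l ++ [k]) (t, y)) ^ 2) (P.mu t) := by
        intro l
        rw [h2]
        have hr : Reg (fun x : TS d => (P.ρ x.1 ^ j * P.Df (List.ofFn l) k x) *
            (P.ρ x.1 ^ j * P.Df (List.ofFn l) k x)) :=
          ((Reg.time ((smooth_rho P).pow j)).mul (Reg.Df hP _ k)).mul
            ((Reg.time ((smooth_rho P).pow j)).mul (Reg.Df hP _ k))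
        simp_rw [sq]
        exact reg_int hP hr t
      rw [← integral_finsetSum _ fun l _ => hi l]
      calc ∫ y, ∑ l : Fin j → Fin d, (wbF P j (List.ofFn l ++ [k]) (t, y)) ^ 2 ∂(P.mu t) ≤
            ∫ _y, |B j| ∂(P.mu t) := by
            refine integral_mono (integrable_finsetSum _ fun l _ => hi l) (integrable_const _)
              fun y => ?_
            simp only
            refine le_trans (le_of_eq ?_) (wb_slot hP hj (t, y) k)
            rw [Finset.mul_sum]
            refine Finset.sum_congr rfl fun l _ => ?_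
            rw [h2, ← rho_sq hP.s_pos.le]
            ring
        _ = |B j| := by simp
        _ ≤ 2 + |B j| := by linarith
  calc ∑ a : Fin d, ∑ l : Fin j → Fin d,
        ∫ y, (wbF P j (List.ofFn l ++ [a]) (t, y)) ^ 2 ∂(P.mu t) ≤
        ∑ _a : Fin d, (2 + |B j|) := Finset.sum_le_sum fun a _ => h1 a
    _ = (2 + |B j|) * d := by
        rw [Finset.sum_const, Finset.card_univ, Fintype.card_fin, nsmul_eq_mul, mul_comm]

theorem wb_sob_F (B : ℕ → ℝ) (k : ℕ) : ∀ j : ℕ, ∃ C : ℝ, 0 ≤ C ∧ ∀ (d : ℕ) (P : Prm d) (t : ℝ),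
    Fam B P → Sob P t k (j + 1) (wbF P j) ≤ C * d := by
  induction k with
  | zero =>
    intro j
    exact ⟨2 + |B j|, by positivity, fun d P t hP => wb_nsq_F hP t j⟩
  | succ k ih =>
    intro j
    obtain ⟨C, hC, h⟩ := ih j
    obtain ⟨C', hC', h'⟩ := ih (j + 1)
    refine ⟨C + C', by positivity, fun d P t hP => ?_⟩
    have hs : Sob P t (k + 1) (j + 1) (wbF P j) = Sob P t k (j + 1) (wbF P j) +
      Sob P t k (j + 2) (opA P (wbF P j)) + Sob P t k (j + 2) (opW (wbF P j)) +
      Sob P t k (j + 2) (opZ (wbF P j)) := rfl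
    have hA : Sob P t k (j + 2) (opA P (wbF P j)) = Sob P t k (j + 2) (wbF P (j + 1)) :=
      sob_congr P t k (j + 2) fun L hL => wb_opA_F hP hL
    have hW : Sob P t k (j + 2) (opW (wbF P j)) = 0 :=
      wb_sob_zero P t k (j + 2) fun L hL => wb_opW_F hP hL
    have hZ : Sob P t k (j + 2) (opZ (wbF P j)) = 0 :=
      wb_sob_zero P t k (j + 2) fun L hL => wb_opZ_F hP hL
    rw [hs, hA, hW, hZ]
    have h1 := h d P t hP
    have h2 := h' d P t hP
    linarith

theorem sob_f (B : ℕ → ℝ) (k : ℕ) : ∃ C : ℝ, 0 ≤ C ∧ ∀ (d : ℕ) (P : Prm d) (t : ℝ),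
    Fam B P → Sob P t k 1 (sem P Wd.f) ≤ C * d := by
  obtain ⟨C, hC, h⟩ := wb_sob_F B k 0
  refine ⟨C, hC, fun d P t hP => ?_⟩
  have h1 : Sob P t k 1 (sem P Wd.f) = Sob P t k 1 (wbF P 0) := by
    refine sob_congr P t k 1 fun L hL => ?_
    obtain ⟨i, rfl, h2⟩ := wb_f_list P L hL
    rw [h2]
    have := wb_F_append P (j := 0) (L := []) rfl i
    simp only [List.nil_append] at this
    rw [this]
    funext x
    simp [Prm.f]
  rw [h1]
  exact h d P t hP

end P347Z
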