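import Vale.Agent.P347Z.WdStar
import Vale.Agent.P347Z.WdBase

/-!
Module WBOUND: assembly of the Sobolev bound for all words (induction on the word).
-/

open MeasureTheory ProbabilityTheory Function
open scoped BigOperators ContDiff

namespace P347Z

open P347Q

variable {d : ℕ}

theorem sem_bound (B : ℕ → ℝ) (a : Wd) : ∀ m : ℕ, a.ok m → ∀ k : ℕ, ∃ C : ℝ, 0 ≤ C ∧
    ∀ (d : ℕ) (P : Prm d) (t : ℝ), Fam B P → Sob P t k m (sem P a) ≤ C * d := by
  induction a with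
  | f =>
    intro m hm k
    have : m = 1 := hm
    subst this
    exact sob_f B k
  | z =>
    intro m hm k
    have : m = 1 := hm
    subst this
    exact sob_z B k
  | T a ih =>
    intro m hm k
    obtain ⟨hm1, hm2⟩ : a.ok m ∧ 1 ≤ m := hm
    obtain ⟨C, hC, h⟩ := ih m hm1 k
    obtain ⟨C', hC', h'⟩ := sob_T B k
    refine ⟨C' * C, by positivity, fun d P t hP => ?_⟩
    have h1 := h' d P t hP _ (sem_reg hP a) m hm2
    have h2 := mul_le_mul_of_nonneg_left (h d P t hP) hC'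
    change Sob P t k m (opT P (sem P a)) ≤ _
    linarith
  | Sw a ih =>
    intro m hm k
    obtain ⟨hm1, hm2⟩ : a.ok m ∧ 2 ≤ m := hm
    obtain ⟨C, hC, h⟩ := ih m hm1 k
    refine ⟨C, hC, fun d P t hP => ?_⟩
    change Sob P t k m (opSw (sem P a)) ≤ _
    rw [sob_Sw P t k m hm2]
    exact h d P t hP
  | A a ih =>
    intro m hm k
    obtain ⟨hm1, hm2⟩ : 1 ≤ m ∧ a.ok (m - 1) := hm
    obtain ⟨m, rfl⟩ : ∃ m', m = m' + 1 := ⟨m - 1, by omega⟩
    obtain ⟨C, hC, h⟩ := ih m hm2 (k + 1)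
    exact ⟨C, hC, fun d P t hP => (sob_A_le P t k m (sem P a)).trans (h d P t hP)⟩
  | W a ih =>
    intro m hm k
    obtain ⟨hm1, hm2⟩ : 1 ≤ m ∧ a.ok (m - 1) := hm
    obtain ⟨m, rfl⟩ : ∃ m', m = m' + 1 := ⟨m - 1, by omega⟩
    obtain ⟨C, hC, h⟩ := ih m hm2 (k + 1)
    exact ⟨C, hC, fun d P t hP => (sob_W_le P t k m (sem P a)).trans (h d P t hP)⟩
  | Z a ih =>
    intro m hm k
    obtain ⟨hm1, hm2⟩ : 1 ≤ m ∧ a.ok (m - 1) := hm
    obtain ⟨m, rfl⟩ : ∃ m', m = m' + 1 := ⟨m - 1, by omega⟩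
    obtain ⟨C, hC, h⟩ := ih m hm2 (k + 1)
    exact ⟨C, hC, fun d P t hP => (sob_Z_le P t k m (sem P a)).trans (h d P t hP)⟩
  | As a ih =>
    intro m hm k
    obtain ⟨C, hC, h⟩ := ih (m + 1) hm (k + 1)
    obtain ⟨C', hC', h'⟩ := sob_As B k
    refine ⟨C' * C, by positivity, fun d P t hP => ?_⟩
    have h1 := h' d P t hP _ (sem_reg hP a) m
    have h2 := mul_le_mul_of_nonneg_left (h d P t hP) hC'
    change Sob P t k m (opAs P (sem P a)) ≤ _
    linarith
  | Ws a ih =>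
    intro m hm k
    obtain ⟨C, hC, h⟩ := ih (m + 1) hm (k + 1)
    obtain ⟨C', hC', h'⟩ := sob_Ws B k
    refine ⟨C' * C, by positivity, fun d P t hP => ?_⟩
    have h1 := h' d P t hP _ (sem_reg hP a) m
    have h2 := mul_le_mul_of_nonneg_left (h d P t hP) hC'
    change Sob P t k m (opWs (sem P a)) ≤ _
    linarith
  | Zs a ih =>
    intro m hm k
    obtain ⟨C, hC, h⟩ := ih (m + 1) hm (k + 1)
    obtain ⟨C', hC', h'⟩ := sob_Zs B k
    refine ⟨C' * C, by positivity, fun d P t hP => ?_⟩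
    have h1 := h' d P t hP _ (sem_reg hP a) m
    have h2 := mul_le_mul_of_nonneg_left (h d P t hP) hC'
    change Sob P t k m (opZs (sem P a)) ≤ _
    linarith
  | add a b iha ihb =>
    intro m hm k
    obtain ⟨hm1, hm2⟩ : a.ok m ∧ b.ok m := hm
    obtain ⟨C, hC, h⟩ := iha m hm1 k
    obtain ⟨C', hC', h'⟩ := ihb m hm2 k
    refine ⟨2 * C + 2 * C', by positivity, fun d P t hP => ?_⟩
    have h1 := sob_add_le hP t k m (sem_reg hP a) (sem_reg hP b)
    have h2 := h d P t hP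
    have h3 := h' d P t hP
    change Sob P t k m (sem P a + sem P b) ≤ _
    linarith
  | sc g a ih =>
    intro m hm k
    obtain ⟨C, hC, h⟩ := ih m hm k
    obtain ⟨C', hC', h'⟩ := cf_bound g
    refine ⟨C' ^ 2 * C, by positivity, fun d P t hP => ?_⟩
    change Sob P t k m (opS (g.ev P.s P.lam) (sem P a)) ≤ _
    rw [sob_S P t k m (cf_smooth P.s P.lam g) (sem_reg hP a)]
    have h1 := h' P.s P.lam t hP.s_pos.le hP.s_le hP.lam_nonneg hP.lam_le
    have h2 : (g.ev P.s P.lam t) ^ 2 ≤ C' ^ 2 := by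
      rw [← sq_abs]
      exact pow_le_pow_left₀ (abs_nonneg _) h1 2
    have h3 := sob_nonneg P t k m (sem P a)
    have h4 := mul_le_mul_of_nonneg_right h2 h3
    have h5 := mul_le_mul_of_nonneg_left (h d P t hP) (sq_nonneg C')
    linarith

/-- vector valued words: second moment at stationarity -/
theorem sem_sq (B : ℕ → ℝ) (a : Wd) (h : a.ok 1) : ∃ C : ℝ, 0 ≤ C ∧
    ∀ (d : ℕ) (P : Prm d) (t : ℝ), Fam B P →
      ∫ y, ∑ i, (sem P a [i] (t, y)) ^ 2 ∂(P.mu t) ≤ C * d := by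
  obtain ⟨C, hC, h⟩ := sem_bound B a 1 h 0
  refine ⟨C, hC, fun d P t hP => ?_⟩
  have h1 := h d P t hP
  change nsq P t 1 (sem P a) ≤ _ at h1
  rw [st_nsq_succ P t 0 (sem P a)] at h1
  rw [integral_finsetSum]
  · simpa using h1
  · intro i _
    have := reg_int hP ((sem_reg hP a [i]).mul (sem_reg hP a [i])) t
    simpa only [sq] using this

end P347Z
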