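import Vale.Agent.P347Z.WdDefs

/-!
Module WCALC: calculus of `cc`, `th`, directional derivatives, coefficients.
-/

open MeasureTheory ProbabilityTheory Function
open scoped BigOperators ContDiff

namespace P347Z

open P347Q

variable {d : ℕ}

theorem cc_pos (t : ℝ) : 0 < cc t := inv_pos.2 (Real.cosh_pos t)

theorem cc_le_one (t : ℝ) : cc t ≤ 1 := inv_le_one_of_one_le₀ (Real.one_le_cosh t)

theorem cc_sq_add (t : ℝ) : cc t ^ 2 + th t ^ 2 = 1 := by
  have h := Real.cosh_pos t
  have h2 := Real.cosh_sq t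
  unfold cc th
  field_simp
  linarith

theorem th_le_one (t : ℝ) : |th t| ≤ 1 := by
  rw [← sq_le_one_iff_abs_le_one]
  have := cc_sq_add t
  nlinarith [sq_nonneg (cc t)]

theorem hasDerivAt_cc (t : ℝ) : HasDerivAt cc (-(cc t * th t)) t := by
  have h := (Real.hasDerivAt_cosh t).inv (Real.cosh_pos t).ne'
  have e : -(cc t * th t) = -Real.sinh t / Real.cosh t ^ 2 := by
    unfold cc th
    have := (Real.cosh_pos t).ne'
    field_simp
  rw [e]
  exact h

theorem hasDerivAt_th (t : ℝ) : HasDerivAt th (cc t ^ 2) t := by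
  have h := (Real.hasDerivAt_sinh t).div (Real.hasDerivAt_cosh t) (Real.cosh_pos t).ne'
  have e : cc t ^ 2 = (Real.cosh t * Real.cosh t - Real.sinh t * Real.sinh t) / Real.cosh t ^ 2 := by
    have h2 := Real.cosh_sq t
    have h3 : Real.cosh t * Real.cosh t - Real.sinh t * Real.sinh t = 1 := by nlinarith
    rw [h3]
    unfold cc
    simp
  rw [e]
  exact h

theorem smooth_cc : ContDiff ℝ ∞ cc := by
  unfold cc
  exact Real.contDiff_cosh.inv fun x => (Real.cosh_pos x).ne'

theorem smooth_th : ContDiff ℝ ∞ th := by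
  unfold th
  exact Real.contDiff_sinh.div Real.contDiff_cosh fun x => (Real.cosh_pos x).ne'

theorem dd_smooth {F : TS d → ℝ} (hF : ContDiff ℝ ∞ F) (v : TS d) : ContDiff ℝ ∞ (dd v F) := by
  unfold dd
  exact (hF.fderiv_right (m := ∞) (by simp)).clm_apply contDiff_const

theorem dd_dd_eq {F : TS d → ℝ} (hF : ContDiff ℝ ∞ F) (v w : TS d) (x : TS d) :
    dd v (dd w F) x = fderiv ℝ (fderiv ℝ F) x v w := by
  have h1 : HasFDerivAt (fderiv ℝ F) (fderiv ℝ (fderiv ℝ F) x) x :=
    ((hF.fderiv_right (m := ∞) (by simp)).differentiable (by simp) x).hasFDerivAt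
  have h2 := (h1.clm_apply (hasFDerivAt_const w x)).fderiv
  show fderiv ℝ (fun y => fderiv ℝ F y w) x v = _
  rw [h2]
  simp

theorem dd_comm {F : TS d → ℝ} (hF : ContDiff ℝ ∞ F) (v w : TS d) :
    dd v (dd w F) = dd w (dd v F) := by
  funext x
  rw [dd_dd_eq hF, dd_dd_eq hF]
  have := (hF.contDiffAt (x := x)).isSymmSndFDerivAt
    (by rw [minSmoothness_of_isRCLikeNormedField]; exact ENat.LEInfty.out)
  exact this v w

theorem dd_add_fun {F G : TS d → ℝ} (hF : ContDiff ℝ ∞ F) (hG : ContDiff ℝ ∞ G) (v : TS d) :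
    dd v (fun x => F x + G x) = fun x => dd v F x + dd v G x := by
  funext x
  unfold dd
  rw [fderiv_fun_add (hF.differentiable (by simp) x) (hG.differentiable (by simp) x)]
  rfl

theorem dd_sub_fun {F G : TS d → ℝ} (hF : ContDiff ℝ ∞ F) (hG : ContDiff ℝ ∞ G) (v : TS d) :
    dd v (fun x => F x - G x) = fun x => dd v F x - dd v G x := by
  funext x
  unfold dd
  rw [fderiv_fun_sub (hF.differentiable (by simp) x) (hG.differentiable (by simp) x)]
  rfl

theorem dd_mul_fun {F G : TS d → ℝ} (hF : ContDiff ℝ ∞ F) (hG : ContDiff ℝ ∞ G) (v : TS d) :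
    dd v (fun x => F x * G x) = fun x => dd v F x * G x + F x * dd v G x := by
  funext x
  unfold dd
  rw [fderiv_fun_mul (hF.differentiable (by simp) x) (hG.differentiable (by simp) x)]
  simp only [add_apply, smul_apply, smul_eq_mul]
  ring

theorem dd_const (a : ℝ) (v : TS d) : dd v (fun _ : TS d => a) = fun _ => 0 := by
  funext x
  unfold dd
  simp

theorem dd_sum_fun {ι : Type*} (s : Finset ι) {F : ι → TS d → ℝ}
    (hF : ∀ i ∈ s, ContDiff ℝ ∞ (F i)) (v : TS d) :
    dd v (fun x => ∑ i ∈ s, F i x) = fun x => ∑ i ∈ s, dd v (F i) x := by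
  funext x
  unfold dd
  rw [fderiv_fun_sum fun i hi => (hF i hi).differentiable (by simp) x]
  rw [sum_apply]

/-- derivative of a function of time in a direction `(a, v)` -/
theorem dd_time {g g' : ℝ → ℝ} (hg : ∀ t, HasDerivAt g (g' t) t) (v : TS d) :
    dd v (fun x : TS d => g x.1) = fun x => v.1 * g' x.1 := by
  funext x
  have h1 : HasFDerivAt (fun x : TS d => x.1) (ContinuousLinearMap.fst ℝ ℝ (PS d)) x :=
    hasFDerivAt_fst
  have h2 := (hg x.1).comp_hasFDerivAt x h1
  have h3 : fderiv ℝ (fun x : TS d => g x.1) x = g' x.1 • ContinuousLinearMap.fst ℝ ℝ (PS d) :=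
    h2.fderiv
  unfold dd
  rw [h3]
  simp [mul_comm]

theorem dd_cw (v : TS d) (i : Fin d) : dd v (cw i) = fun _ => v.2.2.1 i := by
  funext x
  have e : (cw i : TS d → ℝ) = ((EuclideanSpace.proj i : E d →L[ℝ] ℝ).comp
      ((ContinuousLinearMap.fst ℝ (E d) (E d)).comp ((ContinuousLinearMap.snd ℝ (E d)
        (E d × E d)).comp (ContinuousLinearMap.snd ℝ ℝ (PS d)))) : TS d →L[ℝ] ℝ) := rfl
  unfold dd
  rw [e, ContinuousLinearMap.fderiv]
  rfl

theorem dd_cz (v : TS d) (i : Fin d) : dd v (cz i) = fun _ => v.2.2.2 i := by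
  funext x
  have e : (cz i : TS d → ℝ) = ((EuclideanSpace.proj i : E d →L[ℝ] ℝ).comp
      ((ContinuousLinearMap.snd ℝ (E d) (E d)).comp ((ContinuousLinearMap.snd ℝ (E d)
        (E d × E d)).comp (ContinuousLinearMap.snd ℝ ℝ (PS d)))) : TS d →L[ℝ] ℝ) := rfl
  unfold dd
  rw [e, ContinuousLinearMap.fderiv]
  rfl

theorem smooth_q (P : Prm d) : ContDiff ℝ ∞ P.q := by
  unfold Prm.q
  exact contDiff_const.mul (smooth_cc.pow 2)

theorem smooth_rho (P : Prm d) : ContDiff ℝ ∞ P.ρ := by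
  unfold Prm.ρ
  exact contDiff_const.mul smooth_cc

theorem hasDerivAt_rho (P : Prm d) (t : ℝ) : HasDerivAt P.ρ (-(th t * P.ρ t)) t := by
  have h := (hasDerivAt_cc t).const_mul (√P.s)
  have e : -(th t * P.ρ t) = √P.s * -(cc t * th t) := by
    unfold Prm.ρ
    ring
  rw [e]
  exact h

theorem rho_sq {P : Prm d} (hs : 0 ≤ P.s) (t : ℝ) : P.ρ t ^ 2 = P.q t := by
  unfold Prm.ρ Prm.q
  rw [mul_pow, Real.sq_sqrt hs]

theorem cf_smooth (s lam : ℝ) (g : Cf) : ContDiff ℝ ∞ (g.ev s lam) := by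
  induction g with
  | k a => exact contDiff_const
  | c => exact smooth_cc
  | h => exact smooth_th
  | q => exact contDiff_const.mul (smooth_cc.pow 2)
  | l => exact contDiff_const
  | add a b ha hb => exact ha.add hb
  | mul a b ha hb => exact ha.mul hb

theorem cf_der (s lam : ℝ) (g : Cf) (t : ℝ) :
    HasDerivAt (g.ev s lam) (g.der.ev s lam t) t := by
  induction g with
  | k a => exact hasDerivAt_const t a
  | c =>
    have e : Cf.c.der.ev s lam t = -(cc t * th t) := by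
      simp only [Cf.der, Cf.ev]
      ring
    rw [e]
    exact hasDerivAt_cc t
  | h =>
    have e : Cf.h.der.ev s lam t = cc t ^ 2 := by
      simp only [Cf.der, Cf.ev]
      ring
    rw [e]
    exact hasDerivAt_th t
  | q =>
    have h := ((hasDerivAt_cc t).pow 2).const_mul s
    have e : Cf.q.der.ev s lam t = s * ((2 : ℕ) * cc t ^ (2 - 1) * -(cc t * th t)) := by
      simp only [Cf.der, Cf.ev]
      push_cast
      ring
    rw [e]
    exact h
  | l => exact hasDerivAt_const t lam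
  | add a b ha hb => exact ha.add hb
  | mul a b ha hb => exact ha.mul hb

/-- coefficients are bounded uniformly in the parameters -/
theorem cf_bound (g : Cf) : ∃ C : ℝ, 0 ≤ C ∧ ∀ s lam t : ℝ, 0 ≤ s → s ≤ 1 → 0 ≤ lam → lam ≤ 1 →
    |g.ev s lam t| ≤ C := by
  induction g with
  | k a => exact ⟨|a|, abs_nonneg _, fun _ _ _ _ _ _ _ => le_rfl⟩
  | c =>
    refine ⟨1, zero_le_one, fun s lam t _ _ _ _ => ?_⟩
    show |cc t| ≤ 1
    rw [abs_of_pos (cc_pos t)]
    exact cc_le_one t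
  | h => exact ⟨1, zero_le_one, fun _ _ t _ _ _ _ => th_le_one t⟩
  | q =>
    refine ⟨1, zero_le_one, fun s lam t hs hs1 _ _ => ?_⟩
    show |s * cc t ^ 2| ≤ 1
    have h1 := cc_pos t
    have h2 := cc_le_one t
    rw [abs_of_nonneg (by positivity)]
    have h3 : cc t ^ 2 ≤ 1 := pow_le_one₀ h1.le h2
    nlinarith [sq_nonneg (cc t)]
  | l =>
    refine ⟨1, zero_le_one, fun s lam t _ _ h h1 => ?_⟩
    show |lam| ≤ 1
    rw [abs_of_nonneg h]
    exact h1
  | add a b ha hb =>
    obtain ⟨A, hA, ha'⟩ := ha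
    obtain ⟨B, hB, hb'⟩ := hb
    refine ⟨A + B, by positivity, fun s lam t h1 h2 h3 h4 => ?_⟩
    show |a.ev s lam t + b.ev s lam t| ≤ A + B
    exact (abs_add_le _ _).trans (add_le_add (ha' s lam t h1 h2 h3 h4) (hb' s lam t h1 h2 h3 h4))
  | mul a b ha hb =>
    obtain ⟨A, hA, ha'⟩ := ha
    obtain ⟨B, hB, hb'⟩ := hb
    refine ⟨A * B, by positivity, fun s lam t h1 h2 h3 h4 => ?_⟩
    show |a.ev s lam t * b.ev s lam t| ≤ A * B
    rw [abs_mul]
    exact mul_le_mul (ha' s lam t h1 h2 h3 h4) (hb' s lam t h1 h2 h3 h4) (abs_nonneg _) hA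

end P347Z
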