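import Vale.Agent.P347Z.WdCalc

/-!
Module WCALCR: closure properties of the class `Reg` (smooth jointly in `(t, Y, w, z)`, temperate growth at
every fixed time).  Closure of `HasTemperateGrowth` under sums, products and derivatives is in Mathlib; for a
direction `v` with `v.1 = 0` the directional derivative of `F` at `(t, y)` is `fderiv ℝ (fun y => F (t, y)) y v.2`.
-/

open MeasureTheory ProbabilityTheory Function
open scoped BigOperators ContDiff

namespace P347Z

open P347Q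

variable {d : ℕ}

theorem Reg.add {F G : TS d → ℝ} (hF : Reg F) (hG : Reg G) : Reg (fun x => F x + G x) :=
  ⟨hF.1.add hG.1, fun t => (hF.2 t).add (hG.2 t)⟩

theorem Reg.sub {F G : TS d → ℝ} (hF : Reg F) (hG : Reg G) : Reg (fun x => F x - G x) :=
  ⟨hF.1.sub hG.1, fun t => (hF.2 t).sub (hG.2 t)⟩

theorem Reg.mul {F G : TS d → ℝ} (hF : Reg F) (hG : Reg G) : Reg (fun x => F x * G x) :=
  ⟨hF.1.mul hG.1, fun t => (hF.2 t).mul (hG.2 t)⟩

theorem Reg.const (a : ℝ) : Reg (fun _ : TS d => a) :=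
  ⟨contDiff_const, fun _ => HasTemperateGrowth.const (E := PS d) a⟩

theorem Reg.sum {ι : Type*} (s : Finset ι) {F : ι → TS d → ℝ} (hF : ∀ i ∈ s, Reg (F i)) :
    Reg (fun x => ∑ i ∈ s, F i x) := by
  classical
  induction s using Finset.induction_on with
  | empty => simpa using Reg.const (d := d) 0
  | insert a s ha ih =>
    have h1 := hF a (Finset.mem_insert_self a s)
    have h2 := ih fun i hi => hF i (Finset.mem_insert_of_mem hi)
    have h3 := h1.add h2
    simpa [Finset.sum_insert ha] using h3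

/-- functions of time -/
theorem Reg.time {g : ℝ → ℝ} (hg : ContDiff ℝ ∞ g) : Reg (fun x : TS d => g x.1) :=
  ⟨hg.comp contDiff_fst, fun t => HasTemperateGrowth.const (E := PS d) (g t)⟩

theorem Reg.cw (i : Fin d) : Reg (cw i) := by
  refine ⟨?_, fun t => ?_⟩
  · exact ((EuclideanSpace.proj i : E d →L[ℝ] ℝ).comp
      ((ContinuousLinearMap.fst ℝ (E d) (E d)).comp ((ContinuousLinearMap.snd ℝ (E d)
        (E d × E d)).comp (ContinuousLinearMap.snd ℝ ℝ (PS d)))) : TS d →L[ℝ] ℝ).contDiff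
  · exact ((EuclideanSpace.proj i : E d →L[ℝ] ℝ).comp
      ((ContinuousLinearMap.fst ℝ (E d) (E d)).comp (ContinuousLinearMap.snd ℝ (E d)
        (E d × E d))) : PS d →L[ℝ] ℝ).hasTemperateGrowth

theorem Reg.cz (i : Fin d) : Reg (cz i) := by
  refine ⟨?_, fun t => ?_⟩
  · exact ((EuclideanSpace.proj i : E d →L[ℝ] ℝ).comp
      ((ContinuousLinearMap.snd ℝ (E d) (E d)).comp ((ContinuousLinearMap.snd ℝ (E d)
        (E d × E d)).comp (ContinuousLinearMap.snd ℝ ℝ (PS d)))) : TS d →L[ℝ] ℝ).contDiff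
  · exact ((EuclideanSpace.proj i : E d →L[ℝ] ℝ).comp
      ((ContinuousLinearMap.snd ℝ (E d) (E d)).comp (ContinuousLinearMap.snd ℝ (E d)
        (E d × E d))) : PS d →L[ℝ] ℝ).hasTemperateGrowth

theorem dd_slice_eq {F : TS d → ℝ} (hF : Differentiable ℝ F) (t : ℝ) (y v : PS d) :
    fderiv ℝ (fun y => F (t, y)) y v = fderiv ℝ F (t, y) (0, v) := by
  have h1 : HasFDerivAt (fun y : PS d => (t, y))
      ((0 : PS d →L[ℝ] ℝ).prod (ContinuousLinearMap.id ℝ (PS d))) y :=
    (hasFDerivAt_const t y).prodMk (hasFDerivAt_id y)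
  have h2 := (hF (t, y)).hasFDerivAt.comp y h1
  have h3 : fderiv ℝ (fun y => F (t, y)) y = (fderiv ℝ F (t, y)).comp
    ((0 : PS d →L[ℝ] ℝ).prod (ContinuousLinearMap.id ℝ (PS d))) := h2.fderiv
  rw [h3]
  simp

theorem temp_dir_loc {Z : Type*} [NormedAddCommGroup Z] [NormedSpace ℝ Z] {f : Z → ℝ}
    (hf : HasTemperateGrowth f) (w : Z) : HasTemperateGrowth (fun z => fderiv ℝ f z w) := by
  have h0 : HasTemperateGrowth (fderiv ℝ f) := by
    refine ⟨hf.1.fderiv_right (by simp), fun n => ?_⟩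
    obtain ⟨k, C, h⟩ := hf.2 (n + 1)
    refine ⟨k, C, fun x => ?_⟩
    rw [norm_iteratedFDeriv_fderiv]
    exact h x
  have h1 := (ContinuousLinearMap.apply ℝ ℝ w : (Z →L[ℝ] ℝ) →L[ℝ] ℝ).hasTemperateGrowth
  exact h1.comp h0

theorem Reg.dd {F : TS d → ℝ} (hF : Reg F) {v : TS d} (hv : v.1 = 0) : Reg (dd v F) := by
  refine ⟨dd_smooth hF.1 v, fun t => ?_⟩
  have h1 := temp_dir_loc (hF.2 t) v.2
  have e : (fun y : PS d => P347Z.dd v F (t, y)) =
      fun y => fderiv ℝ (fun y => F (t, y)) y v.2 := by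
    funext y
    rw [dd_slice_eq (hF.1.differentiable (by simp))]
    have hv' : v = (0, v.2) := Prod.ext hv rfl
    show fderiv ℝ F (t, y) v = _
    rw [← hv']
  rw [e]
  exact h1

theorem Reg.H {B : ℕ → ℝ} {P : Prm d} (hP : Fam B P) : Reg P.H := by
  refine ⟨?_, fun t => ?_⟩
  · have h1 : ContDiff ℝ ∞ (fun x : TS d => (x.1, x.2.1)) :=
      contDiff_fst.prodMk (contDiff_fst.comp contDiff_snd)
    exact hP.smooth.comp h1
  · exact (hP.temp t).comp (ContinuousLinearMap.fst ℝ (E d) (E d × E d)).hasTemperateGrowth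

theorem Reg.Df {B : ℕ → ℝ} {P : Prm d} (hP : Fam B P) (L : List (Fin d)) (k : Fin d) :
    Reg (P.Df L k) := by
  induction L with
  | nil => exact Reg.dd (Reg.H hP) rfl
  | cons l L ih => exact Reg.dd ih rfl

end P347Z
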