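import Vale.Agent.P347Q.Defs

/-!
P347, `γ_* = 0`: regularity in time along the exact flows (section 4 of NOTE_allorder64.md), in the
natural clock.  `c = 1 / cosh t`, `h = tanh t`, `q = s c²`, `ρ = √s c`, `u (t, Y) = U_{s c²} (Y)`,
`f = ∇ u`, `T = ∇² u`.

Letters: `A = ρ D_Y`, `W = D_w`, `Z = D_z`, adjoints `As, Ws, Zs` with respect to
`e^{-u(t,Y)} dY ⊗ γ(dw) ⊗ γ(dz)`, multiplication `T`, swap `Sw` of the first two indices;
`B = c W + h A`.  Tensor valued functions are functions `List (Fin d) → TS d → ℝ`.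
-/

open MeasureTheory ProbabilityTheory Function
open scoped BigOperators ContDiff

namespace P347Z

open P347Q

/-- phase space `(Y, w, z)` -/
abbrev PS (d : ℕ) := E d × (E d × E d)

/-- time and phase space `(t, Y, w, z)` -/
abbrev TS (d : ℕ) := ℝ × PS d

/-- tensor valued functions -/
abbrev TF (d : ℕ) := List (Fin d) → TS d → ℝ

/-- parameters: top level `s`, ratio `lam`, potential `u (t, Y) = U_{s / cosh² t} (Y)` -/
structure Prm (d : ℕ) where
  s : ℝ
  lam : ℝ
  u : ℝ × E d → ℝ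

/-- `1 / cosh` -/
noncomputable def cc (t : ℝ) : ℝ := (Real.cosh t)⁻¹

/-- `tanh` -/
noncomputable def th (t : ℝ) : ℝ := Real.sinh t / Real.cosh t

/-- directional derivative -/
noncomputable def dd {d : ℕ} (v : TS d) (F : TS d → ℝ) : TS d → ℝ := fun x => fderiv ℝ F x v

noncomputable def eT (d : ℕ) : TS d := (1, (0, (0, 0)))
noncomputable def eY {d : ℕ} (i : Fin d) : TS d := (0, (bas d i, (0, 0)))
noncomputable def eW {d : ℕ} (i : Fin d) : TS d := (0, (0, (bas d i, 0)))
noncomputable def eZ {d : ℕ} (i : Fin d) : TS d := (0, (0, (0, bas d i)))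

/-- coordinates -/
noncomputable def cw {d : ℕ} (i : Fin d) : TS d → ℝ := fun x => x.2.2.1 i
noncomputable def cz {d : ℕ} (i : Fin d) : TS d → ℝ := fun x => x.2.2.2 i

namespace Prm

variable {d : ℕ} (P : Prm d)

noncomputable def q (t : ℝ) : ℝ := P.s * cc t ^ 2
noncomputable def ρ (t : ℝ) : ℝ := √P.s * cc t

/-- the potential on `TS d` -/
def H : TS d → ℝ := fun x => P.u (x.1, x.2.1)

/-- iterated derivatives of the components of the force -/
noncomputable def Df : List (Fin d) → Fin d → TS d → ℝ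
  | [], k => dd (eY k) P.H
  | l :: L, k => dd (eY l) (Df L k)

/-- components of the force -/
noncomputable def f (k : Fin d) : TS d → ℝ := P.Df [] k

/-- entries of the Hessian -/
noncomputable def T (i j : Fin d) : TS d → ℝ := P.Df [i] j

/-- the product law of `(Y, w, z)` at time `t` -/
noncomputable def mu (t : ℝ) : Measure (PS d) :=
  (gibbs (fun Y => P.u (t, Y))).prod ((stdGaussian (E d)).prod (stdGaussian (E d)))

end Prm

/-- hypotheses on the family of potentials -/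
structure Fam {d : ℕ} (B : ℕ → ℝ) (P : Prm d) : Prop where
  s_pos : 0 < P.s
  s_le : P.s ≤ 1
  lam_nonneg : 0 ≤ P.lam
  lam_le : P.lam ≤ 1
  smooth : ContDiff ℝ ∞ P.u
  temp : ∀ t, HasTemperateGrowth (fun Y => P.u (t, Y))
  lower : ∀ (t : ℝ) (Y w : E d),
    ‖w‖ ^ 2 / 2 ≤ fderiv ℝ (fderiv ℝ (fun y => P.u (t, y))) Y w w
  upper : ∀ (t : ℝ) (Y w : E d),
    fderiv ℝ (fderiv ℝ (fun y => P.u (t, y))) Y w w ≤ 2 * ‖w‖ ^ 2
  pde : ∀ (t : ℝ) (Y : E d), fderiv ℝ P.u (t, Y) (1, 0) = -(P.q t * th t) *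
    (∑ i, fderiv ℝ (fderiv ℝ (fun y => P.u (t, y))) Y (bas d i) (bas d i) -
      ∑ i, (fderiv ℝ (fun y => P.u (t, y)) Y (bas d i)) ^ 2)
  slot : ∀ n : ℕ, 1 ≤ n → ∀ (t : ℝ) (w Y : E d),
    hs (bas d) n (fun y => fderiv ℝ (fun y' => P.u (t, y')) y w) Y ≤
      B n * (P.q t ^ (n - 1))⁻¹ * ‖w‖ ^ 2

/-! ### letters -/

section ops

variable {d : ℕ} (P : Prm d)

noncomputable def opA (F : TF d) : TF d
  | [] => 0
  | i :: L => fun x => P.ρ x.1 * dd (eY i) (F L) x

noncomputable def opW (F : TF d) : TF d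
  | [] => 0
  | i :: L => dd (eW i) (F L)

noncomputable def opZ (F : TF d) : TF d
  | [] => 0
  | i :: L => dd (eZ i) (F L)

noncomputable def opT (F : TF d) : TF d
  | [] => 0
  | i :: L => fun x => ∑ j, P.T i j x * F (j :: L) x

noncomputable def opSw (F : TF d) : TF d
  | [] => 0
  | [_] => 0
  | i :: j :: L => F (j :: i :: L)

noncomputable def opAs (F : TF d) : TF d :=
  fun L x => ∑ i, (P.ρ x.1 * P.f i x * F (i :: L) x - P.ρ x.1 * dd (eY i) (F (i :: L)) x)

noncomputable def opWs (F : TF d) : TF d :=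
  fun L x => ∑ i, (cw i x * F (i :: L) x - dd (eW i) (F (i :: L)) x)

noncomputable def opZs (F : TF d) : TF d :=
  fun L x => ∑ i, (cz i x * F (i :: L) x - dd (eZ i) (F (i :: L)) x)

/-- `j`-th derivative of `T` acting on the first index -/
noncomputable def opTk (j : ℕ) (F : TF d) : TF d :=
  fun L x => ∑ k, P.ρ x.1 ^ j * P.Df (L.take (j + 1)) k x * F (k :: L.drop (j + 1)) x

/-- multiplication by a function of time -/
def opS (g : ℝ → ℝ) (F : TF d) : TF d := fun L x => g x.1 * F L x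

noncomputable def opB (F : TF d) : TF d := opS cc (opW F) + opS th (opA P F)

noncomputable def opBs (F : TF d) : TF d := opS cc (opWs F) + opS th (opAs P F)

end ops

/-! ### coefficients -/

inductive Cf : Type
  | k (a : ℝ) : Cf
  | c : Cf
  | h : Cf
  | q : Cf
  | l : Cf
  | add (a b : Cf) : Cf
  | mul (a b : Cf) : Cf

noncomputable def Cf.ev (s lam : ℝ) : Cf → ℝ → ℝ
  | .k a => fun _ => a
  | .c => cc
  | .h => th
  | .q => fun t => s * cc t ^ 2
  | .l => fun _ => lam
  | .add a b => fun t => a.ev s lam t + b.ev s lam t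
  | .mul a b => fun t => a.ev s lam t * b.ev s lam t

/-- time derivative of a coefficient -/
noncomputable def Cf.der : Cf → Cf
  | .k _ => .k 0
  | .c => .mul (.k (-1)) (.mul .c .h)
  | .h => .mul .c .c
  | .q => .mul (.k (-2)) (.mul .h .q)
  | .l => .k 0
  | .add a b => .add a.der b.der
  | .mul a b => .add (.mul a.der b) (.mul a b.der)

/-! ### words -/

inductive Wd : Type
  | f : Wd
  | z : Wd
  | T (a : Wd) : Wd
  | Sw (a : Wd) : Wd
  | A (a : Wd) : Wd
  | W (a : Wd) : Wd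
  | Z (a : Wd) : Wd
  | As (a : Wd) : Wd
  | Ws (a : Wd) : Wd
  | Zs (a : Wd) : Wd
  | add (a b : Wd) : Wd
  | sc (g : Cf) (a : Wd) : Wd

namespace Wd

/-- `a` is a tensor of order `m` -/
def ok : Wd → ℕ → Prop
  | .f, m => m = 1
  | .z, m => m = 1
  | .T a, m => a.ok m ∧ 1 ≤ m
  | .Sw a, m => a.ok m ∧ 2 ≤ m
  | .A a, m => 1 ≤ m ∧ a.ok (m - 1)
  | .W a, m => 1 ≤ m ∧ a.ok (m - 1)
  | .Z a, m => 1 ≤ m ∧ a.ok (m - 1)
  | .As a, m => a.ok (m + 1)
  | .Ws a, m => a.ok (m + 1)
  | .Zs a, m => a.ok (m + 1)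
  | .add a b, m => a.ok m ∧ b.ok m
  | .sc _ a, m => a.ok m

/-- `B = c W + h A` -/
def B (a : Wd) : Wd := .add (.sc .c (.W a)) (.sc .h (.A a))

/-- adjoint of `B` -/
def Bs (a : Wd) : Wd := .add (.sc .c (.Ws a)) (.sc .h (.As a))

/-- derivative along the free field -/
noncomputable def derT : Wd → Wd
  | .f => Bs (.A .f)
  | .z => .sc (.k 0) .z
  | .T a => .add (.T a.derT) (.add
      (Bs (.add (.A (.T a)) (.sc (.k (-1)) (.Sw (.T (.Sw (.A a))))))) (.add
      (.add (.T (.As (B a))) (.sc (.k (-1)) (.As (.Sw (.T (.Sw (B a)))))))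
      (.sc (.mul (.k 2) (.mul .q .h)) (.T (.T a)))))
  | .Sw a => .Sw a.derT
  | .A a => .add (.A a.derT) (.add (.sc (.mul (.k (-1)) .h) (.A a)) (.sc .q (.T (B a))))
  | .W a => .add (.W a.derT) (.sc (.mul (.k (-1)) .c) (.A a))
  | .Z a => .Z a.derT
  | .As a => .add (.As a.derT) (.add (.sc (.mul (.k (-1)) .h) (.As a)) (.sc .q (Bs (.T a))))
  | .Ws a => .add (.Ws a.derT) (.sc (.mul (.k (-1)) .c) (.As a))
  | .Zs a => .Zs a.derT
  | .add a b => .add a.derT b.derT
  | .sc g a => .add (.sc g.der a) (.sc g a.derT)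

/-- derivative along the field `VR` -/
noncomputable def derR (a : Wd) : Wd :=
  .add (Bs (.T (.Z a))) (.sc (.k (-1)) (.Zs (.T (B a))))

/-- derivative along the total field -/
noncomputable def der (a : Wd) : Wd := .add a.derT (.sc (.mul .l .c) a.derR)

end Wd

/-- semantics of words -/
noncomputable def sem {d : ℕ} (P : Prm d) : Wd → TF d
  | .f => fun L x => match L with
    | [i] => P.f i x
    | _ => 0
  | .z => fun L x => match L with
    | [i] => cz i x
    | _ => 0
  | .T a => opT P (sem P a)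
  | .Sw a => opSw (sem P a)
  | .A a => opA P (sem P a)
  | .W a => opW (sem P a)
  | .Z a => opZ (sem P a)
  | .As a => opAs P (sem P a)
  | .Ws a => opWs (sem P a)
  | .Zs a => opZs (sem P a)
  | .add a b => sem P a + sem P b
  | .sc g a => opS (g.ev P.s P.lam) (sem P a)

/-! ### vector fields -/

section fields

variable {d : ℕ} (P : Prm d)

/-- `f` as a vector -/
noncomputable def vf (x : TS d) : E d := ∑ i, P.f i x • bas d i

/-- `T z` as a vector -/
noncomputable def vTz (x : TS d) : E d := ∑ i, (∑ j, P.T i j x * cz j x) • bas d i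

/-- `g = B* T` (times `ρ` this is the derivative of `f` along the free field) -/
noncomputable def vg (x : TS d) : E d :=
  ∑ j, (∑ l, (cc x.1 * (cw l x + √P.s * th x.1 * P.f l x) * P.T l j x -
    cc x.1 * (√P.s * th x.1) * P.Df [l, l] j x)) • bas d j

/-- free field -/
noncomputable def VF (x : TS d) : TS d :=
  (1, ((√P.s * cc x.1 ^ 2) • x.2.2.1 - (P.q x.1 * th x.1) • vf P x,
    (-(√P.s * cc x.1 ^ 2) • vf P x, 0)))

/-- the field `R` -/
noncomputable def VR (x : TS d) : TS d :=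
  (0, (-(th x.1 * P.ρ x.1) • vTz P x, (-(cc x.1) • vTz P x, vg P x)))

end fields

/-! ### regularity classes and Sobolev norms -/

/-- smooth, temperate at every fixed time -/
def Reg {d : ℕ} (F : TS d → ℝ) : Prop :=
  ContDiff ℝ ∞ F ∧ ∀ t, HasTemperateGrowth (fun y : PS d => F (t, y))

def RTF {d : ℕ} (F : TF d) : Prop := ∀ L, Reg (F L)

/-- square of the `L²` norm of a tensor of order `m` at time `t` -/
noncomputable def nsq {d : ℕ} (P : Prm d) (t : ℝ) (m : ℕ) (F : TF d) : ℝ :=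
  ∑ l : Fin m → Fin d, ∫ y, (F (List.ofFn l) (t, y)) ^ 2 ∂(P.mu t)

/-- Sobolev norm (squared) -/
noncomputable def Sob {d : ℕ} (P : Prm d) (t : ℝ) : ℕ → ℕ → TF d → ℝ
  | 0, m, F => nsq P t m F
  | k + 1, m, F => Sob P t k m F + Sob P t k (m + 1) (opA P F) + Sob P t k (m + 1) (opW F) +
      Sob P t k (m + 1) (opZ F)

end P347Z
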