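import Vale.Agent.P347Z.WdDerF

/-!
Module WDERR: derivative along the field `VR` is the word operator `B* T Z - Z* T B`.
`B*_i (T_ij G_j) = (B*_i T_ij) G_j - T_ij B_i G_j`, `Z*_i (T_ij B_j F) = z_i T_ij B_j F - T_ij Z_i B_j F`,
`T` symmetric, derivatives commute.
-/

open MeasureTheory ProbabilityTheory Function
open scoped BigOperators ContDiff

namespace P347Z

open P347Q

variable {d : ℕ}

variable {B : ℕ → ℝ} {P : Prm d}

/-- `B*_l (T_lj G_j)` summed, for scalar functions `G_j` -/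
theorem dtR_BsTZ (hP : Fam B P) {G : TS d → ℝ} (hG : ContDiff ℝ ∞ G) (x : TS d) :
    cc x.1 * (∑ l, (cw l x * (∑ j, P.T l j x * dd (eZ j) G x) -
        dd (eW l) (fun y => ∑ j, P.T l j y * dd (eZ j) G y) x)) +
      th x.1 * ∑ l, (P.ρ x.1 * P.f l x * (∑ j, P.T l j x * dd (eZ j) G x) -
        P.ρ x.1 * dd (eY l) (fun y => ∑ j, P.T l j y * dd (eZ j) G y) x) =
    ∑ l, ∑ j, ((dtE P l x * P.T l j x -
      th x.1 * P.ρ x.1 * P.Df [l, l] j x) * dd (eZ j) G x -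
      P.T l j x * (cc x.1 * dd (eZ j) (dd (eW l) G) x +
        th x.1 * (P.ρ x.1 * dd (eZ j) (dd (eY l) G) x))) := by
  have hW : ∀ l, dd (eW l) (fun y => ∑ j, P.T l j y * dd (eZ j) G y) = fun y =>
      ∑ j, P.T l j y * dd (eZ j) (dd (eW l) G) y := by
    intro l
    rw [dd_sum_fun _ (fun j _ => (dt_smooth_T hP l j).mul (dd_smooth hG _))]
    funext y
    refine Finset.sum_congr rfl fun j _ => ?_
    have h : dd (eW l) (P.T l j) = fun _ => 0 := dd_W_Df hP l [l] j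
    rw [dd_mul_fun (dt_smooth_T hP l j) (dd_smooth hG _), h, dd_comm hG]
    ring
  have hY : ∀ l, dd (eY l) (fun y => ∑ j, P.T l j y * dd (eZ j) G y) = fun y =>
      ∑ j, (P.Df [l, l] j y * dd (eZ j) G y + P.T l j y * dd (eZ j) (dd (eY l) G) y) := by
    intro l
    rw [dd_sum_fun _ (fun j _ => (dt_smooth_T hP l j).mul (dd_smooth hG _))]
    funext y
    refine Finset.sum_congr rfl fun j _ => ?_
    rw [dd_mul_fun (dt_smooth_T hP l j) (dd_smooth hG _), dd_comm hG (eY l)]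
    rfl
  simp only [hW, hY]
  rw [Finset.mul_sum, Finset.mul_sum, ← Finset.sum_add_distrib]
  refine Finset.sum_congr rfl fun l _ => ?_
  simp only [mul_sub, Finset.mul_sum]
  rw [← Finset.sum_sub_distrib, ← Finset.sum_sub_distrib, ← Finset.sum_add_distrib]
  refine Finset.sum_congr rfl fun j _ => ?_
  unfold dtE
  ring

/-- `Z*_l (T_lj B_j G)` summed -/
theorem dtR_ZsTB (hP : Fam B P) {G : TS d → ℝ} (hG : ContDiff ℝ ∞ G) (x : TS d) :
    ∑ l, (cz l x * (∑ j, P.T l j x * (cc x.1 * dd (eW j) G x +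
        th x.1 * (P.ρ x.1 * dd (eY j) G x))) -
      dd (eZ l) (fun y => ∑ j, P.T l j y * (cc y.1 * dd (eW j) G y +
        th y.1 * (P.ρ y.1 * dd (eY j) G y))) x) =
    ∑ l, ∑ j, (cz l x * P.T l j x * (cc x.1 * dd (eW j) G x +
        th x.1 * (P.ρ x.1 * dd (eY j) G x)) -
      P.T l j x * (cc x.1 * dd (eZ l) (dd (eW j) G) x +
        th x.1 * (P.ρ x.1 * dd (eZ l) (dd (eY j) G) x))) := by
  have h1 : ∀ j : Fin d, ContDiff ℝ ∞ (fun y : TS d => cc y.1 * dd (eW j) G y) := fun j =>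
    (dt_time_smooth smooth_cc).mul (dd_smooth hG _)
  have h2 : ∀ j : Fin d, ContDiff ℝ ∞ (fun y : TS d => P.ρ y.1 * dd (eY j) G y) := fun j =>
    (dt_time_smooth (smooth_rho P)).mul (dd_smooth hG _)
  have h3 : ∀ j : Fin d, ContDiff ℝ ∞ (fun y : TS d => th y.1 * (P.ρ y.1 * dd (eY j) G y)) :=
    fun j => (dt_time_smooth smooth_th).mul (h2 j)
  refine Finset.sum_congr rfl fun l _ => ?_
  have hZ : dd (eZ l) (fun y => ∑ j, P.T l j y * (cc y.1 * dd (eW j) G y +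
        th y.1 * (P.ρ y.1 * dd (eY j) G y))) = fun y =>
      ∑ j, P.T l j y * (cc y.1 * dd (eZ l) (dd (eW j) G) y +
        th y.1 * (P.ρ y.1 * dd (eZ l) (dd (eY j) G) y)) := by
    rw [dd_sum_fun _ (fun j _ => (dt_smooth_T hP l j).mul ((h1 j).add (h3 j)))]
    funext y
    refine Finset.sum_congr rfl fun j _ => ?_
    have h : dd (eZ l) (P.T l j) = fun _ => 0 := dd_Z_Df hP l [l] j
    rw [dd_mul_fun (dt_smooth_T hP l j) ((h1 j).add (h3 j)), h, dd_add_fun (h1 j) (h3 j),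
      dt_time_mul smooth_cc (dd_smooth hG _) rfl, dt_time_mul smooth_th (h2 j) rfl,
      dt_time_mul (smooth_rho P) (dd_smooth hG _) rfl]
    ring
  rw [hZ, Finset.mul_sum, ← Finset.sum_sub_distrib]
  refine Finset.sum_congr rfl fun j _ => ?_
  ring

theorem lie_R (hP : Fam B P) {F : TF d} (hF : RTF F) :
    lie (VR P) F = opBs P (opT P (opZ F)) - opZs (opT P (opB P F)) := by
  funext L x
  have hG := (hF L).1
  have h0 : (opBs P (opT P (opZ F)) - opZs (opT P (opB P F))) L x =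
    (cc x.1 * (∑ l, (cw l x * (∑ j, P.T l j x * dd (eZ j) (F L) x) -
        dd (eW l) (fun y => ∑ j, P.T l j y * dd (eZ j) (F L) y) x)) +
      th x.1 * ∑ l, (P.ρ x.1 * P.f l x * (∑ j, P.T l j x * dd (eZ j) (F L) x) -
        P.ρ x.1 * dd (eY l) (fun y => ∑ j, P.T l j y * dd (eZ j) (F L) y) x)) -
    ∑ l, (cz l x * (∑ j, P.T l j x * (cc x.1 * dd (eW j) (F L) x +
        th x.1 * (P.ρ x.1 * dd (eY j) (F L) x))) -
      dd (eZ l) (fun y => ∑ j, P.T l j y * (cc y.1 * dd (eW j) (F L) y +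
        th y.1 * (P.ρ y.1 * dd (eY j) (F L) y))) x) := rfl
  have h1 : lie (VR P) F L x = fderiv ℝ (F L) x (VR P x) := rfl
  have h2 : (VR P x).1 = 0 := rfl
  have h3 : ∀ i, (VR P x).2.1 i = -(th x.1 * P.ρ x.1) * ∑ j, P.T i j x * cz j x := by
    intro i
    rw [← dt_vTz]
    rfl
  have h4 : ∀ i, (VR P x).2.2.1 i = -(cc x.1) * ∑ j, P.T i j x * cz j x := by
    intro i
    rw [← dt_vTz]
    rfl
  have h5 : ∀ j, (VR P x).2.2.2 j = ∑ l, (dtE P l x * P.T l j x -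
      th x.1 * P.ρ x.1 * P.Df [l, l] j x) := by
    intro j
    have e : (VR P x).2.2.2 j = vg P x j := rfl
    rw [e, dt_vg]
    refine Finset.sum_congr rfl fun l _ => ?_
    unfold dtE Prm.ρ
    ring
  rw [h0, dtR_BsTZ hP hG, dtR_ZsTB hP hG, h1, dt_dd]
  simp only [h2, h3, h4, h5]
  have e1 : ∑ l, ∑ j, ((dtE P l x * P.T l j x -
      th x.1 * P.ρ x.1 * P.Df [l, l] j x) * dd (eZ j) (F L) x -
      P.T l j x * (cc x.1 * dd (eZ j) (dd (eW l) (F L)) x +
        th x.1 * (P.ρ x.1 * dd (eZ j) (dd (eY l) (F L)) x))) =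
      ∑ j, (∑ l, (dtE P l x * P.T l j x -
      th x.1 * P.ρ x.1 * P.Df [l, l] j x)) * dd (eZ j) (F L) x -
      ∑ l, ∑ j, P.T l j x * (cc x.1 * dd (eZ j) (dd (eW l) (F L)) x +
        th x.1 * (P.ρ x.1 * dd (eZ j) (dd (eY l) (F L)) x)) := by
    simp only [Finset.sum_mul]
    rw [Finset.sum_comm (f := fun j l => (dtE P l x * P.T l j x -
      th x.1 * P.ρ x.1 * P.Df [l, l] j x) * dd (eZ j) (F L) x), ← Finset.sum_sub_distrib]
    exact Finset.sum_congr rfl fun l _ => Finset.sum_sub_distrib _ _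
  have e2 : ∑ l, ∑ j, (cz l x * P.T l j x * (cc x.1 * dd (eW j) (F L) x +
        th x.1 * (P.ρ x.1 * dd (eY j) (F L) x)) -
      P.T l j x * (cc x.1 * dd (eZ l) (dd (eW j) (F L)) x +
        th x.1 * (P.ρ x.1 * dd (eZ l) (dd (eY j) (F L)) x))) =
      ∑ i, (cc x.1 * ∑ j, P.T i j x * cz j x) * dd (eW i) (F L) x +
      ∑ i, ((th x.1 * P.ρ x.1) * ∑ j, P.T i j x * cz j x) * dd (eY i) (F L) x -
      ∑ l, ∑ j, P.T l j x * (cc x.1 * dd (eZ j) (dd (eW l) (F L)) x +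
        th x.1 * (P.ρ x.1 * dd (eZ j) (dd (eY l) (F L)) x)) := by
    rw [Finset.sum_comm]
    simp only [Finset.mul_sum, Finset.sum_mul]
    rw [← Finset.sum_add_distrib, ← Finset.sum_sub_distrib]
    refine Finset.sum_congr rfl fun i _ => ?_
    rw [← Finset.sum_add_distrib, ← Finset.sum_sub_distrib]
    refine Finset.sum_congr rfl fun j _ => ?_
    rw [T_symm hP j i]
    ring
  have e3 : ∑ i, -(th x.1 * P.ρ x.1) * (∑ j, P.T i j x * cz j x) * dd (eY i) (F L) x =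
      -∑ i, ((th x.1 * P.ρ x.1) * ∑ j, P.T i j x * cz j x) * dd (eY i) (F L) x := by
    rw [← Finset.sum_neg_distrib]
    exact Finset.sum_congr rfl fun i _ => by ring
  have e4 : ∑ i, -(cc x.1) * (∑ j, P.T i j x * cz j x) * dd (eW i) (F L) x =
      -∑ i, (cc x.1 * ∑ j, P.T i j x * cz j x) * dd (eW i) (F L) x := by
    rw [← Finset.sum_neg_distrib]
    exact Finset.sum_congr rfl fun i _ => by ring
  rw [e1, e2, e3, e4]
  ring

end P347Z
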