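import Vale.Agent.P347Z.WdDerF

/-!
Module WDERT: derivative of `T F` along the free field:
`lie VF T_ij = ∑_l ρ⁻¹ ... `, precisely `lie VF (T_ij) = ∑_l (B*_l (ρ ∂_l T_ij)) + 2 q h (T T)_ij`
(differentiate `lie_f` or use `dt_f`), and `(B*_l g) G = B*_l (g G) + g B_l G`, `ρ ∂_l T = [A_l, T] = [T, A*_l]`.
-/

open MeasureTheory ProbabilityTheory Function
open scoped BigOperators ContDiff

namespace P347Z

open P347Q

variable {d : ℕ}

variable {B : ℕ → ℝ} {P : Prm d}

/-- derivative of an iterated derivative of the force along the free field -/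
theorem dt_VF_Df (hP : Fam B P) (L : List (Fin d)) (k : Fin d) (x : TS d) :
    fderiv ℝ (P.Df L k) x (VF P x) = dd (eT d) (P.Df L k) x +
      ∑ i, (√P.s * cc x.1 ^ 2 * cw i x - P.q x.1 * th x.1 * P.f i x) * P.Df (i :: L) k x := by
  rw [dt_dd]
  simp only [dd_W_Df hP, dd_Z_Df hP, mul_zero, Finset.sum_const_zero, add_zero]
  have h1 : (VF P x).1 = 1 := rfl
  have h2 : ∀ i, (VF P x).2.1 i = √P.s * cc x.1 ^ 2 * cw i x - P.q x.1 * th x.1 * P.f i x := by
    intro i
    have h3 : vf P x i = P.f i x := by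
      unfold vf
      have := congrArg (fun y : E d => y i) (dt_sum_bas (WithLp.toLp 2 fun i => P.f i x))
      simpa using this
    show ((√P.s * cc x.1 ^ 2) • x.2.2.1 - (P.q x.1 * th x.1) • vf P x) i = _
    rw [← h3]
    rfl
  rw [h1, one_mul]
  congr 1
  exact Finset.sum_congr rfl fun i _ => by rw [h2 i]; rfl

/-- `lie_f` as an identity of functions -/
theorem dt_lie_f (hP : Fam B P) (j : Fin d) :
    (fun x => dd (eT d) (P.f j) x + ∑ k, dtC P k x * P.T k j x) =
      fun x => ∑ l, (dtE P l x * (P.ρ x.1 * P.T l j x) -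
        th x.1 * P.ρ x.1 * (P.ρ x.1 * P.Df [l, l] j x)) := by
  funext x
  have h1 := dt_VF_Df hP [] j x
  have h2 : fderiv ℝ (P.Df [] j) x (VF P x) = opBs P (opA P (sem P Wd.f)) [j] x := by
    rw [← lie_f hP]
    rfl
  have h3 : opBs P (opA P (sem P Wd.f)) [j] x =
      cc x.1 * (∑ l, (cw l x * (P.ρ x.1 * P.T l j x) -
        dd (eW l) (fun x => P.ρ x.1 * P.T l j x) x)) +
      th x.1 * ∑ l, (P.ρ x.1 * P.f l x * (P.ρ x.1 * P.T l j x) -
        P.ρ x.1 * dd (eY l) (fun x => P.ρ x.1 * P.T l j x) x) := rfl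
  have h4 : (dd (eT d) (P.f j) x + ∑ k, dtC P k x * P.T k j x) =
      opBs P (opA P (sem P Wd.f)) [j] x := by
    rw [← h2, h1]
    rfl
  rw [h4, h3, Finset.mul_sum, Finset.mul_sum, ← Finset.sum_add_distrib]
  refine Finset.sum_congr rfl fun l _ => ?_
  have h5 : dd (eW l) (fun x => P.ρ x.1 * P.T l j x) = fun _ => 0 := by
    rw [dt_time_mul (smooth_rho P) (dt_smooth_T hP l j) rfl]
    have : dd (eW l) (P.T l j) = fun _ => 0 := dd_W_Df hP l [l] j
    rw [this]
    simp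
  have h6 : dd (eY l) (fun x => P.ρ x.1 * P.T l j x) = fun x => P.ρ x.1 * P.Df [l, l] j x :=
    dt_time_mul (smooth_rho P) (dt_smooth_T hP l j) rfl
  rw [h5, h6]
  unfold dtE
  ring

theorem lie_Tij (hP : Fam B P) (i j : Fin d) (x : TS d) :
    fderiv ℝ (P.T i j) x (VF P x) =
      ∑ l, ((cc x.1 * cw l x + th x.1 * P.ρ x.1 * P.f l x) * (P.ρ x.1 * P.Df [l, i] j x) -
        th x.1 * P.ρ x.1 * (P.ρ x.1 * P.Df [l, l, i] j x)) +
      2 * (P.q x.1 * th x.1) * ∑ l, P.T i l x * P.T l j x := by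
  have h1 : fderiv ℝ (P.T i j) x (VF P x) = dd (eT d) (P.T i j) x +
      ∑ k, dtC P k x * P.Df [k, i] j x := dt_VF_Df hP [i] j x
  have h2 := congrFun (congrArg (dd (eY i)) (dt_lie_f hP j)) x
  have hS : ∀ l, ContDiff ℝ ∞ (fun x : TS d => dtE P l x * (P.ρ x.1 * P.T l j x)) := fun l =>
    (dtE_smooth hP l).mul ((dt_time_smooth (smooth_rho P)).mul (dt_smooth_T hP l j))
  have hS2 : ∀ l, ContDiff ℝ ∞ (fun x : TS d => P.ρ x.1 * P.Df [l, l] j x) := fun l =>
    (dt_time_smooth (smooth_rho P)).mul (dt_Df_smooth hP [l, l] j)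
  have hS1 : ∀ l, ContDiff ℝ ∞ (fun x : TS d => th x.1 * P.ρ x.1 *
      (P.ρ x.1 * P.Df [l, l] j x)) := fun l =>
    (dt_time_smooth (dt_g3 P)).mul (hS2 l)
  have hl : ∀ k, dd (eY i) (fun x => dtC P k x * P.T k j x) = fun x =>
      -(P.q x.1 * th x.1) * P.T i k x * P.T k j x + dtC P k x * P.Df [k, i] j x := by
    intro k
    rw [dd_mul_fun (dtC_smooth hP k) (dt_smooth_T hP k j), dd_dtC hP i k]
    funext x
    have h : dd (eY i) (P.T k j) x = P.Df [k, i] j x := by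
      rw [Df_perm hP k i j []]
      rfl
    beta_reduce
    rw [h]
  have hr : ∀ l, dd (eY i) (fun x => dtE P l x * (P.ρ x.1 * P.T l j x) -
      th x.1 * P.ρ x.1 * (P.ρ x.1 * P.Df [l, l] j x)) = fun x =>
      th x.1 * P.ρ x.1 * P.T i l x * (P.ρ x.1 * P.T l j x) +
        dtE P l x * (P.ρ x.1 * P.Df [l, i] j x) -
        th x.1 * P.ρ x.1 * (P.ρ x.1 * P.Df [l, l, i] j x) := by
    intro l
    rw [dd_sub_fun (hS l) (hS1 l), dd_mul_fun (dtE_smooth hP l)
      ((dt_time_smooth (smooth_rho P)).mul (dt_smooth_T hP l j)), dd_dtE hP i l,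
      dt_time_mul (smooth_rho P) (dt_smooth_T hP l j) rfl,
      dt_time_mul (g := fun t : ℝ => th t * P.ρ t) (dt_g3 P) (hS2 l) rfl,
      dt_time_mul (smooth_rho P) (dt_Df_smooth hP [l, l] j) rfl]
    funext x
    have h : dd (eY i) (P.T l j) x = P.Df [l, i] j x := by
      rw [Df_perm hP l i j []]
      rfl
    have h' : dd (eY i) (P.Df [l, l] j) x = P.Df [l, l, i] j x := by
      have e1 : P.Df [l, l, i] j = P.Df [l, i, l] j := by
        show dd (eY l) (P.Df [l, i] j) = dd (eY l) (P.Df [i, l] j)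
        rw [Df_perm hP l i j []]
      rw [e1, Df_perm hP l i j [l]]
      rfl
    beta_reduce
    rw [h, h']
  rw [dd_add_fun (dd_smooth (dt_smooth_f hP j) _) (ContDiff.sum fun k _ =>
      (dtC_smooth hP k).mul (dt_smooth_T hP k j)),
    dd_sum_fun _ (fun k _ => (dtC_smooth hP k).mul (dt_smooth_T hP k j)),
    dd_sum_fun _ (fun l _ => (hS l).sub (hS1 l)), dd_comm (dt_smooth_f hP j)] at h2
  have h3 : dd (eT d) (dd (eY i) (P.f j)) x = dd (eT d) (P.T i j) x := rfl
  simp only [hl, hr, h3, Finset.sum_add_distrib] at h2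
  have e1 : ∑ k, -(P.q x.1 * th x.1) * P.T i k x * P.T k j x =
      -(P.q x.1 * th x.1) * ∑ k, P.T i k x * P.T k j x := by
    rw [Finset.mul_sum]
    exact Finset.sum_congr rfl fun k _ => by ring
  have e2 : ∑ l, (th x.1 * P.ρ x.1 * P.T i l x * (P.ρ x.1 * P.T l j x) +
        dtE P l x * (P.ρ x.1 * P.Df [l, i] j x) -
        th x.1 * P.ρ x.1 * (P.ρ x.1 * P.Df [l, l, i] j x)) =
      (P.q x.1 * th x.1) * (∑ k, P.T i k x * P.T k j x) +
      ∑ l, (dtE P l x * (P.ρ x.1 * P.Df [l, i] j x) -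
        th x.1 * P.ρ x.1 * (P.ρ x.1 * P.Df [l, l, i] j x)) := by
    rw [Finset.mul_sum, ← Finset.sum_add_distrib]
    refine Finset.sum_congr rfl fun k _ => ?_
    rw [← rho_sq hP.s_pos.le]
    ring
  rw [e1, e2] at h2
  have e3 : ∑ l, ((cc x.1 * cw l x + th x.1 * P.ρ x.1 * P.f l x) * (P.ρ x.1 * P.Df [l, i] j x) -
        th x.1 * P.ρ x.1 * (P.ρ x.1 * P.Df [l, l, i] j x)) =
      ∑ l, (dtE P l x * (P.ρ x.1 * P.Df [l, i] j x) -
        th x.1 * P.ρ x.1 * (P.ρ x.1 * P.Df [l, l, i] j x)) := rfl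
  rw [h1, e3]
  linarith

/-- entries of `A T F - Sw T Sw A F` -/
theorem dt_G (hP : Fam B P) {F : TF d} (hF : RTF F) (l i : Fin d) (L : List (Fin d)) :
    (opA P (opT P F) - opSw (opT P (opSw (opA P F)))) (l :: i :: L) =
      fun x => P.ρ x.1 * ∑ j, P.Df [l, i] j x * F (j :: L) x := by
  funext x
  have h1 : dd (eY l) (fun x => ∑ j, P.T i j x * F (j :: L) x) = fun x =>
      ∑ j, (P.Df [l, i] j x * F (j :: L) x + P.T i j x * dd (eY l) (F (j :: L)) x) := by
    rw [dd_sum_fun _ (fun j _ => (dt_smooth_T hP i j).mul (hF (j :: L)).1)]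
    funext y
    refine Finset.sum_congr rfl fun j _ => ?_
    rw [dd_mul_fun (dt_smooth_T hP i j) (hF (j :: L)).1]
    rfl
  have h2 : (opA P (opT P F) - opSw (opT P (opSw (opA P F)))) (l :: i :: L) x =
      P.ρ x.1 * dd (eY l) (fun x => ∑ j, P.T i j x * F (j :: L) x) x -
      ∑ j, P.T i j x * (P.ρ x.1 * dd (eY l) (F (j :: L)) x) := rfl
  rw [h2, h1]
  beta_reduce
  rw [Finset.sum_add_distrib, mul_add, add_sub_assoc, Finset.mul_sum, Finset.mul_sum,
    ← Finset.sum_sub_distrib]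
  have h3 : ∀ j ∈ Finset.univ, P.ρ x.1 * (P.T i j x * dd (eY l) (F (j :: L)) x) -
      P.T i j x * (P.ρ x.1 * dd (eY l) (F (j :: L)) x) = 0 := fun j _ => by ring
  rw [Finset.sum_eq_zero h3, add_zero]

theorem dt_BsG (hP : Fam B P) {F : TF d} (hF : RTF F) (i : Fin d) (L : List (Fin d)) (x : TS d) :
    opBs P (opA P (opT P F) - opSw (opT P (opSw (opA P F)))) (i :: L) x =
      ∑ l, ∑ j, (((cc x.1 * cw l x + th x.1 * P.ρ x.1 * P.f l x) * (P.ρ x.1 * P.Df [l, i] j x) -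
        th x.1 * P.ρ x.1 * (P.ρ x.1 * P.Df [l, l, i] j x)) * F (j :: L) x -
        P.ρ x.1 * P.Df [l, i] j x * (cc x.1 * dd (eW l) (F (j :: L)) x +
          th x.1 * (P.ρ x.1 * dd (eY l) (F (j :: L)) x))) := by
  have h0 : opBs P (opA P (opT P F) - opSw (opT P (opSw (opA P F)))) (i :: L) x =
      cc x.1 * (∑ l, (cw l x *
          (opA P (opT P F) - opSw (opT P (opSw (opA P F)))) (l :: i :: L) x -
        dd (eW l) ((opA P (opT P F) - opSw (opT P (opSw (opA P F)))) (l :: i :: L)) x)) +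
      th x.1 * ∑ l, (P.ρ x.1 * P.f l x *
          (opA P (opT P F) - opSw (opT P (opSw (opA P F)))) (l :: i :: L) x -
        P.ρ x.1 * dd (eY l)
          ((opA P (opT P F) - opSw (opT P (opSw (opA P F)))) (l :: i :: L)) x) := rfl
  have hs : ∀ l j : Fin d, ContDiff ℝ ∞ (fun x => P.Df [l, i] j x * F (j :: L) x) := fun l j =>
    (dt_Df_smooth hP [l, i] j).mul (hF (j :: L)).1
  have hW : ∀ l, dd (eW l) (fun x => P.ρ x.1 * ∑ j, P.Df [l, i] j x * F (j :: L) x) = fun x =>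
      P.ρ x.1 * ∑ j, P.Df [l, i] j x * dd (eW l) (F (j :: L)) x := by
    intro l
    rw [dt_time_mul (smooth_rho P) (ContDiff.sum fun j _ => hs l j) rfl,
      dd_sum_fun _ (fun j _ => hs l j)]
    funext y
    congr 1
    refine Finset.sum_congr rfl fun j _ => ?_
    rw [dd_mul_fun (dt_Df_smooth hP [l, i] j) (hF (j :: L)).1, dd_W_Df hP]
    ring
  have hY : ∀ l, dd (eY l) (fun x => P.ρ x.1 * ∑ j, P.Df [l, i] j x * F (j :: L) x) = fun x =>
      P.ρ x.1 * ∑ j, (P.Df [l, l, i] j x * F (j :: L) x +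
        P.Df [l, i] j x * dd (eY l) (F (j :: L)) x) := by
    intro l
    rw [dt_time_mul (smooth_rho P) (ContDiff.sum fun j _ => hs l j) rfl,
      dd_sum_fun _ (fun j _ => hs l j)]
    funext y
    congr 1
    refine Finset.sum_congr rfl fun j _ => ?_
    rw [dd_mul_fun (dt_Df_smooth hP [l, i] j) (hF (j :: L)).1]
    rfl
  rw [h0]
  simp only [dt_G hP hF, hW, hY]
  rw [Finset.mul_sum, Finset.mul_sum, ← Finset.sum_add_distrib]
  refine Finset.sum_congr rfl fun l _ => ?_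
  have e1 : ∑ j, P.Df [l, i] j x * F (j :: L) x = ∑ j, P.Df [l, i] j x * F (j :: L) x := rfl
  simp only [mul_sub, Finset.mul_sum]
  rw [← Finset.sum_sub_distrib, ← Finset.sum_sub_distrib, ← Finset.sum_add_distrib]
  refine Finset.sum_congr rfl fun j _ => ?_
  ring

theorem dt_diff (hP : Fam B P) {K : TF d} (hK : ∀ L, ContDiff ℝ ∞ (K L)) (i : Fin d)
    (L : List (Fin d)) (x : TS d) :
    opT P (opAs P K) (i :: L) x - opAs P (opSw (opT P (opSw K))) (i :: L) x =
      ∑ l, ∑ j, P.ρ x.1 * P.Df [l, i] j x * K (l :: j :: L) x := by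
  have h1 : opT P (opAs P K) (i :: L) x = ∑ j, P.T i j x * ∑ l, (P.ρ x.1 * P.f l x *
      K (l :: j :: L) x - P.ρ x.1 * dd (eY l) (K (l :: j :: L)) x) := rfl
  have h2 : opAs P (opSw (opT P (opSw K))) (i :: L) x = ∑ l, (P.ρ x.1 * P.f l x *
      (∑ j, P.T i j x * K (l :: j :: L) x) - P.ρ x.1 * dd (eY l) (fun x =>
        ∑ j, P.T i j x * K (l :: j :: L) x) x) := rfl
  have hY : ∀ l, dd (eY l) (fun x => ∑ j, P.T i j x * K (l :: j :: L) x) = fun x =>
      ∑ j, (P.Df [l, i] j x * K (l :: j :: L) x + P.T i j x * dd (eY l) (K (l :: j :: L)) x) := by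
    intro l
    rw [dd_sum_fun _ (fun j _ => (dt_smooth_T hP i j).mul (hK (l :: j :: L)))]
    funext y
    refine Finset.sum_congr rfl fun j _ => ?_
    rw [dd_mul_fun (dt_smooth_T hP i j) (hK (l :: j :: L))]
    rfl
  rw [h1, h2]
  simp only [hY, Finset.mul_sum]
  rw [Finset.sum_comm, ← Finset.sum_sub_distrib]
  refine Finset.sum_congr rfl fun l _ => ?_
  rw [← Finset.sum_sub_distrib, ← Finset.sum_sub_distrib]
  refine Finset.sum_congr rfl fun j _ => ?_
  ring

theorem dt_smooth_B {F : TF d} (hF : RTF F) (L : List (Fin d)) : ContDiff ℝ ∞ (opB P F L) := by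
  have h1 : ContDiff ℝ ∞ (fun x => cc x.1 * opW F L x) :=
    (dt_time_smooth smooth_cc).mul (rtf_W hF L).1
  have h2 : ContDiff ℝ ∞ (fun x => th x.1 * opA P F L x) :=
    (dt_time_smooth smooth_th).mul (rtf_A hF L).1
  exact h1.add h2

theorem lie_T (hP : Fam B P) {F : TF d} (hF : RTF F) :
    lie (VF P) (opT P F) = opT P (lie (VF P) F) +
      opBs P (opA P (opT P F) - opSw (opT P (opSw (opA P F)))) +
      (opT P (opAs P (opB P F)) - opAs P (opSw (opT P (opSw (opB P F))))) +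
      opS (fun t => 2 * (P.q t * th t)) (opT P (opT P F)) := by
  funext L x
  cases L with
  | nil =>
    have hz : ∀ i : Fin d, (opA P (opT P F) - opSw (opT P (opSw (opA P F)))) [i] = fun _ => 0 := by
      intro i
      funext y
      have h1 : (opA P (opT P F) - opSw (opT P (opSw (opA P F)))) [i] y =
        P.ρ y.1 * dd (eY i) (fun _ => 0) y - 0 := rfl
      rw [h1, dd_const]
      simp
    have h1 : lie (VF P) (opT P F) [] x = dd (VF P x) (fun _ => 0) x := rfl
    have h2 : opT P (lie (VF P) F) [] x = 0 := rfl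
    have h3 : opBs P (opA P (opT P F) - opSw (opT P (opSw (opA P F)))) [] x =
      cc x.1 * (∑ l, (cw l x *
          (opA P (opT P F) - opSw (opT P (opSw (opA P F)))) [l] x -
        dd (eW l) ((opA P (opT P F) - opSw (opT P (opSw (opA P F)))) [l]) x)) +
      th x.1 * ∑ l, (P.ρ x.1 * P.f l x *
          (opA P (opT P F) - opSw (opT P (opSw (opA P F)))) [l] x -
        P.ρ x.1 * dd (eY l)
          ((opA P (opT P F) - opSw (opT P (opSw (opA P F)))) [l]) x) := rfl
    have h4 : (opT P (opAs P (opB P F)) - opAs P (opSw (opT P (opSw (opB P F))))) [] x =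
      0 - ∑ l, (P.ρ x.1 * P.f l x * 0 - P.ρ x.1 * dd (eY l) (fun _ => 0) x) := rfl
    have h5 : opS (fun t => 2 * (P.q t * th t)) (opT P (opT P F)) [] x =
      2 * (P.q x.1 * th x.1) * 0 := rfl
    have h6 : (opT P (lie (VF P) F) +
      opBs P (opA P (opT P F) - opSw (opT P (opSw (opA P F)))) +
      (opT P (opAs P (opB P F)) - opAs P (opSw (opT P (opSw (opB P F))))) +
      opS (fun t => 2 * (P.q t * th t)) (opT P (opT P F))) [] x =
      opT P (lie (VF P) F) [] x +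
      opBs P (opA P (opT P F) - opSw (opT P (opSw (opA P F)))) [] x +
      (opT P (opAs P (opB P F)) - opAs P (opSw (opT P (opSw (opB P F))))) [] x +
      opS (fun t => 2 * (P.q t * th t)) (opT P (opT P F)) [] x := rfl
    rw [h6, h1, h2, h3, h4, h5]
    simp only [hz, dd_const]
    simp
  | cons i L =>
    have h6 : (opT P (lie (VF P) F) +
      opBs P (opA P (opT P F) - opSw (opT P (opSw (opA P F)))) +
      (opT P (opAs P (opB P F)) - opAs P (opSw (opT P (opSw (opB P F))))) +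
      opS (fun t => 2 * (P.q t * th t)) (opT P (opT P F))) (i :: L) x =
      ∑ j, P.T i j x * fderiv ℝ (F (j :: L)) x (VF P x) +
      opBs P (opA P (opT P F) - opSw (opT P (opSw (opA P F)))) (i :: L) x +
      (opT P (opAs P (opB P F)) (i :: L) x -
        opAs P (opSw (opT P (opSw (opB P F)))) (i :: L) x) +
      2 * (P.q x.1 * th x.1) * ∑ l, P.T i l x * ∑ j, P.T l j x * F (j :: L) x := rfl
    have h1 : lie (VF P) (opT P F) (i :: L) x =
        dd (VF P x) (fun x => ∑ j, P.T i j x * F (j :: L) x) x := rfl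
    have h2 : dd (VF P x) (fun x => ∑ j, P.T i j x * F (j :: L) x) x =
        ∑ j, (fderiv ℝ (P.T i j) x (VF P x) * F (j :: L) x +
          P.T i j x * fderiv ℝ (F (j :: L)) x (VF P x)) := by
      rw [dd_sum_fun _ (fun j _ => (dt_smooth_T hP i j).mul (hF (j :: L)).1)]
      refine Finset.sum_congr rfl fun j _ => ?_
      rw [dd_mul_fun (dt_smooth_T hP i j) (hF (j :: L)).1]
      rfl
    have h3 : ∑ l, ∑ j, P.ρ x.1 * P.Df [l, i] j x * opB P F (l :: j :: L) x =
        ∑ l, ∑ j, P.ρ x.1 * P.Df [l, i] j x * (cc x.1 * dd (eW l) (F (j :: L)) x +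
          th x.1 * (P.ρ x.1 * dd (eY l) (F (j :: L)) x)) := rfl
    rw [h6, h1, h2, dt_BsG hP hF, dt_diff hP (dt_smooth_B hF), h3, Finset.sum_add_distrib]
    have h4 : ∑ l, P.T i l x * ∑ j, P.T l j x * F (j :: L) x =
        ∑ j, (∑ l, P.T i l x * P.T l j x) * F (j :: L) x := by
      simp only [Finset.mul_sum, Finset.sum_mul]
      rw [Finset.sum_comm]
      exact Finset.sum_congr rfl fun j _ => Finset.sum_congr rfl fun l _ => by ring
    have h5 : ∑ j, fderiv ℝ (P.T i j) x (VF P x) * F (j :: L) x =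
        ∑ l, ∑ j, ((cc x.1 * cw l x + th x.1 * P.ρ x.1 * P.f l x) * (P.ρ x.1 * P.Df [l, i] j x) -
        th x.1 * P.ρ x.1 * (P.ρ x.1 * P.Df [l, l, i] j x)) * F (j :: L) x +
        2 * (P.q x.1 * th x.1) * ∑ j, (∑ l, P.T i l x * P.T l j x) * F (j :: L) x := by
      rw [Finset.sum_comm, Finset.mul_sum, ← Finset.sum_add_distrib]
      refine Finset.sum_congr rfl fun j _ => ?_
      rw [lie_Tij hP, add_mul, Finset.sum_mul]
      ring
    rw [h4, h5]
    have h7 : ∑ l, ∑ j, (((cc x.1 * cw l x + th x.1 * P.ρ x.1 * P.f l x) *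
          (P.ρ x.1 * P.Df [l, i] j x) -
        th x.1 * P.ρ x.1 * (P.ρ x.1 * P.Df [l, l, i] j x)) * F (j :: L) x -
        P.ρ x.1 * P.Df [l, i] j x * (cc x.1 * dd (eW l) (F (j :: L)) x +
          th x.1 * (P.ρ x.1 * dd (eY l) (F (j :: L)) x))) =
        ∑ l, ∑ j, ((cc x.1 * cw l x + th x.1 * P.ρ x.1 * P.f l x) * (P.ρ x.1 * P.Df [l, i] j x) -
        th x.1 * P.ρ x.1 * (P.ρ x.1 * P.Df [l, l, i] j x)) * F (j :: L) x -
        ∑ l, ∑ j, P.ρ x.1 * P.Df [l, i] j x * (cc x.1 * dd (eW l) (F (j :: L)) x +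
          th x.1 * (P.ρ x.1 * dd (eY l) (F (j :: L)) x)) := by
      rw [← Finset.sum_sub_distrib]
      exact Finset.sum_congr rfl fun l _ => Finset.sum_sub_distrib _ _
    rw [h7]
    ring

end P347Z
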