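import Vale.Agent.P347Z.WdDerS
import Vale.Agent.P347Z.WdDerT
import Vale.Agent.P347Z.WdDerR

/-!
Module WDER: assembly, induction on the word.
-/

open MeasureTheory ProbabilityTheory Function
open scoped BigOperators ContDiff

namespace P347Z

open P347Q

variable {d : ℕ}

variable {B : ℕ → ℝ} {P : Prm d}

theorem wder_neg (F : TF d) : opS (fun _ => (-1 : ℝ)) F = -F := by
  funext L x
  show -1 * F L x = -F L x
  ring

theorem sem_derT (hP : Fam B P) (a : Wd) : lie (VF P) (sem P a) = sem P a.derT := by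
  induction a with
  | f => exact lie_f hP
  | z =>
    rw [lie_z hP]
    funext L x
    show 0 = 0 * sem P Wd.z L x
    rw [zero_mul]
  | T a ih =>
    have h : sem P (Wd.T a).derT = opT P (sem P a.derT) +
        (opBs P (opA P (opT P (sem P a)) +
          opS (fun _ => -1) (opSw (opT P (opSw (opA P (sem P a)))))) +
        ((opT P (opAs P (opB P (sem P a))) +
          opS (fun _ => -1) (opAs P (opSw (opT P (opSw (opB P (sem P a))))))) +
          opS (fun t => 2 * (P.q t * th t)) (opT P (opT P (sem P a))))) := rfl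
    have h' : lie (VF P) (sem P (Wd.T a)) = lie (VF P) (opT P (sem P a)) := rfl
    rw [h, h', lie_T hP (sem_reg hP a), ih]
    simp only [wder_neg, ← sub_eq_add_neg]
    abel
  | Sw a ih =>
    have h' : lie (VF P) (sem P (Wd.Sw a)) = lie (VF P) (opSw (sem P a)) := rfl
    rw [h', lie_Sw, ih]
    rfl
  | A a ih =>
    have h : sem P (Wd.A a).derT = opA P (sem P a.derT) +
        (opS (fun t => -1 * th t) (opA P (sem P a)) +
        opS P.q (opT P (opB P (sem P a)))) := rfl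
    have h' : lie (VF P) (sem P (Wd.A a)) = lie (VF P) (opA P (sem P a)) := rfl
    rw [h, h', lie_A hP (sem_reg hP a), ih, add_assoc]
    simp only [neg_one_mul]
  | W a ih =>
    have h : sem P (Wd.W a).derT = opW (sem P a.derT) +
        opS (fun t => -1 * cc t) (opA P (sem P a)) := rfl
    have h' : lie (VF P) (sem P (Wd.W a)) = lie (VF P) (opW (sem P a)) := rfl
    rw [h, h', lie_W hP (sem_reg hP a), ih]
    simp only [neg_one_mul]
  | Z a ih =>
    have h' : lie (VF P) (sem P (Wd.Z a)) = lie (VF P) (opZ (sem P a)) := rfl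
    rw [h', lie_Z hP (sem_reg hP a), ih]
    rfl
  | As a ih =>
    have h : sem P (Wd.As a).derT = opAs P (sem P a.derT) +
        (opS (fun t => -1 * th t) (opAs P (sem P a)) +
        opS P.q (opBs P (opT P (sem P a)))) := rfl
    have h' : lie (VF P) (sem P (Wd.As a)) = lie (VF P) (opAs P (sem P a)) := rfl
    rw [h, h', lie_As hP (sem_reg hP a), ih, add_assoc]
    simp only [neg_one_mul]
  | Ws a ih =>
    have h : sem P (Wd.Ws a).derT = opWs (sem P a.derT) +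
        opS (fun t => -1 * cc t) (opAs P (sem P a)) := rfl
    have h' : lie (VF P) (sem P (Wd.Ws a)) = lie (VF P) (opWs (sem P a)) := rfl
    rw [h, h', lie_Ws hP (sem_reg hP a), ih]
    simp only [neg_one_mul]
  | Zs a ih =>
    have h' : lie (VF P) (sem P (Wd.Zs a)) = lie (VF P) (opZs (sem P a)) := rfl
    rw [h', lie_Zs hP (sem_reg hP a), ih]
    rfl
  | add a b iha ihb =>
    have h' : lie (VF P) (sem P (Wd.add a b)) = lie (VF P) (sem P a + sem P b) := rfl
    rw [h', lie_add _ (sem_reg hP a) (sem_reg hP b), iha, ihb]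
    rfl
  | sc g a ih =>
    have h' : lie (VF P) (sem P (Wd.sc g a)) =
      lie (VF P) (opS (g.ev P.s P.lam) (sem P a)) := rfl
    rw [h', lie_S (cf_der P.s P.lam g) (sem_reg hP a), ih]
    rfl

theorem sem_derR (hP : Fam B P) (a : Wd) : lie (VR P) (sem P a) = sem P a.derR := by
  have h : sem P a.derR = opBs P (opT P (opZ (sem P a))) +
      opS (fun _ => -1) (opZs (opT P (opB P (sem P a)))) := rfl
  rw [h, lie_R hP (sem_reg hP a), wder_neg, sub_eq_add_neg]

/-- derivative along `VF + lam c VR` -/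
theorem sem_der (hP : Fam B P) (a : Wd) (L : List (Fin d)) (x : TS d) :
    fderiv ℝ (sem P a L) x (VF P x + (P.lam * cc x.1) • VR P x) = sem P a.der L x := by
  have h : sem P a.der L x = sem P a.derT L x + P.lam * cc x.1 * sem P a.derR L x := rfl
  rw [h, ← sem_derT hP, ← sem_derR hP, map_add, map_smul]
  rfl

theorem ok_B {a : Wd} {m : ℕ} (h : a.ok m) : a.B.ok (m + 1) :=
  ⟨⟨by omega, by simpa using h⟩, ⟨by omega, by simpa using h⟩⟩

theorem ok_Bs {a : Wd} {m : ℕ} (h : a.ok (m + 1)) : a.Bs.ok m := ⟨h, h⟩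

theorem ok_derT (a : Wd) : ∀ {m : ℕ}, a.ok m → a.derT.ok m := by
  induction a with
  | f =>
    intro m h
    refine ok_Bs ⟨by omega, ?_⟩
    simpa using h
  | z => intro m h; exact h
  | T a ih =>
    rintro m ⟨h, hm⟩
    obtain ⟨n, rfl⟩ : ∃ n, m = n + 1 := ⟨m - 1, by omega⟩
    have hA : (Wd.A a).ok (n + 1 + 1) := ⟨by omega, h⟩
    have hB : a.B.ok (n + 1 + 1) := ok_B h
    refine ⟨⟨ih h, hm⟩, ⟨ok_Bs ⟨⟨by omega, ⟨h, hm⟩⟩, ⟨⟨⟨hA, by omega⟩, by omega⟩, by omega⟩⟩,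
      ⟨⟨⟨hB, hm⟩, ⟨⟨⟨hB, by omega⟩, by omega⟩, by omega⟩⟩, ⟨⟨h, hm⟩, hm⟩⟩⟩⟩
  | Sw a ih =>
    rintro m ⟨h, hm⟩
    exact ⟨ih h, hm⟩
  | A a ih =>
    rintro m ⟨hm, h⟩
    obtain ⟨n, rfl⟩ : ∃ n, m = n + 1 := ⟨m - 1, by omega⟩
    exact ⟨⟨hm, ih h⟩, ⟨⟨hm, h⟩, ⟨ok_B h, hm⟩⟩⟩
  | W a ih =>
    rintro m ⟨hm, h⟩
    exact ⟨⟨hm, ih h⟩, ⟨hm, h⟩⟩
  | Z a ih =>
    rintro m ⟨hm, h⟩
    exact ⟨hm, ih h⟩
  | As a ih =>
    intro m h
    exact ⟨ih h, ⟨h, ok_Bs ⟨h, by omega⟩⟩⟩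
  | Ws a ih =>
    intro m h
    exact ⟨ih h, h⟩
  | Zs a ih =>
    intro m h
    exact ih h
  | add a b iha ihb =>
    rintro m ⟨h1, h2⟩
    exact ⟨iha h1, ihb h2⟩
  | sc g a ih =>
    intro m h
    exact ⟨h, ih h⟩

theorem ok_derR {a : Wd} {m : ℕ} (h : a.ok m) : a.derR.ok m :=
  ⟨ok_Bs ⟨⟨by omega, by simpa using h⟩, by omega⟩, ⟨ok_B h, by omega⟩⟩

theorem ok_der {a : Wd} {m : ℕ} (h : a.ok m) : a.der.ok m := ⟨ok_derT a h, ok_derR h⟩

end P347Z
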