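import Vale.Agent.P347Z.WdInd

/-!
Helper file: expansion of directional derivatives, in particular along the free field, into partial
derivatives.
-/

open MeasureTheory ProbabilityTheory Function
open scoped BigOperators ContDiff

namespace P347Z

open P347Q

variable {d : ℕ}

variable {B : ℕ → ℝ} {P : Prm d}

theorem dt_sum_bas (y : E d) : ∑ i, y i • bas d i = y := by
  have := (EuclideanSpace.basisFun (Fin d) ℝ).sum_repr y
  simpa [bas] using this

noncomputable def dtY (d : ℕ) : E d →L[ℝ] TS d :=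
  (ContinuousLinearMap.inr ℝ ℝ (PS d)).comp (ContinuousLinearMap.inl ℝ (E d) (E d × E d))

noncomputable def dtW (d : ℕ) : E d →L[ℝ] TS d :=
  (ContinuousLinearMap.inr ℝ ℝ (PS d)).comp ((ContinuousLinearMap.inr ℝ (E d) (E d × E d)).comp
    (ContinuousLinearMap.inl ℝ (E d) (E d)))

noncomputable def dtZ (d : ℕ) : E d →L[ℝ] TS d :=
  (ContinuousLinearMap.inr ℝ ℝ (PS d)).comp ((ContinuousLinearMap.inr ℝ (E d) (E d × E d)).comp
    (ContinuousLinearMap.inr ℝ (E d) (E d)))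

/-- decomposition of a direction -/
theorem dt_decomp (v : TS d) : v = v.1 • eT d + ∑ i, v.2.1 i • eY i + ∑ i, v.2.2.1 i • eW i +
    ∑ i, v.2.2.2 i • eZ i := by
  obtain ⟨a, y, w, z⟩ := v
  have h1 : ∑ i, y i • (eY i : TS d) = (0, (y, (0, 0))) := by
    have h : dtY d (∑ i, y i • bas d i) = ∑ i, y i • (eY i : TS d) := by
      rw [map_sum]
      exact Finset.sum_congr rfl fun i _ => map_smul _ _ _
    rw [← h, dt_sum_bas]
    rfl
  have h2 : ∑ i, w i • (eW i : TS d) = (0, (0, (w, 0))) := by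
    have h : dtW d (∑ i, w i • bas d i) = ∑ i, w i • (eW i : TS d) := by
      rw [map_sum]
      exact Finset.sum_congr rfl fun i _ => map_smul _ _ _
    rw [← h, dt_sum_bas]
    rfl
  have h3 : ∑ i, z i • (eZ i : TS d) = (0, (0, (0, z))) := by
    have h : dtZ d (∑ i, z i • bas d i) = ∑ i, z i • (eZ i : TS d) := by
      rw [map_sum]
      exact Finset.sum_congr rfl fun i _ => map_smul _ _ _
    rw [← h, dt_sum_bas]
    rfl
  have h4 : a • eT d = (a, (0, (0, 0))) := by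
    simp [eT]
  show (a, (y, (w, z))) = a • eT d + ∑ i, y i • (eY i : TS d) + ∑ i, w i • (eW i : TS d) +
    ∑ i, z i • (eZ i : TS d)
  rw [h1, h2, h3, h4]
  simp

/-- a directional derivative in terms of partial derivatives -/
theorem dt_dd (F : TS d → ℝ) (v x : TS d) : fderiv ℝ F x v = v.1 * dd (eT d) F x +
    ∑ i, v.2.1 i * dd (eY i) F x + ∑ i, v.2.2.1 i * dd (eW i) F x +
    ∑ i, v.2.2.2 i * dd (eZ i) F x := by
  conv_lhs => rw [dt_decomp v]
  simp only [map_add, map_sum, map_smul, smul_eq_mul]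
  rfl

theorem dt_Df_smooth (hP : Fam B P) (L : List (Fin d)) (k : Fin d) : ContDiff ℝ ∞ (P.Df L k) :=
  (Reg.Df hP L k).1

/-- functions of time are constants for directions without time component -/
theorem dt_time_mul {g : ℝ → ℝ} (hg : ContDiff ℝ ∞ g) {F : TS d → ℝ} (hF : ContDiff ℝ ∞ F)
    {v : TS d} (hv : v.1 = 0) :
    dd v (fun x => g x.1 * F x) = fun x => g x.1 * dd v F x := by
  have h1 : ContDiff ℝ ∞ (fun x : TS d => g x.1) := hg.comp contDiff_fst
  rw [dd_mul_fun h1 hF, dd_time (g := g) (g' := deriv g)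
    (fun t => (hg.differentiable (by simp) t).hasDerivAt) v]
  funext x
  simp [hv]

theorem dt_smooth_f (hP : Fam B P) (k : Fin d) : ContDiff ℝ ∞ (P.f k) := dt_Df_smooth hP [] k

theorem dt_smooth_T (hP : Fam B P) (i k : Fin d) : ContDiff ℝ ∞ (P.T i k) := dt_Df_smooth hP [i] k

theorem dt_smooth_cw (i : Fin d) : ContDiff ℝ ∞ (cw i : TS d → ℝ) := (Reg.cw i).1

theorem dt_time_smooth {g : ℝ → ℝ} (hg : ContDiff ℝ ∞ g) : ContDiff ℝ ∞ (fun x : TS d => g x.1) :=
  hg.comp contDiff_fst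

/-- coefficient of the free field -/
noncomputable def dtC (P : Prm d) (k : Fin d) : TS d → ℝ := fun x =>
  √P.s * cc x.1 ^ 2 * cw k x - P.q x.1 * th x.1 * P.f k x

/-- coefficient of the adjoint of `B` -/
noncomputable def dtE (P : Prm d) (k : Fin d) : TS d → ℝ := fun x =>
  cc x.1 * cw k x + th x.1 * P.ρ x.1 * P.f k x

theorem dt_g1 (P : Prm d) : ContDiff ℝ ∞ (fun t : ℝ => √P.s * cc t ^ 2) :=
  contDiff_const.mul (smooth_cc.pow 2)

theorem dt_g2 (P : Prm d) : ContDiff ℝ ∞ (fun t : ℝ => P.q t * th t) := (smooth_q P).mul smooth_th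

theorem dt_g3 (P : Prm d) : ContDiff ℝ ∞ (fun t : ℝ => th t * P.ρ t) := smooth_th.mul (smooth_rho P)

theorem dtC_smooth (hP : Fam B P) (k : Fin d) : ContDiff ℝ ∞ (dtC P k) :=
  ((dt_time_smooth (dt_g1 P)).mul (dt_smooth_cw k)).sub
    ((dt_time_smooth (dt_g2 P)).mul (dt_smooth_f hP k))

theorem dtE_smooth (hP : Fam B P) (k : Fin d) : ContDiff ℝ ∞ (dtE P k) :=
  ((dt_time_smooth smooth_cc).mul (dt_smooth_cw k)).add
    ((dt_time_smooth (dt_g3 P)).mul (dt_smooth_f hP k))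

theorem dd_dtC (hP : Fam B P) (i k : Fin d) :
    dd (eY i) (dtC P k) = fun x => -(P.q x.1 * th x.1) * P.T i k x := by
  unfold dtC
  rw [dd_sub_fun ((dt_time_smooth (dt_g1 P)).mul (dt_smooth_cw k))
    ((dt_time_smooth (dt_g2 P)).mul (dt_smooth_f hP k)),
    dt_time_mul (g := fun t : ℝ => √P.s * cc t ^ 2) (dt_g1 P) (dt_smooth_cw k) rfl,
    dt_time_mul (g := fun t : ℝ => P.q t * th t) (dt_g2 P) (dt_smooth_f hP k) rfl, dd_cw]
  funext x
  have h1 : (eY i : TS d).2.2.1 k = 0 := rfl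
  have h2 : dd (eY i) (P.f k) x = P.T i k x := rfl
  beta_reduce
  rw [h2, h1]
  ring

theorem dd_dtE (hP : Fam B P) (i k : Fin d) :
    dd (eY i) (dtE P k) = fun x => th x.1 * P.ρ x.1 * P.T i k x := by
  unfold dtE
  rw [dd_add_fun ((dt_time_smooth smooth_cc).mul (dt_smooth_cw k))
    ((dt_time_smooth (dt_g3 P)).mul (dt_smooth_f hP k)),
    dt_time_mul (g := cc) smooth_cc (dt_smooth_cw k) rfl,
    dt_time_mul (g := fun t : ℝ => th t * P.ρ t) (dt_g3 P) (dt_smooth_f hP k) rfl, dd_cw]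
  funext x
  have h1 : (eY i : TS d).2.2.1 k = 0 := rfl
  have h2 : dd (eY i) (P.f k) x = P.T i k x := rfl
  beta_reduce
  rw [h2, h1]
  ring

/-- coefficient of the free field -/
noncomputable def dtD (P : Prm d) (k : Fin d) : TS d → ℝ := fun x =>
  -(√P.s * cc x.1 ^ 2) * P.f k x

theorem dtD_smooth (hP : Fam B P) (k : Fin d) : ContDiff ℝ ∞ (dtD P k) :=
  (dt_time_smooth (g := fun t => -(√P.s * cc t ^ 2)) (dt_g1 P).neg).mul (dt_smooth_f hP k)

theorem dt_vf (P : Prm d) (x : TS d) (i : Fin d) : vf P x i = P.f i x := by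
  unfold vf
  have := congrArg (fun y : E d => y i) (dt_sum_bas (WithLp.toLp 2 fun i => P.f i x))
  simpa using this

theorem dt_vTz (P : Prm d) (x : TS d) (i : Fin d) : vTz P x i = ∑ j, P.T i j x * cz j x := by
  unfold vTz
  have := congrArg (fun y : E d => y i) (dt_sum_bas (WithLp.toLp 2 fun i => ∑ j, P.T i j x * cz j x))
  simpa using this

theorem dt_vg (P : Prm d) (x : TS d) (j : Fin d) : vg P x j =
    ∑ l, (cc x.1 * (cw l x + √P.s * th x.1 * P.f l x) * P.T l j x -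
      cc x.1 * (√P.s * th x.1) * P.Df [l, l] j x) := by
  unfold vg
  have := congrArg (fun y : E d => y j) (dt_sum_bas (WithLp.toLp 2 fun j =>
    ∑ l, (cc x.1 * (cw l x + √P.s * th x.1 * P.f l x) * P.T l j x -
      cc x.1 * (√P.s * th x.1) * P.Df [l, l] j x)))
  simpa using this

theorem dt_VF_Y (P : Prm d) (x : TS d) (i : Fin d) : (VF P x).2.1 i = dtC P i x := by
  show ((√P.s * cc x.1 ^ 2) • x.2.2.1 - (P.q x.1 * th x.1) • vf P x) i = _
  unfold dtC
  rw [← dt_vf P x i]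
  rfl

theorem dt_VF_W (P : Prm d) (x : TS d) (i : Fin d) : (VF P x).2.2.1 i = dtD P i x := by
  show (-(√P.s * cc x.1 ^ 2) • vf P x) i = _
  unfold dtD
  rw [← dt_vf P x i]
  rfl

/-- derivative along the free field -/
theorem dt_VF (P : Prm d) (F : TS d → ℝ) (x : TS d) : fderiv ℝ F x (VF P x) =
    dd (eT d) F x + ∑ k, dtC P k x * dd (eY k) F x + ∑ k, dtD P k x * dd (eW k) F x := by
  rw [dt_dd]
  have h1 : (VF P x).1 = 1 := rfl
  have h2 : ∀ i, (VF P x).2.2.2 i = 0 := fun i => rfl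
  simp only [h1, h2, dt_VF_Y, dt_VF_W, zero_mul, Finset.sum_const_zero, add_zero, one_mul]

/-- commutator of a constant spatial direction and the free field -/
theorem dt_VF_comm (hP : Fam B P) {G : TS d → ℝ} (hG : ContDiff ℝ ∞ G) (v : TS d) (x : TS d) :
    dd v (fun y => fderiv ℝ G y (VF P y)) x = fderiv ℝ (dd v G) x (VF P x) +
      ∑ k, dd v (dtC P k) x * dd (eY k) G x + ∑ k, dd v (dtD P k) x * dd (eW k) G x := by
  have h1 : (fun y => fderiv ℝ G y (VF P y)) = fun y =>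
      (dd (eT d) G y + ∑ k, dtC P k y * dd (eY k) G y) + ∑ k, dtD P k y * dd (eW k) G y :=
    funext fun y => dt_VF P G y
  have hC : ∀ k : Fin d, ContDiff ℝ ∞ (fun y => dtC P k y * dd (eY k) G y) := fun k =>
    (dtC_smooth hP k).mul (dd_smooth hG _)
  have hD : ∀ k : Fin d, ContDiff ℝ ∞ (fun y => dtD P k y * dd (eW k) G y) := fun k =>
    (dtD_smooth hP k).mul (dd_smooth hG _)
  rw [h1, dd_add_fun ((dd_smooth hG _).add (ContDiff.sum fun k _ => hC k))
    (ContDiff.sum fun k _ => hD k), dd_add_fun (dd_smooth hG _) (ContDiff.sum fun k _ => hC k),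
    dd_sum_fun _ (fun k _ => hC k), dd_sum_fun _ (fun k _ => hD k), dt_VF, dd_comm hG]
  have e1 : ∀ k : Fin d, dd v (fun y => dtC P k y * dd (eY k) G y) = fun y =>
      dd v (dtC P k) y * dd (eY k) G y + dtC P k y * dd (eY k) (dd v G) y := by
    intro k
    rw [dd_mul_fun (dtC_smooth hP k) (dd_smooth hG _), dd_comm hG v]
  have e2 : ∀ k : Fin d, dd v (fun y => dtD P k y * dd (eW k) G y) = fun y =>
      dd v (dtD P k) y * dd (eW k) G y + dtD P k y * dd (eW k) (dd v G) y := by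
    intro k
    rw [dd_mul_fun (dtD_smooth hP k) (dd_smooth hG _), dd_comm hG v]
  simp only [e1, e2, Finset.sum_add_distrib]
  ring

/-- derivatives of the coefficients -/
theorem dd_coef {g₁ g₂ : ℝ → ℝ} (hg₁ : ContDiff ℝ ∞ g₁) (hg₂ : ContDiff ℝ ∞ g₂) (hP : Fam B P)
    (k : Fin d) {v : TS d} (hv : v.1 = 0) : dd v (fun x => g₁ x.1 * cw k x - g₂ x.1 * P.f k x) =
      fun x => g₁ x.1 * v.2.2.1 k - g₂ x.1 * dd v (P.f k) x := by
  rw [dd_sub_fun ((dt_time_smooth hg₁).mul (dt_smooth_cw k))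
    ((dt_time_smooth hg₂).mul (dt_smooth_f hP k)),
    dt_time_mul hg₁ (dt_smooth_cw k) hv, dt_time_mul hg₂ (dt_smooth_f hP k) hv, dd_cw]

theorem dd_dtC_v (hP : Fam B P) (k : Fin d) {v : TS d} (hv : v.1 = 0) : dd v (dtC P k) =
      fun x => √P.s * cc x.1 ^ 2 * v.2.2.1 k - P.q x.1 * th x.1 * dd v (P.f k) x :=
  dd_coef (dt_g1 P) (dt_g2 P) hP k hv

theorem dd_dtD_v (hP : Fam B P) (k : Fin d) {v : TS d} (hv : v.1 = 0) : dd v (dtD P k) =
      fun x => -(√P.s * cc x.1 ^ 2) * dd v (P.f k) x :=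
  dt_time_mul (g := fun t => -(√P.s * cc t ^ 2)) (dt_g1 P).neg (dt_smooth_f hP k) hv

theorem dt_fW (hP : Fam B P) (i k : Fin d) : dd (eW i) (P.f k) = fun _ => 0 := dd_W_Df hP i [] k

theorem dt_fZ (hP : Fam B P) (i k : Fin d) : dd (eZ i) (P.f k) = fun _ => 0 := dd_Z_Df hP i [] k

theorem dt_rho_c (hP : Fam B P) (t : ℝ) : P.ρ t * (√P.s * cc t ^ 2) = P.q t * cc t := by
  rw [← rho_sq hP.s_pos.le]
  unfold Prm.ρ
  ring

end P347Z
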