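import Vale.Agent.P347Z.WdLin
import Vale.Agent.P347Z.WdVF

/-!
Module WDERA: derivative along the free field `VF` (a vector field on `TS d`) of `A F`, `W F`, `Z F`,
`Sw F`, `g F`.  `lie V F x = fderiv ℝ F x (V x)`.  Key: for constant directions `v`,
`lie V (dd v F) = dd v (lie V F) - fderiv F (dd v V)`, and `dd (eY i) VF = (0, (-(q h) T e_i, -√s c² T e_i, 0))`,
`dd (eW i) VF = (0, (√s c² e_i, 0, 0))`, `dd (eZ i) VF = 0`.  `q h = ρ · h · √s c`, `√s c² = ρ c`.
-/

open MeasureTheory ProbabilityTheory Function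
open scoped BigOperators ContDiff

namespace P347Z

open P347Q

variable {d : ℕ}

/-- derivative of a tensor function along a vector field -/
noncomputable def lie (V : TS d → TS d) (F : TF d) : TF d := fun L x => fderiv ℝ (F L) x (V x)

variable {B : ℕ → ℝ} {P : Prm d}

theorem lie_A (hP : Fam B P) {F : TF d} (hF : RTF F) :
    lie (VF P) (opA P F) = opA P (lie (VF P) F) + opS (fun t => -th t) (opA P F) +
      opS P.q (opT P (opB P F)) := by
  funext L x
  cases L with
  | nil =>
    have h1 : lie (VF P) (opA P F) [] x = dd (VF P x) (fun _ => 0) x := rfl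
    have h2 : (opA P (lie (VF P) F) + opS (fun t => -th t) (opA P F) +
      opS P.q (opT P (opB P F))) [] x = 0 + -th x.1 * 0 + P.q x.1 * 0 := rfl
    rw [h1, h2, dd_const]
    simp
  | cons i L =>
    have hG := (hF L).1
    have h1 : lie (VF P) (opA P F) (i :: L) x =
      dd (VF P x) (fun y => P.ρ y.1 * dd (eY i) (F L) y) x := rfl
    have h2 : (opA P (lie (VF P) F) + opS (fun t => -th t) (opA P F) +
      opS P.q (opT P (opB P F))) (i :: L) x =
        P.ρ x.1 * dd (eY i) (fun y => fderiv ℝ (F L) y (VF P y)) x +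
        -th x.1 * (P.ρ x.1 * dd (eY i) (F L) x) +
        P.q x.1 * ∑ j, P.T i j x * (cc x.1 * dd (eW j) (F L) x +
          th x.1 * (P.ρ x.1 * dd (eY j) (F L) x)) := rfl
    have h3 : dd (VF P x) (fun y => P.ρ y.1 * dd (eY i) (F L) y) x =
        -(th x.1 * P.ρ x.1) * dd (eY i) (F L) x +
        P.ρ x.1 * fderiv ℝ (dd (eY i) (F L)) x (VF P x) := by
      rw [dd_mul_fun (dt_time_smooth (smooth_rho P)) (dd_smooth hG _), dd_time (hasDerivAt_rho P)]
      have e : (VF P x).1 = 1 := rfl
      beta_reduce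
      rw [e, one_mul]
      rfl
    have hC : ∀ k, dd (eY i) (dtC P k) x = -(P.q x.1 * th x.1) * P.T i k x := by
      intro k
      rw [dd_dtC hP]
    have hD : ∀ k, dd (eY i) (dtD P k) x = -(√P.s * cc x.1 ^ 2) * P.T i k x := by
      intro k
      rw [dd_dtD_v hP k rfl]
      rfl
    rw [h1, h2, h3, dt_VF_comm hP hG]
    simp only [hC, hD]
    have h4 : P.q x.1 * ∑ j, P.T i j x * (cc x.1 * dd (eW j) (F L) x +
          th x.1 * (P.ρ x.1 * dd (eY j) (F L) x)) =
        -(P.ρ x.1 * (∑ k, -(P.q x.1 * th x.1) * P.T i k x * dd (eY k) (F L) x) +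
        P.ρ x.1 * (∑ k, -(√P.s * cc x.1 ^ 2) * P.T i k x * dd (eW k) (F L) x)) := by
      rw [Finset.mul_sum, Finset.mul_sum, Finset.mul_sum, ← Finset.sum_add_distrib,
        ← Finset.sum_neg_distrib]
      refine Finset.sum_congr rfl fun j _ => ?_
      have h5 := dt_rho_c hP x.1
      linear_combination (-(P.T i j x * dd (eW j) (F L) x)) * h5
    rw [h4]
    ring

theorem lie_W (hP : Fam B P) {F : TF d} (hF : RTF F) :
    lie (VF P) (opW F) = opW (lie (VF P) F) + opS (fun t => -cc t) (opA P F) := by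
  funext L x
  cases L with
  | nil =>
    have h1 : lie (VF P) (opW F) [] x = dd (VF P x) (fun _ => 0) x := rfl
    have h2 : (opW (lie (VF P) F) + opS (fun t => -cc t) (opA P F)) [] x = 0 + -cc x.1 * 0 := rfl
    rw [h1, h2, dd_const]
    simp
  | cons i L =>
    have hG := (hF L).1
    have h1 : lie (VF P) (opW F) (i :: L) x = fderiv ℝ (dd (eW i) (F L)) x (VF P x) := rfl
    have h2 : (opW (lie (VF P) F) + opS (fun t => -cc t) (opA P F)) (i :: L) x =
        dd (eW i) (fun y => fderiv ℝ (F L) y (VF P y)) x +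
        -cc x.1 * (P.ρ x.1 * dd (eY i) (F L) x) := rfl
    have hC : ∀ k, dd (eW i) (dtC P k) x = √P.s * cc x.1 ^ 2 * bas d i k := by
      intro k
      rw [dd_dtC_v hP k rfl, dt_fW hP]
      show √P.s * cc x.1 ^ 2 * bas d i k - P.q x.1 * th x.1 * 0 = _
      ring
    have hD : ∀ k, dd (eW i) (dtD P k) x = 0 := by
      intro k
      rw [dd_dtD_v hP k rfl, dt_fW hP]
      simp
    rw [h1, h2, dt_VF_comm hP hG]
    simp only [hC, hD]
    have h3 : ∑ k, √P.s * cc x.1 ^ 2 * bas d i k * dd (eY k) (F L) x =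
        √P.s * cc x.1 ^ 2 * dd (eY i) (F L) x := by
      simp [bas]
    rw [h3]
    simp only [zero_mul, Finset.sum_const_zero]
    unfold Prm.ρ
    ring

theorem lie_Z (hP : Fam B P) {F : TF d} (hF : RTF F) :
    lie (VF P) (opZ F) = opZ (lie (VF P) F) := by
  funext L x
  cases L with
  | nil =>
    have h1 : lie (VF P) (opZ F) [] x = dd (VF P x) (fun _ => 0) x := rfl
    have h2 : (opZ (lie (VF P) F)) [] x = 0 := rfl
    rw [h1, h2, dd_const]
  | cons i L =>
    have hG := (hF L).1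
    have h1 : lie (VF P) (opZ F) (i :: L) x = fderiv ℝ (dd (eZ i) (F L)) x (VF P x) := rfl
    have h2 : (opZ (lie (VF P) F)) (i :: L) x =
        dd (eZ i) (fun y => fderiv ℝ (F L) y (VF P y)) x := rfl
    have hC : ∀ k, dd (eZ i) (dtC P k) x = 0 := by
      intro k
      rw [dd_dtC_v hP k rfl, dt_fZ hP]
      show √P.s * cc x.1 ^ 2 * 0 - P.q x.1 * th x.1 * 0 = _
      ring
    have hD : ∀ k, dd (eZ i) (dtD P k) x = 0 := by
      intro k
      rw [dd_dtD_v hP k rfl, dt_fZ hP]
      simp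
    rw [h1, h2, dt_VF_comm hP hG]
    simp only [hC, hD]
    simp

theorem lie_Sw (F : TF d) : lie (VF P) (opSw F) = opSw (lie (VF P) F) := by
  funext L x
  match L with
  | [] =>
    have h1 : lie (VF P) (opSw F) [] x = dd (VF P x) (fun _ => 0) x := rfl
    rw [h1, dd_const]
    rfl
  | [i] =>
    have h1 : lie (VF P) (opSw F) [i] x = dd (VF P x) (fun _ => 0) x := rfl
    rw [h1, dd_const]
    rfl
  | i :: j :: L => rfl

theorem lie_S {g g' : ℝ → ℝ} (hg : ∀ t, HasDerivAt g (g' t) t) {F : TF d} (hF : RTF F) :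
    lie (VF P) (opS g F) = opS g' F + opS g (lie (VF P) F) := by
  funext L x
  have h1 : HasFDerivAt (fun y : TS d => g y.1)
      ((ContinuousLinearMap.toSpanSingleton ℝ (g' x.1)).comp
        (ContinuousLinearMap.fst ℝ ℝ (PS d))) x :=
    (hg x.1).hasFDerivAt.comp x hasFDerivAt_fst
  have h2 : HasFDerivAt (F L) (fderiv ℝ (F L) x) x :=
    ((hF L).1.differentiable (by simp) x).hasFDerivAt
  have h3 := (h1.mul h2).fderiv
  have h4 : lie (VF P) (opS g F) L x =
    fderiv ℝ ((fun y : TS d => g y.1) * F L) x (VF P x) := rfl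
  rw [h4, h3]
  have h5 : (opS g' F + opS g (lie (VF P) F)) L x =
      g' x.1 * F L x + g x.1 * fderiv ℝ (F L) x (VF P x) := rfl
  rw [h5]
  have h6 : (VF P x).1 = 1 := rfl
  simp [h6]
  ring

theorem lie_add {F G : TF d} (V : TS d → TS d) (hF : RTF F) (hG : RTF G) :
    lie V (F + G) = lie V F + lie V G := by
  funext L x
  have h1 : lie V (F + G) L x = fderiv ℝ (F L + G L) x (V x) := rfl
  rw [h1, fderiv_add ((hF L).1.differentiable (by simp) x) ((hG L).1.differentiable (by simp) x)]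
  rfl

end P347Z
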