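import Vale.Agent.P347Z.WdDefs

/-!
Sums over all lists of given length (helper for the REG block).
-/

open MeasureTheory ProbabilityTheory Function
open scoped BigOperators ContDiff

namespace P347Z

open P347Q

variable {d : ℕ}

/-- sum over all lists of length `m` -/
def lsum : ℕ → (List (Fin d) → ℝ) → ℝ
  | 0, F => F []
  | m + 1, F => ∑ i, lsum m (fun L => F (i :: L))

theorem lsum_zero (F : List (Fin d) → ℝ) : lsum 0 F = F [] := rfl

theorem lsum_succ (m : ℕ) (F : List (Fin d) → ℝ) :
    lsum (m + 1) F = ∑ i, lsum m (fun L => F (i :: L)) := rfl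

theorem lsum_congr {m : ℕ} {F G : List (Fin d) → ℝ} (h : ∀ L, L.length = m → F L = G L) :
    lsum m F = lsum m G := by
  induction m generalizing F G with
  | zero => exact h [] rfl
  | succ m ih =>
    simp only [lsum_succ]
    refine Finset.sum_congr rfl fun i _ => ih fun L hL => h _ (by simp [hL])

theorem lsum_le {m : ℕ} {F G : List (Fin d) → ℝ} (h : ∀ L, L.length = m → F L ≤ G L) :
    lsum m F ≤ lsum m G := by
  induction m generalizing F G with
  | zero => exact h [] rfl
  | succ m ih =>
    simp only [lsum_succ]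
    refine Finset.sum_le_sum fun i _ => ih fun L hL => h _ (by simp [hL])

theorem lsum_const_zero (m : ℕ) : lsum m (fun _ : List (Fin d) => (0 : ℝ)) = 0 := by
  induction m with
  | zero => rfl
  | succ m ih => simp [lsum_succ, ih]

theorem lsum_nonneg {m : ℕ} {F : List (Fin d) → ℝ} (h : ∀ L, L.length = m → 0 ≤ F L) :
    0 ≤ lsum m F := by
  have := lsum_le h
  rwa [lsum_const_zero] at this

theorem lsum_add_fun (m : ℕ) (F G : List (Fin d) → ℝ) :
    lsum m (fun L => F L + G L) = lsum m F + lsum m G := by
  induction m generalizing F G with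
  | zero => rfl
  | succ m ih => simp only [lsum_succ, ih, Finset.sum_add_distrib]

theorem lsum_mul_left (m : ℕ) (a : ℝ) (F : List (Fin d) → ℝ) :
    lsum m (fun L => a * F L) = a * lsum m F := by
  induction m generalizing F with
  | zero => rfl
  | succ m ih => simp only [lsum_succ, ih, Finset.mul_sum]

theorem lsum_sum {ι : Type*} (s : Finset ι) (m : ℕ) (F : ι → List (Fin d) → ℝ) :
    lsum m (fun L => ∑ k ∈ s, F k L) = ∑ k ∈ s, lsum m (F k) := by
  induction m generalizing F with
  | zero => rfl
  | succ m ih =>
    simp only [lsum_succ, ih]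
    rw [Finset.sum_comm]

theorem lsum_comm (m n : ℕ) (F : List (Fin d) → List (Fin d) → ℝ) :
    lsum m (fun L => lsum n (fun L' => F L L')) = lsum n (fun L' => lsum m (fun L => F L L')) := by
  induction m generalizing F with
  | zero => rfl
  | succ m ih =>
    simp only [lsum_succ]
    rw [lsum_sum]
    exact Finset.sum_congr rfl fun i _ => ih fun L L' => F (i :: L) L'

theorem lsum_add (m n : ℕ) (F : List (Fin d) → ℝ) :
    lsum (m + n) F = lsum m (fun L => lsum n (fun L' => F (L ++ L'))) := by
  induction m generalizing F with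
  | zero => simp [lsum]
  | succ m ih =>
    have : m + 1 + n = (m + n) + 1 := by ring
    rw [this, lsum_succ, lsum_succ]
    refine Finset.sum_congr rfl fun i _ => ?_
    rw [ih]
    rfl

/-- splitting off the last entry -/
theorem lsum_snoc (m : ℕ) (F : List (Fin d) → ℝ) :
    lsum (m + 1) F = ∑ i, lsum m (fun L => F (L ++ [i])) := by
  rw [lsum_add, ← lsum_sum]
  rfl

theorem lsum_eq_sum (m : ℕ) (F : List (Fin d) → ℝ) :
    lsum m F = ∑ l : Fin m → Fin d, F (List.ofFn l) := by
  induction m generalizing F with
  | zero => simp [lsum]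
  | succ m ih =>
    rw [lsum_succ]
    simp only [ih]
    rw [← (Fin.consEquiv (fun _ : Fin (m + 1) => Fin d)).sum_comp, Fintype.sum_prod_type]
    refine Finset.sum_congr rfl fun i _ => Finset.sum_congr rfl fun l _ => ?_
    simp [Fin.consEquiv, List.ofFn_succ]

theorem nsq_eq_lsum (P : Prm d) (t : ℝ) (m : ℕ) (F : TF d) :
    nsq P t m F = lsum m (fun L => ∫ y, (F L (t, y)) ^ 2 ∂(P.mu t)) := by
  rw [nsq, lsum_eq_sum]

/-- integrals of list sums -/
theorem lsum_integral {X : Type*} [MeasurableSpace X] (μ : Measure X) (m : ℕ)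
    {F : List (Fin d) → X → ℝ} (hF : ∀ L, L.length = m → Integrable (F L) μ) :
    lsum m (fun L => ∫ x, F L x ∂μ) = ∫ x, lsum m (fun L => F L x) ∂μ ∧
      Integrable (fun x => lsum m (fun L => F L x)) μ := by
  induction m generalizing F with
  | zero => exact ⟨rfl, hF [] rfl⟩
  | succ m ih =>
    have h := fun i => @ih (fun L => F (i :: L)) (fun L hL => hF _ (by simp [hL]))
    simp only [lsum_succ]
    constructor
    · rw [integral_finsetSum _ fun i _ => (h i).2]
      exact Finset.sum_congr rfl fun i _ => (h i).1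
    · exact integrable_finsetSum _ fun i _ => (h i).2

end P347Z
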