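import Vale.Agent.P347Z.WdCalcR
import Vale.Agent.P347Z.WdL

/-!
Helper lemmas for the REG block: spatial slices, independence of the derivatives of the force of `w`, `z`.
-/

open MeasureTheory ProbabilityTheory Function
open scoped BigOperators ContDiff

namespace P347Z

open P347Q

variable {d : ℕ}

variable {P : Prm d}

theorem sum_bas (v : E d) : v = ∑ k, v k • bas d k := by
  ext i
  simp [bas, Pi.single_apply]

/-- the spatial slice of a smooth function on time and phase space has the expected derivative -/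
theorem slice_deriv {F : TS d → ℝ} (hF : ContDiff ℝ ∞ F) (t : ℝ) (wz : E d × E d) (Y v : E d) :
    fderiv ℝ (fun Y' => F (t, (Y', wz))) Y v = dd ((0, (v, (0, 0))) : TS d) F (t, (Y, wz)) := by
  have h1 : HasFDerivAt (fun Y' : E d => ((t, (Y', wz)) : TS d))
      ((0 : E d →L[ℝ] ℝ).prod ((ContinuousLinearMap.id ℝ (E d)).prod (0 : E d →L[ℝ] E d × E d))) Y :=
    (hasFDerivAt_const t Y).prodMk ((hasFDerivAt_id Y).prodMk (hasFDerivAt_const wz Y))
  have h2 : HasFDerivAt F (fderiv ℝ F (t, (Y, wz))) (t, (Y, wz)) :=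
    (hF.differentiable (by simp) _).hasFDerivAt
  have h3 := (h2.comp Y h1).fderiv
  have : (fun Y' => F (t, (Y', wz))) = F ∘ (fun Y' : E d => ((t, (Y', wz)) : TS d)) := rfl
  rw [this, h3]
  simp only [dd, ContinuousLinearMap.comp_apply, ContinuousLinearMap.prod_apply,
    ContinuousLinearMap.id_apply]
  rfl

theorem slice_diff {F : TS d → ℝ} (hF : ContDiff ℝ ∞ F) (t : ℝ) (wz : E d × E d) :
    Differentiable ℝ (fun Y' => F (t, (Y', wz))) := by
  intro Y
  have h1 : HasFDerivAt (fun Y' : E d => ((t, (Y', wz)) : TS d))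
      ((0 : E d →L[ℝ] ℝ).prod ((ContinuousLinearMap.id ℝ (E d)).prod (0 : E d →L[ℝ] E d × E d))) Y :=
    (hasFDerivAt_const t Y).prodMk ((hasFDerivAt_id Y).prodMk (hasFDerivAt_const wz Y))
  have h2 : HasFDerivAt F (fderiv ℝ F (t, (Y, wz))) (t, (Y, wz)) :=
    (hF.differentiable (by simp) _).hasFDerivAt
  exact (h2.comp Y h1).differentiableAt

/-- derivative of the potential in any direction -/
theorem dd_H {B : ℕ → ℝ} (hP : Fam B P) (v : TS d) (x : TS d) :
    dd v P.H x = fderiv ℝ P.u (x.1, x.2.1) (v.1, v.2.1) := by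
  have h1 : HasFDerivAt (fun x : TS d => ((x.1, x.2.1) : ℝ × E d))
      ((ContinuousLinearMap.fst ℝ ℝ (PS d)).prod
        ((ContinuousLinearMap.fst ℝ (E d) (E d × E d)).comp
          (ContinuousLinearMap.snd ℝ ℝ (PS d)))) x :=
    hasFDerivAt_fst.prodMk (hasFDerivAt_fst.comp x hasFDerivAt_snd)
  have h2 : HasFDerivAt P.u (fderiv ℝ P.u (x.1, x.2.1)) (x.1, x.2.1) :=
    (hP.smooth.differentiable (by simp) _).hasFDerivAt
  have h3 := (h2.comp x h1).fderiv
  have : P.H = P.u ∘ (fun x : TS d => ((x.1, x.2.1) : ℝ × E d)) := rfl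
  rw [dd, this, h3]
  rfl

theorem dd_zero_fun (v : TS d) : dd v (fun _ : TS d => (0 : ℝ)) = fun _ => 0 := dd_const 0 v

/-- the derivatives of the force do not depend on `w` and `z` -/
theorem dd_Df_zero {B : ℕ → ℝ} (hP : Fam B P) {v : TS d} (h1 : v.1 = 0) (h2 : v.2.1 = 0)
    (L : List (Fin d)) (k : Fin d) : dd v (P.Df L k) = fun _ => 0 := by
  have h0 : dd v P.H = fun _ => 0 := by
    funext x
    rw [dd_H hP, h1, h2]
    exact (fderiv ℝ P.u (x.1, x.2.1)).map_zero
  induction L with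
  | nil => rw [Prm.Df, dd_comm (Reg.H hP).1, h0, dd_zero_fun]
  | cons l L ih => rw [Prm.Df, dd_comm (Reg.Df hP L k).1, ih, dd_zero_fun]

theorem dd_W_Df {B : ℕ → ℝ} (hP : Fam B P) (i : Fin d) (L : List (Fin d)) (k : Fin d) :
    dd (eW i) (P.Df L k) = fun _ => 0 := dd_Df_zero hP rfl rfl L k

theorem dd_Z_Df {B : ℕ → ℝ} (hP : Fam B P) (i : Fin d) (L : List (Fin d)) (k : Fin d) :
    dd (eZ i) (P.Df L k) = fun _ => 0 := dd_Df_zero hP rfl rfl L k

/-- functions of time have no spatial derivatives -/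
theorem dd_time_zero {g : ℝ → ℝ} (hg : ContDiff ℝ ∞ g) {v : TS d} (h1 : v.1 = 0) :
    dd v (fun x : TS d => g x.1) = fun _ => 0 := by
  have hd : ∀ t, HasDerivAt g (deriv g t) t := fun t => (hg.differentiable (by simp) t).hasDerivAt
  rw [dd_time hd v]
  funext x
  rw [h1, zero_mul]

end P347Z
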