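import Vale.Agent.P347Z.WdDerA
import Vale.Agent.P347Z.WdInd

/-!
Module WDERF: derivative of the force and of its derivative along the free field.
From the PDE: `∂_t f_j = -q h (∑_i ∂_i T_ij - 2 ∑_i f_i T_ij)` (differentiate `Fam.pde` in the direction `e_j`),
hence `lie VF f_j = (B* (A f))_j`; semantics of `Wd.f` and `Bs (A f)`.
-/

open MeasureTheory ProbabilityTheory Function
open scoped BigOperators ContDiff

namespace P347Z

open P347Q

variable {d : ℕ}

variable {B : ℕ → ℝ} {P : Prm d}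

theorem T_symm (hP : Fam B P) (i j : Fin d) : P.T i j = P.T j i :=
  dd_comm (Reg.H hP).1 (eY i) (eY j)

theorem Df_perm (hP : Fam B P) (i j k : Fin d) (L : List (Fin d)) :
    P.Df (i :: j :: L) k = P.Df (j :: i :: L) k :=
  dd_comm (Reg.Df hP L k).1 (eY i) (eY j)

namespace WF

theorem first (hP : Fam B P) (x : TS d) (v : E d) :
    fderiv ℝ (fun y => P.u (x.1, y)) x.2.1 v = dd ((0, (v, (0, 0))) : TS d) P.H x :=
  slice_deriv (Reg.H hP).1 x.1 x.2.2 x.2.1 v

theorem second (hP : Fam B P) (x : TS d) (i : Fin d) :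
    fderiv ℝ (fderiv ℝ (fun y => P.u (x.1, y))) x.2.1 (bas d i) (bas d i) = P.T i i x := by
  have hs : ContDiff ℝ ∞ (fun y => P.u (x.1, y)) :=
    hP.smooth.comp (contDiff_const.prodMk contDiff_id)
  have h1 : HasFDerivAt (fderiv ℝ (fun y => P.u (x.1, y)))
      (fderiv ℝ (fderiv ℝ (fun y => P.u (x.1, y))) x.2.1) x.2.1 :=
    ((hs.fderiv_right (m := ∞) (by simp)).differentiable (by simp) x.2.1).hasFDerivAt
  have h2 := (h1.clm_apply (hasFDerivAt_const (bas d i) x.2.1)).fderiv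
  have h3 : (fun y => fderiv ℝ (fun y => P.u (x.1, y)) y (bas d i)) =
      fun Y' => P.f i (x.1, (Y', x.2.2)) := by
    funext Y'
    exact slice_deriv (Reg.H hP).1 x.1 x.2.2 Y' (bas d i)
  have h4 : fderiv ℝ (fun y => fderiv ℝ (fun y => P.u (x.1, y)) y (bas d i)) x.2.1 (bas d i) =
      P.T i i x := by
    rw [h3]
    exact slice_deriv (Reg.Df hP [] i).1 x.1 x.2.2 x.2.1 (bas d i)
  rw [← h4, h2]
  simp

theorem reg_T (hP : Fam B P) (i j : Fin d) : Reg (P.T i j) := Reg.Df hP [i] j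

theorem reg_f (hP : Fam B P) (i : Fin d) : Reg (P.f i) := Reg.Df hP [] i

theorem smooth_qh (P : Prm d) : ContDiff ℝ ∞ (fun t => -(P.q t * th t)) :=
  ((smooth_q P).mul smooth_th).neg

theorem dtH (hP : Fam B P) :
    dd (eT d) P.H = fun x => (fun t => -(P.q t * th t)) x.1 *
      (∑ i, P.T i i x - ∑ i, P.f i x * P.f i x) := by
  funext x
  rw [dd_H hP]
  show fderiv ℝ P.u (x.1, x.2.1) (1, 0) = _
  rw [hP.pde]
  congr 2
  · exact Finset.sum_congr rfl fun i _ => second hP x i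
  · refine Finset.sum_congr rfl fun i _ => ?_
    rw [first hP, sq]
    rfl

theorem sum_eY (a : Fin d → ℝ) :
    (∑ j, a j • (eY j : TS d)) = (0, (∑ j, a j • bas d j, (0, 0))) := by
  simp only [eY]
  refine Prod.ext ?_ (Prod.ext ?_ (Prod.ext ?_ ?_))
  · simp [Prod.fst_sum]
  · simp [Prod.fst_sum, Prod.snd_sum]
  · simp [Prod.snd_sum]
  · simp [Prod.snd_sum]

end WF

theorem dt_f (hP : Fam B P) (j : Fin d) (x : TS d) :
    fderiv ℝ (P.f j) x (eT d) = -(P.q x.1 * th x.1) *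
      (∑ i, P.Df [i, i] j x - 2 * ∑ i, P.f i x * P.T i j x) := by
  have h0 : fderiv ℝ (P.f j) x (eT d) = dd (eY j) (dd (eT d) P.H) x := by
    show dd (eT d) (dd (eY j) P.H) x = _
    rw [dd_comm (Reg.H hP).1]
  have hT : ∀ i ∈ Finset.univ, Reg (P.T i i) := fun i _ => WF.reg_T hP i i
  have hf : ∀ i ∈ Finset.univ, Reg (fun x => P.f i x * P.f i x) := fun i _ =>
    (WF.reg_f hP i).mul (WF.reg_f hP i)
  have s1 := Reg.sum Finset.univ hT
  have s2 := Reg.sum Finset.univ hf
  have t1 := dd_sum_fun Finset.univ (F := fun i => P.T i i) (fun i hi => (hT i hi).1) (eY j)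
  have t2 := dd_sum_fun Finset.univ (F := fun i => fun x => P.f i x * P.f i x)
    (fun i hi => (hf i hi).1) (eY j)
  rw [h0, WF.dtH hP, dd_S (WF.smooth_qh P) (s1.sub s2) rfl, dd_sub_fun s1.1 s2.1, t1, t2]
  show -(P.q x.1 * th x.1) * ((∑ i, dd (eY j) (P.T i i) x) -
    ∑ i, dd (eY j) (fun x => P.f i x * P.f i x) x) = _
  congr 1
  congr 1
  · refine Finset.sum_congr rfl fun i _ => ?_
    show P.Df [j, i] i x = P.Df [i, i] j x
    have e1 : P.Df [j, i] i = P.Df [i, j] i := Df_perm hP j i i []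
    have e2 : P.Df [i, j] i = P.Df [i, i] j := by
      show dd (eY i) (P.T j i) = dd (eY i) (P.T i j)
      rw [T_symm hP]
    rw [e1, e2]
  · rw [Finset.mul_sum]
    refine Finset.sum_congr rfl fun i _ => ?_
    rw [dd_mul_fun (WF.reg_f hP i).1 (WF.reg_f hP i).1]
    show P.T j i x * P.f i x + P.f i x * P.T j i x = _
    rw [T_symm hP]
    ring

theorem lie_f (hP : Fam B P) :
    lie (VF P) (sem P Wd.f) = opBs P (opA P (sem P Wd.f)) := by
  funext L x
  have hz : ∀ L : List (Fin d), sem P Wd.f L = (fun _ => 0) →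
      lie (VF P) (sem P Wd.f) L x = opBs P (opA P (sem P Wd.f)) L x := by
    intro L hL
    have h1 : ∀ j, opA P (sem P Wd.f) (j :: L) = fun _ => 0 := by
      intro j
      funext x
      show P.ρ x.1 * dd (eY j) (sem P Wd.f L) x = 0
      rw [hL, dd_zero_fun, mul_zero]
    show fderiv ℝ (sem P Wd.f L) x (VF P x) =
      cc x.1 * (∑ i, (cw i x * opA P (sem P Wd.f) (i :: L) x -
        dd (eW i) (opA P (sem P Wd.f) (i :: L)) x)) +
      th x.1 * (∑ i, (P.ρ x.1 * P.f i x * opA P (sem P Wd.f) (i :: L) x -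
        P.ρ x.1 * dd (eY i) (opA P (sem P Wd.f) (i :: L)) x))
    simp only [hL, h1, dd_zero_fun]
    simp
  match L with
  | [] => exact hz [] rfl
  | i :: k :: L => exact hz (i :: k :: L) rfl
  | [i] =>
    have hA : ∀ j, opA P (sem P Wd.f) [j, i] = fun x => P.ρ x.1 * P.T j i x := fun j => rfl
    have hV : VF P x = eT d + ∑ j, ((√P.s * cc x.1 ^ 2) * x.2.2.1 j -
        (P.q x.1 * th x.1) * P.f j x) • (eY j : TS d) +
        ((0, (0, (-(√P.s * cc x.1 ^ 2) • vf P x, 0))) : TS d) := by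
      rw [WF.sum_eY]
      refine Prod.ext ?_ (Prod.ext ?_ (Prod.ext ?_ ?_))
      · simp [VF, eT]
      · show (√P.s * cc x.1 ^ 2) • x.2.2.1 - (P.q x.1 * th x.1) • vf P x =
          0 + ∑ j, ((√P.s * cc x.1 ^ 2) * x.2.2.1 j -
            (P.q x.1 * th x.1) * P.f j x) • bas d j + 0
        rw [add_zero, zero_add]
        conv_lhs => rw [sum_bas x.2.2.1]
        rw [vf, Finset.smul_sum, Finset.smul_sum, ← Finset.sum_sub_distrib]
        refine Finset.sum_congr rfl fun j _ => ?_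
        rw [smul_smul, smul_smul, ← sub_smul]
      · simp [VF, eT]
      · simp [VF, eT]
    show fderiv ℝ (P.f i) x (VF P x) =
      cc x.1 * (∑ j, (cw j x * opA P (sem P Wd.f) [j, i] x -
        dd (eW j) (opA P (sem P Wd.f) [j, i]) x)) +
      th x.1 * (∑ j, (P.ρ x.1 * P.f j x * opA P (sem P Wd.f) [j, i] x -
        P.ρ x.1 * dd (eY j) (opA P (sem P Wd.f) [j, i]) x))
    have hW0 : fderiv ℝ (P.f i) x ((0, (0, (-(√P.s * cc x.1 ^ 2) • vf P x, 0))) : TS d) = 0 := by
      have := dd_Df_zero hP (v := ((0, (0, (-(√P.s * cc x.1 ^ 2) • vf P x, 0))) : TS d)) rfl rfl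
        [] i
      exact congrFun this x
    rw [hV, map_add, map_add, hW0, dt_f hP, map_sum, add_zero]
    simp only [hA, map_smul, smul_eq_mul]
    have e1 : ∀ j, dd (eW j) (fun x : TS d => P.ρ x.1 * P.T j i x) x = 0 := by
      intro j
      rw [dd_S (smooth_rho P) (WF.reg_T hP j i) rfl]
      show P.ρ x.1 * dd (eW j) (P.Df [j] i) x = 0
      rw [dd_W_Df hP, mul_zero]
    have e2 : ∀ j, dd (eY j) (fun x : TS d => P.ρ x.1 * P.T j i x) x =
        P.ρ x.1 * P.Df [j, j] i x := by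
      intro j
      rw [dd_S (smooth_rho P) (WF.reg_T hP j i) rfl]
      rfl
    simp only [e1, e2, sub_zero]
    have e3 : ∀ j, fderiv ℝ (P.f i) x (eY j) = P.T j i x := fun j => rfl
    simp only [e3]
    have hq := rho_sq hP.s_pos.le x.1
    rw [mul_sub, Finset.mul_sum, Finset.mul_sum, Finset.mul_sum, Finset.mul_sum, Finset.mul_sum,
      ← Finset.sum_sub_distrib, ← Finset.sum_add_distrib, ← Finset.sum_add_distrib]
    refine Finset.sum_congr rfl fun j _ => ?_
    rw [← hq]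
    unfold cw
    have hr : P.ρ x.1 = √P.s * cc x.1 := rfl
    rw [hr]
    ring

theorem lie_z (hP : Fam B P) :
    lie (VF P) (sem P Wd.z) = 0 := by
  funext L x
  match L with
  | [] =>
    show fderiv ℝ (fun _ : TS d => (0 : ℝ)) x (VF P x) = 0
    simp
  | i :: k :: L =>
    show fderiv ℝ (fun _ : TS d => (0 : ℝ)) x (VF P x) = 0
    simp
  | [i] =>
    show dd (VF P x) (cz i) x = 0
    rw [dd_cz]
    simp [VF]

end P347Z
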