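import Vale.Agent.P347Z.WdDerF

/-!
Module WDERS: derivative of `A* F`, `W* F`, `Z* F` along the free field.
`lie VF (ρ f_i) = -h ρ f_i + ρ (B* A f)_i`, `lie VF w_i = -√s c² f_i = -c ρ f_i`, `lie VF z_i = 0`;
`B*_l (T_li F_i) = (B*_l T_li) F_i - T_li B_l F_i`.
-/

open MeasureTheory ProbabilityTheory Function
open scoped BigOperators ContDiff

namespace P347Z

open P347Q

variable {d : ℕ}

variable {B : ℕ → ℝ} {P : Prm d}

theorem dtS_smooth_cz (i : Fin d) : ContDiff ℝ ∞ (cz i : TS d → ℝ) := (Reg.cz i).1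

/-- derivative of a product along the free field -/
theorem dtS_mul {F G : TS d → ℝ} (hF : ContDiff ℝ ∞ F) (hG : ContDiff ℝ ∞ G) (x v : TS d) :
    fderiv ℝ (fun y => F y * G y) x v = fderiv ℝ F x v * G x + F x * fderiv ℝ G x v :=
  congrFun (dd_mul_fun hF hG v) x

theorem dtS_sub {F G : TS d → ℝ} (hF : ContDiff ℝ ∞ F) (hG : ContDiff ℝ ∞ G) (x v : TS d) :
    fderiv ℝ (fun y => F y - G y) x v = fderiv ℝ F x v - fderiv ℝ G x v :=
  congrFun (dd_sub_fun hF hG v) x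

theorem dtS_sum {F : Fin d → TS d → ℝ} (hF : ∀ i, ContDiff ℝ ∞ (F i)) (x v : TS d) :
    fderiv ℝ (fun y => ∑ i, F i y) x v = ∑ i, fderiv ℝ (F i) x v :=
  congrFun (dd_sum_fun Finset.univ (fun i _ => hF i) v) x

/-- the force along the free field -/
theorem dtS_f (hP : Fam B P) (i : Fin d) (x : TS d) :
    fderiv ℝ (P.f i) x (VF P x) = ∑ l, (dtE P l x * (P.ρ x.1 * P.T l i x) -
        th x.1 * P.ρ x.1 * (P.ρ x.1 * P.Df [l, l] i x)) := by
  have h2 : fderiv ℝ (P.f i) x (VF P x) = opBs P (opA P (sem P Wd.f)) [i] x := by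
    rw [← lie_f hP]
    rfl
  have h3 : opBs P (opA P (sem P Wd.f)) [i] x =
      cc x.1 * (∑ l, (cw l x * (P.ρ x.1 * P.T l i x) -
        dd (eW l) (fun x => P.ρ x.1 * P.T l i x) x)) +
      th x.1 * ∑ l, (P.ρ x.1 * P.f l x * (P.ρ x.1 * P.T l i x) -
        P.ρ x.1 * dd (eY l) (fun x => P.ρ x.1 * P.T l i x) x) := rfl
  rw [h2, h3, Finset.mul_sum, Finset.mul_sum, ← Finset.sum_add_distrib]
  refine Finset.sum_congr rfl fun l _ => ?_
  have h5 : dd (eW l) (fun x => P.ρ x.1 * P.T l i x) = fun _ => 0 := by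
    rw [dt_time_mul (smooth_rho P) (dt_smooth_T hP l i) rfl]
    have : dd (eW l) (P.T l i) = fun _ => 0 := dd_W_Df hP l [l] i
    rw [this]
    simp
  have h6 : dd (eY l) (fun x => P.ρ x.1 * P.T l i x) = fun x => P.ρ x.1 * P.Df [l, l] i x :=
    dt_time_mul (smooth_rho P) (dt_smooth_T hP l i) rfl
  rw [h5, h6]
  unfold dtE
  ring

/-- `ρ` times the force along the free field -/
theorem dtS_rf (hP : Fam B P) (i : Fin d) (x : TS d) :
    fderiv ℝ (fun y => P.ρ y.1 * P.f i y) x (VF P x) = -(th x.1 * P.ρ x.1) * P.f i x +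
      P.ρ x.1 * ∑ l, (dtE P l x * (P.ρ x.1 * P.T l i x) -
        th x.1 * P.ρ x.1 * (P.ρ x.1 * P.Df [l, l] i x)) := by
  rw [dtS_mul (dt_time_smooth (smooth_rho P)) (dt_smooth_f hP i), dtS_f hP]
  have h : fderiv ℝ (fun y : TS d => P.ρ y.1) x (VF P x) = (VF P x).1 * -(th x.1 * P.ρ x.1) :=
    congrFun (dd_time (hasDerivAt_rho P) (VF P x)) x
  have e : (VF P x).1 = 1 := rfl
  rw [h, e, one_mul]

/-- `B* T F` in terms of partial derivatives -/
theorem dtS_BsT (hP : Fam B P) {F : TF d} (hF : RTF F) (L : List (Fin d)) (x : TS d) :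
    opBs P (opT P F) L x = ∑ l, ∑ j, ((dtE P l x * P.T l j x -
      th x.1 * P.ρ x.1 * P.Df [l, l] j x) * F (j :: L) x -
      P.T l j x * (cc x.1 * dd (eW l) (F (j :: L)) x +
        th x.1 * (P.ρ x.1 * dd (eY l) (F (j :: L)) x))) := by
  have h0 : opBs P (opT P F) L x =
      cc x.1 * (∑ l, (cw l x * (∑ j, P.T l j x * F (j :: L) x) -
        dd (eW l) (fun y => ∑ j, P.T l j y * F (j :: L) y) x)) +
      th x.1 * ∑ l, (P.ρ x.1 * P.f l x * (∑ j, P.T l j x * F (j :: L) x) -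
        P.ρ x.1 * dd (eY l) (fun y => ∑ j, P.T l j y * F (j :: L) y) x) := rfl
  have hW : ∀ l, dd (eW l) (fun y => ∑ j, P.T l j y * F (j :: L) y) = fun y =>
      ∑ j, P.T l j y * dd (eW l) (F (j :: L)) y := by
    intro l
    rw [dd_sum_fun _ (fun j _ => (dt_smooth_T hP l j).mul (hF (j :: L)).1)]
    funext y
    refine Finset.sum_congr rfl fun j _ => ?_
    have h : dd (eW l) (P.T l j) = fun _ => 0 := dd_W_Df hP l [l] j
    rw [dd_mul_fun (dt_smooth_T hP l j) (hF (j :: L)).1, h]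
    ring
  have hY : ∀ l, dd (eY l) (fun y => ∑ j, P.T l j y * F (j :: L) y) = fun y =>
      ∑ j, (P.Df [l, l] j y * F (j :: L) y + P.T l j y * dd (eY l) (F (j :: L)) y) := by
    intro l
    rw [dd_sum_fun _ (fun j _ => (dt_smooth_T hP l j).mul (hF (j :: L)).1)]
    funext y
    refine Finset.sum_congr rfl fun j _ => ?_
    rw [dd_mul_fun (dt_smooth_T hP l j) (hF (j :: L)).1]
    rfl
  rw [h0]
  simp only [hW, hY]
  rw [Finset.mul_sum, Finset.mul_sum, ← Finset.sum_add_distrib]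
  refine Finset.sum_congr rfl fun l _ => ?_
  simp only [mul_sub, Finset.mul_sum]
  rw [← Finset.sum_sub_distrib, ← Finset.sum_sub_distrib, ← Finset.sum_add_distrib]
  refine Finset.sum_congr rfl fun j _ => ?_
  unfold dtE
  ring

theorem lie_As (hP : Fam B P) {F : TF d} (hF : RTF F) :
    lie (VF P) (opAs P F) = opAs P (lie (VF P) F) + opS (fun t => -th t) (opAs P F) +
      opS P.q (opBs P (opT P F)) := by
  funext L x
  have hs1 : ∀ i, ContDiff ℝ ∞ (fun y : TS d => P.ρ y.1 * P.f i y) := fun i =>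
    (dt_time_smooth (smooth_rho P)).mul (dt_smooth_f hP i)
  have hs2 : ∀ i, ContDiff ℝ ∞ (fun y : TS d => P.ρ y.1 * P.f i y * F (i :: L) y) := fun i =>
    (hs1 i).mul (hF (i :: L)).1
  have hs3 : ∀ i, ContDiff ℝ ∞ (fun y : TS d => P.ρ y.1 * dd (eY i) (F (i :: L)) y) := fun i =>
    (dt_time_smooth (smooth_rho P)).mul (dd_smooth (hF (i :: L)).1 _)
  have h1 : lie (VF P) (opAs P F) L x =
      fderiv ℝ (fun y => ∑ i, (P.ρ y.1 * P.f i y * F (i :: L) y -
        P.ρ y.1 * dd (eY i) (F (i :: L)) y)) x (VF P x) := rfl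
  have hA : ∀ i, fderiv ℝ (fun y => P.ρ y.1 * dd (eY i) (F (i :: L)) y) x (VF P x) =
      P.ρ x.1 * dd (eY i) (fun y => fderiv ℝ (F (i :: L)) y (VF P y)) x +
        -th x.1 * (P.ρ x.1 * dd (eY i) (F (i :: L)) x) +
        P.q x.1 * ∑ j, P.T i j x * (cc x.1 * dd (eW j) (F (i :: L)) x +
          th x.1 * (P.ρ x.1 * dd (eY j) (F (i :: L)) x)) := by
    intro i
    exact congrFun (congrFun (lie_A hP hF) (i :: i :: L)) x
  have h2 : (opAs P (lie (VF P) F) + opS (fun t => -th t) (opAs P F) +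
      opS P.q (opBs P (opT P F))) L x =
      ∑ i, (P.ρ x.1 * P.f i x * fderiv ℝ (F (i :: L)) x (VF P x) -
        P.ρ x.1 * dd (eY i) (fun y => fderiv ℝ (F (i :: L)) y (VF P y)) x) +
      -th x.1 * ∑ i, (P.ρ x.1 * P.f i x * F (i :: L) x - P.ρ x.1 * dd (eY i) (F (i :: L)) x) +
      P.q x.1 * opBs P (opT P F) L x := rfl
  rw [h1, dtS_sum (fun i => (hs2 i).sub (hs3 i)), h2, dtS_BsT hP hF, Finset.sum_comm,
    Finset.mul_sum, Finset.mul_sum, ← Finset.sum_add_distrib, ← Finset.sum_add_distrib]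
  refine Finset.sum_congr rfl fun i _ => ?_
  rw [dtS_sub (hs2 i) (hs3 i), dtS_mul (hs1 i) (hF (i :: L)).1, dtS_rf hP, hA]
  have e1 : P.q x.1 * ∑ l, ((dtE P l x * P.T l i x - th x.1 * P.ρ x.1 * P.Df [l, l] i x) *
      F (i :: L) x - P.T l i x * (cc x.1 * dd (eW l) (F (i :: L)) x +
        th x.1 * (P.ρ x.1 * dd (eY l) (F (i :: L)) x))) =
      (P.ρ x.1 * ∑ l, (dtE P l x * (P.ρ x.1 * P.T l i x) -
        th x.1 * P.ρ x.1 * (P.ρ x.1 * P.Df [l, l] i x))) * F (i :: L) x -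
      P.q x.1 * ∑ j, P.T i j x * (cc x.1 * dd (eW j) (F (i :: L)) x +
          th x.1 * (P.ρ x.1 * dd (eY j) (F (i :: L)) x)) := by
    simp only [Finset.mul_sum, Finset.sum_mul]
    rw [← Finset.sum_sub_distrib]
    refine Finset.sum_congr rfl fun l _ => ?_
    rw [T_symm hP l i, ← rho_sq hP.s_pos.le]
    ring
  rw [e1]
  ring

theorem lie_Ws (hP : Fam B P) {F : TF d} (hF : RTF F) :
    lie (VF P) (opWs F) = opWs (lie (VF P) F) + opS (fun t => -cc t) (opAs P F) := by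
  funext L x
  have hs2 : ∀ i, ContDiff ℝ ∞ (fun y : TS d => cw i y * F (i :: L) y) := fun i =>
    (dt_smooth_cw i).mul (hF (i :: L)).1
  have h1 : lie (VF P) (opWs F) L x =
      fderiv ℝ (fun y => ∑ i, (cw i y * F (i :: L) y - dd (eW i) (F (i :: L)) y)) x
        (VF P x) := rfl
  have hA : ∀ i, fderiv ℝ (dd (eW i) (F (i :: L))) x (VF P x) =
      dd (eW i) (fun y => fderiv ℝ (F (i :: L)) y (VF P y)) x +
        -cc x.1 * (P.ρ x.1 * dd (eY i) (F (i :: L)) x) := by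
    intro i
    exact congrFun (congrFun (lie_W hP hF) (i :: i :: L)) x
  have h2 : (opWs (lie (VF P) F) + opS (fun t => -cc t) (opAs P F)) L x =
      ∑ i, (cw i x * fderiv ℝ (F (i :: L)) x (VF P x) -
        dd (eW i) (fun y => fderiv ℝ (F (i :: L)) y (VF P y)) x) +
      -cc x.1 * ∑ i, (P.ρ x.1 * P.f i x * F (i :: L) x -
        P.ρ x.1 * dd (eY i) (F (i :: L)) x) := rfl
  rw [h1, dtS_sum (fun i => (hs2 i).sub (dd_smooth (hF (i :: L)).1 _)), h2,
    Finset.mul_sum, ← Finset.sum_add_distrib]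
  refine Finset.sum_congr rfl fun i _ => ?_
  have hcw : fderiv ℝ (cw i) x (VF P x) = dtD P i x :=
    (congrFun (dd_cw (VF P x) i) x).trans (dt_VF_W P x i)
  rw [dtS_sub (hs2 i) (dd_smooth (hF (i :: L)).1 _), dtS_mul (dt_smooth_cw i) (hF (i :: L)).1,
    hcw, hA]
  unfold dtD Prm.ρ
  ring

theorem lie_Zs (hP : Fam B P) {F : TF d} (hF : RTF F) :
    lie (VF P) (opZs F) = opZs (lie (VF P) F) := by
  funext L x
  have hs2 : ∀ i, ContDiff ℝ ∞ (fun y : TS d => cz i y * F (i :: L) y) := fun i =>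
    (dtS_smooth_cz i).mul (hF (i :: L)).1
  have h1 : lie (VF P) (opZs F) L x =
      fderiv ℝ (fun y => ∑ i, (cz i y * F (i :: L) y - dd (eZ i) (F (i :: L)) y)) x
        (VF P x) := rfl
  have hA : ∀ i, fderiv ℝ (dd (eZ i) (F (i :: L))) x (VF P x) =
      dd (eZ i) (fun y => fderiv ℝ (F (i :: L)) y (VF P y)) x := by
    intro i
    exact congrFun (congrFun (lie_Z hP hF) (i :: i :: L)) x
  have h2 : opZs (lie (VF P) F) L x =
      ∑ i, (cz i x * fderiv ℝ (F (i :: L)) x (VF P x) -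
        dd (eZ i) (fun y => fderiv ℝ (F (i :: L)) y (VF P y)) x) := rfl
  rw [h1, dtS_sum (fun i => (hs2 i).sub (dd_smooth (hF (i :: L)).1 _)), h2]
  refine Finset.sum_congr rfl fun i _ => ?_
  have hcz : fderiv ℝ (cz i) x (VF P x) = 0 := congrFun (dd_cz (VF P x) i) x
  rw [dtS_sub (hs2 i) (dd_smooth (hF (i :: L)).1 _), dtS_mul (dtS_smooth_cz i) (hF (i :: L)).1,
    hcz, hA]
  ring

end P347Z
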