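import Vale.Agent.P347Z.WdReg
import Vale.Agent.P347Q.Gibbs
import Vale.Agent.P347Q.PotAux
import Vale.Agent.P347Q.GaussDens

/-!
Module WIBP: integrability of regular functions and integration by parts for the product law `P.mu t`.
Compare `P347Q.gibbs_integrable`, `P347Q.gibbs_ibp` (there for curvature at least 1; here at least 1/2), and
Gaussian integration by parts for the other two factors.
-/

open MeasureTheory ProbabilityTheory Function
open scoped BigOperators ContDiff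

namespace P347Z

open P347Q

variable {d : ℕ}

namespace WI

section gen

variable {V : E d → ℝ} {b c : ℝ}

theorem exp_int (hb : 0 < b) (hc : Continuous V) (hl : ∀ x, c + b * ‖x‖ ^ 2 ≤ V x)
    {f : E d → ℝ} (hf : Continuous f) {k : ℕ} {C : ℝ} (hf' : ∀ x, |f x| ≤ C * (1 + ‖x‖) ^ k) :
    Integrable (fun x => Real.exp (-V x) * f x) := by
  have h := (integrable_poly_exp (d := d) (b := b) hb k).const_mul (Real.exp (-c) * C)
  refine h.mono' (by fun_prop) ?_
  filter_upwards with x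
  rw [norm_mul, Real.norm_of_nonneg (Real.exp_nonneg _), Real.norm_eq_abs]
  have h1 : Real.exp (-V x) ≤ Real.exp (-c) * Real.exp (-b * ‖x‖ ^ 2) := by
    rw [← Real.exp_add]
    apply Real.exp_le_exp.2
    have := hl x
    linarith
  calc Real.exp (-V x) * |f x| ≤ (Real.exp (-c) * Real.exp (-b * ‖x‖ ^ 2)) *
        (C * (1 + ‖x‖) ^ k) := by
        apply mul_le_mul h1 (hf' x) (abs_nonneg _) (by positivity)
    _ = _ := by ring

theorem exp_int' (hb : 0 < b) (hc : Continuous V) (hl : ∀ x, c + b * ‖x‖ ^ 2 ≤ V x) :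
    Integrable (fun x => Real.exp (-V x)) := by
  have := exp_int hb hc hl (f := fun _ => 1) continuous_const (k := 0) (C := 1)
    (fun x => by simp)
  simpa using this

theorem lint_eq (hb : 0 < b) (hc : Continuous V) (hl : ∀ x, c + b * ‖x‖ ^ 2 ≤ V x) :
    ∫⁻ x, ENNReal.ofReal (Real.exp (-V x)) = ENNReal.ofReal (∫ x, Real.exp (-V x)) := by
  rw [ofReal_integral_eq_lintegral_ofReal (exp_int' hb hc hl)]
  filter_upwards with x
  exact Real.exp_nonneg _

theorem Zp (hb : 0 < b) (hc : Continuous V) (hl : ∀ x, c + b * ‖x‖ ^ 2 ≤ V x) :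
    0 < ∫ x, Real.exp (-V x) := by
  rw [integral_pos_iff_support_of_nonneg (fun x => Real.exp_nonneg _) (exp_int' hb hc hl)]
  have : Function.support (fun x : E d => Real.exp (-V x)) = Set.univ := by
    ext x
    simp [Real.exp_ne_zero]
  rw [this]
  exact Measure.measure_univ_pos.2 (NeZero.ne _)

theorem prob (hb : 0 < b) (hc : Continuous V) (hl : ∀ x, c + b * ‖x‖ ^ 2 ≤ V x) :
    IsProbabilityMeasure (gibbs V) := by
  constructor
  rw [gibbs, Measure.smul_apply, withDensity_apply _ MeasurableSet.univ, Measure.restrict_univ,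
    smul_eq_mul]
  have h := lint_eq hb hc hl
  have hZ := Zp hb hc hl
  refine ENNReal.inv_mul_cancel ?_ ?_
  · rw [h]
    simpa using hZ
  · rw [h]
    exact ENNReal.ofReal_ne_top

theorem int_gibbs (hb : 0 < b) (hc : Continuous V) (hl : ∀ x, c + b * ‖x‖ ^ 2 ≤ V x)
    (f : E d → ℝ) :
    ∫ x, f x ∂(gibbs V) = (∫ x, Real.exp (-V x))⁻¹ * ∫ x, Real.exp (-V x) * f x := by
  have hm : Measurable (fun x : E d => ENNReal.ofReal (Real.exp (-V x))) := by
    have := hc.measurable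
    fun_prop
  rw [gibbs, integral_smul_measure, integral_withDensity_eq_integral_toReal_smul hm
    (by filter_upwards with x; exact ENNReal.ofReal_lt_top), lint_eq hb hc hl]
  rw [ENNReal.toReal_inv, ENNReal.toReal_ofReal (Zp hb hc hl).le, smul_eq_mul]
  congr 1
  apply integral_congr_ae
  filter_upwards with x
  rw [ENNReal.toReal_ofReal (Real.exp_nonneg _), smul_eq_mul]

theorem ib_gibbs (hb : 0 < b) (hc : Continuous V) (hl : ∀ x, c + b * ‖x‖ ^ 2 ≤ V x)
    {f : E d → ℝ} (hf : Integrable (fun x => Real.exp (-V x) * f x)) :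
    Integrable f (gibbs V) := by
  have hm : Measurable (fun x : E d => ENNReal.ofReal (Real.exp (-V x))) := by
    have := hc.measurable
    fun_prop
  rw [gibbs]
  apply Integrable.smul_measure
  · rw [integrable_withDensity_iff_integrable_smul' hm
      (by filter_upwards with x; exact ENNReal.ofReal_lt_top)]
    refine hf.congr ?_
    filter_upwards with x
    rw [ENNReal.toReal_ofReal (Real.exp_nonneg _), smul_eq_mul]
  · rw [lint_eq hb hc hl]
    simpa using Zp hb hc hl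

/-- integration by parts for one Gibbs factor -/
theorem ibp_gibbs (hb : 0 < b) (hl : ∀ x, c + b * ‖x‖ ^ 2 ≤ V x) (hV : HasTemperateGrowth V)
    {f : E d → ℝ} (hf : HasTemperateGrowth f) (w : E d) :
    ∫ x, fderiv ℝ f x w ∂(gibbs V) = ∫ x, f x * fderiv ℝ V x w ∂(gibbs V) := by
  have hc : Continuous V := hV.1.continuous
  rw [int_gibbs hb hc hl, int_gibbs hb hc hl]
  congr 1
  have hUd := temp_diff hV
  have hg : ∀ x, fderiv ℝ (fun x => Real.exp (-V x)) x w = -(Real.exp (-V x) * fderiv ℝ V x w) := by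
    intro x
    have h1 : HasFDerivAt (fun x => Real.exp (-V x)) (Real.exp (-V x) • -fderiv ℝ V x) x :=
      ((hUd x).hasFDerivAt.neg).exp
    rw [h1.fderiv]
    simp
  have i0 : Integrable (fun x => Real.exp (-V x) * f x) := by
    obtain ⟨k, C, h⟩ := temp_bound hf
    exact exp_int hb hc hl hf.1.continuous h
  have i1 : Integrable (fun x => Real.exp (-V x) * fderiv ℝ f x w) := by
    obtain ⟨k, C, h⟩ := temp_bound (temp_dir hf w)
    exact exp_int hb hc hl (temp_dir hf w).1.continuous h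
  have i2 : Integrable (fun x => Real.exp (-V x) * (f x * fderiv ℝ V x w)) := by
    have ht := hf.mul (temp_dir hV w)
    obtain ⟨k, C, h⟩ := temp_bound ht
    exact exp_int hb hc hl ht.1.continuous h
  have h := integral_mul_fderiv_eq_neg_fderiv_mul_of_integrable (μ := (volume : Measure (E d)))
    (f := fun x => Real.exp (-V x)) (g := f) (v := w)
    (by
      refine i2.neg.congr ?_
      filter_upwards with x
      rw [hg]
      simp only [Pi.neg_apply]
      ring) i1 i0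
    (fun x _ => ((hUd x).neg).exp) (fun x _ => temp_diff hf x)
  rw [h, ← integral_neg]
  apply integral_congr_ae
  filter_upwards with x
  rw [hg]
  ring

end gen

/-! ### lower bound of the potential -/

theorem low_of_hess {U : E d → ℝ} (hU : ContDiff ℝ 2 U)
    (hl : ∀ x w : E d, ‖w‖ ^ 2 / 2 ≤ fderiv ℝ (fderiv ℝ U) x w w) :
    ∃ c : ℝ, ∀ x, c + 1 / 8 * ‖x‖ ^ 2 ≤ U x := by
  refine ⟨U 0 - 2 * ‖fderiv ℝ U 0‖ ^ 2, fun x => ?_⟩
  have h := second_order_lower hU 0 x (‖x‖ ^ 2 / 2) (fun t _ => hl _ _)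
  rw [zero_add] at h
  have h1 : -(‖fderiv ℝ U 0‖ * ‖x‖) ≤ fderiv ℝ U 0 x := by
    have := (fderiv ℝ U 0).le_opNorm x
    rw [Real.norm_eq_abs] at this
    exact (abs_le.1 this).1
  have h2 : ‖fderiv ℝ U 0‖ * ‖x‖ ≤ 2 * ‖fderiv ℝ U 0‖ ^ 2 + ‖x‖ ^ 2 / 8 := by
    nlinarith [sq_nonneg (4 * ‖fderiv ℝ U 0‖ - ‖x‖)]
  linarith

theorem low_sq (d : ℕ) : ∀ x : E d, (0 : ℝ) + 1 / 4 * ‖x‖ ^ 2 ≤ ‖x‖ ^ 2 / 2 := by
  intro x
  have : 0 ≤ ‖x‖ ^ 2 := by positivity
  linarith

/-! ### temperate slices -/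

theorem temp_affine {X Y : Type*} [NormedAddCommGroup X] [NormedSpace ℝ X]
    [NormedAddCommGroup Y] [NormedSpace ℝ Y] {g : Y → ℝ} (hg : HasTemperateGrowth g)
    (L : X →L[ℝ] Y) (a : Y) : HasTemperateGrowth (fun x => g (L x + a)) := by
  have h : HasTemperateGrowth (fun x : X => L x + a) := by
    have := L.hasTemperateGrowth.add (HasTemperateGrowth.const (E := X) a)
    exact this
  exact hg.comp h

theorem fderiv_affine {X Y : Type*} [NormedAddCommGroup X] [NormedSpace ℝ X]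
    [NormedAddCommGroup Y] [NormedSpace ℝ Y] {g : Y → ℝ} (hg : Differentiable ℝ g)
    (L : X →L[ℝ] Y) (a : Y) (x w : X) :
    fderiv ℝ (fun x => g (L x + a)) x w = fderiv ℝ g (L x + a) (L w) := by
  have h1 : HasFDerivAt (fun x : X => L x + a) L x := L.hasFDerivAt.add_const a
  have h2 := (hg (L x + a)).hasFDerivAt.comp x h1
  have h3 : fderiv ℝ (fun x => g (L x + a)) x = (fderiv ℝ g (L x + a)).comp L := h2.fderiv
  rw [h3]
  rfl

/-- `Y ↦ (Y, v)` -/
theorem slY {g : PS d → ℝ} (hg : HasTemperateGrowth g) (v : E d × E d) :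
    HasTemperateGrowth (fun Y => g (Y, v)) ∧
      ∀ Y w, fderiv ℝ (fun Y => g (Y, v)) Y w = fderiv ℝ g (Y, v) (w, 0) := by
  have e : ∀ Y : E d, (ContinuousLinearMap.inl ℝ (E d) (E d × E d)) Y + ((0 : E d), v) =
      (Y, v) := fun Y => by simp
  have h1 := temp_affine hg (ContinuousLinearMap.inl ℝ (E d) (E d × E d)) ((0 : E d), v)
  have h2 := fderiv_affine (temp_diff hg) (ContinuousLinearMap.inl ℝ (E d) (E d × E d))
    ((0 : E d), v)
  simp only [e] at h1 h2
  exact ⟨h1, fun Y w => by rw [h2]; rfl⟩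

/-- `w ↦ (Y, (w, z))` -/
theorem slW {g : PS d → ℝ} (hg : HasTemperateGrowth g) (Y z : E d) :
    HasTemperateGrowth (fun w => g (Y, (w, z))) ∧
      ∀ w v, fderiv ℝ (fun w => g (Y, (w, z))) w v = fderiv ℝ g (Y, (w, z)) (0, (v, 0)) := by
  set L : E d →L[ℝ] PS d := (ContinuousLinearMap.inr ℝ (E d) (E d × E d)).comp
    (ContinuousLinearMap.inl ℝ (E d) (E d)) with hL
  have e : ∀ w : E d, L w + (Y, ((0 : E d), z)) = (Y, (w, z)) := fun w => by simp [hL]
  have h1 := temp_affine hg L (Y, ((0 : E d), z))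
  have h2 := fderiv_affine (temp_diff hg) L (Y, ((0 : E d), z))
  simp only [e] at h1 h2
  exact ⟨h1, fun Y w => by rw [h2]; rfl⟩

/-- `z ↦ (Y, (w, z))` -/
theorem slZ {g : PS d → ℝ} (hg : HasTemperateGrowth g) (Y w : E d) :
    HasTemperateGrowth (fun z => g (Y, (w, z))) ∧
      ∀ z v, fderiv ℝ (fun z => g (Y, (w, z))) z v = fderiv ℝ g (Y, (w, z)) (0, (0, v)) := by
  set L : E d →L[ℝ] PS d := (ContinuousLinearMap.inr ℝ (E d) (E d × E d)).comp
    (ContinuousLinearMap.inr ℝ (E d) (E d)) with hL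
  have e : ∀ z : E d, L z + (Y, (w, (0 : E d))) = (Y, (w, z)) := fun z => by simp [hL]
  have h1 := temp_affine hg L (Y, (w, (0 : E d)))
  have h2 := fderiv_affine (temp_diff hg) L (Y, (w, (0 : E d)))
  simp only [e] at h1 h2
  exact ⟨h1, fun Y w => by rw [h2]; rfl⟩

/-! ### the product law -/

theorem gauss_ibp {f : E d → ℝ} (hf : HasTemperateGrowth f) (i : Fin d) :
    ∫ x, fderiv ℝ f x (bas d i) ∂(stdGaussian (E d)) = ∫ x, f x * x i ∂(stdGaussian (E d)) := by
  rw [stdGaussian_eq_gibbs]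
  rw [ibp_gibbs (b := 1 / 4) (c := 0) (by norm_num) (low_sq d) (spot_sq d).temp hf (bas d i)]
  apply integral_congr_ae
  filter_upwards with x
  rw [fderiv_sq]
  congr 1
  simp [bas, EuclideanSpace.inner_single_right]

theorem prod_int {U : E d → ℝ} {b c : ℝ} (hb : 0 < b) (hU : Continuous U)
    (hl : ∀ x, c + b * ‖x‖ ^ 2 ≤ U x) {g : PS d → ℝ} (hg : HasTemperateGrowth g) :
    Integrable g ((gibbs U).prod ((stdGaussian (E d)).prod (stdGaussian (E d)))) := by
  obtain ⟨k, C, h⟩ := hg.2 0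
  have h' : ∀ z, |g z| ≤ C * (1 + ‖z‖) ^ k := by
    intro z
    have := h z
    rwa [norm_iteratedFDeriv_zero, Real.norm_eq_abs] at this
  have hC : 0 ≤ C := by
    have := (abs_nonneg _).trans (h' 0)
    simpa using this
  have i1 : Integrable (fun x : E d => (1 + ‖x‖) ^ k) (gibbs U) := by
    refine ib_gibbs hb hU hl (exp_int hb hU hl (by fun_prop) (k := k) (C := 1) (fun x => ?_))
    rw [abs_of_nonneg (by positivity), one_mul]
  have i2 : Integrable (fun x : E d => (1 + ‖x‖) ^ k) (stdGaussian (E d)) := by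
    exact gauss_int_pow' d k
  have := prob hb hU hl
  have i3 := (i1.mul_prod (i2.mul_prod i2)).const_mul C
  refine i3.mono' hg.1.continuous.aestronglyMeasurable ?_
  filter_upwards with z
  rw [Real.norm_eq_abs]
  refine (h' z).trans ?_
  refine mul_le_mul_of_nonneg_left ?_ hC
  have hz : ‖z‖ ≤ ‖z.1‖ + ‖z.2.1‖ + ‖z.2.2‖ := by
    rw [Prod.norm_def, Prod.norm_def]
    refine max_le (by linarith [norm_nonneg z.2.1, norm_nonneg z.2.2]) (max_le ?_ ?_)
    · linarith [norm_nonneg z.1, norm_nonneg z.2.2]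
    · linarith [norm_nonneg z.1, norm_nonneg z.2.1]
  have h1 : 1 + ‖z‖ ≤ (1 + ‖z.1‖) * ((1 + ‖z.2.1‖) * (1 + ‖z.2.2‖)) := by
    have a1 := norm_nonneg z.1
    have a2 := norm_nonneg z.2.1
    have a3 := norm_nonneg z.2.2
    have := mul_nonneg a1 a2
    have := mul_nonneg a1 a3
    have := mul_nonneg a2 a3
    have := mul_nonneg a1 (mul_nonneg a2 a3)
    nlinarith
  calc (1 + ‖z‖) ^ k ≤ ((1 + ‖z.1‖) * ((1 + ‖z.2.1‖) * (1 + ‖z.2.2‖))) ^ k :=
        pow_le_pow_left₀ (by positivity) h1 k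
    _ = _ := by rw [mul_pow, mul_pow]

theorem prod_ibpY {U : E d → ℝ} {b c : ℝ} (hb : 0 < b) (hU : HasTemperateGrowth U)
    (hl : ∀ x, c + b * ‖x‖ ^ 2 ≤ U x) {g : PS d → ℝ} (hg : HasTemperateGrowth g) (w : E d) :
    ∫ y, fderiv ℝ g y (w, 0) ∂((gibbs U).prod ((stdGaussian (E d)).prod (stdGaussian (E d)))) =
      ∫ y, g y * fderiv ℝ U y.1 w
        ∂((gibbs U).prod ((stdGaussian (E d)).prod (stdGaussian (E d)))) := by
  have hc : Continuous U := hU.1.continuous
  have := prob hb hc hl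
  have hU1 : HasTemperateGrowth (fun y : PS d => fderiv ℝ U y.1 w) :=
    (temp_dir hU w).comp (ContinuousLinearMap.fst ℝ (E d) (E d × E d)).hasTemperateGrowth
  have i1 := prod_int hb hc hl (temp_dir hg ((w, 0) : PS d))
  have i2 := prod_int hb hc hl (hg.mul hU1)
  have i2' : Integrable (fun y : PS d => g y * fderiv ℝ U y.1 w)
    ((gibbs U).prod ((stdGaussian (E d)).prod (stdGaussian (E d)))) := i2
  rw [integral_prod_symm _ i1, integral_prod_symm _ i2']
  apply integral_congr_ae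
  filter_upwards with v
  obtain ⟨s1, s2⟩ := slY hg v
  have h1 := ibp_gibbs hb hl hU s1 w
  simp only [s2] at h1
  exact h1

theorem prod_ibpW {U : E d → ℝ} {b c : ℝ} (hb : 0 < b) (hU : Continuous U)
    (hl : ∀ x, c + b * ‖x‖ ^ 2 ≤ U x) {g : PS d → ℝ} (hg : HasTemperateGrowth g) (i : Fin d) :
    ∫ y, fderiv ℝ g y (0, (bas d i, 0))
        ∂((gibbs U).prod ((stdGaussian (E d)).prod (stdGaussian (E d)))) =
      ∫ y, g y * y.2.1 i ∂((gibbs U).prod ((stdGaussian (E d)).prod (stdGaussian (E d)))) := by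
  have := prob hb hU hl
  have hw : HasTemperateGrowth (fun y : PS d => y.2.1 i) :=
    ((EuclideanSpace.proj i : E d →L[ℝ] ℝ).comp ((ContinuousLinearMap.fst ℝ (E d) (E d)).comp
      (ContinuousLinearMap.snd ℝ (E d) (E d × E d)))).hasTemperateGrowth
  have i1 := prod_int hb hU hl (temp_dir hg ((0, (bas d i, 0)) : PS d))
  have i2 : Integrable (fun y : PS d => g y * y.2.1 i)
    ((gibbs U).prod ((stdGaussian (E d)).prod (stdGaussian (E d)))) :=
    prod_int hb hU hl (hg.mul hw)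
  rw [integral_prod _ i1, integral_prod _ i2]
  apply integral_congr_ae
  filter_upwards [i1.prod_right_ae, i2.prod_right_ae] with Y j1 j2
  rw [integral_prod_symm _ j1, integral_prod_symm _ j2]
  apply integral_congr_ae
  filter_upwards with z
  obtain ⟨s1, s2⟩ := slW hg Y z
  have h1 := gauss_ibp s1 i
  simp only [s2] at h1
  exact h1

theorem prod_ibpZ {U : E d → ℝ} {b c : ℝ} (hb : 0 < b) (hU : Continuous U)
    (hl : ∀ x, c + b * ‖x‖ ^ 2 ≤ U x) {g : PS d → ℝ} (hg : HasTemperateGrowth g) (i : Fin d) :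
    ∫ y, fderiv ℝ g y (0, (0, bas d i))
        ∂((gibbs U).prod ((stdGaussian (E d)).prod (stdGaussian (E d)))) =
      ∫ y, g y * y.2.2 i ∂((gibbs U).prod ((stdGaussian (E d)).prod (stdGaussian (E d)))) := by
  have := prob hb hU hl
  have hw : HasTemperateGrowth (fun y : PS d => y.2.2 i) :=
    ((EuclideanSpace.proj i : E d →L[ℝ] ℝ).comp ((ContinuousLinearMap.snd ℝ (E d) (E d)).comp
      (ContinuousLinearMap.snd ℝ (E d) (E d × E d)))).hasTemperateGrowth
  have i1 := prod_int hb hU hl (temp_dir hg ((0, (0, bas d i)) : PS d))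
  have i2 : Integrable (fun y : PS d => g y * y.2.2 i)
    ((gibbs U).prod ((stdGaussian (E d)).prod (stdGaussian (E d)))) :=
    prod_int hb hU hl (hg.mul hw)
  rw [integral_prod _ i1, integral_prod _ i2]
  apply integral_congr_ae
  filter_upwards [i1.prod_right_ae, i2.prod_right_ae] with Y j1 j2
  rw [integral_prod _ j1, integral_prod _ j2]
  apply integral_congr_ae
  filter_upwards with w
  obtain ⟨s1, s2⟩ := slZ hg Y w
  have h1 := gauss_ibp s1 i
  simp only [s2] at h1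
  exact h1

/-! ### from `TS d` to `PS d` -/

theorem dd_slice {F : TS d → ℝ} (hF : Differentiable ℝ F) (t : ℝ) (y v : PS d) :
    fderiv ℝ (fun y => F (t, y)) y v = fderiv ℝ F (t, y) (0, v) := by
  have h1 : HasFDerivAt (fun y : PS d => (t, y))
      ((0 : PS d →L[ℝ] ℝ).prod (ContinuousLinearMap.id ℝ (PS d))) y :=
    (hasFDerivAt_const t y).prodMk (hasFDerivAt_id y)
  have h2 := (hF (t, y)).hasFDerivAt.comp y h1
  have h3 : fderiv ℝ (fun y => F (t, y)) y = (fderiv ℝ F (t, y)).comp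
    ((0 : PS d →L[ℝ] ℝ).prod (ContinuousLinearMap.id ℝ (PS d))) := h2.fderiv
  rw [h3]
  simp

theorem reg_diff {F : TS d → ℝ} (hF : Reg F) : Differentiable ℝ F :=
  hF.1.differentiable (by simp)

variable {B : ℕ → ℝ} {P : Prm d}

theorem u_low (hP : Fam B P) (t : ℝ) : ∃ c : ℝ, ∀ x, c + 1 / 8 * ‖x‖ ^ 2 ≤ P.u (t, x) := by
  have h1 : ContDiff ℝ 2 (fun Y => P.u (t, Y)) := (hP.temp t).1.of_le ENat.LEInfty.out
  exact low_of_hess h1 (hP.lower t)

theorem f_eq (hP : Fam B P) (i : Fin d) (t : ℝ) (y : PS d) :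
    P.f i (t, y) = fderiv ℝ (fun Y => P.u (t, Y)) y.1 (bas d i) := by
  have hu : Differentiable ℝ P.u := hP.smooth.differentiable (by simp)
  have hH : HasFDerivAt P.H ((fderiv ℝ P.u (t, y.1)).comp
      ((ContinuousLinearMap.fst ℝ ℝ (PS d)).prod ((ContinuousLinearMap.fst ℝ (E d) (E d × E d)).comp
        (ContinuousLinearMap.snd ℝ ℝ (PS d))))) (t, y) := by
    have h1 : HasFDerivAt (fun x : TS d => (x.1, x.2.1))
        ((ContinuousLinearMap.fst ℝ ℝ (PS d)).prod
          ((ContinuousLinearMap.fst ℝ (E d) (E d × E d)).comp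
          (ContinuousLinearMap.snd ℝ ℝ (PS d)))) (t, y) :=
      ((ContinuousLinearMap.fst ℝ ℝ (PS d)).prod
        ((ContinuousLinearMap.fst ℝ (E d) (E d × E d)).comp
          (ContinuousLinearMap.snd ℝ ℝ (PS d)))).hasFDerivAt
    exact (hu (t, y.1)).hasFDerivAt.comp (t, y) h1
  have h2 : HasFDerivAt (fun Y : E d => P.u (t, Y)) ((fderiv ℝ P.u (t, y.1)).comp
      ((0 : E d →L[ℝ] ℝ).prod (ContinuousLinearMap.id ℝ (E d)))) y.1 :=
    (hu (t, y.1)).hasFDerivAt.comp y.1 ((hasFDerivAt_const t y.1).prodMk (hasFDerivAt_id y.1))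
  rw [h2.fderiv]
  show fderiv ℝ P.H (t, y) (eY i) = _
  rw [hH.fderiv]
  simp [eY]

end WI

variable {B : ℕ → ℝ} {P : Prm d}

theorem mu_prob (hP : Fam B P) (t : ℝ) : IsProbabilityMeasure (P.mu t) := by
  obtain ⟨c, hc⟩ := WI.u_low hP t
  have := WI.prob (by norm_num) (hP.temp t).1.continuous hc
  unfold Prm.mu
  infer_instance

theorem reg_int (hP : Fam B P) {F : TS d → ℝ} (hF : Reg F) (t : ℝ) :
    Integrable (fun y => F (t, y)) (P.mu t) := by
  obtain ⟨c, hc⟩ := WI.u_low hP t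
  exact WI.prod_int (by norm_num) (hP.temp t).1.continuous hc (hF.2 t)

/-- from the product rule -/
theorem WI.ibp_of {μ : Measure (PS d)} {F G h : TS d → ℝ} {v : PS d} {t : ℝ}
    (hF : Reg F) (hG : Reg G)
    (i1 : Integrable (fun y => dd (0, v) F (t, y) * G (t, y)) μ)
    (i2 : Integrable (fun y => F (t, y) * dd (0, v) G (t, y)) μ)
    (i3 : Integrable (fun y => F (t, y) * G (t, y) * h (t, y)) μ)
    (key : ∫ y, fderiv ℝ (fun y => F (t, y) * G (t, y)) y v ∂μ =
      ∫ y, F (t, y) * G (t, y) * h (t, y) ∂μ) :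
    ∫ y, dd (0, v) F (t, y) * G (t, y) ∂μ =
      ∫ y, F (t, y) * (h (t, y) * G (t, y) - dd (0, v) G (t, y)) ∂μ := by
  have hF' := WI.reg_diff hF
  have hG' := WI.reg_diff hG
  have sF : Differentiable ℝ (fun y : PS d => F (t, y)) :=
    hF'.comp ((differentiable_const t).prodMk differentiable_id)
  have sG : Differentiable ℝ (fun y : PS d => G (t, y)) :=
    hG'.comp ((differentiable_const t).prodMk differentiable_id)
  have e : (fun y => fderiv ℝ (fun y => F (t, y) * G (t, y)) y v) = fun y =>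
      dd (0, v) F (t, y) * G (t, y) + F (t, y) * dd (0, v) G (t, y) := by
    funext y
    rw [fderiv_fun_mul (sF y) (sG y)]
    simp only [add_apply, smul_apply, smul_eq_mul]
    rw [WI.dd_slice hF', WI.dd_slice hG']
    unfold dd
    ring
  rw [e, integral_add i1 i2] at key
  have e2 : (fun y => F (t, y) * (h (t, y) * G (t, y) - dd (0, v) G (t, y))) = fun y =>
      F (t, y) * G (t, y) * h (t, y) - F (t, y) * dd (0, v) G (t, y) := by
    funext y
    ring
  rw [e2, integral_sub i3 i2]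
  linarith

theorem ibp_Y (hP : Fam B P) {F G : TS d → ℝ} (hF : Reg F) (hG : Reg G) (i : Fin d) (t : ℝ) :
    ∫ y, dd (eY i) F (t, y) * G (t, y) ∂(P.mu t) =
      ∫ y, F (t, y) * (P.f i (t, y) * G (t, y) - dd (eY i) G (t, y)) ∂(P.mu t) := by
  obtain ⟨c, hc⟩ := WI.u_low hP t
  have hf : Reg (P.f i) := Reg.Df hP [] i
  refine WI.ibp_of (v := (bas d i, (0, 0))) hF hG
    (reg_int hP ((Reg.dd hF (v := eY i) rfl).mul hG) t)
    (reg_int hP (hF.mul (Reg.dd hG (v := eY i) rfl)) t)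
    (reg_int hP ((hF.mul hG).mul hf) t) ?_
  have h1 := WI.prod_ibpY (by norm_num) (hP.temp t) hc ((hF.mul hG).2 t) (bas d i)
  refine Eq.trans ?_ (h1.trans ?_)
  · rfl
  · refine integral_congr_ae (Filter.Eventually.of_forall fun y => ?_)
    show _ = F (t, y) * G (t, y) * P.f i (t, y)
    rw [WI.f_eq hP i t y]

theorem ibp_W (hP : Fam B P) {F G : TS d → ℝ} (hF : Reg F) (hG : Reg G) (i : Fin d) (t : ℝ) :
    ∫ y, dd (eW i) F (t, y) * G (t, y) ∂(P.mu t) =
      ∫ y, F (t, y) * (cw i (t, y) * G (t, y) - dd (eW i) G (t, y)) ∂(P.mu t) := by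
  obtain ⟨c, hc⟩ := WI.u_low hP t
  refine WI.ibp_of (v := (0, (bas d i, 0))) hF hG
    (reg_int hP ((Reg.dd hF (v := eW i) rfl).mul hG) t)
    (reg_int hP (hF.mul (Reg.dd hG (v := eW i) rfl)) t)
    (reg_int hP ((hF.mul hG).mul (Reg.cw i)) t) ?_
  exact WI.prod_ibpW (by norm_num) (hP.temp t).1.continuous hc ((hF.mul hG).2 t) i

theorem ibp_Z (hP : Fam B P) {F G : TS d → ℝ} (hF : Reg F) (hG : Reg G) (i : Fin d) (t : ℝ) :
    ∫ y, dd (eZ i) F (t, y) * G (t, y) ∂(P.mu t) =
      ∫ y, F (t, y) * (cz i (t, y) * G (t, y) - dd (eZ i) G (t, y)) ∂(P.mu t) := by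
  obtain ⟨c, hc⟩ := WI.u_low hP t
  refine WI.ibp_of (v := (0, (0, bas d i))) hF hG
    (reg_int hP ((Reg.dd hF (v := eZ i) rfl).mul hG) t)
    (reg_int hP (hF.mul (Reg.dd hG (v := eZ i) rfl)) t)
    (reg_int hP ((hF.mul hG).mul (Reg.cz i)) t) ?_
  exact WI.prod_ibpZ (by norm_num) (hP.temp t).1.continuous hc ((hF.mul hG).2 t) i

end P347Z
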