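import Vale.Agent.P347Z.WdReg

/-!
Module WLIN: linearity of the letters (on regular tensors), and letters against multiplication by
functions of time.  All identities are equalities of tensor functions.
-/

open MeasureTheory ProbabilityTheory Function
open scoped BigOperators ContDiff

namespace P347Z

open P347Q

variable {d : ℕ}

variable {B : ℕ → ℝ} {P : Prm d}

theorem opA_add {F G : TF d} (hF : RTF F) (hG : RTF G) : opA P (F + G) = opA P F + opA P G := by
  funext L x
  cases L with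
  | nil => exact (add_zero (0 : ℝ)).symm
  | cons i L =>
    show P.ρ x.1 * dd (eY i) (fun x => F L x + G L x) x =
      P.ρ x.1 * dd (eY i) (F L) x + P.ρ x.1 * dd (eY i) (G L) x
    rw [dd_add_fun (hF L).1 (hG L).1]
    ring

theorem opW_add {F G : TF d} (hF : RTF F) (hG : RTF G) : opW (F + G) = opW F + opW G := by
  funext L x
  cases L with
  | nil => exact (add_zero (0 : ℝ)).symm
  | cons i L =>
    show dd (eW i) (fun x => F L x + G L x) x = dd (eW i) (F L) x + dd (eW i) (G L) x
    rw [dd_add_fun (hF L).1 (hG L).1]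

theorem opZ_add {F G : TF d} (hF : RTF F) (hG : RTF G) : opZ (F + G) = opZ F + opZ G := by
  funext L x
  cases L with
  | nil => exact (add_zero (0 : ℝ)).symm
  | cons i L =>
    show dd (eZ i) (fun x => F L x + G L x) x = dd (eZ i) (F L) x + dd (eZ i) (G L) x
    rw [dd_add_fun (hF L).1 (hG L).1]

theorem opT_add (F G : TF d) : opT P (F + G) = opT P F + opT P G := by
  funext L x
  cases L with
  | nil => exact (add_zero (0 : ℝ)).symm
  | cons i L =>
    show ∑ j, P.T i j x * (F (j :: L) x + G (j :: L) x) =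
      (∑ j, P.T i j x * F (j :: L) x) + ∑ j, P.T i j x * G (j :: L) x
    rw [← Finset.sum_add_distrib]
    exact Finset.sum_congr rfl fun j _ => by ring

theorem opSw_add (F G : TF d) : opSw (F + G) = opSw F + opSw G := by
  funext L x
  match L with
  | [] => exact (add_zero (0 : ℝ)).symm
  | [_] => exact (add_zero (0 : ℝ)).symm
  | _ :: _ :: _ => rfl

theorem opAs_add {F G : TF d} (hF : RTF F) (hG : RTF G) : opAs P (F + G) = opAs P F + opAs P G := by
  funext L x
  show ∑ i, (P.ρ x.1 * P.f i x * (F (i :: L) x + G (i :: L) x) -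
      P.ρ x.1 * dd (eY i) (fun x => F (i :: L) x + G (i :: L) x) x) =
    (∑ i, (P.ρ x.1 * P.f i x * F (i :: L) x - P.ρ x.1 * dd (eY i) (F (i :: L)) x)) +
    ∑ i, (P.ρ x.1 * P.f i x * G (i :: L) x - P.ρ x.1 * dd (eY i) (G (i :: L)) x)
  rw [← Finset.sum_add_distrib]
  refine Finset.sum_congr rfl fun i _ => ?_
  rw [dd_add_fun (hF _).1 (hG _).1]
  ring

theorem opWs_add {F G : TF d} (hF : RTF F) (hG : RTF G) : opWs (F + G) = opWs F + opWs G := by
  funext L x
  show ∑ i, (cw i x * (F (i :: L) x + G (i :: L) x) -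
      dd (eW i) (fun x => F (i :: L) x + G (i :: L) x) x) =
    (∑ i, (cw i x * F (i :: L) x - dd (eW i) (F (i :: L)) x)) +
    ∑ i, (cw i x * G (i :: L) x - dd (eW i) (G (i :: L)) x)
  rw [← Finset.sum_add_distrib]
  refine Finset.sum_congr rfl fun i _ => ?_
  rw [dd_add_fun (hF _).1 (hG _).1]
  ring

theorem opZs_add {F G : TF d} (hF : RTF F) (hG : RTF G) : opZs (F + G) = opZs F + opZs G := by
  funext L x
  show ∑ i, (cz i x * (F (i :: L) x + G (i :: L) x) -
      dd (eZ i) (fun x => F (i :: L) x + G (i :: L) x) x) =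
    (∑ i, (cz i x * F (i :: L) x - dd (eZ i) (F (i :: L)) x)) +
    ∑ i, (cz i x * G (i :: L) x - dd (eZ i) (G (i :: L)) x)
  rw [← Finset.sum_add_distrib]
  refine Finset.sum_congr rfl fun i _ => ?_
  rw [dd_add_fun (hF _).1 (hG _).1]
  ring

theorem opS_add (g : ℝ → ℝ) (F G : TF d) : opS g (F + G) = opS g F + opS g G := by
  funext L x
  exact mul_add _ _ _

/-- a spatial derivative commutes with multiplication by a function of time -/
theorem dd_S {g : ℝ → ℝ} (hg : ContDiff ℝ ∞ g) {F : TS d → ℝ} (hF : Reg F) {v : TS d}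
    (hv : v.1 = 0) : dd v (fun x => g x.1 * F x) = fun x => g x.1 * dd v F x := by
  rw [dd_mul_fun (Reg.time hg).1 hF.1]
  funext x
  rw [dd_time (g' := deriv g) (fun t => (hg.differentiable (by simp) t).hasDerivAt), hv]
  ring

theorem opA_S {g : ℝ → ℝ} (hg : ContDiff ℝ ∞ g) {F : TF d} (hF : RTF F) :
    opA P (opS g F) = opS g (opA P F) := by
  funext L x
  cases L with
  | nil => exact (mul_zero (g x.1)).symm
  | cons i L =>
    show P.ρ x.1 * dd (eY i) (fun x => g x.1 * F L x) x = g x.1 * (P.ρ x.1 * dd (eY i) (F L) x)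
    rw [dd_S hg (hF L) rfl]
    ring

theorem opW_S {g : ℝ → ℝ} (hg : ContDiff ℝ ∞ g) {F : TF d} (hF : RTF F) :
    opW (opS g F) = opS g (opW F) := by
  funext L x
  cases L with
  | nil => exact (mul_zero (g x.1)).symm
  | cons i L =>
    show dd (eW i) (fun x => g x.1 * F L x) x = g x.1 * dd (eW i) (F L) x
    rw [dd_S hg (hF L) rfl]

theorem opZ_S {g : ℝ → ℝ} (hg : ContDiff ℝ ∞ g) {F : TF d} (hF : RTF F) :
    opZ (opS g F) = opS g (opZ F) := by
  funext L x
  cases L with
  | nil => exact (mul_zero (g x.1)).symm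
  | cons i L =>
    show dd (eZ i) (fun x => g x.1 * F L x) x = g x.1 * dd (eZ i) (F L) x
    rw [dd_S hg (hF L) rfl]

theorem opT_S (g : ℝ → ℝ) (F : TF d) : opT P (opS g F) = opS g (opT P F) := by
  funext L x
  cases L with
  | nil => exact (mul_zero (g x.1)).symm
  | cons i L =>
    show ∑ j, P.T i j x * (g x.1 * F (j :: L) x) = g x.1 * ∑ j, P.T i j x * F (j :: L) x
    rw [Finset.mul_sum]
    exact Finset.sum_congr rfl fun j _ => by ring

theorem opSw_S (g : ℝ → ℝ) (F : TF d) : opSw (opS g F) = opS g (opSw F) := by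
  funext L x
  match L with
  | [] => exact (mul_zero (g x.1)).symm
  | [_] => exact (mul_zero (g x.1)).symm
  | _ :: _ :: _ => rfl

theorem opAs_S {g : ℝ → ℝ} (hg : ContDiff ℝ ∞ g) {F : TF d} (hF : RTF F) :
    opAs P (opS g F) = opS g (opAs P F) := by
  funext L x
  show ∑ i, (P.ρ x.1 * P.f i x * (g x.1 * F (i :: L) x) -
      P.ρ x.1 * dd (eY i) (fun x => g x.1 * F (i :: L) x) x) =
    g x.1 * ∑ i, (P.ρ x.1 * P.f i x * F (i :: L) x - P.ρ x.1 * dd (eY i) (F (i :: L)) x)
  rw [Finset.mul_sum]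
  refine Finset.sum_congr rfl fun i _ => ?_
  rw [dd_S hg (hF _) rfl]
  ring

theorem opWs_S {g : ℝ → ℝ} (hg : ContDiff ℝ ∞ g) {F : TF d} (hF : RTF F) :
    opWs (opS g F) = opS g (opWs F) := by
  funext L x
  show ∑ i, (cw i x * (g x.1 * F (i :: L) x) -
      dd (eW i) (fun x => g x.1 * F (i :: L) x) x) =
    g x.1 * ∑ i, (cw i x * F (i :: L) x - dd (eW i) (F (i :: L)) x)
  rw [Finset.mul_sum]
  refine Finset.sum_congr rfl fun i _ => ?_
  rw [dd_S hg (hF _) rfl]
  ring

theorem opZs_S {g : ℝ → ℝ} (hg : ContDiff ℝ ∞ g) {F : TF d} (hF : RTF F) :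
    opZs (opS g F) = opS g (opZs F) := by
  funext L x
  show ∑ i, (cz i x * (g x.1 * F (i :: L) x) -
      dd (eZ i) (fun x => g x.1 * F (i :: L) x) x) =
    g x.1 * ∑ i, (cz i x * F (i :: L) x - dd (eZ i) (F (i :: L)) x)
  rw [Finset.mul_sum]
  refine Finset.sum_congr rfl fun i _ => ?_
  rw [dd_S hg (hF _) rfl]
  ring

end P347Z
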