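import Vale.Agent.P347Z.WdCalcR

/-!
Module WREG: all letters preserve the class `RTF`; semantics of words is regular.
-/

open MeasureTheory ProbabilityTheory Function
open scoped BigOperators ContDiff

namespace P347Z

open P347Q

variable {d : ℕ}

variable {B : ℕ → ℝ} {P : Prm d}

theorem reg_zero : Reg (0 : TS d → ℝ) := Reg.const 0

theorem rtf_A {F : TF d} (hF : RTF F) : RTF (opA P F) := by
  intro L
  cases L with
  | nil => exact reg_zero
  | cons i L => exact (Reg.time (smooth_rho P)).mul (Reg.dd (hF L) rfl)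

theorem rtf_W {F : TF d} (hF : RTF F) : RTF (opW F) := by
  intro L
  cases L with
  | nil => exact reg_zero
  | cons i L => exact Reg.dd (hF L) rfl

theorem rtf_Z {F : TF d} (hF : RTF F) : RTF (opZ F) := by
  intro L
  cases L with
  | nil => exact reg_zero
  | cons i L => exact Reg.dd (hF L) rfl

theorem rtf_T (hP : Fam B P) {F : TF d} (hF : RTF F) : RTF (opT P F) := by
  intro L
  cases L with
  | nil => exact reg_zero
  | cons i L => exact Reg.sum Finset.univ fun j _ => (Reg.Df hP [i] j).mul (hF (j :: L))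

theorem rtf_Sw {F : TF d} (hF : RTF F) : RTF (opSw F) := by
  intro L
  match L with
  | [] => exact reg_zero
  | [_] => exact reg_zero
  | i :: j :: L => exact hF (j :: i :: L)

theorem rtf_As (hP : Fam B P) {F : TF d} (hF : RTF F) : RTF (opAs P F) := by
  intro L
  refine Reg.sum Finset.univ fun i _ => ?_
  exact (((Reg.time (smooth_rho P)).mul (Reg.Df hP [] i)).mul (hF (i :: L))).sub
    ((Reg.time (smooth_rho P)).mul (Reg.dd (hF (i :: L)) rfl))

theorem rtf_Ws {F : TF d} (hF : RTF F) : RTF (opWs F) := by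
  intro L
  refine Reg.sum Finset.univ fun i _ => ?_
  exact ((Reg.cw i).mul (hF (i :: L))).sub (Reg.dd (hF (i :: L)) rfl)

theorem rtf_Zs {F : TF d} (hF : RTF F) : RTF (opZs F) := by
  intro L
  refine Reg.sum Finset.univ fun i _ => ?_
  exact ((Reg.cz i).mul (hF (i :: L))).sub (Reg.dd (hF (i :: L)) rfl)

theorem rtf_Tk (hP : Fam B P) (j : ℕ) {F : TF d} (hF : RTF F) : RTF (opTk P j F) := by
  intro L
  refine Reg.sum Finset.univ fun k _ => ?_
  exact ((Reg.time ((smooth_rho P).pow j)).mul (Reg.Df hP _ k)).mul (hF _)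

theorem rtf_S {g : ℝ → ℝ} (hg : ContDiff ℝ ∞ g) {F : TF d} (hF : RTF F) : RTF (opS g F) :=
  fun L => (Reg.time hg).mul (hF L)

theorem rtf_add {F G : TF d} (hF : RTF F) (hG : RTF G) : RTF (F + G) :=
  fun L => (hF L).add (hG L)

theorem rtf_comp {F : TF d} (hF : RTF F) (π : List (Fin d) → List (Fin d)) :
    RTF (fun L => F (π L)) := fun L => hF (π L)

theorem sem_reg (hP : Fam B P) (a : Wd) : RTF (sem P a) := by
  induction a with
  | f =>
    intro L
    match L with
    | [] => exact reg_zero
    | [i] => exact Reg.Df hP [] i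
    | _ :: _ :: _ => exact reg_zero
  | z =>
    intro L
    match L with
    | [] => exact reg_zero
    | [i] => exact Reg.cz i
    | _ :: _ :: _ => exact reg_zero
  | T a ih => exact rtf_T hP ih
  | Sw a ih => exact rtf_Sw ih
  | A a ih => exact rtf_A ih
  | W a ih => exact rtf_W ih
  | Z a ih => exact rtf_Z ih
  | As a ih => exact rtf_As hP ih
  | Ws a ih => exact rtf_Ws ih
  | Zs a ih => exact rtf_Zs ih
  | add a b iha ihb => exact rtf_add iha ihb
  | sc g a ih => exact rtf_S (cf_smooth P.s P.lam g) ih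

end P347Z
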