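import Vale.Agent.P347Z.WdIBP
import Vale.Agent.P347Z.WdLin

/-!
Module WSOB: elementary properties of the Sobolev norms: they only depend on lists of length `m`; sums;
multiplication by functions of time; permutations of the indices; monotonicity in `k`.
-/

open MeasureTheory ProbabilityTheory Function
open scoped BigOperators ContDiff

namespace P347Z

open P347Q

variable {d : ℕ}

variable {B : ℕ → ℝ} {P : Prm d}

theorem nsq_nonneg (P : Prm d) (t : ℝ) (m : ℕ) (F : TF d) : 0 ≤ nsq P t m F :=
  Finset.sum_nonneg fun _ _ => integral_nonneg fun _ => sq_nonneg _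

theorem sob_nonneg (P : Prm d) (t : ℝ) (k m : ℕ) (F : TF d) : 0 ≤ Sob P t k m F := by
  induction k generalizing m F with
  | zero => exact nsq_nonneg P t m F
  | succ k ih => exact add_nonneg (add_nonneg (add_nonneg (ih _ _) (ih _ _)) (ih _ _)) (ih _ _)

theorem sob_congr (P : Prm d) (t : ℝ) (k m : ℕ) {F G : TF d}
    (h : ∀ L : List (Fin d), L.length = m → F L = G L) : Sob P t k m F = Sob P t k m G := by
  induction k generalizing m F G with
  | zero =>
    show nsq P t m F = nsq P t m G
    unfold nsq
    refine Finset.sum_congr rfl fun l _ => ?_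
    rw [h _ List.length_ofFn]
  | succ k ih =>
    show Sob P t k m F + Sob P t k (m + 1) (opA P F) + Sob P t k (m + 1) (opW F) +
      Sob P t k (m + 1) (opZ F) = Sob P t k m G + Sob P t k (m + 1) (opA P G) +
      Sob P t k (m + 1) (opW G) + Sob P t k (m + 1) (opZ G)
    rw [ih m h, ih (m + 1) (F := opA P F) (G := opA P G), ih (m + 1) (F := opW F) (G := opW G),
      ih (m + 1) (F := opZ F) (G := opZ G)]
    · intro L hL
      cases L with
      | nil => rfl
      | cons i L =>
        have := h L (by simpa using hL)
        show dd (eZ i) (F L) = dd (eZ i) (G L)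
        rw [this]
    · intro L hL
      cases L with
      | nil => rfl
      | cons i L =>
        have := h L (by simpa using hL)
        show dd (eW i) (F L) = dd (eW i) (G L)
        rw [this]
    · intro L hL
      cases L with
      | nil => rfl
      | cons i L =>
        have := h L (by simpa using hL)
        show (fun x => P.ρ x.1 * dd (eY i) (F L) x) = fun x => P.ρ x.1 * dd (eY i) (G L) x
        rw [this]

theorem ws_succ (P : Prm d) (t : ℝ) (k m : ℕ) (F : TF d) :
    Sob P t (k + 1) m F = Sob P t k m F + Sob P t k (m + 1) (opA P F) +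
      Sob P t k (m + 1) (opW F) + Sob P t k (m + 1) (opZ F) := rfl

theorem sob_mono (P : Prm d) (t : ℝ) {k k' : ℕ} (hk : k ≤ k') (m : ℕ) (F : TF d) :
    Sob P t k m F ≤ Sob P t k' m F := by
  induction k', hk using Nat.le_induction with
  | base => exact le_rfl
  | succ k' _ ih =>
    refine ih.trans ?_
    rw [ws_succ]
    have h1 := sob_nonneg P t k' (m + 1) (opA P F)
    have h2 := sob_nonneg P t k' (m + 1) (opW F)
    have h3 := sob_nonneg P t k' (m + 1) (opZ F)
    linarith

theorem sob_A_le (P : Prm d) (t : ℝ) (k m : ℕ) (F : TF d) :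
    Sob P t k (m + 1) (opA P F) ≤ Sob P t (k + 1) m F := by
  rw [ws_succ]
  have h0 := sob_nonneg P t k m F
  have h2 := sob_nonneg P t k (m + 1) (opW F)
  have h3 := sob_nonneg P t k (m + 1) (opZ F)
  linarith

theorem sob_W_le (P : Prm d) (t : ℝ) (k m : ℕ) (F : TF d) :
    Sob P t k (m + 1) (opW F) ≤ Sob P t (k + 1) m F := by
  rw [ws_succ]
  have h0 := sob_nonneg P t k m F
  have h1 := sob_nonneg P t k (m + 1) (opA P F)
  have h3 := sob_nonneg P t k (m + 1) (opZ F)
  linarith

theorem sob_Z_le (P : Prm d) (t : ℝ) (k m : ℕ) (F : TF d) :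
    Sob P t k (m + 1) (opZ F) ≤ Sob P t (k + 1) m F := by
  rw [ws_succ]
  have h0 := sob_nonneg P t k m F
  have h1 := sob_nonneg P t k (m + 1) (opA P F)
  have h2 := sob_nonneg P t k (m + 1) (opW F)
  linarith

theorem sob_add_le (hP : Fam B P) (t : ℝ) (k m : ℕ) {F G : TF d} (hF : RTF F) (hG : RTF G) :
    Sob P t k m (F + G) ≤ 2 * Sob P t k m F + 2 * Sob P t k m G := by
  induction k generalizing m F G with
  | zero =>
    show nsq P t m (F + G) ≤ 2 * nsq P t m F + 2 * nsq P t m G
    unfold nsq
    rw [Finset.mul_sum, Finset.mul_sum, ← Finset.sum_add_distrib]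
    refine Finset.sum_le_sum fun l _ => ?_
    have iF : Integrable (fun y => (F (List.ofFn l) (t, y)) ^ 2) (P.mu t) := by
      have := reg_int hP ((hF (List.ofFn l)).mul (hF (List.ofFn l))) t
      refine this.congr (Filter.Eventually.of_forall fun y => ?_)
      show _ * _ = _
      ring
    have iG : Integrable (fun y => (G (List.ofFn l) (t, y)) ^ 2) (P.mu t) := by
      have := reg_int hP ((hG (List.ofFn l)).mul (hG (List.ofFn l))) t
      refine this.congr (Filter.Eventually.of_forall fun y => ?_)
      show _ * _ = _
      ring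
    have iFG : Integrable (fun y => ((F + G) (List.ofFn l) (t, y)) ^ 2) (P.mu t) := by
      have h1 := (hF (List.ofFn l)).add (hG (List.ofFn l))
      have := reg_int hP (h1.mul h1) t
      refine this.congr (Filter.Eventually.of_forall fun y => ?_)
      show (F (List.ofFn l) (t, y) + G (List.ofFn l) (t, y)) *
        (F (List.ofFn l) (t, y) + G (List.ofFn l) (t, y)) =
        (F (List.ofFn l) (t, y) + G (List.ofFn l) (t, y)) ^ 2
      ring
    rw [← integral_const_mul, ← integral_const_mul,
      ← integral_add (iF.const_mul 2) (iG.const_mul 2)]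
    refine integral_mono iFG ((iF.const_mul 2).add (iG.const_mul 2)) fun y => ?_
    show (F (List.ofFn l) (t, y) + G (List.ofFn l) (t, y)) ^ 2 ≤
      2 * F (List.ofFn l) (t, y) ^ 2 + 2 * G (List.ofFn l) (t, y) ^ 2
    nlinarith [sq_nonneg (F (List.ofFn l) (t, y) - G (List.ofFn l) (t, y))]
  | succ k ih =>
    rw [ws_succ, ws_succ, ws_succ, opA_add hF hG, opW_add hF hG, opZ_add hF hG]
    have h0 := ih m hF hG
    have h1 := ih (m + 1) (rtf_A (P := P) hF) (rtf_A (P := P) hG)
    have h2 := ih (m + 1) (rtf_W hF) (rtf_W hG)
    have h3 := ih (m + 1) (rtf_Z hF) (rtf_Z hG)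
    linarith

theorem sob_S (P : Prm d) (t : ℝ) (k m : ℕ) {g : ℝ → ℝ} (hg : ContDiff ℝ ∞ g) {F : TF d}
    (hF : RTF F) : Sob P t k m (opS g F) = g t ^ 2 * Sob P t k m F := by
  induction k generalizing m F with
  | zero =>
    show nsq P t m (opS g F) = g t ^ 2 * nsq P t m F
    unfold nsq
    rw [Finset.mul_sum]
    refine Finset.sum_congr rfl fun l _ => ?_
    rw [← integral_const_mul]
    refine integral_congr_ae (Filter.Eventually.of_forall fun y => ?_)
    show (g t * F (List.ofFn l) (t, y)) ^ 2 = _
    ring
  | succ k ih =>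
    rw [ws_succ, ws_succ, opA_S hg hF, opW_S hg hF, opZ_S hg hF, ih m hF,
      ih (m + 1) (rtf_A (P := P) hF), ih (m + 1) (rtf_W hF), ih (m + 1) (rtf_Z hF)]
    ring

/-- permutations of the positions of the indices -/
theorem sob_perm (P : Prm d) (t : ℝ) (k m : ℕ) (F : TF d) (π σ : List (Fin d) → List (Fin d))
    (hπ : ∀ L, L.length = m → (π L).length = m ∧ σ (π L) = L)
    (hσ : ∀ L, L.length = m → (σ L).length = m ∧ π (σ L) = L) :
    Sob P t k m (fun L => F (π L)) = Sob P t k m F := by
  induction k generalizing m F π σ with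
  | zero =>
    show nsq P t m (fun L => F (π L)) = nsq P t m F
    unfold nsq
    have key : ∀ (τ : List (Fin d) → List (Fin d)) (hτ : ∀ L, L.length = m → (τ L).length = m)
        (l : Fin m → Fin d), List.ofFn (fun i : Fin m => (τ (List.ofFn l)).get
          (i.cast (hτ _ List.length_ofFn).symm)) = τ (List.ofFn l) := by
      intro τ hτ l
      apply List.ext_get
      · simp [hτ _ (List.length_ofFn (f := l))]
      · intro n h1 h2
        simp
    refine Finset.sum_bij'
      (fun l _ => fun i : Fin m => (π (List.ofFn l)).get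
        (i.cast (hπ _ List.length_ofFn).1.symm))
      (fun l _ => fun i : Fin m => (σ (List.ofFn l)).get
        (i.cast (hσ _ List.length_ofFn).1.symm)) (fun _ _ => Finset.mem_univ _)
      (fun _ _ => Finset.mem_univ _) ?_ ?_ ?_
    · intro l _
      apply List.ofFn_injective
      rw [key σ (fun L hL => (hσ L hL).1), key π (fun L hL => (hπ L hL).1),
        (hπ _ List.length_ofFn).2]
    · intro l _
      apply List.ofFn_injective
      rw [key π (fun L hL => (hπ L hL).1), key σ (fun L hL => (hσ L hL).1),
        (hσ _ List.length_ofFn).2]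
    · intro l _
      rw [key π (fun L hL => (hπ L hL).1)]
  | succ k ih =>
    rw [ws_succ, ws_succ, ih m F π σ hπ hσ]
    have hπ' : ∀ L : List (Fin d), L.length = m + 1 →
        (L.take 1 ++ π L.tail).length = m + 1 ∧
          (L.take 1 ++ π L.tail).take 1 ++ σ (L.take 1 ++ π L.tail).tail = L := by
      intro L hL
      cases L with
      | nil => simp at hL
      | cons i L =>
        have hL' : L.length = m := by simpa using hL
        have := hπ L hL'
        simp [this.1, this.2]
    have hσ' : ∀ L : List (Fin d), L.length = m + 1 →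
        (L.take 1 ++ σ L.tail).length = m + 1 ∧
          (L.take 1 ++ σ L.tail).take 1 ++ π (L.take 1 ++ σ L.tail).tail = L := by
      intro L hL
      cases L with
      | nil => simp at hL
      | cons i L =>
        have hL' : L.length = m := by simpa using hL
        have := hσ L hL'
        simp [this.1, this.2]
    have hA := ih (m + 1) (opA P F) (fun L => L.take 1 ++ π L.tail)
      (fun L => L.take 1 ++ σ L.tail) hπ' hσ'
    have hW := ih (m + 1) (opW F) (fun L => L.take 1 ++ π L.tail)
      (fun L => L.take 1 ++ σ L.tail) hπ' hσ'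
    have hZ := ih (m + 1) (opZ F) (fun L => L.take 1 ++ π L.tail)
      (fun L => L.take 1 ++ σ L.tail) hπ' hσ'
    rw [← hA, ← hW, ← hZ]
    congr 1
    · congr 1
      · congr 1
        apply sob_congr
        intro L hL
        cases L with
        | nil => simp at hL
        | cons i L => rfl
      · apply sob_congr
        intro L hL
        cases L with
        | nil => simp at hL
        | cons i L => rfl
    · apply sob_congr
      intro L hL
      cases L with
      | nil => simp at hL
      | cons i L => rfl

theorem sob_Sw (P : Prm d) (t : ℝ) (k m : ℕ) (hm : 2 ≤ m) (F : TF d) :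
    Sob P t k m (opSw F) = Sob P t k m F := by
  set π : List (Fin d) → List (Fin d) := fun L => match L with
    | [] => []
    | [a] => [a]
    | i :: j :: L => j :: i :: L with hπ
  have h1 : ∀ L, L.length = m → (π L).length = m ∧ π (π L) = L := by
    intro L hL
    match L with
    | [] => simp at hL; omega
    | [a] => simp at hL; omega
    | i :: j :: L => exact ⟨hL, rfl⟩
  rw [← sob_perm P t k m F π π h1 h1]
  apply sob_congr
  intro L hL
  match L with
  | [] => simp at hL; omega
  | [a] => simp at hL; omega
  | i :: j :: L => rfl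

end P347Z
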