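import Vale.Agent.P347Z.WdSob
import Vale.Agent.P347Z.WdDerF
import Vale.Agent.P347Z.WdInd

/-!
Module WTK: `T` and its derivatives acting on one index are bounded on the Sobolev scale (slot bounds).
`opTk P 0 F = opT P F` on nonempty lists.  Leibniz: `A (Tk j F) (l :: L1 ++ L2) = Tk (j+1) F + Tk j (Sw A F)` up to
a permutation of positions; `W`, `Z` commute with `Tk j` up to a permutation.  Level 0: for a vector `v`,
`∑_{|L1| = j+1} (∑_k Df L1 k v_k)² = hs (bas d) (j+1) (fun y => fderiv ℝ (u (t, .)) y v) Y ≤ B (j+1) q^{-j} |v|²`.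
-/

open MeasureTheory ProbabilityTheory Function
open scoped BigOperators ContDiff

namespace P347Z

open P347Q

variable {d : ℕ}

variable {P : Prm d}

theorem opTk_zero (F : TF d) (i : Fin d) (L : List (Fin d)) :
    opTk P 0 F (i :: L) = opT P F (i :: L) := by
  funext x
  simp [opTk, opT, Prm.T]

namespace TkAux

theorem H_slice (Y : E d) (t : ℝ) (wz : E d × E d) {B : ℕ → ℝ} (hP : Fam B P) (v : E d) :
    fderiv ℝ (fun y' => P.u (t, y')) Y v = ∑ k, P.Df [] k (t, (Y, wz)) * v k := by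
  have hH : ContDiff ℝ ∞ P.H := (Reg.H hP).1
  have h := slice_deriv hH t wz Y v
  have h' : (fun Y' => P.H (t, (Y', wz))) = fun y' => P.u (t, y') := rfl
  rw [h'] at h
  rw [h]
  have hv : ((0, (v, (0, 0))) : TS d) = ∑ k, v k • (eY k : TS d) := by
    have hL : ∀ w : E d, ((0, (w, (0, 0))) : TS d) =
        (LinearMap.inr ℝ ℝ (PS d)) ((LinearMap.inl ℝ (E d) (E d × E d)) w) := fun w => rfl
    simp only [eY]
    rw [hL v]
    simp only [hL]
    conv_lhs => rw [sum_bas v]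
    simp only [map_sum, map_smul]
  unfold dd
  rw [hv, map_sum]
  refine Finset.sum_congr rfl fun k _ => ?_
  rw [map_smul, smul_eq_mul, mul_comm]
  rfl

theorem hs_eq {B : ℕ → ℝ} (hP : Fam B P) (n : ℕ) : ∀ (L0 : List (Fin d)) (t : ℝ)
    (wz : E d × E d) (v Y : E d),
    hs (bas d) n (fun Y' => ∑ k, P.Df L0 k (t, (Y', wz)) * v k) Y =
      lsum n (fun L => (∑ k, P.Df (L ++ L0) k (t, (Y, wz)) * v k) ^ 2) := by
  induction n with
  | zero => intro L0 t wz v Y; rfl
  | succ n ih =>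
    intro L0 t wz v Y
    have hstep : ∀ i : Fin d, (fun Y' => fderiv ℝ (fun Y' => ∑ k, P.Df L0 k (t, (Y', wz)) * v k) Y'
        (bas d i)) = fun Y' => ∑ k, P.Df (i :: L0) k (t, (Y', wz)) * v k := by
      intro i
      funext Y'
      rw [fderiv_fun_sum (fun k _ =>
        ((slice_diff (Reg.Df hP L0 k).1 t wz).mul_const (v k)) Y')]
      rw [sum_apply]
      refine Finset.sum_congr rfl fun k _ => ?_
      rw [fderiv_mul_const (slice_diff (Reg.Df hP L0 k).1 t wz Y'),
        smul_apply, slice_deriv (Reg.Df hP L0 k).1, smul_eq_mul, mul_comm]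
      rfl
    simp only [hs, hstep, ih]
    rw [lsum_snoc]
    refine Finset.sum_congr rfl fun i _ => lsum_congr fun L _ => ?_
    rw [List.append_assoc]
    rfl

theorem hs_force' {B : ℕ → ℝ} (hP : Fam B P) (n : ℕ) (t : ℝ) (wz : E d × E d) (v Y : E d) :
    hs (bas d) n (fun y => fderiv ℝ (fun y' => P.u (t, y')) y v) Y =
      lsum n (fun L => (∑ k, P.Df L k (t, (Y, wz)) * v k) ^ 2) := by
  have h : (fun y => fderiv ℝ (fun y' => P.u (t, y')) y v) =
      fun y => ∑ k, P.Df [] k (t, (y, wz)) * v k := funext fun y => H_slice y t wz hP v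
  rw [h, hs_eq hP]
  simp

theorem q_pos {B : ℕ → ℝ} (hP : Fam B P) (t : ℝ) : 0 < P.q t :=
  mul_pos hP.s_pos (pow_pos (cc_pos t) 2)

/-- pointwise bound -/
theorem slot_pt {B : ℕ → ℝ} (hP : Fam B P) (j : ℕ) (x : TS d) (v : Fin d → ℝ) :
    lsum (j + 1) (fun L => (∑ k, P.ρ x.1 ^ j * P.Df L k x * v k) ^ 2) ≤
      B (j + 1) * ∑ k, v k ^ 2 := by
  obtain ⟨t, Y, wz⟩ := x
  have h1 : ∀ L : List (Fin d), (∑ k, P.ρ t ^ j * P.Df L k (t, (Y, wz)) * v k) ^ 2 =
      P.q t ^ j * (∑ k, P.Df L k (t, (Y, wz)) * v k) ^ 2 := by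
    intro L
    have : ∑ k, P.ρ t ^ j * P.Df L k (t, (Y, wz)) * v k =
        P.ρ t ^ j * ∑ k, P.Df L k (t, (Y, wz)) * v k := by
      rw [Finset.mul_sum]
      exact Finset.sum_congr rfl fun k _ => by ring
    rw [this, mul_pow, ← pow_mul, mul_comm j 2, pow_mul, rho_sq hP.s_pos.le]
  simp only [h1]
  rw [lsum_mul_left]
  have h2 := hP.slot (j + 1) (by omega) t (WithLp.toLp 2 v) Y
  rw [hs_force' hP (j + 1) t wz] at h2
  have h3 : ‖(WithLp.toLp 2 v : E d)‖ ^ 2 = ∑ k, v k ^ 2 := by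
    rw [EuclideanSpace.norm_sq_eq]
    simp
  rw [h3] at h2
  simp only [Nat.add_sub_cancel] at h2
  have h4 : 0 < P.q t ^ j := pow_pos (q_pos hP t) j
  calc P.q t ^ j * lsum (j + 1) (fun L => (∑ k, P.Df L k (t, (Y, wz)) * v k) ^ 2)
      ≤ P.q t ^ j * (B (j + 1) * (P.q t ^ j)⁻¹ * ∑ k, v k ^ 2) :=
        mul_le_mul_of_nonneg_left h2 h4.le
    _ = B (j + 1) * ∑ k, v k ^ 2 := by
        field_simp

end TkAux

open TkAux

theorem nsq_Tk (B : ℕ → ℝ) (hP : Fam B P) (j : ℕ) {F : TF d} (hF : RTF F) (t : ℝ) {m : ℕ}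
    (hm : 1 ≤ m) : nsq P t (m + j) (opTk P j F) ≤ B (j + 1) * nsq P t m F := by
  obtain ⟨m, rfl⟩ : ∃ m', m = m' + 1 := ⟨m - 1, by omega⟩
  rw [nsq_eq_lsum, nsq_eq_lsum]
  have hidx : m + 1 + j = (j + 1) + m := by ring
  rw [hidx, lsum_add, lsum_comm]
  have hm1 : lsum (m + 1) (fun L => ∫ y, (F L (t, y)) ^ 2 ∂(P.mu t)) =
      lsum m (fun L => ∑ k, ∫ y, (F (k :: L) (t, y)) ^ 2 ∂(P.mu t)) := by
    rw [lsum_succ, lsum_sum]
  rw [hm1, ← lsum_mul_left]
  refine lsum_le fun L2 _ => ?_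
  have hint : ∀ L : List (Fin d), Integrable (fun y => (opTk P j F L (t, y)) ^ 2) (P.mu t) := by
    intro L
    have := reg_int hP ((rtf_Tk hP j hF L).mul (rtf_Tk hP j hF L)) t
    simpa [pow_two] using this
  have hintF : ∀ L : List (Fin d), Integrable (fun y => (F L (t, y)) ^ 2) (P.mu t) := by
    intro L
    have := reg_int hP ((hF L).mul (hF L)) t
    simpa [pow_two] using this
  obtain ⟨h1, h2⟩ := lsum_integral (P.mu t) (j + 1)
    (F := fun L y => (opTk P j F (L ++ L2) (t, y)) ^ 2) (fun L _ => hint _)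
  rw [h1, ← integral_finsetSum _ fun k _ => hintF (k :: L2), ← integral_const_mul]
  refine integral_mono h2 ((integrable_finsetSum _ fun k _ => hintF (k :: L2)).const_mul _) ?_
  intro y
  have h3 := slot_pt hP j (t, y) (fun k => F (k :: L2) (t, y))
  refine le_trans (le_of_eq (lsum_congr fun L hL => ?_)) h3
  simp only [opTk, List.take_left' hL, List.drop_left' hL]

theorem A_Tk {B : ℕ → ℝ} (hP : Fam B P) (j : ℕ) {F : TF d} (hF : RTF F) (l : Fin d)
    (L1 L2 : List (Fin d)) (hL : L1.length = j + 1) :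
    opA P (opTk P j F) (l :: (L1 ++ L2)) =
      opTk P (j + 1) F (l :: (L1 ++ L2)) + opTk P j (opSw (opA P F)) (L1 ++ l :: L2) := by
  have hρ : Reg (fun x : TS d => P.ρ x.1 ^ j) := Reg.time ((smooth_rho P).pow j)
  have e1 : opTk P j F (L1 ++ L2) = fun x => ∑ k, P.ρ x.1 ^ j * P.Df L1 k x * F (k :: L2) x := by
    funext x
    simp only [opTk, List.take_left' hL, List.drop_left' hL]
  have e2 : opTk P (j + 1) F (l :: (L1 ++ L2)) =
      fun x => ∑ k, P.ρ x.1 ^ (j + 1) * P.Df (l :: L1) k x * F (k :: L2) x := by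
    funext x
    simp only [opTk, List.take_succ_cons, List.drop_succ_cons, List.take_left' hL,
      List.drop_left' hL]
  have e3 : opTk P j (opSw (opA P F)) (L1 ++ l :: L2) =
      fun x => ∑ k, P.ρ x.1 ^ j * P.Df L1 k x * (P.ρ x.1 * dd (eY l) (F (k :: L2)) x) := by
    funext x
    simp only [opTk, List.take_left' hL, List.drop_left' hL, opSw, opA]
  rw [e2, e3]
  funext x
  simp only [opA, e1, Pi.add_apply]
  have hreg : ∀ k ∈ (Finset.univ : Finset (Fin d)),
      ContDiff ℝ ∞ (fun x => P.ρ x.1 ^ j * P.Df L1 k x * F (k :: L2) x) := fun k _ =>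
    ((hρ.mul (Reg.Df hP L1 k)).mul (hF _)).1
  rw [dd_sum_fun _ hreg, Finset.mul_sum, ← Finset.sum_add_distrib]
  refine Finset.sum_congr rfl fun k _ => ?_
  have hr : dd (eY l) (fun x : TS d => P.ρ x.1 ^ j) = fun x => 0 := by
    have hd : ∀ t, HasDerivAt (fun t => P.ρ t ^ j) (deriv (fun t => P.ρ t ^ j) t) t := fun t =>
      (((smooth_rho P).pow j).differentiable (by simp) t).hasDerivAt
    have := dd_time (d := d) hd (eY l)
    rw [this]
    funext x
    simp [eY]
  rw [dd_mul_fun (hρ.mul (Reg.Df hP L1 k)).1 (hF _).1, dd_mul_fun hρ.1 (Reg.Df hP L1 k).1, hr]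
  simp only [Prm.Df]
  ring

theorem W_Tk {B : ℕ → ℝ} (hP : Fam B P) (j : ℕ) {F : TF d} (hF : RTF F) (l : Fin d)
    (L1 L2 : List (Fin d)) (hL : L1.length = j + 1) :
    opW (opTk P j F) (l :: (L1 ++ L2)) = opTk P j (opSw (opW F)) (L1 ++ l :: L2) := by
  have hρ : Reg (fun x : TS d => P.ρ x.1 ^ j) := Reg.time ((smooth_rho P).pow j)
  have e1 : opTk P j F (L1 ++ L2) = fun x => ∑ k, P.ρ x.1 ^ j * P.Df L1 k x * F (k :: L2) x := by
    funext x
    simp only [opTk, List.take_left' hL, List.drop_left' hL]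
  have e3 : opTk P j (opSw (opW F)) (L1 ++ l :: L2) =
      fun x => ∑ k, P.ρ x.1 ^ j * P.Df L1 k x * (dd (eW l) (F (k :: L2)) x) := by
    funext x
    simp only [opTk, List.take_left' hL, List.drop_left' hL, opSw, opW]
  rw [e3]
  funext x
  simp only [opW, e1]
  have hreg : ∀ k ∈ (Finset.univ : Finset (Fin d)),
      ContDiff ℝ ∞ (fun x => P.ρ x.1 ^ j * P.Df L1 k x * F (k :: L2) x) := fun k _ =>
    ((hρ.mul (Reg.Df hP L1 k)).mul (hF _)).1
  rw [dd_sum_fun _ hreg]
  refine Finset.sum_congr rfl fun k _ => ?_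
  rw [dd_mul_fun (hρ.mul (Reg.Df hP L1 k)).1 (hF _).1, dd_mul_fun hρ.1 (Reg.Df hP L1 k).1,
    dd_time_zero ((smooth_rho P).pow j) rfl, dd_W_Df hP]
  ring

theorem Z_Tk {B : ℕ → ℝ} (hP : Fam B P) (j : ℕ) {F : TF d} (hF : RTF F) (l : Fin d)
    (L1 L2 : List (Fin d)) (hL : L1.length = j + 1) :
    opZ (opTk P j F) (l :: (L1 ++ L2)) = opTk P j (opSw (opZ F)) (L1 ++ l :: L2) := by
  have hρ : Reg (fun x : TS d => P.ρ x.1 ^ j) := Reg.time ((smooth_rho P).pow j)
  have e1 : opTk P j F (L1 ++ L2) = fun x => ∑ k, P.ρ x.1 ^ j * P.Df L1 k x * F (k :: L2) x := by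
    funext x
    simp only [opTk, List.take_left' hL, List.drop_left' hL]
  have e3 : opTk P j (opSw (opZ F)) (L1 ++ l :: L2) =
      fun x => ∑ k, P.ρ x.1 ^ j * P.Df L1 k x * (dd (eZ l) (F (k :: L2)) x) := by
    funext x
    simp only [opTk, List.take_left' hL, List.drop_left' hL, opSw, opZ]
  rw [e3]
  funext x
  simp only [opZ, e1]
  have hreg : ∀ k ∈ (Finset.univ : Finset (Fin d)),
      ContDiff ℝ ∞ (fun x => P.ρ x.1 ^ j * P.Df L1 k x * F (k :: L2) x) := fun k _ =>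
    ((hρ.mul (Reg.Df hP L1 k)).mul (hF _)).1
  rw [dd_sum_fun _ hreg]
  refine Finset.sum_congr rfl fun k _ => ?_
  rw [dd_mul_fun (hρ.mul (Reg.Df hP L1 k)).1 (hF _).1, dd_mul_fun hρ.1 (Reg.Df hP L1 k).1,
    dd_time_zero ((smooth_rho P).pow j) rfl, dd_Z_Df hP]
  ring

namespace TkAux

/-- the permutation of positions: first entry moved behind the next `j + 1` entries -/
def pm (j : ℕ) (L : List (Fin d)) : List (Fin d) :=
  (L.drop 1).take (j + 1) ++ (L.take 1 ++ L.drop (j + 2))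

/-- its inverse -/
def sg (j : ℕ) (L : List (Fin d)) : List (Fin d) :=
  (L.drop (j + 1)).take 1 ++ (L.take (j + 1) ++ L.drop (j + 2))

theorem split_list {j m : ℕ} (L : List (Fin d)) (hL : L.length = m + j + 1) (hm : 1 ≤ m) :
    ∃ (l : Fin d) (L1 L2 : List (Fin d)), L1.length = j + 1 ∧ L = l :: (L1 ++ L2) := by
  cases L with
  | nil => simp at hL
  | cons l L =>
    refine ⟨l, L.take (j + 1), L.drop (j + 1), ?_, by simp⟩
    simp only [List.length_cons] at hL
    rw [List.length_take]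
    omega

theorem split_list' {j m : ℕ} (L : List (Fin d)) (hL : L.length = m + j + 1) (hm : 1 ≤ m) :
    ∃ (l : Fin d) (L1 L2 : List (Fin d)), L1.length = j + 1 ∧ L = L1 ++ l :: L2 := by
  have h1 : (L.drop (j + 1)).length = m := by rw [List.length_drop]; omega
  cases h : L.drop (j + 1) with
  | nil => rw [h] at h1; simp at h1; omega
  | cons l L2 =>
    refine ⟨l, L.take (j + 1), L2, ?_, ?_⟩
    · rw [List.length_take]
      omega
    · rw [← h, List.take_append_drop]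

theorem pm_apply (j : ℕ) (l : Fin d) (L1 L2 : List (Fin d)) (h : L1.length = j + 1) :
    pm j (l :: (L1 ++ L2)) = L1 ++ l :: L2 := by
  simp [pm, List.take_left' h, List.drop_left' h]

theorem sg_apply (j : ℕ) (l : Fin d) (L1 L2 : List (Fin d)) (h : L1.length = j + 1) :
    sg j (L1 ++ l :: L2) = l :: (L1 ++ L2) := by
  have h2 : (L1 ++ l :: L2).drop (j + 2) = L2 := by
    have : j + 2 = L1.length + 1 := by omega
    rw [this, List.drop_append]
    simp
  rw [sg, h2]
  simp [List.take_left' h, List.drop_left' h]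

theorem sob_pm (P : Prm d) (t : ℝ) (k : ℕ) {m : ℕ} (hm : 1 ≤ m) (j : ℕ) (F : TF d) :
    Sob P t k (m + j + 1) (fun L => F (pm j L)) = Sob P t k (m + j + 1) F := by
  refine sob_perm P t k (m + j + 1) F (pm j) (sg j) ?_ ?_
  · intro L hL
    obtain ⟨l, L1, L2, h1, rfl⟩ := split_list L hL hm
    rw [pm_apply j l L1 L2 h1]
    refine ⟨?_, sg_apply j l L1 L2 h1⟩
    simp only [List.length_cons, List.length_append] at hL ⊢
    omega
  · intro L hL
    obtain ⟨l, L1, L2, h1, rfl⟩ := split_list' L hL hm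
    rw [sg_apply j l L1 L2 h1]
    refine ⟨?_, pm_apply j l L1 L2 h1⟩
    simp only [List.length_cons, List.length_append] at hL ⊢
    omega

end TkAux

theorem sob_Tk (B : ℕ → ℝ) (k : ℕ) : ∀ j : ℕ, ∃ C : ℝ, 0 ≤ C ∧ ∀ (d : ℕ) (P : Prm d) (t : ℝ),
    Fam B P → ∀ F : TF d, RTF F → ∀ m : ℕ, 1 ≤ m →
      Sob P t k (m + j) (opTk P j F) ≤ C * Sob P t k m F := by
  induction k with
  | zero =>
    intro j
    refine ⟨|B (j + 1)|, abs_nonneg _, fun d P t hP F hF m hm => ?_⟩
    refine (nsq_Tk B hP j hF t hm).trans ?_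
    exact mul_le_mul_of_nonneg_right (le_abs_self _) (nsq_nonneg P t m F)
  | succ k ih =>
    intro j
    obtain ⟨C0, hC0, h0⟩ := ih j
    obtain ⟨C1, hC1, h1⟩ := ih (j + 1)
    refine ⟨2 * C1 + 5 * C0, by positivity, fun d P t hP F hF m hm => ?_⟩
    have hmono : Sob P t k m F ≤ Sob P t (k + 1) m F := sob_mono P t (Nat.le_succ k) m F
    have hS : ∀ G : TF d, RTF G → Sob P t k (m + 1 + j) (opTk P j (opSw G)) ≤
        C0 * Sob P t k (m + 1) G := by
      intro G hG
      refine (h0 d P t hP (opSw G) (rtf_Sw hG) (m + 1) (by omega)).trans (le_of_eq ?_)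
      rw [sob_Sw P t k (m + 1) (by omega)]
    have hidx : m + 1 + j = m + j + 1 := by ring
    rw [hidx] at hS
    have hA : Sob P t k (m + j + 1) (opA P (opTk P j F)) ≤
        2 * (C1 * Sob P t k m F) + 2 * (C0 * Sob P t k (m + 1) (opA P F)) := by
      have hc : Sob P t k (m + j + 1) (opA P (opTk P j F)) =
          Sob P t k (m + j + 1) (opTk P (j + 1) F +
            fun L => opTk P j (opSw (opA P F)) (pm j L)) := by
        refine sob_congr P t k _ fun L hL => ?_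
        obtain ⟨l, L1, L2, h1, rfl⟩ := split_list L hL hm
        rw [A_Tk hP j hF l L1 L2 h1, Pi.add_apply, pm_apply j l L1 L2 h1]
      rw [hc]
      refine (sob_add_le hP t k _ (rtf_Tk hP (j + 1) hF)
        (rtf_comp (rtf_Tk hP j (rtf_Sw (rtf_A hF))) (pm j))).trans ?_
      rw [sob_pm P t k hm j]
      exact add_le_add (mul_le_mul_of_nonneg_left (h1 d P t hP F hF m hm) (by norm_num))
        (mul_le_mul_of_nonneg_left (hS _ (rtf_A hF)) (by norm_num))
    have hW : Sob P t k (m + j + 1) (opW (opTk P j F)) ≤ C0 * Sob P t k (m + 1) (opW F) := by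
      have hc : Sob P t k (m + j + 1) (opW (opTk P j F)) =
          Sob P t k (m + j + 1) (fun L => opTk P j (opSw (opW F)) (pm j L)) := by
        refine sob_congr P t k _ fun L hL => ?_
        obtain ⟨l, L1, L2, h1, rfl⟩ := split_list L hL hm
        rw [W_Tk hP j hF l L1 L2 h1, pm_apply j l L1 L2 h1]
      rw [hc, sob_pm P t k hm j]
      exact hS _ (rtf_W hF)
    have hZ : Sob P t k (m + j + 1) (opZ (opTk P j F)) ≤ C0 * Sob P t k (m + 1) (opZ F) := by
      have hc : Sob P t k (m + j + 1) (opZ (opTk P j F)) =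
          Sob P t k (m + j + 1) (fun L => opTk P j (opSw (opZ F)) (pm j L)) := by
        refine sob_congr P t k _ fun L hL => ?_
        obtain ⟨l, L1, L2, h1, rfl⟩ := split_list L hL hm
        rw [Z_Tk hP j hF l L1 L2 h1, pm_apply j l L1 L2 h1]
      rw [hc, sob_pm P t k hm j]
      exact hS _ (rtf_Z hF)
    have hX := h0 d P t hP F hF m hm
    have nA := sob_nonneg P t k (m + 1) (opA P F)
    have nW := sob_nonneg P t k (m + 1) (opW F)
    have nZ := sob_nonneg P t k (m + 1) (opZ F)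
    have nF := sob_nonneg P t k m F
    have hdef : Sob P t (k + 1) m F = Sob P t k m F + Sob P t k (m + 1) (opA P F) +
        Sob P t k (m + 1) (opW F) + Sob P t k (m + 1) (opZ F) := rfl
    have hdef' : Sob P t (k + 1) (m + j) (opTk P j F) = Sob P t k (m + j) (opTk P j F) +
        Sob P t k (m + j + 1) (opA P (opTk P j F)) + Sob P t k (m + j + 1) (opW (opTk P j F)) +
        Sob P t k (m + j + 1) (opZ (opTk P j F)) := rfl
    rw [hdef, hdef']
    nlinarith [mul_nonneg hC0 nA, mul_nonneg hC0 nW, mul_nonneg hC0 nZ, mul_nonneg hC0 nF,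
      mul_nonneg hC1 nA, mul_nonneg hC1 nW, mul_nonneg hC1 nZ, mul_nonneg hC1 nF]

theorem sob_T (B : ℕ → ℝ) (k : ℕ) : ∃ C : ℝ, 0 ≤ C ∧ ∀ (d : ℕ) (P : Prm d) (t : ℝ),
    Fam B P → ∀ F : TF d, RTF F → ∀ m : ℕ, 1 ≤ m →
      Sob P t k m (opT P F) ≤ C * Sob P t k m F := by
  obtain ⟨C, hC, h⟩ := sob_Tk B k 0
  refine ⟨C, hC, fun d P t hP F hF m hm => ?_⟩
  have hc : Sob P t k m (opT P F) = Sob P t k m (opTk P 0 F) := by
    refine sob_congr P t k m fun L hL => ?_
    cases L with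
    | nil => simp at hL; omega
    | cons i L => exact (opTk_zero F i L).symm
  rw [hc]
  exact h d P t hP F hF m hm

end P347Z
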