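import Vale.Agent.P347Z.WdStar0
import Vale.Agent.P347Z.WdTk

/-!
Module WSTAR: the adjoints are bounded from `H^{k+1}` to `H^k` (induction on `k`, commutators of WdStar0,
`sob_T`, `sob_Sw`, `sob_congr`).
-/

open MeasureTheory ProbabilityTheory Function
open scoped BigOperators ContDiff

namespace P347Z

open P347Q

variable {d : ℕ}

/-- one commutator -/
theorem sr_comm {B : ℕ → ℝ} {P : Prm d} (hP : Fam B P) {t C CT : ℝ} {k : ℕ} (hC : 0 ≤ C)
    (hCT : 0 ≤ CT) {O D : TF d → TF d} (hO : ∀ F, RTF F → RTF (O F))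
    (hD : ∀ F, RTF F → RTF (D F))
    (hDle : ∀ (m : ℕ) (F : TF d), Sob P t (k + 1) (m + 1) (D F) ≤ Sob P t (k + 2) m F)
    (ih : ∀ F, RTF F → ∀ m, Sob P t k m (O F) ≤ C * Sob P t (k + 1) (m + 1) F)
    {F R : TF d} (hF : RTF F) (hR : RTF R)
    (hcomm : ∀ i L, D (O F) (i :: L) = O (opSw (D F)) (i :: L) + R (i :: L)) (m : ℕ)
    (hRle : Sob P t k (m + 1) R ≤ CT * Sob P t k (m + 1) F) :
    Sob P t k (m + 1) (D (O F)) ≤ (2 * C + 2 * CT) * Sob P t (k + 2) (m + 1) F := by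
  have h1 : Sob P t k (m + 1) (D (O F)) = Sob P t k (m + 1) (O (opSw (D F)) + R) := by
    refine sob_congr P t k (m + 1) fun L hL => ?_
    cases L with
    | nil => simp at hL
    | cons i L => exact hcomm i L
  have hSw : RTF (opSw (D F)) := rtf_Sw (hD F hF)
  have h2 := sob_add_le hP t k (m + 1) (hO _ hSw) hR
  have h3 := ih _ hSw (m + 1)
  have h4 : Sob P t (k + 1) (m + 2) (opSw (D F)) = Sob P t (k + 1) (m + 2) (D F) :=
    sob_Sw P t (k + 1) (m + 2) (by omega) (D F)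
  have h5 := hDle (m + 1) F
  have h6 : Sob P t k (m + 1) F ≤ Sob P t (k + 2) (m + 1) F := sob_mono P t (by omega) _ _
  have h7 : C * Sob P t (k + 1) (m + 1 + 1) (opSw (D F)) ≤ C * Sob P t (k + 2) (m + 1) F := by
    refine mul_le_mul_of_nonneg_left ?_ hC
    exact h4.le.trans h5
  have h8 := mul_le_mul_of_nonneg_left h6 hCT
  rw [h1]
  linarith

/-- one step of the induction -/
theorem sr_step {B : ℕ → ℝ} {P : Prm d} (hP : Fam B P) {t C CT : ℝ} {k : ℕ} (hC : 0 ≤ C)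
    (hCT : 0 ≤ CT) {O : TF d → TF d} (hO : ∀ F, RTF F → RTF (O F))
    (ih : ∀ F, RTF F → ∀ m, Sob P t k m (O F) ≤ C * Sob P t (k + 1) (m + 1) F)
    {F RA RW RZ : TF d} (hF : RTF F) (hRA : RTF RA) (hRW : RTF RW) (hRZ : RTF RZ)
    (hcA : ∀ i L, opA P (O F) (i :: L) = O (opSw (opA P F)) (i :: L) + RA (i :: L))
    (hcW : ∀ i L, opW (O F) (i :: L) = O (opSw (opW F)) (i :: L) + RW (i :: L))
    (hcZ : ∀ i L, opZ (O F) (i :: L) = O (opSw (opZ F)) (i :: L) + RZ (i :: L)) (m : ℕ)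
    (hA : Sob P t k (m + 1) RA ≤ CT * Sob P t k (m + 1) F)
    (hW : Sob P t k (m + 1) RW ≤ CT * Sob P t k (m + 1) F)
    (hZ : Sob P t k (m + 1) RZ ≤ CT * Sob P t k (m + 1) F) :
    Sob P t (k + 1) m (O F) ≤ (7 * C + 6 * CT) * Sob P t (k + 2) (m + 1) F := by
  have h0 : Sob P t (k + 1) m (O F) = Sob P t k m (O F) + Sob P t k (m + 1) (opA P (O F)) +
      Sob P t k (m + 1) (opW (O F)) + Sob P t k (m + 1) (opZ (O F)) := rfl
  have hAA := sr_comm (D := opA P) hP hC hCT hO (fun F hF => rtf_A hF)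
    (fun m F => sob_A_le P t (k + 1) m F) ih hF hRA hcA m hA
  have hWW := sr_comm (D := opW) hP hC hCT hO (fun F hF => rtf_W hF)
    (fun m F => sob_W_le P t (k + 1) m F) ih hF hRW hcW m hW
  have hZZ := sr_comm (D := opZ) hP hC hCT hO (fun F hF => rtf_Z hF)
    (fun m F => sob_Z_le P t (k + 1) m F) ih hF hRZ hcZ m hZ
  have h1 := ih F hF m
  have h2 : Sob P t (k + 1) (m + 1) F ≤ Sob P t (k + 2) (m + 1) F :=
    sob_mono P t (by omega) _ _
  have h3 := mul_le_mul_of_nonneg_left h2 hC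
  rw [h0]
  linarith

theorem sr_zero {P : Prm d} {t : ℝ} {k m : ℕ} {F : TF d}
    (hF : RTF F) {CT : ℝ} (hCT : 0 ≤ CT) :
    Sob P t k (m + 1) (opS (fun _ => 0) F) ≤ CT * Sob P t k (m + 1) F := by
  rw [sob_S P t k (m + 1) contDiff_const hF]
  have := sob_nonneg P t k (m + 1) F
  have := mul_nonneg hCT this
  simpa using this

theorem sr_id {P : Prm d} {t : ℝ} {k m : ℕ} {F : TF d} {CT : ℝ} (hCT : 1 ≤ CT) :
    Sob P t k (m + 1) F ≤ CT * Sob P t k (m + 1) F := by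
  have := sob_nonneg P t k (m + 1) F
  nlinarith

theorem sr_addzero {F G : TF d} (i : Fin d) (L : List (Fin d)) :
    G (i :: L) = G (i :: L) + opS (fun _ => 0) F (i :: L) := by
  funext x
  simp [opS]

theorem sob_As (B : ℕ → ℝ) (k : ℕ) : ∃ C : ℝ, 0 ≤ C ∧ ∀ (d : ℕ) (P : Prm d) (t : ℝ),
    Fam B P → ∀ F : TF d, RTF F → ∀ m : ℕ,
      Sob P t k m (opAs P F) ≤ C * Sob P t (k + 1) (m + 1) F := by
  induction k with
  | zero =>
    refine ⟨2, by norm_num, fun d P t hP F hF m => ?_⟩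
    have h1 := nsq_As hP hF t m
    have h2 : Sob P t (0 + 1) (m + 1) F = nsq P t (m + 1) F + nsq P t (m + 2) (opA P F) +
      nsq P t (m + 2) (opW F) + nsq P t (m + 2) (opZ F) := rfl
    have h3 := nsq_nonneg P t (m + 2) (opA P F)
    have h4 := nsq_nonneg P t (m + 2) (opW F)
    have h5 := nsq_nonneg P t (m + 2) (opZ F)
    rw [h2]
    change nsq P t m (opAs P F) ≤ _
    linarith
  | succ k ih =>
    obtain ⟨C, hC, ih⟩ := ih
    obtain ⟨CT, hCT, hT⟩ := sob_T B k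
    refine ⟨7 * C + 6 * CT, by positivity, fun d P t hP F hF m => ?_⟩
    refine sr_step (O := opAs P) (RA := opS P.q (opT P F)) (RW := opS (fun _ => 0) F)
      (RZ := opS (fun _ => 0) F) hP hC hCT (fun F hF => rtf_As hP hF) (ih d P t hP) hF
      (rtf_S (smooth_q P) (rtf_T hP hF)) (rtf_S contDiff_const hF) (rtf_S contDiff_const hF)
      (fun i L => A_As hP hF i L) (fun i L => ?_) (fun i L => ?_) m ?_
      (sr_zero hF hCT) (sr_zero hF hCT)
    · rw [W_As hP hF i L]; exact sr_addzero i L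
    · rw [Z_As hP hF i L]; exact sr_addzero i L
    · rw [sob_S P t k (m + 1) (smooth_q P) (rtf_T hP hF)]
      have h1 := hT d P t hP F hF (m + 1) (by omega)
      have h2 := sob_nonneg P t k (m + 1) (opT P F)
      have h3 := st_q_le hP t
      have h4 := st_q_nonneg hP t
      have h5 : P.q t ^ 2 ≤ 1 := by nlinarith
      have h6 := mul_le_mul_of_nonneg_right h5 h2
      linarith

theorem sob_Ws (B : ℕ → ℝ) (k : ℕ) : ∃ C : ℝ, 0 ≤ C ∧ ∀ (d : ℕ) (P : Prm d) (t : ℝ),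
    Fam B P → ∀ F : TF d, RTF F → ∀ m : ℕ,
      Sob P t k m (opWs F) ≤ C * Sob P t (k + 1) (m + 1) F := by
  induction k with
  | zero =>
    refine ⟨2, by norm_num, fun d P t hP F hF m => ?_⟩
    have h1 := nsq_Ws hP hF t m
    have h2 : Sob P t (0 + 1) (m + 1) F = nsq P t (m + 1) F + nsq P t (m + 2) (opA P F) +
      nsq P t (m + 2) (opW F) + nsq P t (m + 2) (opZ F) := rfl
    have h3 := nsq_nonneg P t (m + 2) (opA P F)
    have h4 := nsq_nonneg P t (m + 2) (opW F)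
    have h5 := nsq_nonneg P t (m + 2) (opZ F)
    have h6 := nsq_nonneg P t (m + 1) F
    rw [h2]
    change nsq P t m (opWs F) ≤ _
    linarith
  | succ k ih =>
    obtain ⟨C, hC, ih⟩ := ih
    refine ⟨7 * C + 6 * 1, by positivity, fun d P t hP F hF m => ?_⟩
    refine sr_step (O := opWs) (RA := opS (fun _ => 0) F) (RW := F)
      (RZ := opS (fun _ => 0) F) hP hC zero_le_one (fun F hF => rtf_Ws hF) (ih d P t hP) hF
      (rtf_S contDiff_const hF) hF (rtf_S contDiff_const hF)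
      (fun i L => ?_) (fun i L => W_Ws hF i L) (fun i L => ?_) m
      (sr_zero hF zero_le_one) (sr_id le_rfl) (sr_zero hF zero_le_one)
    · rw [A_Ws hF i L]; exact sr_addzero i L
    · rw [Z_Ws hF i L]; exact sr_addzero i L

theorem sob_Zs (B : ℕ → ℝ) (k : ℕ) : ∃ C : ℝ, 0 ≤ C ∧ ∀ (d : ℕ) (P : Prm d) (t : ℝ),
    Fam B P → ∀ F : TF d, RTF F → ∀ m : ℕ,
      Sob P t k m (opZs F) ≤ C * Sob P t (k + 1) (m + 1) F := by
  induction k with
  | zero =>
    refine ⟨2, by norm_num, fun d P t hP F hF m => ?_⟩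
    have h1 := nsq_Zs hP hF t m
    have h2 : Sob P t (0 + 1) (m + 1) F = nsq P t (m + 1) F + nsq P t (m + 2) (opA P F) +
      nsq P t (m + 2) (opW F) + nsq P t (m + 2) (opZ F) := rfl
    have h3 := nsq_nonneg P t (m + 2) (opA P F)
    have h4 := nsq_nonneg P t (m + 2) (opW F)
    have h5 := nsq_nonneg P t (m + 2) (opZ F)
    have h6 := nsq_nonneg P t (m + 1) F
    rw [h2]
    change nsq P t m (opZs F) ≤ _
    linarith
  | succ k ih =>
    obtain ⟨C, hC, ih⟩ := ih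
    refine ⟨7 * C + 6 * 1, by positivity, fun d P t hP F hF m => ?_⟩
    refine sr_step (O := opZs) (RA := opS (fun _ => 0) F) (RW := opS (fun _ => 0) F)
      (RZ := F) hP hC zero_le_one (fun F hF => rtf_Zs hF) (ih d P t hP) hF
      (rtf_S contDiff_const hF) (rtf_S contDiff_const hF) hF
      (fun i L => ?_) (fun i L => ?_) (fun i L => Z_Zs hF i L) m
      (sr_zero hF zero_le_one) (sr_zero hF zero_le_one) (sr_id le_rfl)
    · rw [A_Zs hF i L]; exact sr_addzero i L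
    · rw [W_Zs hF i L]; exact sr_addzero i L

end P347Z
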