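import Vale.Agent.P347Z.WdSob
import Vale.Agent.P347Z.WdDerF

/-!
Module WSTAR0: commutators `[A, A*] = q T`, `[W, W*] = 1`, `[Z, Z*] = 1`, and the `L²` bounds
`|A* G|² ≤ |A G|² + 2 |G|²` etc.: `∫ |A* G|² = ∑ ∫ G_i A_i (A* G) = ∑ ∫ (A_l G_i)(A_i G_l) + q ∫ T G·G`.
-/

open MeasureTheory ProbabilityTheory Function
open scoped BigOperators ContDiff

namespace P347Z

open P347Q

variable {d : ℕ}

variable {B : ℕ → ℝ} {P : Prm d}

theorem st_time {g : ℝ → ℝ} (hg : ContDiff ℝ ∞ g) {G : TS d → ℝ} (hG : ContDiff ℝ ∞ G)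
    {v : TS d} (hv : v.1 = 0) : dd v (fun x => g x.1 * G x) = fun x => g x.1 * dd v G x := by
  have h1 : ContDiff ℝ ∞ (fun x : TS d => g x.1) := hg.comp contDiff_fst
  rw [dd_mul_fun h1 hG]
  have h2 : dd v (fun x : TS d => g x.1) = fun x => v.1 * deriv g x.1 :=
    dd_time (fun t => (hg.differentiable (by simp) t).hasDerivAt) v
  rw [h2]
  funext x
  rw [hv]; ring

theorem st_As_smooth (hP : Fam B P) {F : TF d} (hF : RTF F) (L : List (Fin d)) (j : Fin d)
    {v : TS d} (hv : v.1 = 0) :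
    dd v (fun x => P.ρ x.1 * P.f j x * F (j :: L) x - P.ρ x.1 * dd (eY j) (F (j :: L)) x) =
      fun x => P.ρ x.1 * dd v (P.f j) x * F (j :: L) x + P.ρ x.1 * P.f j x * dd v (F (j :: L)) x -
        P.ρ x.1 * dd v (dd (eY j) (F (j :: L))) x := by
  have hρ : ContDiff ℝ ∞ (fun x : TS d => P.ρ x.1) := (smooth_rho P).comp contDiff_fst
  have hf : ContDiff ℝ ∞ (P.f j) := (Reg.Df hP [] j).1
  have hG := (hF (j :: L)).1
  have h1 : ContDiff ℝ ∞ (fun x : TS d => P.ρ x.1 * P.f j x) := hρ.mul hf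
  rw [dd_sub_fun (h1.mul hG) (hρ.mul (dd_smooth hG _)), dd_mul_fun h1 hG,
    st_time (smooth_rho P) hf hv, st_time (smooth_rho P) (dd_smooth hG _) hv]

theorem st_dd_As (hP : Fam B P) {F : TF d} (hF : RTF F) (L : List (Fin d)) {v : TS d}
    (hv : v.1 = 0) :
    dd v (opAs P F L) =
      fun x => ∑ j, (P.ρ x.1 * dd v (P.f j) x * F (j :: L) x +
        P.ρ x.1 * P.f j x * dd v (F (j :: L)) x -
        P.ρ x.1 * dd v (dd (eY j) (F (j :: L))) x) := by
  have hρ : ContDiff ℝ ∞ (fun x : TS d => P.ρ x.1) := (smooth_rho P).comp contDiff_fst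
  have h : dd v (opAs P F L) = dd v (fun x => ∑ j,
    (P.ρ x.1 * P.f j x * F (j :: L) x - P.ρ x.1 * dd (eY j) (F (j :: L)) x)) := rfl
  rw [h, dd_sum_fun]
  · funext x
    refine Finset.sum_congr rfl fun j _ => ?_
    rw [st_As_smooth hP hF L j hv]
  · intro j _
    exact ((hρ.mul (Reg.Df hP [] j).1).mul (hF (j :: L)).1).sub
      (hρ.mul (dd_smooth (hF (j :: L)).1 _))

theorem st_dd_Ws {F : TF d} (hF : RTF F) (L : List (Fin d)) (v : TS d) :
    dd v (opWs F L) = fun x => ∑ j, (v.2.2.1 j * F (j :: L) x + cw j x * dd v (F (j :: L)) x -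
        dd v (dd (eW j) (F (j :: L))) x) := by
  have h : dd v (opWs F L) = dd v (fun x => ∑ j,
    (cw j x * F (j :: L) x - dd (eW j) (F (j :: L)) x)) := rfl
  rw [h, dd_sum_fun]
  · funext x
    refine Finset.sum_congr rfl fun j _ => ?_
    have hG := (hF (j :: L)).1
    rw [dd_sub_fun ((Reg.cw j).1.mul hG) (dd_smooth hG _), dd_mul_fun (Reg.cw j).1 hG, dd_cw]
  · intro j _
    exact ((Reg.cw j).1.mul (hF (j :: L)).1).sub (dd_smooth (hF (j :: L)).1 _)

theorem st_dd_Zs {F : TF d} (hF : RTF F) (L : List (Fin d)) (v : TS d) :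
    dd v (opZs F L) = fun x => ∑ j, (v.2.2.2 j * F (j :: L) x + cz j x * dd v (F (j :: L)) x -
        dd v (dd (eZ j) (F (j :: L))) x) := by
  have h : dd v (opZs F L) = dd v (fun x => ∑ j,
    (cz j x * F (j :: L) x - dd (eZ j) (F (j :: L)) x)) := rfl
  rw [h, dd_sum_fun]
  · funext x
    refine Finset.sum_congr rfl fun j _ => ?_
    have hG := (hF (j :: L)).1
    rw [dd_sub_fun ((Reg.cz j).1.mul hG) (dd_smooth hG _), dd_mul_fun (Reg.cz j).1 hG, dd_cz]
  · intro j _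
    exact ((Reg.cz j).1.mul (hF (j :: L)).1).sub (dd_smooth (hF (j :: L)).1 _)

theorem st_ddW_f (hP : Fam B P) (v : E d × E d) (j : Fin d) :
    dd ((0, (0, v)) : TS d) (P.f j) = fun _ => 0 := by
  have h1 : P.f j = dd (eY j) P.H := rfl
  have h2 : dd ((0, (0, v)) : TS d) P.H = fun _ => 0 := by
    funext x
    have h3 : HasFDerivAt P.H ((fderiv ℝ P.u (x.1, x.2.1)).comp
        ((ContinuousLinearMap.fst ℝ ℝ (PS d)).prod
          ((ContinuousLinearMap.fst ℝ (E d) (E d × E d)).comp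
            (ContinuousLinearMap.snd ℝ ℝ (PS d))))) x := by
      have h4 : HasFDerivAt P.u (fderiv ℝ P.u (x.1, x.2.1)) (x.1, x.2.1) :=
        (hP.smooth.differentiable (by simp) _).hasFDerivAt
      have h5 : HasFDerivAt (fun x : TS d => ((x.1, x.2.1) : ℝ × E d))
        ((ContinuousLinearMap.fst ℝ ℝ (PS d)).prod
          ((ContinuousLinearMap.fst ℝ (E d) (E d × E d)).comp
            (ContinuousLinearMap.snd ℝ ℝ (PS d)))) x :=
        ((ContinuousLinearMap.fst ℝ ℝ (PS d)).prod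
          ((ContinuousLinearMap.fst ℝ (E d) (E d × E d)).comp
            (ContinuousLinearMap.snd ℝ ℝ (PS d)))).hasFDerivAt
      exact HasFDerivAt.comp x h4 h5
    unfold dd
    rw [h3.fderiv]
    simp only [ContinuousLinearMap.comp_apply, ContinuousLinearMap.prod_apply,
      ContinuousLinearMap.coe_fst', ContinuousLinearMap.coe_snd']
    exact map_zero _
  rw [h1, dd_comm (Reg.H hP).1, h2, dd_const]

theorem A_As (hP : Fam B P) {F : TF d} (hF : RTF F) (i : Fin d) (L : List (Fin d)) :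
    opA P (opAs P F) (i :: L) =
      opAs P (opSw (opA P F)) (i :: L) + opS P.q (opT P F) (i :: L) := by
  funext x
  have h1 : opA P (opAs P F) (i :: L) x = P.ρ x.1 * dd (eY i) (opAs P F L) x := rfl
  have h2 : opAs P (opSw (opA P F)) (i :: L) x = ∑ j, (P.ρ x.1 * P.f j x *
      (P.ρ x.1 * dd (eY i) (F (j :: L)) x) - P.ρ x.1 * dd (eY j)
        (fun x => P.ρ x.1 * dd (eY i) (F (j :: L)) x) x) := rfl
  have h3 : opS P.q (opT P F) (i :: L) x = P.q x.1 * ∑ j, P.T i j x * F (j :: L) x := rfl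
  have e0 : (eY i : TS d).1 = 0 := rfl
  rw [Pi.add_apply, h1, h2, h3, st_dd_As hP hF L e0, Finset.mul_sum, Finset.mul_sum,
    ← Finset.sum_add_distrib]
  refine Finset.sum_congr rfl fun j _ => ?_
  have hG := (hF (j :: L)).1
  rw [st_time (smooth_rho P) (dd_smooth hG _) (by rfl), dd_comm hG (eY i) (eY j),
    ← rho_sq hP.s_pos.le]
  have hT : dd (eY i) (P.f j) x = P.T i j x := rfl
  rw [hT]
  ring

theorem A_Ws {F : TF d} (hF : RTF F) (i : Fin d) (L : List (Fin d)) :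
    opA P (opWs F) (i :: L) = opWs (opSw (opA P F)) (i :: L) := by
  funext x
  have h1 : opA P (opWs F) (i :: L) x = P.ρ x.1 * dd (eY i) (opWs F L) x := rfl
  have h2 : opWs (opSw (opA P F)) (i :: L) x = ∑ j, (cw j x *
      (P.ρ x.1 * dd (eY i) (F (j :: L)) x) - dd (eW j)
        (fun x => P.ρ x.1 * dd (eY i) (F (j :: L)) x) x) := rfl
  rw [h1, h2, st_dd_Ws hF L, Finset.mul_sum]
  refine Finset.sum_congr rfl fun j _ => ?_
  have hG := (hF (j :: L)).1
  have e1 : (eY i : TS d).2.2.1 j = 0 := rfl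
  rw [st_time (smooth_rho P) (dd_smooth hG _) (by rfl), dd_comm hG (eY i) (eW j), e1]
  ring

theorem A_Zs {F : TF d} (hF : RTF F) (i : Fin d) (L : List (Fin d)) :
    opA P (opZs F) (i :: L) = opZs (opSw (opA P F)) (i :: L) := by
  funext x
  have h1 : opA P (opZs F) (i :: L) x = P.ρ x.1 * dd (eY i) (opZs F L) x := rfl
  have h2 : opZs (opSw (opA P F)) (i :: L) x = ∑ j, (cz j x *
      (P.ρ x.1 * dd (eY i) (F (j :: L)) x) - dd (eZ j)
        (fun x => P.ρ x.1 * dd (eY i) (F (j :: L)) x) x) := rfl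
  rw [h1, h2, st_dd_Zs hF L, Finset.mul_sum]
  refine Finset.sum_congr rfl fun j _ => ?_
  have hG := (hF (j :: L)).1
  have e1 : (eY i : TS d).2.2.2 j = 0 := rfl
  rw [st_time (smooth_rho P) (dd_smooth hG _) (by rfl), dd_comm hG (eY i) (eZ j), e1]
  ring

theorem W_As (hP : Fam B P) {F : TF d} (hF : RTF F) (i : Fin d) (L : List (Fin d)) :
    opW (opAs P F) (i :: L) = opAs P (opSw (opW F)) (i :: L) := by
  funext x
  have h1 : opW (opAs P F) (i :: L) x = dd (eW i) (opAs P F L) x := rfl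
  have h2 : opAs P (opSw (opW F)) (i :: L) x = ∑ j, (P.ρ x.1 * P.f j x *
      dd (eW i) (F (j :: L)) x - P.ρ x.1 * dd (eY j) (dd (eW i) (F (j :: L))) x) := rfl
  have e0 : (eW i : TS d).1 = 0 := rfl
  rw [h1, h2, st_dd_As hP hF L e0]
  refine Finset.sum_congr rfl fun j _ => ?_
  have hG := (hF (j :: L)).1
  have e2 : dd (eW i) (P.f j) x = 0 := by
    have := st_ddW_f hP (bas d i, 0) j
    exact congrFun this x
  rw [dd_comm hG (eW i) (eY j), e2]
  ring

theorem W_Ws {F : TF d} (hF : RTF F) (i : Fin d) (L : List (Fin d)) :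
    opW (opWs F) (i :: L) = opWs (opSw (opW F)) (i :: L) + F (i :: L) := by
  funext x
  have h1 : opW (opWs F) (i :: L) x = dd (eW i) (opWs F L) x := rfl
  have h2 : opWs (opSw (opW F)) (i :: L) x = ∑ j, (cw j x *
      dd (eW i) (F (j :: L)) x - dd (eW j) (dd (eW i) (F (j :: L))) x) := rfl
  have e1 : ∀ j, (eW i : TS d).2.2.1 j = if j = i then 1 else 0 := by
    intro j
    have : (eW i : TS d).2.2.1 j = bas d i j := rfl
    rw [this, bas, PiLp.single_apply]
  have h3 : F (i :: L) x = ∑ j, (if j = i then 1 else 0) * F (j :: L) x := by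
    simp
  rw [Pi.add_apply, h1, h2, st_dd_Ws hF L]
  nth_rewrite 1 [h3]
  rw [← Finset.sum_add_distrib]
  refine Finset.sum_congr rfl fun j _ => ?_
  have hG := (hF (j :: L)).1
  rw [dd_comm hG (eW i) (eW j), e1]
  ring

theorem W_Zs {F : TF d} (hF : RTF F) (i : Fin d) (L : List (Fin d)) :
    opW (opZs F) (i :: L) = opZs (opSw (opW F)) (i :: L) := by
  funext x
  have h1 : opW (opZs F) (i :: L) x = dd (eW i) (opZs F L) x := rfl
  have h2 : opZs (opSw (opW F)) (i :: L) x = ∑ j, (cz j x *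
      dd (eW i) (F (j :: L)) x - dd (eZ j) (dd (eW i) (F (j :: L))) x) := rfl
  rw [h1, h2, st_dd_Zs hF L]
  refine Finset.sum_congr rfl fun j _ => ?_
  have hG := (hF (j :: L)).1
  have e1 : (eW i : TS d).2.2.2 j = 0 := rfl
  rw [dd_comm hG (eW i) (eZ j), e1]
  ring

theorem Z_As (hP : Fam B P) {F : TF d} (hF : RTF F) (i : Fin d) (L : List (Fin d)) :
    opZ (opAs P F) (i :: L) = opAs P (opSw (opZ F)) (i :: L) := by
  funext x
  have h1 : opZ (opAs P F) (i :: L) x = dd (eZ i) (opAs P F L) x := rfl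
  have h2 : opAs P (opSw (opZ F)) (i :: L) x = ∑ j, (P.ρ x.1 * P.f j x *
      dd (eZ i) (F (j :: L)) x - P.ρ x.1 * dd (eY j) (dd (eZ i) (F (j :: L))) x) := rfl
  have e0 : (eZ i : TS d).1 = 0 := rfl
  rw [h1, h2, st_dd_As hP hF L e0]
  refine Finset.sum_congr rfl fun j _ => ?_
  have hG := (hF (j :: L)).1
  have e2 : dd (eZ i) (P.f j) x = 0 := by
    have := st_ddW_f hP (0, bas d i) j
    exact congrFun this x
  rw [dd_comm hG (eZ i) (eY j), e2]
  ring

theorem Z_Ws {F : TF d} (hF : RTF F) (i : Fin d) (L : List (Fin d)) :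
    opZ (opWs F) (i :: L) = opWs (opSw (opZ F)) (i :: L) := by
  funext x
  have h1 : opZ (opWs F) (i :: L) x = dd (eZ i) (opWs F L) x := rfl
  have h2 : opWs (opSw (opZ F)) (i :: L) x = ∑ j, (cw j x *
      dd (eZ i) (F (j :: L)) x - dd (eW j) (dd (eZ i) (F (j :: L))) x) := rfl
  rw [h1, h2, st_dd_Ws hF L]
  refine Finset.sum_congr rfl fun j _ => ?_
  have hG := (hF (j :: L)).1
  have e1 : (eZ i : TS d).2.2.1 j = 0 := rfl
  rw [dd_comm hG (eZ i) (eW j), e1]
  ring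

theorem Z_Zs {F : TF d} (hF : RTF F) (i : Fin d) (L : List (Fin d)) :
    opZ (opZs F) (i :: L) = opZs (opSw (opZ F)) (i :: L) + F (i :: L) := by
  funext x
  have h1 : opZ (opZs F) (i :: L) x = dd (eZ i) (opZs F L) x := rfl
  have h2 : opZs (opSw (opZ F)) (i :: L) x = ∑ j, (cz j x *
      dd (eZ i) (F (j :: L)) x - dd (eZ j) (dd (eZ i) (F (j :: L))) x) := rfl
  have e1 : ∀ j, (eZ i : TS d).2.2.2 j = if j = i then 1 else 0 := by
    intro j
    have : (eZ i : TS d).2.2.2 j = bas d i j := rfl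
    rw [this, bas, PiLp.single_apply]
  have h3 : F (i :: L) x = ∑ j, (if j = i then 1 else 0) * F (j :: L) x := by
    simp
  rw [Pi.add_apply, h1, h2, st_dd_Zs hF L]
  nth_rewrite 1 [h3]
  rw [← Finset.sum_add_distrib]
  refine Finset.sum_congr rfl fun j _ => ?_
  have hG := (hF (j :: L)).1
  rw [dd_comm hG (eZ i) (eZ j), e1]
  ring

/-! ### `L²` bounds -/

theorem st_nsq_succ (P : Prm d) (t : ℝ) (m : ℕ) (F : TF d) :
    nsq P t (m + 1) F =
      ∑ l : Fin m → Fin d, ∑ i : Fin d, ∫ y, (F (i :: List.ofFn l) (t, y)) ^ 2 ∂(P.mu t) := by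
  unfold nsq
  rw [← (Fin.consEquiv (fun _ : Fin (m + 1) => Fin d)).sum_comp, Fintype.sum_prod_type,
    Finset.sum_comm]
  refine Finset.sum_congr rfl fun l _ => Finset.sum_congr rfl fun i _ => ?_
  have h : List.ofFn ((Fin.consEquiv (fun _ : Fin (m + 1) => Fin d)) (i, l)) =
      i :: List.ofFn l := List.ofFn_cons i l
  rw [h]

theorem st_adjA (hP : Fam B P) {K : TF d} (hK : RTF K) {H : TS d → ℝ} (hH : Reg H)
    (L : List (Fin d)) (t : ℝ) :
    ∫ y, H (t, y) * opAs P K L (t, y) ∂(P.mu t) =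
      ∑ i, ∫ y, (P.ρ t * dd (eY i) H (t, y)) * K (i :: L) (t, y) ∂(P.mu t) := by
  have h1 : ∀ y, H (t, y) * opAs P K L (t, y) = ∑ i, P.ρ t * (H (t, y) *
      (P.f i (t, y) * K (i :: L) (t, y) - dd (eY i) (K (i :: L)) (t, y))) := by
    intro y
    have : opAs P K L (t, y) = ∑ i, (P.ρ t * P.f i (t, y) * K (i :: L) (t, y) -
      P.ρ t * dd (eY i) (K (i :: L)) (t, y)) := rfl
    rw [this, Finset.mul_sum]
    refine Finset.sum_congr rfl fun i _ => ?_
    ring
  simp_rw [h1]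
  rw [integral_finsetSum]
  · refine Finset.sum_congr rfl fun i _ => ?_
    rw [integral_const_mul, ← ibp_Y hP hH (hK (i :: L)) i t, ← integral_const_mul]
    refine integral_congr_ae (Filter.Eventually.of_forall fun y => ?_)
    simp only
    ring
  · intro i _
    refine Integrable.const_mul ?_ _
    have hr : Reg (fun x => H x * (P.f i x * K (i :: L) x - dd (eY i) (K (i :: L)) x)) :=
      hH.mul (((Reg.Df hP [] i).mul (hK (i :: L))).sub ((hK (i :: L)).dd rfl))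
    exact reg_int hP hr t

theorem st_adjW (hP : Fam B P) {K : TF d} (hK : RTF K) {H : TS d → ℝ} (hH : Reg H)
    (L : List (Fin d)) (t : ℝ) :
    ∫ y, H (t, y) * opWs K L (t, y) ∂(P.mu t) =
      ∑ i, ∫ y, dd (eW i) H (t, y) * K (i :: L) (t, y) ∂(P.mu t) := by
  have h1 : ∀ y, H (t, y) * opWs K L (t, y) = ∑ i, (H (t, y) *
      (cw i (t, y) * K (i :: L) (t, y) - dd (eW i) (K (i :: L)) (t, y))) := by
    intro y
    have : opWs K L (t, y) = ∑ i, (cw i (t, y) * K (i :: L) (t, y) -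
      dd (eW i) (K (i :: L)) (t, y)) := rfl
    rw [this, Finset.mul_sum]
  simp_rw [h1]
  rw [integral_finsetSum]
  · refine Finset.sum_congr rfl fun i _ => ?_
    rw [← ibp_W hP hH (hK (i :: L)) i t]
  · intro i _
    have hr : Reg (fun x => H x * (cw i x * K (i :: L) x - dd (eW i) (K (i :: L)) x)) :=
      hH.mul (((Reg.cw i).mul (hK (i :: L))).sub ((hK (i :: L)).dd rfl))
    exact reg_int hP hr t

theorem st_adjZ (hP : Fam B P) {K : TF d} (hK : RTF K) {H : TS d → ℝ} (hH : Reg H)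
    (L : List (Fin d)) (t : ℝ) :
    ∫ y, H (t, y) * opZs K L (t, y) ∂(P.mu t) =
      ∑ i, ∫ y, dd (eZ i) H (t, y) * K (i :: L) (t, y) ∂(P.mu t) := by
  have h1 : ∀ y, H (t, y) * opZs K L (t, y) = ∑ i, (H (t, y) *
      (cz i (t, y) * K (i :: L) (t, y) - dd (eZ i) (K (i :: L)) (t, y))) := by
    intro y
    have : opZs K L (t, y) = ∑ i, (cz i (t, y) * K (i :: L) (t, y) -
      dd (eZ i) (K (i :: L)) (t, y)) := rfl
    rw [this, Finset.mul_sum]
  simp_rw [h1]
  rw [integral_finsetSum]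
  · refine Finset.sum_congr rfl fun i _ => ?_
    rw [← ibp_Z hP hH (hK (i :: L)) i t]
  · intro i _
    have hr : Reg (fun x => H x * (cz i x * K (i :: L) x - dd (eZ i) (K (i :: L)) x)) :=
      hH.mul (((Reg.cz i).mul (hK (i :: L))).sub ((hK (i :: L)).dd rfl))
    exact reg_int hP hr t

/-- final estimate -/
theorem st_agg (hP : Fam B P) {t I c : ℝ} {a : Fin d → Fin d → TS d → ℝ} {f b : Fin d → TS d → ℝ}
    (ha : ∀ i j, Reg (a i j)) (hf : ∀ i, Reg (f i)) (hb : ∀ i, Reg (b i))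
    (h : I = ∑ i, (∑ j, ∫ y, a j i (t, y) * a i j (t, y) ∂(P.mu t) + ∫ y, b i (t, y) ∂(P.mu t)))
    (hbf : ∀ y, ∑ i, b i (t, y) ≤ c * ∑ i, f i (t, y) ^ 2) :
    I ≤ ∑ j, ∑ i, ∫ y, a i j (t, y) ^ 2 ∂(P.mu t) + c * ∑ i, ∫ y, f i (t, y) ^ 2 ∂(P.mu t) := by
  rw [h, Finset.sum_add_distrib]
  have ha2 : ∀ i j, Integrable (fun y => a i j (t, y) ^ 2) (P.mu t) := fun i j => by
    have := reg_int hP ((ha i j).mul (ha i j)) t
    simpa only [sq] using this
  have hf2 : ∀ i, Integrable (fun y => f i (t, y) ^ 2) (P.mu t) := fun i => by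
    have := reg_int hP ((hf i).mul (hf i)) t
    simpa only [sq] using this
  refine add_le_add ?_ ?_
  · have h1 : ∀ i j, ∫ y, a j i (t, y) * a i j (t, y) ∂(P.mu t) ≤
        1 / 2 * ∫ y, a j i (t, y) ^ 2 ∂(P.mu t) + 1 / 2 * ∫ y, a i j (t, y) ^ 2 ∂(P.mu t) := by
      intro i j
      rw [← integral_const_mul, ← integral_const_mul, ← integral_add ((ha2 j i).const_mul _)
        ((ha2 i j).const_mul _)]
      refine integral_mono (reg_int hP ((ha j i).mul (ha i j)) t)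
        (((ha2 j i).const_mul _).add ((ha2 i j).const_mul _)) fun y => ?_
      simp only
      nlinarith [sq_nonneg (a j i (t, y) - a i j (t, y))]
    have h2 : ∑ i, ∑ j, ∫ y, a j i (t, y) * a i j (t, y) ∂(P.mu t) ≤
        ∑ i, ∑ j, (1 / 2 * ∫ y, a j i (t, y) ^ 2 ∂(P.mu t) +
          1 / 2 * ∫ y, a i j (t, y) ^ 2 ∂(P.mu t)) :=
      Finset.sum_le_sum fun i _ => Finset.sum_le_sum fun j _ => h1 i j
    refine h2.trans (le_of_eq ?_)
    simp_rw [Finset.sum_add_distrib, ← Finset.mul_sum]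
    rw [Finset.sum_comm (f := fun i j => ∫ y, a i j (t, y) ^ 2 ∂(P.mu t))]
    ring
  · rw [← integral_finsetSum _ fun i _ => reg_int hP (hb i) t,
      ← integral_finsetSum _ fun i _ => hf2 i, ← integral_const_mul]
    refine integral_mono (integrable_finsetSum _ fun i _ => reg_int hP (hb i) t)
      ((integrable_finsetSum _ fun i _ => hf2 i).const_mul _) hbf

theorem st_ddY (G : TS d → ℝ) (hG : ContDiff ℝ ∞ G) (i : Fin d) (t : ℝ) (Y : E d) (p : E d × E d) :
    dd (eY i) G (t, (Y, p)) = fderiv ℝ (fun y => G (t, (y, p))) Y (bas d i) := by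
  have h1 : HasFDerivAt G (fderiv ℝ G (t, (Y, p))) (t, (Y, p)) :=
    (hG.differentiable (by simp) _).hasFDerivAt
  have h2 : HasFDerivAt (fun y : E d => ((t, (y, p)) : TS d))
      ((0 : E d →L[ℝ] ℝ).prod ((ContinuousLinearMap.id ℝ (E d)).prod
        (0 : E d →L[ℝ] E d × E d))) Y :=
    (hasFDerivAt_const t Y).prodMk ((hasFDerivAt_id Y).prodMk (hasFDerivAt_const p Y))
  have h3 := HasFDerivAt.comp Y h1 h2
  have h4 : fderiv ℝ (fun y => G (t, (y, p))) Y = (fderiv ℝ G (t, (Y, p))).comp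
      ((0 : E d →L[ℝ] ℝ).prod ((ContinuousLinearMap.id ℝ (E d)).prod
        (0 : E d →L[ℝ] E d × E d))) := h3.fderiv
  rw [h4]
  rfl

theorem st_T (hP : Fam B P) (i j : Fin d) (x : TS d) :
    P.T i j x = fderiv ℝ (fderiv ℝ (fun y => P.u (x.1, y))) x.2.1 (bas d i) (bas d j) := by
  obtain ⟨t, Y, p⟩ := x
  have hH := (Reg.H hP).1
  have h0 : P.T i j = dd (eY i) (dd (eY j) P.H) := rfl
  rw [h0, st_ddY _ (dd_smooth hH _)]
  have h1 : (fun y => dd (eY j) P.H (t, (y, p))) =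
      fun y => fderiv ℝ (fun y => P.u (t, y)) y (bas d j) := by
    funext y
    rw [st_ddY _ hH]
    rfl
  rw [h1]
  have hu : ContDiff ℝ ∞ (fun y => P.u (t, y)) := hP.smooth.comp (contDiff_prodMk_right t)
  have h2 : DifferentiableAt ℝ (fderiv ℝ (fun y => P.u (t, y))) Y :=
    ((hu.fderiv_right (m := ∞) (by simp)).differentiable (by simp)) Y
  have h3 := (h2.hasFDerivAt.clm_apply (hasFDerivAt_const (bas d j) Y)).fderiv
  rw [h3]
  simp

theorem st_q_le (hP : Fam B P) (t : ℝ) : P.q t ≤ 1 := by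
  unfold Prm.q
  have h1 := cc_pos t
  have h2 := cc_le_one t
  have h3 : cc t ^ 2 ≤ 1 := by nlinarith
  have h4 : 0 ≤ cc t ^ 2 := sq_nonneg _
  have h5 := hP.s_pos
  have h6 := hP.s_le
  nlinarith

theorem st_q_nonneg (hP : Fam B P) (t : ℝ) : 0 ≤ P.q t :=
  mul_nonneg hP.s_pos.le (sq_nonneg _)

theorem st_T_le (hP : Fam B P) (x : TS d) (a : Fin d → ℝ) :
    ∑ i, a i * (P.q x.1 * ∑ j, P.T i j x * a j) ≤ 2 * ∑ i, a i ^ 2 := by
  have h1 : ∑ i, a i * (P.q x.1 * ∑ j, P.T i j x * a j) =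
      P.q x.1 * fderiv ℝ (fderiv ℝ (fun y => P.u (x.1, y))) x.2.1 (∑ i, a i • bas d i)
        (∑ j, a j • bas d j) := by
    obtain ⟨D2, hD2⟩ : ∃ D2, D2 = fderiv ℝ (fderiv ℝ (fun y => P.u (x.1, y))) x.2.1 := ⟨_, rfl⟩
    have e1 : ∀ w, D2 (∑ i, a i • bas d i) w = ∑ i, a i * D2 (bas d i) w := by
      intro w
      simp [map_sum]
    rw [← hD2, e1, Finset.mul_sum]
    refine Finset.sum_congr rfl fun i _ => ?_
    have e2 : D2 (bas d i) (∑ j, a j • bas d j) = ∑ j, P.T i j x * a j := by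
      rw [map_sum]
      refine Finset.sum_congr rfl fun j _ => ?_
      rw [map_smul, st_T hP, ← hD2, smul_eq_mul, mul_comm]
    rw [e2]
    ring
  have h2 : ‖∑ i, a i • bas d i‖ ^ 2 = ∑ i, a i ^ 2 := by
    rw [EuclideanSpace.norm_sq_eq]
    refine Finset.sum_congr rfl fun i _ => ?_
    have : (∑ j, a j • bas d j) i = a i := by
      rw [WithLp.ofLp_sum, Finset.sum_apply]
      simp [bas]
    rw [this, Real.norm_eq_abs, sq_abs]
  rw [h1, ← h2]
  have h3 := hP.upper x.1 x.2.1 (∑ i, a i • bas d i)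
  have h4 := st_q_le hP x.1
  have h5 := st_q_nonneg hP x.1
  have h6 : 0 ≤ 2 * ‖∑ i, a i • bas d i‖ ^ 2 := by positivity
  calc _ ≤ P.q x.1 * (2 * ‖∑ i, a i • bas d i‖ ^ 2) := mul_le_mul_of_nonneg_left h3 h5
    _ ≤ 1 * (2 * ‖∑ i, a i • bas d i‖ ^ 2) := mul_le_mul_of_nonneg_right h4 h6
    _ = _ := one_mul _

theorem st_As_list (hP : Fam B P) {F : TF d} (hF : RTF F) (t : ℝ) (L : List (Fin d)) :
    ∫ y, (opAs P F L (t, y)) ^ 2 ∂(P.mu t) ≤
      ∑ j, ∑ i, ∫ y, (opA P F (i :: j :: L) (t, y)) ^ 2 ∂(P.mu t) +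
        2 * ∑ i, ∫ y, (F (i :: L) (t, y)) ^ 2 ∂(P.mu t) := by
  have hAs := rtf_As hP hF
  have hA := rtf_A (P := P) hF
  refine st_agg hP (a := fun i j => opA P F (i :: j :: L)) (f := fun i => F (i :: L))
    (b := fun i x => F (i :: L) x * (P.q x.1 * ∑ j, P.T i j x * F (j :: L) x))
    (fun i j => hA _) (fun i => hF _) ?_ ?_ ?_
  · intro i
    exact (hF _).mul ((Reg.time (smooth_q P)).mul (Reg.sum _ fun j _ =>
      (Reg.Df hP [i] j).mul (hF _)))
  · simp_rw [sq]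
    rw [st_adjA hP hF (hAs L) L t]
    refine Finset.sum_congr rfl fun i _ => ?_
    have h1 : ∀ y, (P.ρ t * dd (eY i) (opAs P F L) (t, y)) * F (i :: L) (t, y) =
        F (i :: L) (t, y) * opAs P (opSw (opA P F)) (i :: L) (t, y) +
          F (i :: L) (t, y) * (P.q t * ∑ j, P.T i j (t, y) * F (j :: L) (t, y)) := by
      intro y
      have h2 := congrFun (A_As hP hF i L) (t, y)
      have h3 : opA P (opAs P F) (i :: L) (t, y) = P.ρ t * dd (eY i) (opAs P F L) (t, y) := rfl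
      have h4 : opS P.q (opT P F) (i :: L) (t, y) =
        P.q t * ∑ j, P.T i j (t, y) * F (j :: L) (t, y) := rfl
      rw [Pi.add_apply, h3, h4] at h2
      rw [h2]; ring
    simp_rw [h1]
    have hSw := rtf_Sw hA
    rw [integral_add]
    · congr 1
      rw [st_adjA hP hSw (hF (i :: L)) (i :: L) t]
      rfl
    · exact reg_int hP ((hF (i :: L)).mul (rtf_As hP hSw (i :: L))) t
    · have hr : Reg (fun x => F (i :: L) x * (P.q x.1 * ∑ j, P.T i j x * F (j :: L) x)) :=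
        (hF _).mul ((Reg.time (smooth_q P)).mul (Reg.sum _ fun j _ =>
          (Reg.Df hP [i] j).mul (hF _)))
      exact reg_int hP hr t
  · intro y
    exact st_T_le hP (t, y) (fun i => F (i :: L) (t, y))

theorem st_Ws_list (hP : Fam B P) {F : TF d} (hF : RTF F) (t : ℝ) (L : List (Fin d)) :
    ∫ y, (opWs F L (t, y)) ^ 2 ∂(P.mu t) ≤
      ∑ j, ∑ i, ∫ y, (opW F (i :: j :: L) (t, y)) ^ 2 ∂(P.mu t) +
        1 * ∑ i, ∫ y, (F (i :: L) (t, y)) ^ 2 ∂(P.mu t) := by
  have hAs := rtf_Ws hF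
  have hA := rtf_W hF
  refine st_agg hP (a := fun i j => opW F (i :: j :: L)) (f := fun i => F (i :: L))
    (b := fun i x => F (i :: L) x * F (i :: L) x)
    (fun i j => hA _) (fun i => hF _) ?_ ?_ ?_
  · intro i
    exact (hF _).mul (hF _)
  · simp_rw [sq]
    rw [st_adjW hP hF (hAs L) L t]
    refine Finset.sum_congr rfl fun i _ => ?_
    have h1 : ∀ y, dd (eW i) (opWs F L) (t, y) * F (i :: L) (t, y) =
        F (i :: L) (t, y) * opWs (opSw (opW F)) (i :: L) (t, y) +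
          F (i :: L) (t, y) * F (i :: L) (t, y) := by
      intro y
      have h2 := congrFun (W_Ws hF i L) (t, y)
      have h3 : opW (opWs F) (i :: L) (t, y) = dd (eW i) (opWs F L) (t, y) := rfl
      rw [Pi.add_apply, h3] at h2
      rw [h2]; ring
    simp_rw [h1]
    have hSw := rtf_Sw hA
    rw [integral_add]
    · congr 1
      rw [st_adjW hP hSw (hF (i :: L)) (i :: L) t]
      rfl
    · exact reg_int hP ((hF (i :: L)).mul (rtf_Ws hSw (i :: L))) t
    · exact reg_int hP ((hF (i :: L)).mul (hF (i :: L))) t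
  · intro y
    rw [one_mul]
    refine le_of_eq (Finset.sum_congr rfl fun i _ => ?_)
    ring

theorem st_Zs_list (hP : Fam B P) {F : TF d} (hF : RTF F) (t : ℝ) (L : List (Fin d)) :
    ∫ y, (opZs F L (t, y)) ^ 2 ∂(P.mu t) ≤
      ∑ j, ∑ i, ∫ y, (opZ F (i :: j :: L) (t, y)) ^ 2 ∂(P.mu t) +
        1 * ∑ i, ∫ y, (F (i :: L) (t, y)) ^ 2 ∂(P.mu t) := by
  have hAs := rtf_Zs hF
  have hA := rtf_Z hF
  refine st_agg hP (a := fun i j => opZ F (i :: j :: L)) (f := fun i => F (i :: L))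
    (b := fun i x => F (i :: L) x * F (i :: L) x)
    (fun i j => hA _) (fun i => hF _) ?_ ?_ ?_
  · intro i
    exact (hF _).mul (hF _)
  · simp_rw [sq]
    rw [st_adjZ hP hF (hAs L) L t]
    refine Finset.sum_congr rfl fun i _ => ?_
    have h1 : ∀ y, dd (eZ i) (opZs F L) (t, y) * F (i :: L) (t, y) =
        F (i :: L) (t, y) * opZs (opSw (opZ F)) (i :: L) (t, y) +
          F (i :: L) (t, y) * F (i :: L) (t, y) := by
      intro y
      have h2 := congrFun (Z_Zs hF i L) (t, y)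
      have h3 : opZ (opZs F) (i :: L) (t, y) = dd (eZ i) (opZs F L) (t, y) := rfl
      rw [Pi.add_apply, h3] at h2
      rw [h2]; ring
    simp_rw [h1]
    have hSw := rtf_Sw hA
    rw [integral_add]
    · congr 1
      rw [st_adjZ hP hSw (hF (i :: L)) (i :: L) t]
      rfl
    · exact reg_int hP ((hF (i :: L)).mul (rtf_Zs hSw (i :: L))) t
    · exact reg_int hP ((hF (i :: L)).mul (hF (i :: L))) t
  · intro y
    rw [one_mul]
    refine le_of_eq (Finset.sum_congr rfl fun i _ => ?_)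
    ring

theorem st_nsq_succ2 (P : Prm d) (t : ℝ) (m : ℕ) (F : TF d) :
    nsq P t (m + 2) F = ∑ l : Fin m → Fin d, ∑ j : Fin d, ∑ i : Fin d,
      ∫ y, (F (i :: j :: List.ofFn l) (t, y)) ^ 2 ∂(P.mu t) := by
  rw [st_nsq_succ, ← (Fin.consEquiv (fun _ : Fin (m + 1) => Fin d)).sum_comp,
    Fintype.sum_prod_type, Finset.sum_comm]
  refine Finset.sum_congr rfl fun l _ => Finset.sum_congr rfl fun j _ =>
    Finset.sum_congr rfl fun i _ => ?_
  have h : List.ofFn ((Fin.consEquiv (fun _ : Fin (m + 1) => Fin d)) (j, l)) =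
      j :: List.ofFn l := List.ofFn_cons j l
  rw [h]

theorem nsq_As (hP : Fam B P) {F : TF d} (hF : RTF F) (t : ℝ) (m : ℕ) :
    nsq P t m (opAs P F) ≤ nsq P t (m + 2) (opA P F) + 2 * nsq P t (m + 1) F := by
  rw [st_nsq_succ2, st_nsq_succ, Finset.mul_sum, ← Finset.sum_add_distrib]
  exact Finset.sum_le_sum fun l _ => st_As_list hP hF t (List.ofFn l)

theorem nsq_Ws (hP : Fam B P) {F : TF d} (hF : RTF F) (t : ℝ) (m : ℕ) :
    nsq P t m (opWs F) ≤ nsq P t (m + 2) (opW F) + nsq P t (m + 1) F := by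
  rw [st_nsq_succ2, st_nsq_succ, ← Finset.sum_add_distrib]
  refine Finset.sum_le_sum fun l _ => ?_
  have := st_Ws_list hP hF t (List.ofFn l)
  rwa [one_mul] at this

theorem nsq_Zs (hP : Fam B P) {F : TF d} (hF : RTF F) (t : ℝ) (m : ℕ) :
    nsq P t m (opZs F) ≤ nsq P t (m + 2) (opZ F) + nsq P t (m + 1) F := by
  rw [st_nsq_succ2, st_nsq_succ, ← Finset.sum_add_distrib]
  refine Finset.sum_le_sum fun l _ => ?_
  have := st_Zs_list hP hF t (List.ofFn l)
  rwa [one_mul] at this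

end P347Z
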